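import Crest.Agent.R332.LIBF

set_option autoImplicit false

open MeasureTheory Matrix Filter Topology
open Crest.MathPhysics.LiebThirring
open scoped ComplexOrder

namespace Crest.Agent.R332

theorem tendsto_mat_mul {a b c : ℕ} {x : ℕ → Rc a b} {y : ℕ → Rc b c} {x0 : Rc a b} {y0 : Rc b c}
    (hx : Tendsto x atTop (𝓝 x0)) (hy : Tendsto y atTop (𝓝 y0)) :
    Tendsto (fun n => x n * y n) atTop (𝓝 (x0 * y0)) := by
  rw [tendsto_iff_fro]
  have h1 : Tendsto (fun n => fro (x n - x0) * fro (y n) + fro x0 * fro (y n - y0)) atTop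
      (𝓝 0) := by
    have h2 := tendsto_iff_fro.1 hx
    have h3 := tendsto_iff_fro.1 hy
    have h4 : Tendsto (fun n => fro (y n)) atTop (𝓝 (fro y0)) :=
      (continuous_fro'.tendsto _).comp hy
    have h5 := (h2.mul h4).add (h3.const_mul (fro x0))
    rw [zero_mul, mul_zero, add_zero] at h5
    exact h5
  refine squeeze_zero (fun n => fro_nonneg _) (fun n => ?_) h1
  have e : x n * y n - x0 * y0 = (x n - x0) * y n + x0 * (y n - y0) := by
    rw [Matrix.sub_mul, Matrix.mul_sub]; abel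
  rw [e]
  exact (fro_add_le _ _).trans (add_le_add (fro_mul_le _ _) (fro_mul_le _ _))

theorem tendsto_mat_conjT {a b : ℕ} {x : ℕ → Rc a b} {x0 : Rc a b}
    (hx : Tendsto x atTop (𝓝 x0)) : Tendsto (fun n => (x n)ᴴ) atTop (𝓝 (x0ᴴ)) := by
  rw [tendsto_iff_fro] at hx ⊢
  refine hx.congr fun n => ?_
  rw [← Matrix.conjTranspose_sub, fro_conjTranspose]

theorem tendsto_mat_sub {a b : ℕ} {x y : ℕ → Rc a b} {x0 y0 : Rc a b}
    (hx : Tendsto x atTop (𝓝 x0)) (hy : Tendsto y atTop (𝓝 y0)) :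
    Tendsto (fun n => x n - y n) atTop (𝓝 (x0 - y0)) := hx.sub hy

theorem tendsto_mat_smul {a b : ℕ} (c : ℂ) {x : ℕ → Rc a b} {x0 : Rc a b}
    (hx : Tendsto x atTop (𝓝 x0)) : Tendsto (fun n => c • x n) atTop (𝓝 (c • x0)) :=
  hx.const_smul c

end Crest.Agent.R332
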