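import Crest.Agent.R332.BLKc
import Crest.Agent.R332.LIBT

set_option autoImplicit false

open MeasureTheory Matrix Filter Topology
open Crest.MathPhysics.LiebThirring
open scoped ComplexOrder

namespace Crest.Agent.R332

namespace BLKd
open BLKa BLKb BLKc

variable {s : ℝ} {m : ℕ}

theorem HD.comp_neg {a b : ℕ} {A : ℝ → Rc a b} {A' : Rc a b} {x : ℝ}
    (h : HasDerivAt A A' (-x)) : HasDerivAt (fun y => A (-y)) (-A') x := by
  rw [hasDerivAt_iff_entry] at h ⊢
  intro i j
  have h1 : HasDerivAt (fun y => A (-y) i j) ((-1 : ℝ) • A' i j) x :=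
    (h i j).scomp x (hasDerivAt_neg x)
  rw [neg_one_smul] at h1
  exact h1

theorem tanh_id (a z : ℝ) :
    a * a - a * Real.tanh z * (a * Real.tanh z) = a ^ 2 / Real.cosh z ^ 2 := by
  have h3 : Real.cosh z ≠ 0 := (Real.cosh_pos _).ne'
  have h4 := Real.cosh_sq z
  rw [Real.tanh_eq_sinh_div_cosh]
  field_simp
  rw [h4]
  ring

theorem blk_Xi_eq {N J : ℕ} (hT : TRX) (hs1 : 1 < s⁻¹) (X : Rc m N) :
    blk J (Xi s X) = ((cY s : ℝ) : ℂ) •
        ((cblk J X)ᴴ * pw (X * Xᴴ) (s⁻¹ - 1) * cblk J X) := by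
  have h2 : pw (Xᴴ * X) s⁻¹ = Xᴴ * pw (X * Xᴴ) (s⁻¹ - 1) * X := by
    have h3 := mul_pw (Matrix.posSemidef_conjTranspose_mul_self X)
      (p := s⁻¹ - 1) (by linarith)
    rw [show 1 + (s⁻¹ - 1) = s⁻¹ by ring] at h3
    rw [← h3, Matrix.mul_assoc]
    unfold pw
    rw [(hT m N X).1, ← Matrix.mul_assoc]
  unfold Xi
  rw [blk_smul, h2, blk_eq, cblk_eq, Matrix.conjTranspose_mul]
  simp only [Matrix.mul_assoc]

theorem lim_quad {J : ℕ} {x : ℕ → Rc m J} {R : ℕ → Mt m} {xi : Rc m J} {R0 : Mt m} (c : ℂ)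
    (hx : Tendsto x atTop (𝓝 xi)) (hR : Tendsto R atTop (𝓝 R0)) :
    Tendsto (fun n => c • ((x n)ᴴ * R n * x n)) atTop (𝓝 (c • (xiᴴ * R0 * xi))) :=
  tendsto_mat_smul c (tendsto_mat_mul (tendsto_mat_mul (tendsto_mat_conjT hx) hR) hx)

theorem lim_sq {J : ℕ} {a b : ℕ → Mt J} {a0 b0 : Mt J}
    (hx : Tendsto a atTop (𝓝 a0)) (hR : Tendsto b atTop (𝓝 b0)) :
    Tendsto (fun n => a n * a n - b n * b n) atTop (𝓝 (a0 * a0 - b0 * b0)) :=
  tendsto_mat_sub (tendsto_mat_mul hx hx) (tendsto_mat_mul hR hR)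

theorem lim_pw (hC : CFCC) {R : ℕ → Mt m} {R0 : Mt m} {p : ℝ} (hp : 0 ≤ p)
    (hR : Tendsto R atTop (𝓝 R0)) (h : ∀ n, (R n).IsHermitian) (h0 : R0.IsHermitian) :
    Tendsto (fun n => pw (R n) p) atTop (𝓝 (pw R0 p)) := by
  have h5 := hC m (fun x : ℝ => x ^ p) (Real.continuous_rpow_const hp)
  have h7 := (h5 R0 h0).tendsto
  refine h7.comp ?_
  rw [tendsto_nhdsWithin_iff]
  exact ⟨hR, Eventually.of_forall h⟩

theorem fro2_le_tracePow {N : ℕ} (X : Rc m N) {q : ℝ} (hq : 1 ≤ q) :
    fro2 X ≤ m + tracePow (X * Xᴴ) q := by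
  have hpsd := Matrix.posSemidef_self_mul_conjTranspose X
  rw [fro2_eq', tracePow_eq_sum hpsd.1]
  have h1 : rtr (X * Xᴴ) = ∑ i, hpsd.1.eigenvalues i := by
    have := rtr_cfc hpsd.1 (fun x => x)
    rwa [cfc_id_mt hpsd.1] at this
  rw [h1]
  have h2 : (m : ℝ) = ∑ _i : Fin m, (1 : ℝ) := by simp
  rw [h2, ← Finset.sum_add_distrib]
  refine Finset.sum_le_sum fun i _ => ?_
  have h3 := hpsd.eigenvalues_nonneg i
  rcases le_total (hpsd.1.eigenvalues i) 1 with h | h
  · have := Real.rpow_nonneg h3 q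
    linarith
  · have : hpsd.1.eigenvalues i ^ (1 : ℝ) ≤ hpsd.1.eigenvalues i ^ q :=
      Real.rpow_le_rpow_of_exponent_le h hq
    rw [Real.rpow_one] at this
    linarith

theorem one_config {N J : ℕ} {κ : Fin N → ℝ} {X X' : ℝ → Rc m N} {Q : ℝ → Mt N} {l : ℝ}
    (h : Config s m N κ X X' Q l) (hs0 : 0 < s) (hs1 : s < 1) (hc : 0 < cY s) (hC : CFCC)
    {k0 η : ℝ} (L : ℝ)
    (hN : ∀ κ : Fin J → ℝ, (∀ i, k0 ≤ κ i) → ∀ (q V V1 : ℝ → Mt J) (L l : ℝ), L ≤ l →
      (∀ x, HasDerivAt q (V x - dg κ * dg κ + q x * q x) x) → Continuous V → Continuous V1 →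
      (∀ x, Btw κ (q x)) → q l = dg κ →
      ∫ x in L..l, fro (V1 x) ^ (1 + s) ≤ η → ∫ x in L..l, fro (V x - V1 x) ≤ η →
        fro (dg κ - q L) ≤ k0 / 2)
    (hL : 0 < L) (hk : ∀ i : Fin J, k0 ≤ kap κ i)
    (ht : ∫ x in {x : ℝ | L < |x|}, tracePow (Wm s (X x)) (1 + s) ≤ η)
    (hoff : ∫ x, fro2 (off J (Q x)) ≤ η) :
    fro (dg (fun i : Fin J => kap κ i) - blk J (Q L)) ≤ k0 / 2 ∧
      fro (dg (fun i : Fin J => kap κ i) + blk J (Q (-L))) ≤ k0 / 2 := by
  have hXc := cX h
  have hWc : Continuous (fun x => Wm s (X x)) := cont_Wm hC hs0 hXc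
  have hblkW : Continuous (fun x => blk J (Wm s (X x))) := by
    simp only [blk_eq]
    exact (continuous_const.matrix_mul hWc).matrix_mul continuous_const
  have hoffc := cont_off (J := J) h
  have hEc : Continuous (fun x => (off J (Q x))ᴴ * off J (Q x)) :=
    (hoffc.matrix_conjTranspose).matrix_mul hoffc
  -- integrability of tracePow Wm
  have htp : Continuous (fun x => tracePow (Wm s (X x)) (1 + s)) := by
    have h1 := hC N (fun x : ℝ => x ^ (1 + s)) (Real.continuous_rpow_const (by linarith))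
    have h2 : Continuous (fun x => pw (Wm s (X x)) (1 + s)) :=
      h1.comp_continuous hWc fun x => (Wm_psd hc hs0 _).1
    exact continuous_rtr.comp h2
  have htpi : Integrable (fun x => tracePow (Wm s (X x)) (1 + s)) := by
    refine integrable_of_zero htp (l := l) fun x hx => ?_
    have h1 : X x = 0 := (h.X0 x hx).1
    have h2 : Wm s (X x) = 0 := by
      unfold Wm
      rw [h1, Matrix.mul_zero, pw_zero_mt (inv_pos.2 hs0), smul_zero]
    rw [h2, tracePow_eq_rtr, pw_zero_mt (by linarith), rtr_zero]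
  have hpw : ∀ x, fro (blk J (Wm s (X x))) ^ (1 + s) ≤ tracePow (Wm s (X x)) (1 + s) := by
    intro x
    refine (Real.rpow_le_rpow (fro_nonneg _) (fro_blk_le _) (by linarith)).trans ?_
    exact fro_rpow_le (Wm_psd hc hs0 _) (by linarith) (by linarith)
  have hpwc : Continuous (fun x => fro (blk J (Wm s (X x))) ^ (1 + s)) :=
    (Real.continuous_rpow_const (by linarith)).comp (continuous_fro'.comp hblkW)
  have hM : MeasurableSet {x : ℝ | L < |x|} := measurableSet_lt measurable_const
    measurable_norm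
  have hle : L ≤ max L l := le_max_left _ _
  have hml : l ≤ max L l := le_max_right _ _
  have htp0 : ∀ x, 0 ≤ tracePow (Wm s (X x)) (1 + s) := fun x =>
    tracePow_nonneg (Wm_psd hc hs0 _) _
  constructor
  · refine hN (fun i : Fin J => kap κ i) hk (fun x => blk J (Q x))
      (fun x => blk J (Wm s (X x)) + (off J (Q x))ᴴ * off J (Q x))
      (fun x => blk J (Wm s (X x))) L (max L l) hle (fun x => block_ode h x)
      (hblkW.add hEc) hblkW (fun x => blk_btw (h.btw x)) ?_ ?_ ?_
    · show blk J (Q (max L l)) = _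
      rw [h.Qp _ hml, blk_dg]
    · refine le_trans ?_ ht
      rw [intervalIntegral.integral_of_le hle]
      calc ∫ x in Set.Ioc L (max L l), fro (blk J (Wm s (X x))) ^ (1 + s)
          ≤ ∫ x in Set.Ioc L (max L l), tracePow (Wm s (X x)) (1 + s) :=
            setIntegral_mono (hpwc.integrableOn_Icc.mono_set Set.Ioc_subset_Icc_self)
              htpi.integrableOn hpw
        _ ≤ _ := by
            refine setIntegral_mono_set htpi.integrableOn (Eventually.of_forall htp0) ?_
            refine HasSubset.Subset.eventuallyLE fun x hx => ?_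
            show L < |x|
            rw [abs_of_pos (lt_trans hL hx.1)]
            exact hx.1
    · refine le_trans ?_ hoff
      refine le_trans ?_ (integral_le_of_nonneg (int_off (J := J) h) (fun x => fro2_nonneg _) hle)
      refine intervalIntegral.integral_mono_on hle ?_ ?_ fun x _ => ?_
      · refine Continuous.intervalIntegrable ?_ _ _
        simp only [add_sub_cancel_left]
        exact continuous_fro'.comp hEc
      · exact (continuous_fro2'.comp hoffc).intervalIntegrable _ _
      · simp only [add_sub_cancel_left]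
        exact fro_offH_off_le _
  · have h3 := hN (fun i : Fin J => kap κ i) hk (fun x => - blk J (Q (-x)))
      (fun x => blk J (Wm s (X (-x))) + (off J (Q (-x)))ᴴ * off J (Q (-x)))
      (fun x => blk J (Wm s (X (-x)))) L (max L l) hle (fun x => ?_)
      ((hblkW.comp continuous_neg).add (hEc.comp continuous_neg)) (hblkW.comp continuous_neg)
      (fun x => (blk_btw (h.btw (-x))).neg) ?_ ?_ ?_
    · rwa [sub_neg_eq_add] at h3
    · have h4 := HD.comp_neg (block_ode (J := J) h (-x))
      have h5 := HD.neg h4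
      convert h5 using 1
      rw [neg_neg, neg_mul_neg]
    · show - blk J (Q (-(max L l))) = _
      rw [h.Qm _ (by linarith), blk_neg, blk_dg, neg_neg]
    · refine le_trans ?_ ht
      have e1 : ∫ x in L..(max L l), fro (blk J (Wm s (X (-x)))) ^ (1 + s) =
          ∫ x in (-(max L l))..(-L), fro (blk J (Wm s (X x))) ^ (1 + s) :=
        intervalIntegral.integral_comp_neg
          (fun x => fro (blk J (Wm s (X x))) ^ (1 + s))
      rw [e1, intervalIntegral.integral_of_le (by linarith)]
      calc ∫ x in Set.Ioc (-(max L l)) (-L), fro (blk J (Wm s (X x))) ^ (1 + s)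
          ≤ ∫ x in Set.Ioc (-(max L l)) (-L), tracePow (Wm s (X x)) (1 + s) :=
            setIntegral_mono (hpwc.integrableOn_Icc.mono_set Set.Ioc_subset_Icc_self)
              htpi.integrableOn hpw
        _ ≤ _ := by
            refine setIntegral_mono_set htpi.integrableOn (Eventually.of_forall htp0) ?_
            have h6 : Set.Ioo (-(max L l)) (-L) =ᵐ[volume] Set.Ioc (-(max L l)) (-L) :=
              Ioo_ae_eq_Ioc
            refine h6.symm.le.trans ?_
            refine HasSubset.Subset.eventuallyLE fun x hx => ?_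
            show L < |x|
            rw [abs_of_neg (by linarith [hx.2])]
            linarith [hx.2]
    · refine le_trans ?_ hoff
      have e1 : ∫ x in L..(max L l), fro (blk J (Wm s (X (-x))) +
          (off J (Q (-x)))ᴴ * off J (Q (-x)) - blk J (Wm s (X (-x)))) =
          ∫ x in (-(max L l))..(-L), fro (blk J (Wm s (X x)) +
          (off J (Q x))ᴴ * off J (Q x) - blk J (Wm s (X x))) :=
        intervalIntegral.integral_comp_neg
          (fun x => fro (blk J (Wm s (X x)) +
          (off J (Q x))ᴴ * off J (Q x) - blk J (Wm s (X x))))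
      rw [e1]
      have hle2 : -(max L l) ≤ -L := by linarith
      refine le_trans ?_ (integral_le_of_nonneg (int_off (J := J) h) (fun x => fro2_nonneg _) hle2)
      refine intervalIntegral.integral_mono_on hle2 ?_ ?_ fun x _ => ?_
      · refine Continuous.intervalIntegrable ?_ _ _
        simp only [add_sub_cancel_left]
        exact continuous_fro'.comp hEc
      · exact (continuous_fro2'.comp hoffc).intervalIntegrable _ _
      · simp only [add_sub_cancel_left]
        exact fro_offH_off_le _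

/-- kinetic estimate for one configuration -/
theorem kin_config {N J : ℕ} {κ : Fin N → ℝ} {X X' : ℝ → Rc m N} {Q : ℝ → Mt N} {l : ℝ}
    (h : Config s m N κ X X' Q l) (hs0 : 0 < s) (hC : CFCC) {B : ℝ} {L : ℝ} (hL : 0 < L)
    (hB : ∫ x, tracePow (X x * (X x)ᴴ) (s⁻¹ + 1) ≤ B) :
    ∫ y in (-L)..L, fro (cblk J (X' y) + cblk J (X y) * blk J (Q y)) ≤
      Real.sqrt (2 * L) * Real.sqrt (KS X X' Q) +
        Real.sqrt (2 * L * m + B) * Real.sqrt (∫ x, fro2 (off J (Q x))) := by
  have hXc := cX h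
  have hQc := cQ h
  have hX'c := h.cX'
  have hoffc := cont_off (J := J) h
  have hLL : -L ≤ L := by linarith
  have hKc : Continuous (fun y => X' y + X y * Q y) := hX'c.add (hXc.matrix_mul hQc)
  have hKi : Integrable (fun y => fro2 (X' y + X y * Q y)) := by
    refine integrable_of_zero (continuous_fro2'.comp hKc) (l := l) fun x hx => ?_
    rw [(h.X0 x hx).1, (h.X0 x hx).2, Matrix.zero_mul, add_zero, fro2_zero]
  have hRc : Continuous (fun y => pw (X y * (X y)ᴴ) (s⁻¹ + 1)) :=
    cont_pw_gram' hC hXc (by positivity)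
  have hRi : Integrable (fun y => tracePow (X y * (X y)ᴴ) (s⁻¹ + 1)) := by
    refine integrable_of_zero (continuous_rtr.comp hRc) (l := l) fun x hx => ?_
    show rtr (pw (X x * (X x)ᴴ) (s⁻¹ + 1)) = 0
    rw [(h.X0 x hx).1, Matrix.zero_mul, pw_zero_mt (by positivity), rtr_zero]
  have h1 : ∫ y in (-L)..L, fro (cblk J (X' y) + cblk J (X y) * blk J (Q y)) ≤
      ∫ y in (-L)..L, (1 * fro (X' y + X y * Q y) + fro (X y) * fro (off J (Q y))) := by
    refine intervalIntegral.integral_mono_on hLL ?_ ?_ fun y _ => ?_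
    · refine Continuous.intervalIntegrable (continuous_fro'.comp ?_) _ _
      simp only [cblk_eq, blk_eq]
      exact (hX'c.matrix_mul continuous_const).add ((hXc.matrix_mul continuous_const).matrix_mul
        ((continuous_const.matrix_mul hQc).matrix_mul continuous_const))
    · exact ((continuous_const.mul (continuous_fro'.comp hKc)).add
        ((continuous_fro'.comp hXc).mul (continuous_fro'.comp hoffc))).intervalIntegrable _ _
    · rw [cblk_kin, one_mul]
      exact (fro_sub_le _ _).trans (add_le_add (fro_cblk_le _) (fro_mul_le _ _))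
  have h1a : ∫ y in (-L)..L, (1 * fro (X' y + X y * Q y) + fro (X y) * fro (off J (Q y))) =
      (∫ y in (-L)..L, 1 * fro (X' y + X y * Q y)) +
        ∫ y in (-L)..L, fro (X y) * fro (off J (Q y)) :=
    intervalIntegral.integral_add
      ((continuous_const.mul (continuous_fro'.comp hKc)).intervalIntegrable _ _)
      (((continuous_fro'.comp hXc).mul (continuous_fro'.comp hoffc)).intervalIntegrable _ _)
  rw [h1a] at h1
  refine h1.trans (add_le_add ?_ ?_)
  · refine (integral_mul_le_sqrt hLL continuousOn_const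
      (continuous_fro'.comp hKc).continuousOn).trans ?_
    refine mul_le_mul ?_ ?_ (Real.sqrt_nonneg _) (Real.sqrt_nonneg _)
    · refine Real.sqrt_le_sqrt (le_of_eq ?_)
      simp
      ring
    · refine Real.sqrt_le_sqrt ?_
      have e : ∀ y, fro (X' y + X y * Q y) ^ 2 = fro2 (X' y + X y * Q y) := fun y => sq_fro _
      simp only [e, Function.comp_apply]
      exact integral_le_of_nonneg hKi (fun y => fro2_nonneg _) hLL
  · refine (integral_mul_le_sqrt hLL (continuous_fro'.comp hXc).continuousOn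
      (continuous_fro'.comp hoffc).continuousOn).trans ?_
    refine mul_le_mul ?_ ?_ (Real.sqrt_nonneg _) (Real.sqrt_nonneg _)
    · refine Real.sqrt_le_sqrt ?_
      simp only [Function.comp_apply, sq_fro]
      have h2 : ∫ y in (-L)..L, fro2 (X y) ≤
          ∫ y in (-L)..L, ((m : ℝ) + tracePow (X y * (X y)ᴴ) (s⁻¹ + 1)) := by
        refine intervalIntegral.integral_mono_on hLL
          ((continuous_fro2'.comp hXc).intervalIntegrable _ _)
          ((continuous_const.add (continuous_rtr.comp hRc)).intervalIntegrable _ _)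
          fun y _ => fro2_le_tracePow _ ?_
        have : 0 < s⁻¹ := inv_pos.2 hs0
        linarith
      refine h2.trans ?_
      have h2a : ∫ y in (-L)..L, ((m : ℝ) + tracePow (X y * (X y)ᴴ) (s⁻¹ + 1)) =
          (∫ _y in (-L)..L, (m : ℝ)) + ∫ y in (-L)..L, tracePow (X y * (X y)ᴴ) (s⁻¹ + 1) :=
        intervalIntegral.integral_add intervalIntegrable_const
          ((continuous_rtr.comp hRc).intervalIntegrable _ _)
      rw [h2a, intervalIntegral.integral_const, smul_eq_mul]
      have h3 : ∫ y in (-L)..L, tracePow (X y * (X y)ᴴ) (s⁻¹ + 1) ≤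
          ∫ y, tracePow (X y * (X y)ᴴ) (s⁻¹ + 1) :=
        integral_le_of_nonneg hRi (fun y => tracePow_nonneg
          (Matrix.posSemidef_self_mul_conjTranspose _) _) hLL
      nlinarith
    · refine Real.sqrt_le_sqrt ?_
      simp only [Function.comp_apply, sq_fro]
      exact integral_le_of_nonneg (int_off (J := J) h) (fun y => fro2_nonneg _) hLL

end BLKd

open BLKa BLKb BLKc BLKd in
theorem blk_ (hCMM : CMM) (hXIZ : XIZ) (hNON : NONST) (hQL : QLIM) (hXL : XLIM) (hT : TRX)
    (hCon : CONSTS) (hC : CFCC) : BLK := by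
  intro s hs0 hs1 m W hW S k K B hkanti hK hB hk0 hktend hle hBint hlim hae htight J hJ
  obtain ⟨hCc, hcY, hbet, hcs, -, -, -⟩ := hCon s hs0 hs1
  have hsi : 0 < s⁻¹ := inv_pos.2 hs0
  have hsi1 : 1 < s⁻¹ := (one_lt_inv₀ hs0).2 hs1
  obtain ⟨k0, g, hk0p, hg, hkk, hev⟩ := exists_gap hkanti hk0 (κ := S.κ)
    (fun n i => ((S.cfg n).kpos i).le) (fun n => (S.cfg n).kanti) hlim J hJ
  have hkpos : ∀ i : Fin J, 0 < k i := fun i => lt_trans (by positivity) (hkk i)
  have hoff : Tendsto (fun n => ∫ x, fro2 (off J (S.Q n x))) atTop (𝓝 0) :=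
    off_tendsto S hs0 hs1 hCMM hK hle hk0p hg (hev.mono fun n hn => ⟨hn.1, hn.2.1⟩)
  have hSm := Sm_tendsto S hs0 hs1 hCMM hK hle hk0p
  have hXc : ∀ n, Continuous (S.X n) := fun n => cX (S.cfg n)
  have hQc : ∀ n, Continuous (S.Q n) := fun n => cQ (S.cfg n)
  have hWc : ∀ n, Continuous (fun x => Wm s (S.X n x)) := fun n => cont_Wm hC hs0 (hXc n)
  have hXic : ∀ n, Continuous (fun x => Xi s (S.X n x)) := fun n => cont_Xi hC hs0 (hXc n)
  have hoffc : ∀ n, Continuous (fun x => off J (S.Q n x)) := fun n => cont_off (S.cfg n)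
  have hblkc : ∀ n, ∀ F : ℝ → Mt (S.N n), Continuous F → Continuous (fun x => blk J (F x)) := by
    intro n F hF
    simp only [blk_eq]
    exact (continuous_const.matrix_mul hF).matrix_mul continuous_const
  have hEc : ∀ n, Continuous (fun x => (off J (S.Q n x))ᴴ * off J (S.Q n x)) := fun n =>
    ((hoffc n).matrix_conjTranspose).matrix_mul (hoffc n)
  have hZc : ∀ n, Continuous (fun x => Xi s (S.X n x) - Zm (S.κ n) (S.Q n x)) := by
    intro n
    unfold Zm
    exact (hXic n).sub (continuous_const.sub ((hQc n).matrix_mul (hQc n)))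
  -- the error term
  have hxiz : ∀ L : ℝ, 0 < L → Tendsto (fun n => ∫ x in (-L)..L,
      fro (blk J (Xi s (S.X n x) - Zm (S.κ n) (S.Q n x)))) atTop (𝓝 0) := by
    intro L hL
    refine tendsto_zero_of_eventually_le (fun n =>
      intervalIntegral.integral_nonneg (by linarith) fun x _ => fro_nonneg _) fun ε hε => ?_
    obtain ⟨δ, hδ, h⟩ := hXIZ s hs0 hs1 m J K B L ε hK hB hL hε
    filter_upwards [S.ts.eventually (gt_mem_nhds hδ)] with n hn
    exact h (S.N n) (S.κ n) (S.X n) (S.X' n) (S.Q n) (S.l n) (S.cfg n) (hle n) hn.le (hBint n)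
  have herr : ∀ L : ℝ, 0 < L → Tendsto (fun n => ∫ x in (-L)..L,
      fro ((blk J (Wm s (S.X n x)) + (off J (S.Q n x))ᴴ * off J (S.Q n x)) -
      ((s⁻¹ + 1 : ℝ) : ℂ) • (dg (fun i : Fin J => kap (S.κ n) i) *
        dg (fun i : Fin J => kap (S.κ n) i) -
        blk J (S.Q n x) * blk J (S.Q n x)))) atTop (𝓝 0) := by
    intro L hL
    have h1 : Tendsto (fun n => (s⁻¹ + 1) * (∫ x in (-L)..L,
      fro (blk J (Xi s (S.X n x) - Zm (S.κ n) (S.Q n x)))) +
        s⁻¹ * ∫ x, fro2 (off J (S.Q n x))) atTop (𝓝 0) := by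
      have := ((hxiz L hL).const_mul (s⁻¹ + 1)).add (hoff.const_mul s⁻¹)
      rwa [mul_zero, mul_zero, add_zero] at this
    refine tendsto_of_tendsto_of_tendsto_of_le_of_le tendsto_const_nhds h1
      (fun n => intervalIntegral.integral_nonneg (by linarith) fun x _ => fro_nonneg _)
      fun n => ?_
    have hLL : -L ≤ L := by linarith
    have hc1 : Continuous (fun x => fro (blk J (Xi s (S.X n x) - Zm (S.κ n) (S.Q n x)))) :=
      continuous_fro'.comp (hblkc n _ (hZc n))
    have hc2 : Continuous (fun x => fro2 (off J (S.Q n x))) := continuous_fro2'.comp (hoffc n)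
    calc ∫ x in (-L)..L,
        fro ((blk J (Wm s (S.X n x)) + (off J (S.Q n x))ᴴ * off J (S.Q n x)) -
        ((s⁻¹ + 1 : ℝ) : ℂ) • (dg (fun i : Fin J => kap (S.κ n) i) *
          dg (fun i : Fin J => kap (S.κ n) i) -
          blk J (S.Q n x) * blk J (S.Q n x)))
        ≤ ∫ x in (-L)..L, ((s⁻¹ + 1) * fro (blk J (Xi s (S.X n x) - Zm (S.κ n) (S.Q n x))) +
          s⁻¹ * fro2 (off J (S.Q n x))) := by
          refine intervalIntegral.integral_mono_on hLL ?_ ?_ fun x _ => err_le (S.cfg n) hs0 x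
          · refine Continuous.intervalIntegrable (continuous_fro'.comp ?_) _ _
            have h2 : Continuous (fun x => blk J (S.Q n x) * blk J (S.Q n x)) :=
              (hblkc n _ (hQc n)).matrix_mul (hblkc n _ (hQc n))
            exact ((hblkc n _ (hWc n)).add (hEc n)).sub
              ((continuous_const.sub h2).const_smul ((s⁻¹ + 1 : ℝ) : ℂ))
          · exact ((hc1.const_mul _).add (hc2.const_mul _)).intervalIntegrable _ _
      _ = (s⁻¹ + 1) * (∫ x in (-L)..L,
          fro (blk J (Xi s (S.X n x) - Zm (S.κ n) (S.Q n x)))) +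
          s⁻¹ * ∫ x in (-L)..L, fro2 (off J (S.Q n x)) := by
          rw [← intervalIntegral.integral_const_mul, ← intervalIntegral.integral_const_mul]
          exact intervalIntegral.integral_add ((hc1.const_mul _).intervalIntegrable _ _)
            ((hc2.const_mul _).intervalIntegrable _ _)
      _ ≤ _ := by
          have h3 := integral_le_of_nonneg (int_off (J := J) (S.cfg n))
            (fun x => fro2_nonneg _) hLL
          nlinarith
  -- QLIM
  obtain ⟨η, hη, hN⟩ := hNON J (1 + s) (by linarith) k0 hk0p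
  obtain ⟨L1, hL1, htL⟩ := htight η hη
  obtain ⟨φ1, U, c, hφ1, hUk, hqlim⟩ := hQL s⁻¹ hsi J (fun i => k i) hkpos
    (fun n i => kap (S.κ n) i) (fun n x => blk J (S.Q n x))
    (fun n x => blk J (Wm s (S.X n x)) + (off J (S.Q n x))ᴴ * off J (S.Q n x))
    (fun i => hlim i) (fun n x => block_ode (S.cfg n) x)
    (fun n => (hblkc n _ (hWc n)).add (hEc n)) (fun n x => blk_btw ((S.cfg n).btw x)) herr
    (by
      refine tendsto_of_tendsto_of_tendsto_of_le_of_le' tendsto_const_nhds hSm
        (Eventually.of_forall fun n => intervalIntegral.integral_nonneg zero_le_one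
          fun x _ => fro2_nonneg _) ?_
      filter_upwards [hev] with n hn
      refine le_trans ?_ (integral_le_of_nonneg (int_Sm (S.cfg n) k0)
        (fun x => Sm_nonneg _ _ _) (zero_le_one (α := ℝ)))
      refine intervalIntegral.integral_mono_on zero_le_one ?_
        ((cont_Sm (S.cfg n) k0).intervalIntegrable _ _)
        fun x _ => fro2_comm_blk_le (S.Q n x) hn.1
      refine Continuous.intervalIntegrable (continuous_fro2'.comp ?_) _ _
      have h2 := hblkc n _ (hQc n)
      exact (continuous_const.matrix_mul h2).sub (h2.matrix_mul continuous_const))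
    ⟨L1, k0 / 2, hL1, by positivity, hkk, by
      filter_upwards [hev, hoff.eventually (gt_mem_nhds hη)] with n hn1 hn2
      exact one_config (S.cfg n) hs0 hs1 hcY hC L1 hN hL1 hn1.2.2 (htL n) hn2.le⟩
  -- XLIM
  obtain ⟨x0, hx0⟩ := hae.exists
  have hbd : ∃ B0 : ℝ, ∀ n, fro (cblk J (S.X (φ1 n) x0)) ≤ B0 := by
    have h1 : Tendsto (fun n => rtr (S.X n x0 * (S.X n x0)ᴴ)) atTop
        (𝓝 (rtr (RW s (W x0)))) := (continuous_rtr.tendsto _).comp hx0
    obtain ⟨b, hb⟩ := h1.bddAbove_range
    refine ⟨Real.sqrt b, fun n => (fro_cblk_le _).trans (Real.sqrt_le_sqrt ?_)⟩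
    rw [fro2_eq']
    exact hb ⟨φ1 n, rfl⟩
  obtain ⟨φ2, ξ, hφ2, hxlim⟩ := hXL s hs0 hs1 m J (fun i => k i) hkpos U c
    (fun n x => blk J (S.Q (φ1 n) x)) (fun n y => cblk J (S.X (φ1 n) y))
    (fun n y => cblk J (S.X' (φ1 n) y))
    (fun n y => by
      simp only [cblk_eq]
      exact HD.mul_right _ ((S.cfg (φ1 n)).dX y))
    (fun n => by
      simp only [cblk_eq]
      exact (S.cfg (φ1 n)).cX'.matrix_mul continuous_const)
    (fun n => hblkc _ _ (hQc _))
    ⟨K * Real.sqrt J, fun n y => by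
      have h1 : Btw (fun i : Fin J => kap (S.κ (φ1 n)) i) (blk J (S.Q (φ1 n) y)) :=
        blk_btw ((S.cfg (φ1 n)).btw y)
      exact (h1.opLe (k := K) fun i => kap_le hK.le (hle _) _).fro_le hK.le⟩
    hqlim
    (fun L hL => by
      have h1 : Tendsto (fun n => Real.sqrt (2 * L) * Real.sqrt (KS (S.X n) (S.X' n) (S.Q n)) +
        Real.sqrt (2 * L * m + B) * Real.sqrt (∫ x, fro2 (off J (S.Q n x)))) atTop (𝓝 0) := by
        have h2 := (Real.continuous_sqrt.tendsto 0).comp S.ks
        have h3 := (Real.continuous_sqrt.tendsto 0).comp hoff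
        rw [Real.sqrt_zero] at h2 h3
        have h4 := (h2.const_mul (Real.sqrt (2 * L))).add
          (h3.const_mul (Real.sqrt (2 * L * m + B)))
        rw [mul_zero, mul_zero, add_zero] at h4
        exact h4
      have h5 : Tendsto (fun n => ∫ y in (-L)..L, fro (cblk J (S.X' n y) +
          cblk J (S.X n y) * blk J (S.Q n y))) atTop (𝓝 0) :=
        tendsto_of_tendsto_of_tendsto_of_le_of_le tendsto_const_nhds h1
          (fun n => intervalIntegral.integral_nonneg (by linarith) fun x _ => fro_nonneg _)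
          (fun n => kin_config (S.cfg n) hs0 hC hL (hBint n))
      exact h5.comp hφ1.tendsto_atTop)
    ⟨x0, hbd⟩
  refine ⟨φ1 ∘ φ2, U, c, ξ, fun y => ξ * dg (fun i : Fin J =>
    Real.cosh (s⁻¹ * k i * (y - c i)) ^ (-s)) * (U : Mt J)ᴴ, hφ1.comp hφ2, fun y => rfl,
    hxlim, ?_⟩
  -- the a.e. identity
  set φ := φ1 ∘ φ2 with hφdef
  have hφt : Tendsto φ atTop atTop := (hφ1.comp hφ2).tendsto_atTop
  set xi : ℝ → Rc m J := fun y => ξ * dg (fun i : Fin J =>
    Real.cosh (s⁻¹ * k i * (y - c i)) ^ (-s)) * (U : Mt J)ᴴ with hxi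
  set qi : ℝ → Mt J := fun y => (U : Mt J) * dg (fun i : Fin J =>
    k i * Real.tanh (s⁻¹ * k i * (y - c i))) * (U : Mt J)ᴴ with hqi
  have hqlim2 : ∀ y, Tendsto (fun n => blk J (S.Q (φ n) y)) atTop (𝓝 (qi y)) := fun y =>
    (hqlim y).comp hφ2.tendsto_atTop
  have hklim : Tendsto (fun n => dg (fun i : Fin J => kap (S.κ (φ n)) i)) atTop
      (𝓝 (dg (fun i : Fin J => k i))) := by
    have h1 : Tendsto (fun n => (fun i : Fin J => kap (S.κ (φ n)) i)) atTop
        (𝓝 (fun i : Fin J => k i)) := by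
      rw [tendsto_pi_nhds]
      exact fun i => (hlim i).comp hφt
    have h2 : Continuous (fun κ : Fin J → ℝ => dg κ) := by
      unfold dg
      refine Continuous.matrix_diagonal ?_
      exact continuous_pi fun i => Complex.continuous_ofReal.comp (continuous_apply i)
    exact (h2.tendsto _).comp h1
  have hid : ∀ y, dg (fun i : Fin J => k i) * dg (fun i : Fin J => k i) - qi y * qi y =
      (U : Mt J) * dg (fun i : Fin J => k i ^ 2 / Real.cosh (s⁻¹ * k i * (y - c i)) ^ 2) *
        (U : Mt J)ᴴ := by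
    intro y
    have h1 : dg (fun i : Fin J => k i) * dg (fun i : Fin J => k i) =
        (U : Mt J) * dg (fun i : Fin J => k i * k i) * (U : Mt J)ᴴ := by
      have h2 : (U : Mt J) * (dg (fun i : Fin J => k i) * dg (fun i : Fin J => k i)) =
          (dg (fun i : Fin J => k i) * dg (fun i : Fin J => k i)) * (U : Mt J) := by
        rw [← Matrix.mul_assoc, hUk, Matrix.mul_assoc, hUk, ← Matrix.mul_assoc]
      rw [← dg_mul, h2, Matrix.mul_assoc, U_mul_star, Matrix.mul_one]
    rw [h1, hqi]
    simp only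
    rw [conj_mul, dg_mul, ← Matrix.sub_mul, ← Matrix.mul_sub, dg_sub]
    congr 3
    ext i
    exact tanh_id _ _
  -- pointwise limits
  have hlimF : ∀ᵐ y, Tendsto (fun n => blk J (Xi s (S.X (φ n) y)) -
      (dg (fun i : Fin J => kap (S.κ (φ n)) i) * dg (fun i : Fin J => kap (S.κ (φ n)) i) -
        blk J (S.Q (φ n) y) * blk J (S.Q (φ n) y))) atTop
      (𝓝 (((cY s : ℝ) : ℂ) • ((xi y)ᴴ * pw (RW s (W y)) (s⁻¹ - 1) * xi y) -
        (dg (fun i : Fin J => k i) * dg (fun i : Fin J => k i) - qi y * qi y))) := by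
    filter_upwards [hae] with y hy
    have h1 : Tendsto (fun n => blk J (Xi s (S.X (φ n) y))) atTop
        (𝓝 (((cY s : ℝ) : ℂ) • ((xi y)ᴴ * pw (RW s (W y)) (s⁻¹ - 1) * xi y))) := by
      simp only [blk_Xi_eq hT hsi1]
      exact lim_quad _ (hxlim y) (lim_pw hC (by linarith) (hy.comp hφt)
        (fun n => gram_herm' _) (cfc_isHermitian' _ _))
    exact h1.sub (lim_sq hklim (hqlim2 y))
  have hfin := ae_eq_zero_of (F := fun n y => blk J (Xi s (S.X (φ n) y)) -
      (dg (fun i : Fin J => kap (S.κ (φ n)) i) * dg (fun i : Fin J => kap (S.κ (φ n)) i) -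
        blk J (S.Q (φ n) y) * blk J (S.Q (φ n) y))) (fun n => ?_) hlimF ?_
  · filter_upwards [hfin] with y hy
    rw [hid y] at hy
    exact sub_eq_zero.1 hy
  · have h2 : Continuous (fun x => blk J (S.Q (φ n) x) * blk J (S.Q (φ n) x)) :=
      (hblkc _ _ (hQc _)).matrix_mul (hblkc _ _ (hQc _))
    exact (hblkc _ _ (hXic _)).sub (continuous_const.sub h2)
  · intro L hL
    have hLL : -L ≤ L := by linarith
    have h1 : Tendsto (fun n => (∫ x in (-L)..L,
        fro (blk J (Xi s (S.X n x) - Zm (S.κ n) (S.Q n x)))) +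
        ∫ x, fro2 (off J (S.Q n x))) atTop (𝓝 0) := by
      have := (hxiz L hL).add hoff
      rwa [add_zero] at this
    have h3 : Tendsto (fun n => ∫ x in (-L)..L, fro (blk J (Xi s (S.X n x)) -
      (dg (fun i : Fin J => kap (S.κ n) i) * dg (fun i : Fin J => kap (S.κ n) i) -
        blk J (S.Q n x) * blk J (S.Q n x)))) atTop (𝓝 0) := by
      refine tendsto_of_tendsto_of_tendsto_of_le_of_le tendsto_const_nhds h1
        (fun n => intervalIntegral.integral_nonneg hLL fun x _ => fro_nonneg _) fun n => ?_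
      have hc1 : Continuous (fun x => fro (blk J (Xi s (S.X n x) - Zm (S.κ n) (S.Q n x)))) :=
        continuous_fro'.comp (hblkc n _ (hZc n))
      have hc2 : Continuous (fun x => fro2 (off J (S.Q n x))) := continuous_fro2'.comp (hoffc n)
      have h5 : ∫ x in (-L)..L, fro (blk J (Xi s (S.X n x)) -
          (dg (fun i : Fin J => kap (S.κ n) i) * dg (fun i : Fin J => kap (S.κ n) i) -
          blk J (S.Q n x) * blk J (S.Q n x))) ≤
          ∫ x in (-L)..L, (fro (blk J (Xi s (S.X n x) - Zm (S.κ n) (S.Q n x))) +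
            fro2 (off J (S.Q n x))) := by
        refine intervalIntegral.integral_mono_on hLL ?_
          ((hc1.add hc2).intervalIntegrable _ _) fun x _ => ?_
        · refine Continuous.intervalIntegrable (continuous_fro'.comp ?_) _ _
          have h2 : Continuous (fun x => blk J (S.Q n x) * blk J (S.Q n x)) :=
            (hblkc n _ (hQc n)).matrix_mul (hblkc n _ (hQc n))
          exact (hblkc n _ (hXic n)).sub (continuous_const.sub h2)
        · have hz := blk_Zm (J := J) (S.κ n) ((S.cfg n).btw x).1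
          have e1 : blk J (Xi s (S.X n x)) -
              (dg (fun i : Fin J => kap (S.κ n) i) * dg (fun i : Fin J => kap (S.κ n) i) -
              blk J (S.Q n x) * blk J (S.Q n x)) =
              blk J (Xi s (S.X n x) - Zm (S.κ n) (S.Q n x)) -
                (off J (S.Q n x))ᴴ * off J (S.Q n x) := by
            rw [blk_sub, hz]
            abel
          rw [e1]
          exact (fro_sub_le _ _).trans (add_le_add le_rfl (fro_offH_off_le _))
      have h6 : ∫ x in (-L)..L, (fro (blk J (Xi s (S.X n x) - Zm (S.κ n) (S.Q n x))) +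
            fro2 (off J (S.Q n x))) =
          (∫ x in (-L)..L, fro (blk J (Xi s (S.X n x) - Zm (S.κ n) (S.Q n x)))) +
            ∫ x in (-L)..L, fro2 (off J (S.Q n x)) :=
        intervalIntegral.integral_add (hc1.intervalIntegrable _ _) (hc2.intervalIntegrable _ _)
      have h7 := integral_le_of_nonneg (int_off (J := J) (S.cfg n))
            (fun x => fro2_nonneg _) hLL
      linarith
    exact h3.comp hφt

end Crest.Agent.R332
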