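import Crest.Agent.R332.LIBK

/-! R332 task CFG: a configuration from orthonormal data and a weight function. -/

set_option autoImplicit false

open MeasureTheory Matrix Filter Topology
open Crest.MathPhysics.LiebThirring
open scoped ComplexOrder

namespace Crest.Agent.R332
namespace CFGa

variable {m N : ℕ}

theorem HDWcongr {f g : ℝ → Rc m N} {A' : Rc m N} {S : Set ℝ} {x : ℝ}
    (h : HasDerivWithinAt f A' S x) (hs : ∀ y ∈ S, g y = f y) (hx : g x = f x) :
    HasDerivWithinAt g A' S x := by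
  rw [hasDerivWithinAt_iff_entry] at h ⊢
  exact fun i j => (h i j).congr (fun y hy => by rw [hs y hy]) (by rw [hx])

theorem HDWnot {f : ℝ → Rc m N} {A' : Rc m N} {S : Set ℝ} {x : ℝ} (h : x ∉ closure S) :
    HasDerivWithinAt f A' S x := by
  rw [hasDerivWithinAt_iff_entry]
  intro i j
  exact (HasFDerivWithinAt.of_notMem_closure h : HasFDerivWithinAt (fun y => f y i j)
    (ContinuousLinearMap.toSpanSingleton ℝ (A' i j)) S x)

theorem HDunion {f : ℝ → Rc m N} {A' : Rc m N} {S T U : Set ℝ} {x : ℝ}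
    (hS : HasDerivWithinAt f A' S x) (hT : HasDerivWithinAt f A' T x)
    (hU : HasDerivWithinAt f A' U x) (h : Set.univ = S ∪ T ∪ U) :
    HasDerivAt f A' x := by
  rw [hasDerivWithinAt_iff_entry] at hS hT hU
  rw [hasDerivAt_iff_entry]
  intro i j
  rw [← hasDerivWithinAt_univ, h]
  exact ((hS i j).union (hT i j)).union (hU i j)

theorem Wm_zero {s : ℝ} (hs : 0 < s) : Wm s (0 : Rc m N) = 0 := by
  unfold Wm
  rw [Matrix.mul_zero, pw_zero_mt (inv_pos.2 hs), smul_zero]

theorem Wm_psd {s : ℝ} (hc : 0 ≤ cY s * (s⁻¹ + 1)) (X : Rc m N) : (Wm s X).PosSemidef := by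
  unfold Wm
  have h0 : (0 : ℂ) ≤ ((cY s * (s⁻¹ + 1) : ℝ) : ℂ) := by exact_mod_cast hc
  exact (pw_posSemidef (Matrix.posSemidef_conjTranspose_mul_self X) _).smul h0

theorem Wm_mul_U (s : ℝ) (X : Rc m N) (U : Matrix.unitaryGroup (Fin N) ℂ) :
    Wm s (X * (U : Mt N)) = (U : Mt N)ᴴ * Wm s X * (U : Mt N) := by
  unfold Wm pw
  have h : (X * (U : Mt N))ᴴ * (X * (U : Mt N)) = (U : Mt N)ᴴ * (Xᴴ * X) * (U : Mt N) := by
    rw [Matrix.conjTranspose_mul]
    simp only [Matrix.mul_assoc]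
  rw [h, cfc_conj' U (Matrix.isHermitian_conjTranspose_mul_self X), Matrix.mul_smul,
    Matrix.smul_mul]

/-- continuity of the potential -/
theorem Wm_cont (hC : CFCC) {s : ℝ} (hs : 0 < s) {α : Type*} [TopologicalSpace α]
    {X : α → Rc m N} {S : Set α} (hX : ContinuousOn X S) :
    ContinuousOn (fun a => Wm s (X a)) S := by
  have hf : Continuous (fun x : ℝ => x ^ s⁻¹) := Real.continuous_rpow_const (inv_pos.2 hs).le
  have h1 : ContinuousOn (fun a => (X a)ᴴ * X a) S := by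
    rw [continuousOn_iff_continuous_restrict] at hX ⊢
    exact (hX.matrix_conjTranspose).matrix_mul hX
  have h2 : ContinuousOn (fun a => pw ((X a)ᴴ * X a) s⁻¹) S :=
    (hC N _ hf).comp h1 fun a _ => Matrix.isHermitian_conjTranspose_mul_self (X a)
  have h3 : ContinuousOn (fun a => sc N (cY s * (s⁻¹ + 1)) * pw ((X a)ᴴ * X a) s⁻¹) S := by
    rw [continuousOn_iff_continuous_restrict] at h2 ⊢
    exact continuous_const.matrix_mul h2
  refine h3.congr fun a _ => ?_
  show Wm s (X a) = sc N (cY s * (s⁻¹ + 1)) * pw ((X a)ᴴ * X a) s⁻¹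
  rw [sc_mul]; rfl

/-- a bound for the potential -/
theorem Wm_le {s : ℝ} (hs : 0 < s) (hc : 0 ≤ cY s * (s⁻¹ + 1)) (X : Rc m N) {M : ℝ}
    (hM : fro2 X ≤ M) : (sc N (cY s * (s⁻¹ + 1) * M ^ s⁻¹) - Wm s X).PosSemidef := by
  have hA : (Xᴴ * X).PosSemidef := Matrix.posSemidef_conjTranspose_mul_self X
  have e : Wm s X = cfc (fun x : ℝ => cY s * (s⁻¹ + 1) * x ^ s⁻¹) (Xᴴ * X) := by
    unfold Wm pw
    rw [cfc_smul_mt hA.1]
  rw [e]
  refine (opLe_cfc hA.1 fun i => ?_).1
  have h0 := hA.eigenvalues_nonneg i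
  have h1 : hA.1.eigenvalues i ≤ M := by
    refine le_trans ?_ hM
    have h2 : fro2 X = ∑ j, hA.1.eigenvalues j := by
      rw [fro2_eq]
      have := rtr_cfc hA.1 (fun x => x)
      rwa [cfc_id_mt hA.1] at this
    rw [h2]
    exact Finset.single_le_sum (f := fun j => hA.1.eigenvalues j)
      (fun j _ => hA.eigenvalues_nonneg j) (Finset.mem_univ i)
  rw [abs_of_nonneg (mul_nonneg hc (Real.rpow_nonneg h0 _))]
  exact mul_le_mul_of_nonneg_left (Real.rpow_le_rpow h0 h1 (inv_pos.2 hs).le) hc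

/-- kernel of a power -/
theorem mulVec_eq_zero_of_pw {A : Mt N} (hA : A.PosSemidef) (p : ℝ) {v : Fin N → ℂ}
    (h : pw A p *ᵥ v = 0) : A *ᵥ v = 0 := by
  obtain ⟨U, κ, _, hκ, hU⟩ := exists_diag_psd hA
  have h1 : pw A p = (U : Mt N) * dg (fun i => κ i ^ p) * (U : Mt N)ᴴ :=
    cfc_eq_of_diag U κ hU _
  set w : Fin N → ℂ := (U : Mt N)ᴴ *ᵥ v with hw
  have h2 : dg (fun i => κ i ^ p) *ᵥ w = 0 := by
    have h3 := congrArg (fun z => (U : Mt N)ᴴ *ᵥ z) h
    simp only [Matrix.mulVec_zero] at h3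
    rw [h1, Matrix.mulVec_mulVec, ← Matrix.mul_assoc, ← Matrix.mul_assoc, U_star_mul,
      Matrix.one_mul, ← Matrix.mulVec_mulVec] at h3
    exact h3
  have h4 : dg κ *ᵥ w = 0 := by
    ext i
    have h5 := congrFun h2 i
    unfold dg at h5 ⊢
    rw [Matrix.mulVec_diagonal] at h5 ⊢
    simp only [Pi.zero_apply, mul_eq_zero] at h5 ⊢
    rcases h5 with h5 | h5
    · left
      have h6 : κ i ^ p = 0 := by exact_mod_cast h5
      by_contra hne
      have hpos : 0 < κ i := lt_of_le_of_ne (hκ i) fun h => hne (by simp [← h])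
      exact (Real.rpow_pos_of_pos hpos p).ne' h6
    · right; exact h5
  rw [hU, ← Matrix.mulVec_mulVec, ← hw, ← Matrix.mulVec_mulVec, h4, Matrix.mulVec_zero]

theorem mulVec_eq_zero_of_Wm {s : ℝ} (hc : cY s * (s⁻¹ + 1) ≠ 0) {X : Rc m N}
    {v : Fin N → ℂ} (h : Wm s X *ᵥ v = 0) : X *ᵥ v = 0 := by
  unfold Wm at h
  rw [Matrix.smul_mulVec, smul_eq_zero] at h
  have h1 : pw (Xᴴ * X) s⁻¹ *ᵥ v = 0 := by
    rcases h with h | h
    · exfalso; exact hc (by exact_mod_cast h)
    · exact h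
  have h2 := mulVec_eq_zero_of_pw (Matrix.posSemidef_conjTranspose_mul_self X) _ h1
  have h3 : star (X *ᵥ v) ⬝ᵥ (X *ᵥ v) = 0 := by
    rw [Matrix.star_mulVec, ← Matrix.dotProduct_mulVec, Matrix.mulVec_mulVec, h2,
      dotProduct_zero]
  exact dotProduct_star_self_eq_zero.1 h3

/-- an orthonormal family has no common kernel -/
theorem ker_orth {Φ : ℝ → Rc m N} {l : ℝ} (hΦ : Continuous Φ) (h0 : ∀ x, l ≤ |x| → Φ x = 0)
    (horth : ∀ i j, ∫ x, ((Φ x)ᴴ * Φ x) i j = if i = j then 1 else 0) {v : Fin N → ℂ}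
    (h : ∀ x, Φ x *ᵥ v = 0) : v = 0 := by
  have hint : ∀ i j, Integrable (fun x => ((Φ x)ᴴ * Φ x) i j) := by
    intro i j
    refine Continuous.integrable_of_hasCompactSupport ?_ ?_
    · exact ((hΦ.matrix_conjTranspose).matrix_mul hΦ).matrix_elem i j
    · refine HasCompactSupport.of_support_subset_isCompact (isCompact_Icc (a := -l) (b := l)) ?_
      intro x hx
      by_contra hcon
      apply hx
      have : l ≤ |x| := by
        by_contra hlt
        push Not at hlt
        exact hcon ⟨(abs_lt.1 hlt).1.le, (abs_lt.1 hlt).2.le⟩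
      simp [h0 x this]
  ext i
  have h1 : ∫ x, ∑ j, ((Φ x)ᴴ * Φ x) i j * v j = 0 := by
    have : ∀ x, ∑ j, ((Φ x)ᴴ * Φ x) i j * v j = 0 := by
      intro x
      have h2 : (((Φ x)ᴴ * Φ x) *ᵥ v) i = 0 := by
        rw [← Matrix.mulVec_mulVec, h x, Matrix.mulVec_zero]; rfl
      exact h2
    simp only [this, integral_zero]
  rw [integral_finsetSum _ fun j _ => (hint i j).mul_const _] at h1
  simp only [integral_mul_const, horth] at h1
  simpa using h1

end CFGa

open CFGa in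
theorem cfg : EX → CONSTS → CFCC → CFG := by
  intro hEX hCO hCF s hs0 hs1 m N Φ Φ' l hl hΦ hΦ' h0 horth ω B hω hωp
  obtain ⟨_, hcY, -⟩ := hCO s hs0 hs1
  have hc : 0 < cY s * (s⁻¹ + 1) := by positivity
  have hΦc : Continuous Φ := cont_of_deriv hΦ
  have hab : -l < l := by linarith
  -- the potential
  set V : Mt N → ℝ → Mt N := fun K x => Wm s (Φ x * ω K) with hV
  obtain ⟨M, hM⟩ : ∃ M : ℝ, ∀ x ∈ Set.Icc (-l) l, fro2 (Φ x) ≤ M := by
    obtain ⟨M, hM⟩ := (isCompact_Icc (a := -l) (b := l)).bddAbove_image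
      ((continuous_fro2'.comp hΦc).continuousOn)
    exact ⟨M, fun x hx => hM ⟨x, hx, rfl⟩⟩
  have hcont : ContinuousOn (fun z : Mt N × ℝ => V z.1 z.2)
      ({K | K.PosSemidef} ×ˢ Set.Icc (-l) l) := by
    have h1 : ContinuousOn (fun z : Mt N × ℝ => Φ z.2 * ω z.1)
        ({K | K.PosSemidef} ×ˢ Set.Icc (-l) l) := by
      have h2 : ContinuousOn (fun z : Mt N × ℝ => ω z.1) ({K | K.PosSemidef} ×ˢ Set.Icc (-l) l) :=
        hω.comp continuousOn_fst fun z hz => hz.1
      have h3 : ContinuousOn (fun z : Mt N × ℝ => Φ z.2) ({K | K.PosSemidef} ×ˢ Set.Icc (-l) l) :=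
        (hΦc.comp continuous_snd).continuousOn
      rw [continuousOn_iff_continuous_restrict] at h2 h3 ⊢
      exact h3.matrix_mul h2
    exact Wm_cont hCF hs0 h1
  have hbd : ∀ K : Mt N, K.PosSemidef → ∀ x ∈ Set.Icc (-l) l, (V K x).PosSemidef ∧
      (sc N (cY s * (s⁻¹ + 1) * (max B 0 * M) ^ s⁻¹) - V K x).PosSemidef := by
    intro K hK x hx
    refine ⟨Wm_psd hc.le _, Wm_le hs0 hc.le _ ?_⟩
    obtain ⟨h1, h2⟩ := hωp K hK
    have h3 : (sc N (max B 0) - ω K * (ω K)ᴴ).PosSemidef := by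
      rw [h1.1]
      have h4 := (sc_posSemidef (N := N) (c := max B 0 - B) (by linarith [le_max_left B 0])).add h2
      rw [sc_sub] at h4
      rwa [show sc N (max B 0) - sc N B + (sc N B - ω K * ω K) = sc N (max B 0) - ω K * ω K by
        abel] at h4
    refine (fro2_mul_le_of_le' h3 (Φ x)).trans ?_
    exact mul_le_mul_of_nonneg_left (hM x hx) (le_max_right _ _)
  have hnv : ∀ K : Mt N, K.PosSemidef → ∀ v : Fin N → ℂ, v ≠ 0 →
      ∃ x ∈ Set.Icc (-l) l, V K x *ᵥ v ≠ 0 := by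
    intro K hK v hv
    by_contra hcon
    push Not at hcon
    have h1 : ∀ x, Φ x *ᵥ (ω K *ᵥ v) = 0 := by
      intro x
      rcases le_or_gt l |x| with hx | hx
      · rw [(h0 x hx).1, Matrix.zero_mulVec]
      · have h2 := hcon x ⟨(abs_lt.1 hx).1.le, (abs_lt.1 hx).2.le⟩
        have h3 := mulVec_eq_zero_of_Wm hc.ne' h2
        rwa [← Matrix.mulVec_mulVec] at h3
    have h2 := ker_orth hΦc (fun x hx => (h0 x hx).1) horth h1
    have h3 := (hωp K hK).1
    apply hv
    by_contra hne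
    have h4 := h3.dotProduct_mulVec_pos hne
    rw [h2, dotProduct_zero] at h4
    exact lt_irrefl _ h4
  obtain ⟨K, hK, Q, hQd, hQa, hQb, hQ⟩ := hEX N (-l) l hab V _ hcont hbd hnv
  obtain ⟨U, κ, hanti, hκ, hKU⟩ := exists_diag_posDef hK
  have hUK : (U : Mt N)ᴴ * K * (U : Mt N) = dg κ := by rw [hKU, conj_conj']
  -- the extended solution
  set c : ℝ → ℝ := fun x => max (-l) (min l x) with hcdef
  have hcI : ∀ x, c x ∈ Set.Icc (-l) l := fun x =>
    ⟨le_max_left _ _, max_le hab.le (min_le_left _ _)⟩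
  have hc1 : ∀ x, x ≤ -l → c x = -l := by
    intro x hx
    show max (-l) (min l x) = -l
    rw [min_eq_right (by linarith), max_eq_left hx]
  have hc2 : ∀ x, l ≤ x → c x = l := by
    intro x hx
    show max (-l) (min l x) = l
    rw [min_eq_left hx, max_eq_right hab.le]
  have hc3 : ∀ x ∈ Set.Icc (-l) l, c x = x := by
    intro x hx
    show max (-l) (min l x) = x
    rw [min_eq_right hx.2, max_eq_right hx.1]
  set R : ℝ → Mt N := fun x => (U : Mt N)ᴴ * Q (c x) * (U : Mt N) with hR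
  have hRm : ∀ x, x ≤ -l → R x = - dg κ := by
    intro x hx
    show (U : Mt N)ᴴ * Q (c x) * (U : Mt N) = _
    rw [hc1 x hx, hQa, Matrix.mul_neg, Matrix.neg_mul, hUK]
  have hRp : ∀ x, l ≤ x → R x = dg κ := by
    intro x hx
    show (U : Mt N)ᴴ * Q (c x) * (U : Mt N) = _
    rw [hc2 x hx, hQb, hUK]
  have hRI : ∀ x ∈ Set.Icc (-l) l, R x = (U : Mt N)ᴴ * Q x * (U : Mt N) := by
    intro x hx
    show (U : Mt N)ᴴ * Q (c x) * (U : Mt N) = _
    rw [hc3 x hx]
  have hX0 : ∀ x, l ≤ |x| → Φ x * ω K * (U : Mt N) = 0 ∧ Φ' x * ω K * (U : Mt N) = 0 := by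
    intro x hx
    obtain ⟨h1, h2⟩ := h0 x hx
    rw [h1, h2]
    simp
  have hD : ∀ x, HasDerivAt R (Wm s (Φ x * ω K * (U : Mt N)) - dg κ * dg κ + R x * R x) x := by
    intro x
    set D := Wm s (Φ x * ω K * (U : Mt N)) - dg κ * dg κ + R x * R x with hDdef
    have hu : (Set.univ : Set ℝ) = Set.Iic (-l) ∪ Set.Icc (-l) l ∪ Set.Ici l := by
      ext y
      simp only [Set.mem_univ, Set.mem_union, Set.mem_Iic, Set.mem_Icc, Set.mem_Ici, true_iff]
      rcases le_total y (-l) with h | h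
      · left; left; exact h
      · rcases le_total y l with h' | h'
        · left; right; exact ⟨h, h'⟩
        · right; exact h'
    have k1 : HasDerivWithinAt R D (Set.Iic (-l)) x := by
      rcases le_or_gt x (-l) with hx | hx
      · have hD0 : D = 0 := by
          rw [hDdef, (hX0 x (by rw [abs_of_nonpos (by linarith)]; linarith)).1, Wm_zero hs0,
            hRm x hx]
          noncomm_ring
        rw [hD0]
        exact HDWcongr (HDW.const (- dg κ) (Set.Iic (-l)) x) (fun y hy => hRm y hy) (hRm x hx)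
      · exact HDWnot (by
          rw [closure_Iic]; exact fun h => absurd h (not_le.2 hx))
    have k2 : HasDerivWithinAt R D (Set.Ici l) x := by
      rcases le_or_gt l x with hx | hx
      · have hD0 : D = 0 := by
          rw [hDdef, (hX0 x (by rw [abs_of_nonneg (by linarith)]; exact hx)).1, Wm_zero hs0,
            hRp x hx]
          noncomm_ring
        rw [hD0]
        exact HDWcongr (HDW.const (dg κ) (Set.Ici l) x) (fun y hy => hRp y hy) (hRp x hx)
      · exact HDWnot (by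
          rw [closure_Ici]; exact fun h => absurd h (not_le.2 hx))
    have k3 : HasDerivWithinAt R D (Set.Icc (-l) l) x := by
      by_cases hx : x ∈ Set.Icc (-l) l
      · have hDe : D = (U : Mt N)ᴴ * (V K x - K * K + Q x * Q x) * (U : Mt N) := by
          rw [hDdef, Wm_mul_U, hRI x hx, conj_mul', ← hUK, conj_mul', Matrix.mul_add,
            Matrix.add_mul, Matrix.mul_sub, Matrix.sub_mul]
        rw [hDe]
        exact HDWcongr (HDW.mul_right _ (HDW.mul_left _ (hQd x hx))) (fun y hy => hRI y hy)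
          (hRI x hx)
      · exact HDWnot (by rw [closure_Icc]; exact hx)
    exact HDunion k1 k3 k2 hu
  refine ⟨K, U, κ, R, hK, hKU, ?_⟩
  refine ⟨hκ, hanti, hl, fun x => HD.mul_right _ (HD.mul_right _ (hΦ x)), ?_, hX0, hD, ?_, hRm,
    hRp⟩
  · exact (hΦ'.matrix_mul continuous_const).matrix_mul continuous_const
  · intro x
    obtain ⟨h1, h2, h3⟩ := hQ (c x) (hcI x)
    refine ⟨?_, ?_, ?_⟩
    · have h4 := conj_isHermitian h1 (U : Mt N)ᴴ
      rw [Matrix.conjTranspose_conjTranspose] at h4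
      exact h4
    · have h4 := h2.conjTranspose_mul_mul_same (U : Mt N)
      rw [Matrix.mul_add, Matrix.add_mul, hUK] at h4
      exact h4
    · have h4 := h3.conjTranspose_mul_mul_same (U : Mt N)
      rw [Matrix.mul_sub, Matrix.sub_mul, hUK] at h4
      exact h4

end Crest.Agent.R332
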