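import Crest.Agent.R332.LIBF

/-! Loewner order toolkit: `OpLe`, `Btw`, `Kt`. -/

set_option autoImplicit false

open MeasureTheory Matrix Filter Topology
open Crest.MathPhysics.LiebThirring
open scoped ComplexOrder

namespace Crest.Agent.R332

variable {m N K : ℕ}

/-! ### eigenvalue criteria -/

theorem sc_conj (U : Matrix.unitaryGroup (Fin N) ℂ) (c : ℝ) :
    (U : Mt N) * sc N c * (U : Mt N)ᴴ = sc N c := by
  rw [mul_sc, Matrix.smul_mul, U_mul_star]; rfl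

theorem psd_conj_iff (U : Matrix.unitaryGroup (Fin N) ℂ) {A : Mt N} :
    ((U : Mt N) * A * (U : Mt N)ᴴ).PosSemidef ↔ A.PosSemidef := by
  constructor
  · intro h
    have h2 := h.conjTranspose_mul_mul_same (U : Mt N)
    rwa [conj_conj'] at h2
  · exact fun h => conj_posSemidef h _

theorem dg_psd_iff {κ : Fin N → ℝ} : (dg κ).PosSemidef ↔ ∀ i, 0 ≤ κ i := by
  constructor
  · intro h i
    have := h.diag_nonneg (i := i)
    unfold dg at this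
    rw [Matrix.diagonal_apply_eq] at this
    exact_mod_cast this
  · exact dg_posSemidef

theorem sc_sub_psd_iff {A : Mt N} (hA : A.IsHermitian) {c : ℝ} :
    (sc N c - A).PosSemidef ↔ ∀ i, hA.eigenvalues i ≤ c := by
  obtain ⟨U, hU⟩ := exists_diag hA
  have h : sc N c - A = (U : Mt N) * dg (fun i => c - hA.eigenvalues i) * (U : Mt N)ᴴ := by
    rw [← dg_sub, ← sc_eq_dg, Matrix.mul_sub, Matrix.sub_mul, sc_conj, ← hU]
  rw [h, psd_conj_iff, dg_psd_iff]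
  exact forall_congr' fun i => sub_nonneg

theorem sub_sc_psd_iff {A : Mt N} (hA : A.IsHermitian) {c : ℝ} :
    (A - sc N c).PosSemidef ↔ ∀ i, c ≤ hA.eigenvalues i := by
  obtain ⟨U, hU⟩ := exists_diag hA
  have h : A - sc N c = (U : Mt N) * dg (fun i => hA.eigenvalues i - c) * (U : Mt N)ᴴ := by
    rw [← dg_sub, ← sc_eq_dg, Matrix.mul_sub, Matrix.sub_mul, sc_conj, ← hU]
  rw [h, psd_conj_iff, dg_psd_iff]
  exact forall_congr' fun i => sub_nonneg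

theorem sc_add_psd_iff {A : Mt N} (hA : A.IsHermitian) {c : ℝ} :
    (sc N c + A).PosSemidef ↔ ∀ i, -c ≤ hA.eigenvalues i := by
  have h : sc N c + A = A - sc N (-c) := by rw [sc_neg, sub_neg_eq_add, add_comm]
  rw [h, sub_sc_psd_iff hA]

theorem isHermitian_of_sc_sub {A : Mt N} {c : ℝ} (h : (sc N c - A).PosSemidef) :
    A.IsHermitian := by
  have h1 := (sc_isHermitian (N := N) c).sub h.1
  rwa [sub_sub_cancel] at h1

theorem sc_posSemidef {c : ℝ} (hc : 0 ≤ c) : (sc N c).PosSemidef := by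
  rw [sc_eq_dg]; exact dg_posSemidef fun _ => hc
theorem sc_posDef {c : ℝ} (hc : 0 < c) : (sc N c).PosDef := by
  rw [sc_eq_dg]; exact dg_posDef fun _ => hc

theorem posDef_of_sub_sc {A : Mt N} {c : ℝ} (hc : 0 < c) (h : (A - sc N c).PosSemidef) :
    A.PosDef := by
  have h1 := (sc_posDef (N := N) hc).add_posSemidef h
  rwa [add_sub_cancel] at h1

/-- every PosDef matrix has a positive lower bound -/
theorem exists_lower {A : Mt N} (hA : A.PosDef) : ∃ c : ℝ, 0 < c ∧ (A - sc N c).PosSemidef := by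
  rcases Nat.eq_zero_or_pos N with hN | hN
  · subst hN
    refine ⟨1, one_pos, ?_⟩
    have : A - sc 0 1 = 0 := Subsingleton.elim _ _
    rw [this]; exact Matrix.PosSemidef.zero
  · have : Nonempty (Fin N) := ⟨⟨0, hN⟩⟩
    obtain ⟨i, hi⟩ := Finite.exists_min hA.1.eigenvalues
    exact ⟨hA.1.eigenvalues i, hA.eigenvalues_pos i, (sub_sc_psd_iff hA.1).2 hi⟩

/-! ### OpLe -/

theorem OpLe.herm {A : Mt N} {c : ℝ} (h : OpLe A c) : A.IsHermitian :=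
  isHermitian_of_sc_sub h.1

theorem opLe_iff {A : Mt N} (hA : A.IsHermitian) {c : ℝ} :
    OpLe A c ↔ ∀ i, |hA.eigenvalues i| ≤ c := by
  unfold OpLe
  rw [sc_sub_psd_iff hA, sc_add_psd_iff hA, ← forall_and]
  refine forall_congr' fun i => ?_
  rw [abs_le]
  exact and_comm

theorem OpLe.eig {A : Mt N} {c : ℝ} (h : OpLe A c) (i : Fin N) :
    |h.herm.eigenvalues i| ≤ c := (opLe_iff h.herm).1 h i

theorem OpLe.mono {A : Mt N} {c d : ℝ} (h : OpLe A c) (hcd : c ≤ d) : OpLe A d := by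
  rw [opLe_iff h.herm]
  exact fun i => (h.eig i).trans hcd

theorem OpLe.neg {A : Mt N} {c : ℝ} (h : OpLe A c) : OpLe (-A) c := by
  refine ⟨?_, ?_⟩
  · rw [sub_neg_eq_add]; exact h.2
  · rw [← sub_eq_add_neg]; exact h.1

theorem OpLe.add {A B : Mt N} {c d : ℝ} (hA : OpLe A c) (hB : OpLe B d) :
    OpLe (A + B) (c + d) := by
  refine ⟨?_, ?_⟩
  · have := hA.1.add hB.1
    rw [show sc N c - A + (sc N d - B) = sc N (c + d) - (A + B) by rw [sc_add]; abel] at this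
    exact this
  · have := hA.2.add hB.2
    rw [show sc N c + A + (sc N d + B) = sc N (c + d) + (A + B) by rw [sc_add]; abel] at this
    exact this

theorem OpLe.sub {A B : Mt N} {c d : ℝ} (hA : OpLe A c) (hB : OpLe B d) :
    OpLe (A - B) (c + d) := by
  rw [sub_eq_add_neg]; exact hA.add hB.neg

theorem opLe_zero {c : ℝ} (hc : 0 ≤ c) : OpLe (0 : Mt N) c := by
  refine ⟨?_, ?_⟩
  · rw [sub_zero]; exact sc_posSemidef hc
  · rw [add_zero]; exact sc_posSemidef hc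

theorem opLe_sc {a c : ℝ} (h : |a| ≤ c) : OpLe (sc N a) c := by
  refine ⟨?_, ?_⟩
  · rw [← sc_sub]; exact sc_posSemidef (by linarith [le_abs_self a])
  · rw [← sc_add]; exact sc_posSemidef (by linarith [neg_abs_le a])

theorem OpLe.smul {A : Mt N} {c : ℝ} (h : OpLe A c) (a : ℝ) :
    OpLe (((a : ℝ) : ℂ) • A) (|a| * c) := by
  obtain ⟨U, hU⟩ := exists_diag h.herm
  have hH : (((a : ℝ) : ℂ) • A).IsHermitian := by
    rw [hU, ← Matrix.smul_mul, ← Matrix.mul_smul, dg_smul]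
    exact conj_isHermitian (dg_isHermitian _) _
  have e : ((a : ℝ) : ℂ) • A = (U : Mt N) * dg (fun i => a * h.herm.eigenvalues i) *
      (U : Mt N)ᴴ := by
    conv_lhs => rw [hU]
    rw [← Matrix.smul_mul, ← Matrix.mul_smul, dg_smul]
  have hb : ∀ i, |a * h.herm.eigenvalues i| ≤ |a| * c := fun i => by
    rw [abs_mul]; exact mul_le_mul_of_nonneg_left (h.eig i) (abs_nonneg a)
  refine ⟨?_, ?_⟩
  · have h1 : sc N (|a| * c) - ((a : ℝ) : ℂ) • A =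
        (U : Mt N) * dg (fun i => |a| * c - a * h.herm.eigenvalues i) * (U : Mt N)ᴴ := by
      rw [← dg_sub, ← sc_eq_dg, Matrix.mul_sub, Matrix.sub_mul, sc_conj, ← e]
    rw [h1, psd_conj_iff, dg_psd_iff]
    intro i; linarith [le_abs_self (a * h.herm.eigenvalues i), hb i]
  · have h1 : sc N (|a| * c) + ((a : ℝ) : ℂ) • A =
        (U : Mt N) * dg (fun i => |a| * c + a * h.herm.eigenvalues i) * (U : Mt N)ᴴ := by
      rw [← dg_add, ← sc_eq_dg, Matrix.mul_add, Matrix.add_mul, sc_conj, ← e]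
    rw [h1, psd_conj_iff, dg_psd_iff]
    intro i; linarith [neg_abs_le (a * h.herm.eigenvalues i), hb i]

theorem opLe_cfc {A : Mt N} (hA : A.IsHermitian) {f : ℝ → ℝ} {c : ℝ}
    (h : ∀ i, |f (hA.eigenvalues i)| ≤ c) : OpLe (cfc f A) c := by
  obtain ⟨U, hU⟩ := exists_diag hA
  have e := cfc_eq_of_diag U _ hU f
  refine ⟨?_, ?_⟩
  · have h1 : sc N c - cfc f A =
        (U : Mt N) * dg (fun i => c - f (hA.eigenvalues i)) * (U : Mt N)ᴴ := by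
      rw [← dg_sub, ← sc_eq_dg, Matrix.mul_sub, Matrix.sub_mul, sc_conj, ← e]
    rw [h1, psd_conj_iff, dg_psd_iff]
    intro i; linarith [le_abs_self (f (hA.eigenvalues i)), h i]
  · have h1 : sc N c + cfc f A =
        (U : Mt N) * dg (fun i => c + f (hA.eigenvalues i)) * (U : Mt N)ᴴ := by
      rw [← dg_add, ← sc_eq_dg, Matrix.mul_add, Matrix.add_mul, sc_conj, ← e]
    rw [h1, psd_conj_iff, dg_psd_iff]
    intro i; linarith [neg_abs_le (f (hA.eigenvalues i)), h i]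

theorem OpLe.cfc {A : Mt N} {c : ℝ} (h : OpLe A c) {f : ℝ → ℝ} {d : ℝ}
    (hf : ∀ x, |x| ≤ c → |f x| ≤ d) : OpLe (cfc f A) d :=
  opLe_cfc h.herm fun i => hf _ (h.eig i)

theorem OpLe.conj {A : Mt N} {c : ℝ} (h : OpLe A c) (U : Matrix.unitaryGroup (Fin N) ℂ) :
    OpLe ((U : Mt N) * A * (U : Mt N)ᴴ) c := by
  refine ⟨?_, ?_⟩
  · rw [← sc_conj U c, ← Matrix.sub_mul, ← Matrix.mul_sub]; exact conj_posSemidef h.1 _
  · rw [← sc_conj U c, ← Matrix.add_mul, ← Matrix.mul_add]; exact conj_posSemidef h.2 _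

/-- `A² ≤ c²` -/
theorem OpLe.sq_le {A : Mt N} {c : ℝ} (h : OpLe A c) :
    (sc N (c ^ 2) - A * A).PosSemidef := by
  obtain ⟨U, hU⟩ := exists_diag h.herm
  have e : A * A = (U : Mt N) * dg (fun i => h.herm.eigenvalues i * h.herm.eigenvalues i) *
      (U : Mt N)ᴴ := by
    conv_lhs => rw [hU]
    rw [conj_mul, dg_mul]
  have h1 : sc N (c ^ 2) - A * A = (U : Mt N) *
      dg (fun i => c ^ 2 - h.herm.eigenvalues i * h.herm.eigenvalues i) * (U : Mt N)ᴴ := by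
    rw [← dg_sub, ← sc_eq_dg, Matrix.mul_sub, Matrix.sub_mul, sc_conj, ← e]
  rw [h1, psd_conj_iff, dg_psd_iff]
  intro i
  have h2 := h.eig i
  have h3 : |h.herm.eigenvalues i| ^ 2 ≤ c ^ 2 := pow_le_pow_left₀ (abs_nonneg _) h2 2
  rw [sq_abs] at h3
  nlinarith

theorem OpLe.fro_mul {A : Mt N} {c : ℝ} (h : OpLe A c) (hc : 0 ≤ c) (B : Rc N K) :
    fro (A * B) ≤ c * fro B :=
  fro_mul_le_of_le hc (by rw [h.herm]; exact h.sq_le) B

theorem OpLe.mul_fro {A : Mt N} {c : ℝ} (h : OpLe A c) (hc : 0 ≤ c) (B : Rc K N) :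
    fro (B * A) ≤ c * fro B :=
  fro_mul_le_of_le' hc (by rw [h.herm]; exact h.sq_le) B

theorem OpLe.entry {A : Mt N} {c : ℝ} (h : OpLe A c) (i j : Fin N) : ‖A i j‖ ≤ c := by
  have hc : 0 ≤ c := (abs_nonneg _).trans (h.eig i)
  let e : Rc N 1 := fun a _ => if a = j then 1 else 0
  have h1 := h.fro_mul hc e
  have h2 : fro e = 1 := by
    unfold fro fro2
    simp [e, apply_ite]
  have h3 : (A * e) i 0 = A i j := by
    simp [e, Matrix.mul_apply]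
  rw [h2, mul_one] at h1
  rw [← h3]
  exact (norm_apply_le_fro _ i 0).trans h1

theorem OpLe.fro_le {A : Mt N} {c : ℝ} (h : OpLe A c) (hc : 0 ≤ c) :
    fro A ≤ c * Real.sqrt N := by
  have h1 := h.fro_mul hc (1 : Mt N)
  rw [Matrix.mul_one] at h1
  have h2 : fro (1 : Mt N) = Real.sqrt N := by
    unfold fro
    rw [fro2_eq, Matrix.conjTranspose_one, Matrix.one_mul, rtr_one]
  rwa [h2] at h1

theorem OpLe.abs_rtr_mul {A : Mt N} {c : ℝ} (h : OpLe A c) (hc : 0 ≤ c) (B : Mt N) :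
    |rtr (A * B)| ≤ c * (Real.sqrt N * fro B) := by
  refine (abs_rtr_mul_le A B).trans ?_
  have := h.fro_le hc
  nlinarith [fro_nonneg B, fro_nonneg A]

theorem OpLe.abs_rtr_mul_psd {A B : Mt N} {c : ℝ} (h : OpLe A c) (hB : B.PosSemidef) :
    |rtr (A * B)| ≤ c * rtr B := by
  have h1 := rtr_mul_nonneg h.1 hB
  have h2 := rtr_mul_nonneg h.2 hB
  rw [Matrix.sub_mul, rtr_sub, sc_mul, rtr_smul] at h1
  rw [Matrix.add_mul, rtr_add, sc_mul, rtr_smul] at h2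
  rw [abs_le]
  constructor <;> linarith

theorem OpLe.abs_rtr {A : Mt N} {c : ℝ} (h : OpLe A c) : |rtr A| ≤ N * c := by
  have h1 := h.abs_rtr_mul_psd (B := (1 : Mt N)) Matrix.PosSemidef.one
  rw [Matrix.mul_one, rtr_one] at h1
  linarith

/-- quadratic forms -/
theorem psd_quad {A : Mt N} (hA : A.PosSemidef) (v : Fin N → ℂ) :
    0 ≤ (star v ⬝ᵥ (A *ᵥ v)).re := by
  have := hA.dotProduct_mulVec_nonneg v
  exact (Complex.nonneg_iff.1 this).1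

theorem psd_iff_quad {A : Mt N} (hA : A.IsHermitian) :
    A.PosSemidef ↔ ∀ v : Fin N → ℂ, 0 ≤ (star v ⬝ᵥ (A *ᵥ v)).re := by
  refine ⟨fun h v => psd_quad h v, fun h => ?_⟩
  refine Matrix.PosSemidef.of_dotProduct_mulVec_nonneg hA fun v => ?_
  rw [Complex.nonneg_iff]
  refine ⟨h v, ?_⟩
  have h1 : (starRingEnd ℂ) (star v ⬝ᵥ (A *ᵥ v)) = star v ⬝ᵥ (A *ᵥ v) := by
    have h2 : star (star v ⬝ᵥ (A *ᵥ v)) = star v ⬝ᵥ (A *ᵥ v) := by
      rw [← Matrix.star_dotProduct_star, star_star, Matrix.star_mulVec, hA,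
        ← Matrix.dotProduct_mulVec]
    exact h2
  have h2 := Complex.conj_eq_iff_im.1 h1
  exact h2.symm

theorem quad_sc (c : ℝ) (v : Fin N → ℂ) :
    (star v ⬝ᵥ (sc N c *ᵥ v)).re = c * (star v ⬝ᵥ v).re := by
  unfold sc
  rw [Matrix.smul_mulVec, Matrix.one_mulVec, dotProduct_smul, smul_eq_mul,
    Complex.re_ofReal_mul]

theorem quad_add (A B : Mt N) (v : Fin N → ℂ) : (star v ⬝ᵥ ((A + B) *ᵥ v)).re =
    (star v ⬝ᵥ (A *ᵥ v)).re + (star v ⬝ᵥ (B *ᵥ v)).re := by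
  rw [Matrix.add_mulVec, dotProduct_add, Complex.add_re]

theorem quad_sub (A B : Mt N) (v : Fin N → ℂ) : (star v ⬝ᵥ ((A - B) *ᵥ v)).re =
    (star v ⬝ᵥ (A *ᵥ v)).re - (star v ⬝ᵥ (B *ᵥ v)).re := by
  rw [Matrix.sub_mulVec, dotProduct_sub, Complex.sub_re]

theorem OpLe.quad {A : Mt N} {c : ℝ} (h : OpLe A c) (v : Fin N → ℂ) :
    |(star v ⬝ᵥ (A *ᵥ v)).re| ≤ c * (star v ⬝ᵥ v).re := by
  have h1 := psd_quad h.1 v
  have h2 := psd_quad h.2 v
  rw [quad_sub, quad_sc] at h1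
  rw [quad_add, quad_sc] at h2
  rw [abs_le]
  constructor <;> linarith

/-! ### Kt -/

theorem Kt_isHermitian (κ : Fin N → ℝ) (t : ℝ) : (Kt κ t).IsHermitian := dg_isHermitian _

theorem Kt_mul_self (κ : Fin N → ℝ) {t : ℝ} (ht : 0 ≤ t) :
    Kt κ t * Kt κ t = dg κ * dg κ + sc N t := by
  unfold Kt
  rw [dg_mul, dg_mul, sc_eq_dg, dg_add]
  congr 1
  ext i
  rw [Real.mul_self_sqrt (by positivity)]
  ring

theorem Kt_comm_dg (κ : Fin N → ℝ) (t : ℝ) : Kt κ t * dg κ = dg κ * Kt κ t := by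
  unfold Kt
  rw [dg_mul, dg_mul]
  congr 1
  ext i
  ring

theorem Kt_posDef (κ : Fin N → ℝ) {t : ℝ} (ht : 0 < t) : (Kt κ t).PosDef :=
  dg_posDef fun i => Real.sqrt_pos.2 (by positivity)

theorem dg_inv {κ : Fin N → ℝ} (h : ∀ i, κ i ≠ 0) : (dg κ)⁻¹ = dg (fun i => (κ i)⁻¹) := by
  refine Matrix.inv_eq_right_inv ?_
  rw [dg_mul]
  simp only [mul_inv_cancel₀ (h _)]
  exact dg_one

theorem Kt_inv (κ : Fin N → ℝ) {t : ℝ} (ht : 0 < t) :
    (Kt κ t)⁻¹ = dg (fun i => (Real.sqrt (κ i ^ 2 + t))⁻¹) :=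
  dg_inv fun i => (Real.sqrt_pos.2 (by positivity)).ne'

theorem hasDerivAt_Kt (κ : Fin N → ℝ) {t : ℝ} (ht : 0 < t) :
    HasDerivAt (Kt κ) ((1 / 2 : ℂ) • (Kt κ t)⁻¹) t := by
  rw [Kt_inv κ ht, hasDerivAt_iff_entry]
  intro i j
  unfold Kt dg
  by_cases hij : i = j
  · subst hij
    simp only [Matrix.diagonal_apply_eq, Matrix.smul_apply]
    have h1 : HasDerivAt (fun τ : ℝ => Real.sqrt (κ i ^ 2 + τ))
        (1 / (2 * Real.sqrt (κ i ^ 2 + t))) t := by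
      have h2 : HasDerivAt (fun τ : ℝ => κ i ^ 2 + τ) 1 t := by
        simpa using (hasDerivAt_id t).const_add (κ i ^ 2)
      exact h2.sqrt (by positivity)
    have h3 := h1.ofReal_comp
    convert! h3 using 1
    rw [smul_eq_mul]
    push_cast
    field_simp
  · simp only [Matrix.diagonal_apply_ne _ hij, Matrix.smul_apply, smul_zero]
    exact hasDerivAt_const t (0 : ℂ)

/-- quantitative lower bound -/
theorem Kt_sub_dg_lower (κ : Fin N → ℝ) {k t : ℝ} (h0 : ∀ i, 0 ≤ κ i) (hk : ∀ i, κ i ≤ k)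
    (ht : 0 < t) : (Kt κ t - dg κ - sc N (t / (2 * Real.sqrt (k ^ 2 + t)))).PosSemidef := by
  unfold Kt
  rw [dg_sub, sc_eq_dg, dg_sub]
  refine dg_posSemidef fun i => ?_
  have h1 : 0 < Real.sqrt (κ i ^ 2 + t) := Real.sqrt_pos.2 (by positivity)
  have h2 : Real.sqrt (κ i ^ 2 + t) ≤ Real.sqrt (k ^ 2 + t) :=
    Real.sqrt_le_sqrt (by nlinarith [h0 i, hk i])
  have h3 : κ i ≤ Real.sqrt (κ i ^ 2 + t) := Real.le_sqrt_of_sq_le (by linarith)
  have h4 : Real.sqrt (κ i ^ 2 + t) ^ 2 = κ i ^ 2 + t := Real.sq_sqrt (by positivity)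
  have h5 : 0 < Real.sqrt (k ^ 2 + t) := lt_of_lt_of_le h1 h2
  have h6 : t / (2 * Real.sqrt (k ^ 2 + t)) ≤ Real.sqrt (κ i ^ 2 + t) - κ i := by
    rw [div_le_iff₀ (by positivity)]
    have h7 : (Real.sqrt (κ i ^ 2 + t) - κ i) * (Real.sqrt (κ i ^ 2 + t) + κ i) = t := by
      nlinarith
    have h8 : 0 ≤ Real.sqrt (κ i ^ 2 + t) - κ i := by linarith
    nlinarith
  show 0 ≤ Real.sqrt (κ i ^ 2 + t) - κ i - t / (2 * Real.sqrt (k ^ 2 + t))
  linarith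

theorem Kt_sub_dg_posDef (κ : Fin N → ℝ) {t : ℝ} (h0 : ∀ i, 0 ≤ κ i) (ht : 0 < t) :
    (Kt κ t - dg κ).PosDef := by
  unfold Kt
  rw [dg_sub]
  refine dg_posDef fun i => ?_
  have : κ i < Real.sqrt (κ i ^ 2 + t) := Real.lt_sqrt_of_sq_lt (by linarith)
  linarith

theorem Btw.posDef_add {κ : Fin N → ℝ} {Q : Mt N} (hQ : Btw κ Q) (h0 : ∀ i, 0 ≤ κ i) {t : ℝ}
    (ht : 0 < t) : (Kt κ t + Q).PosDef := by
  have h := (Kt_sub_dg_posDef κ h0 ht).add_posSemidef hQ.2.1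
  rwa [show Kt κ t - dg κ + (dg κ + Q) = Kt κ t + Q by abel] at h

theorem Btw.posDef_sub {κ : Fin N → ℝ} {Q : Mt N} (hQ : Btw κ Q) (h0 : ∀ i, 0 ≤ κ i) {t : ℝ}
    (ht : 0 < t) : (Kt κ t - Q).PosDef := by
  have h := (Kt_sub_dg_posDef κ h0 ht).add_posSemidef hQ.2.2
  rwa [show Kt κ t - dg κ + (dg κ - Q) = Kt κ t - Q by abel] at h

theorem Btw.neg {κ : Fin N → ℝ} {Q : Mt N} (hQ : Btw κ Q) : Btw κ (-Q) := by
  refine ⟨hQ.1.neg, ?_, ?_⟩
  · rw [← sub_eq_add_neg]; exact hQ.2.2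
  · rw [sub_neg_eq_add]; exact hQ.2.1

theorem Btw.kpos {κ : Fin N → ℝ} {Q : Mt N} (hQ : Btw κ Q) (i : Fin N) : 0 ≤ κ i := by
  have h := hQ.2.1.add hQ.2.2
  rw [show dg κ + Q + (dg κ - Q) = dg κ + dg κ by abel, dg_add, dg_psd_iff] at h
  have := h i
  linarith

theorem Btw.lower_add {κ : Fin N → ℝ} {Q : Mt N} (hQ : Btw κ Q) {k : ℝ}
    (hk : ∀ i, κ i ≤ k) {t : ℝ} (ht : 0 < t) :
    (Kt κ t + Q - sc N (t / (2 * Real.sqrt (k ^ 2 + t)))).PosSemidef := by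
  have h := (Kt_sub_dg_lower κ hQ.kpos hk ht).add hQ.2.1
  rwa [show Kt κ t - dg κ - sc N (t / (2 * Real.sqrt (k ^ 2 + t))) + (dg κ + Q) =
    Kt κ t + Q - sc N (t / (2 * Real.sqrt (k ^ 2 + t))) by abel] at h

theorem Btw.lower_sub {κ : Fin N → ℝ} {Q : Mt N} (hQ : Btw κ Q) {k : ℝ}
    (hk : ∀ i, κ i ≤ k) {t : ℝ} (ht : 0 < t) :
    (Kt κ t - Q - sc N (t / (2 * Real.sqrt (k ^ 2 + t)))).PosSemidef := by
  have h := hQ.neg.lower_add hk ht
  rwa [← sub_eq_add_neg] at h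

theorem Btw.opLe {κ : Fin N → ℝ} {Q : Mt N} (hQ : Btw κ Q) {k : ℝ}
    (hk : ∀ i, κ i ≤ k) : OpLe Q k := by
  have h0 : (sc N k - dg κ).PosSemidef := by
    rw [sc_eq_dg, dg_sub]; exact dg_posSemidef fun i => by linarith [hk i]
  refine ⟨?_, ?_⟩
  · have := h0.add hQ.2.2
    rwa [show sc N k - dg κ + (dg κ - Q) = sc N k - Q by abel] at this
  · have := h0.add hQ.2.1
    rwa [show sc N k - dg κ + (dg κ + Q) = sc N k + Q by abel] at this

theorem opLe_dg {κ : Fin N → ℝ} {k : ℝ} (h : ∀ i, |κ i| ≤ k) : OpLe (dg κ) k := by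
  refine ⟨?_, ?_⟩
  · rw [sc_eq_dg, dg_sub]; exact dg_posSemidef fun i => by linarith [h i, le_abs_self (κ i)]
  · rw [sc_eq_dg, dg_add]; exact dg_posSemidef fun i => by linarith [h i, neg_abs_le (κ i)]

theorem opLe_Kt {κ : Fin N → ℝ} {k : ℝ} (h0 : ∀ i, 0 ≤ κ i) (hk : ∀ i, κ i ≤ k) (t : ℝ) :
    OpLe (Kt κ t) (Real.sqrt (k ^ 2 + t)) := by
  refine opLe_dg fun i => ?_
  rw [abs_of_nonneg (Real.sqrt_nonneg _)]
  exact Real.sqrt_le_sqrt (by nlinarith [h0 i, hk i])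

theorem Btw.opLe_add {κ : Fin N → ℝ} {Q : Mt N} (hQ : Btw κ Q) {k : ℝ}
    (hk : ∀ i, κ i ≤ k) (t : ℝ) (hk0 : 0 ≤ k) (ht : 0 ≤ t) :
    OpLe (Kt κ t + Q) (2 * Real.sqrt (k ^ 2 + t)) := by
  have h1 : k ≤ Real.sqrt (k ^ 2 + t) := Real.le_sqrt_of_sq_le (by linarith)
  exact ((opLe_Kt hQ.kpos hk t).add ((hQ.opLe hk).mono h1)).mono (by linarith)

theorem Btw.opLe_sub {κ : Fin N → ℝ} {Q : Mt N} (hQ : Btw κ Q) {k : ℝ}
    (hk : ∀ i, κ i ≤ k) (t : ℝ) (hk0 : 0 ≤ k) (ht : 0 ≤ t) :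
    OpLe (Kt κ t - Q) (2 * Real.sqrt (k ^ 2 + t)) := by
  rw [sub_eq_add_neg]; exact hQ.neg.opLe_add hk t hk0 ht

theorem opLe_of_psd_le {A : Mt N} {c : ℝ} (hA : A.PosSemidef) (h : (sc N c - A).PosSemidef) :
    OpLe A c := by
  rw [opLe_iff hA.1]
  intro i
  rw [abs_of_nonneg (hA.eigenvalues_nonneg i)]
  exact (sc_sub_psd_iff hA.1).1 h i

theorem herm_mul_self_psd {A : Mt N} (hA : A.IsHermitian) : (A * A).PosSemidef := by
  have := Matrix.posSemidef_conjTranspose_mul_self A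
  rwa [hA] at this

theorem Btw.Zm_isHermitian {κ : Fin N → ℝ} {Q : Mt N} (hQ : Btw κ Q) :
    (Zm κ Q).IsHermitian := by
  unfold Zm
  refine Matrix.IsHermitian.sub ?_ (herm_mul_self_psd hQ.1).1
  rw [dg_mul]; exact dg_isHermitian _

theorem Btw.opLe_Zm {κ : Fin N → ℝ} {Q : Mt N} (hQ : Btw κ Q) {k : ℝ}
    (hk : ∀ i, κ i ≤ k) : OpLe (Zm κ Q) (k ^ 2) := by
  have h1 : (sc N (k ^ 2) - dg κ * dg κ).PosSemidef := by
    refine (opLe_dg (k := k) fun i => ?_).sq_le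
    rw [abs_of_nonneg (hQ.kpos i)]; exact hk i
  have h2 := (hQ.opLe hk).sq_le
  have h3 := herm_mul_self_psd hQ.1
  have h4 := herm_mul_self_psd (dg_isHermitian κ)
  unfold Zm
  refine ⟨?_, ?_⟩
  · have := h1.add h3
    rwa [show sc N (k ^ 2) - dg κ * dg κ + Q * Q = sc N (k ^ 2) - (dg κ * dg κ - Q * Q) by
      abel] at this
  · have := h2.add h4
    rwa [show sc N (k ^ 2) - Q * Q + dg κ * dg κ = sc N (k ^ 2) + (dg κ * dg κ - Q * Q) by
      abel] at this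

theorem Btw.rtr_Zm_nonneg {κ : Fin N → ℝ} {Q : Mt N} (hQ : Btw κ Q) : 0 ≤ rtr (Zm κ Q) := by
  have h := rtr_mul_nonneg hQ.2.1 hQ.2.2
  have e : rtr ((dg κ + Q) * (dg κ - Q)) = rtr (Zm κ Q) := by
    unfold Zm
    rw [Matrix.add_mul, Matrix.mul_sub, Matrix.mul_sub, rtr_add, rtr_sub, rtr_sub, rtr_sub,
      rtr_mul_comm Q (dg κ)]
    ring
  rwa [e] at h

theorem Btw.fro2_le {κ : Fin N → ℝ} {Q : Mt N} (hQ : Btw κ Q) : fro2 Q ≤ ∑ i, κ i ^ 2 := by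
  have h := hQ.rtr_Zm_nonneg
  unfold Zm at h
  rw [rtr_sub, dg_mul, rtr_dg] at h
  rw [fro2_eq, hQ.1]
  have e : ∑ i, κ i ^ 2 = ∑ i, κ i * κ i := Finset.sum_congr rfl fun i _ => sq (κ i)
  linarith

/-- `tr AB = tr Z + t N` for `A = K_t + Q`, `B = K_t - Q` -/
theorem rtr_AB (κ : Fin N → ℝ) (Q : Mt N) {t : ℝ} (ht : 0 ≤ t) :
    rtr ((Kt κ t + Q) * (Kt κ t - Q)) = rtr (Zm κ Q) + N * t := by
  unfold Zm
  rw [Matrix.add_mul, Matrix.mul_sub, Matrix.mul_sub, rtr_add, rtr_sub, rtr_sub, rtr_sub,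
    rtr_mul_comm Q (Kt κ t), Kt_mul_self κ ht, rtr_add, rtr_sc]
  ring

/-- `K_t X + X K_t - X² = K_t² - Q²` for `X = K_t + Q` -/
theorem KX_identity (κ : Fin N → ℝ) (Q : Mt N) {t : ℝ} (ht : 0 ≤ t) :
    Kt κ t * (Kt κ t + Q) + (Kt κ t + Q) * Kt κ t - (Kt κ t + Q) * (Kt κ t + Q) =
      Zm κ Q + sc N t := by
  have h := Kt_mul_self κ ht
  unfold Zm
  have e : Kt κ t * (Kt κ t + Q) + (Kt κ t + Q) * Kt κ t - (Kt κ t + Q) * (Kt κ t + Q) =
      Kt κ t * Kt κ t - Q * Q := by noncomm_ring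
  rw [e, h]; abel

theorem Btw_neg_dg (κ : Fin N → ℝ) (h : ∀ i, 0 ≤ κ i) : Btw κ (- dg κ) := by
  refine ⟨(dg_isHermitian κ).neg, ?_, ?_⟩
  · rw [add_neg_cancel]; exact Matrix.PosSemidef.zero
  · rw [sub_neg_eq_add, dg_add]; exact dg_posSemidef fun i => by linarith [h i]

theorem Btw_dg (κ : Fin N → ℝ) (h : ∀ i, 0 ≤ κ i) : Btw κ (dg κ) := by
  have := (Btw_neg_dg κ h).neg
  rwa [neg_neg] at this

end Crest.Agent.R332
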