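import Crest.Agent.R332.TAILB
import Crest.Agent.R332.LIBK

/-! CMM: commutator estimate. -/

set_option autoImplicit false

open MeasureTheory Matrix Filter Topology
open Crest.MathPhysics.LiebThirring
open scoped ComplexOrder

namespace Crest.Agent.R332.CMM

open Crest.Agent.R332.SIGB Crest.Agent.R332.TAILB

variable {m N K : ℕ}

theorem fro_comm_le {a b : Mt N} {p : ℝ} (hp : 0 ≤ p) (ha : OpLe a p) (hb : OpLe b p) :
    fro (a * a * (b * b) - b * b * (a * a)) ≤ 4 * p ^ 2 * fro (a * b - b * a) := by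
  set c := a * b - b * a with hc
  set D := a * (b * b) - b * b * a with hD
  have h1 : a * a * (b * b) - b * b * (a * a) = a * D + D * a := by
    rw [hD]; noncomm_ring
  have h2 : D = c * b + b * c := by
    rw [hD, hc]; noncomm_ring
  have h3 : fro D ≤ 2 * p * fro c := by
    rw [h2]
    refine (fro_add_le _ _).trans ?_
    have := hb.mul_fro hp c
    have := hb.fro_mul hp c
    linarith
  rw [h1]
  refine (fro_add_le _ _).trans ?_
  have h4 := ha.fro_mul hp D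
  have h5 := ha.mul_fro hp D
  have h6 : p * fro D ≤ p * (2 * p * fro c) := mul_le_mul_of_nonneg_left h3 hp
  nlinarith

theorem opLe_sqrt {A : Mt N} {M : ℝ} (hA : OpLe A M) : OpLe (cfc Real.sqrt A) (Real.sqrt M) := by
  refine hA.cfc fun x hx => ?_
  rw [abs_of_nonneg (Real.sqrt_nonneg _)]
  exact Real.sqrt_le_sqrt ((le_abs_self x).trans hx)

theorem fro2_comm_Kt (κ : Fin N → ℝ) (Q : Mt N) (t : ℝ) :
    fro2 ((Kt κ t + Q) * (Kt κ t - Q) - (Kt κ t - Q) * (Kt κ t + Q)) =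
      4 * ∑ i, ∑ j, (Real.sqrt (κ i ^ 2 + t) - Real.sqrt (κ j ^ 2 + t)) ^ 2 * ‖Q i j‖ ^ 2 := by
  have h1 : (Kt κ t + Q) * (Kt κ t - Q) - (Kt κ t - Q) * (Kt κ t + Q) =
      (-2 : ℂ) • (Kt κ t * Q - Q * Kt κ t) := by
    rw [neg_smul, two_smul]
    noncomm_ring
  rw [h1, fro2_smul]
  have h2 : ‖(-2 : ℂ)‖ ^ 2 = 4 := by
    rw [norm_neg]
    norm_num
  rw [h2]
  congr 1
  unfold fro2
  refine Finset.sum_congr rfl fun i _ => Finset.sum_congr rfl fun j _ => ?_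
  unfold Kt dg
  rw [Matrix.sub_apply, Matrix.diagonal_mul, Matrix.mul_diagonal]
  have h3 : ((Real.sqrt (κ i ^ 2 + t) : ℝ) : ℂ) * Q i j -
      Q i j * ((Real.sqrt (κ j ^ 2 + t) : ℝ) : ℂ) =
      ((Real.sqrt (κ i ^ 2 + t) - Real.sqrt (κ j ^ 2 + t) : ℝ) : ℂ) * Q i j := by
    push_cast
    ring
  rw [h3, norm_mul, Complex.norm_real, mul_pow, Real.norm_eq_abs, sq_abs]

theorem sum_le_sig (hGB : STAR) (s : ℝ) (hc : 0 ≤ cY s) {κ : Fin N → ℝ} {k : ℝ}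
    (hk0 : 0 ≤ k) (hκ : ∀ i, κ i ≤ k) {Q : Mt N} (hQ : Btw κ Q) (X : Rc m N) {t : ℝ}
    (ht : 0 < t) :
    ∑ i, ∑ j, (Real.sqrt (κ i ^ 2 + t) - Real.sqrt (κ j ^ 2 + t)) ^ 2 * ‖Q i j‖ ^ 2 ≤
      32 * (k ^ 2 + t) * sig κ Q (Xi s X) t := by
  have hA := posDef_add (κ := κ) ht hQ
  have hB := posDef_sub (κ := κ) ht hQ
  have h := hGB N (Kt κ t + Q) (Kt κ t - Q) (sc N t + Xi s X) hA hB (Y_posDef s hc X ht)
  have h2 := fro2_nonneg (cfc (fun x => Real.exp (x / 2)) (lg (Kt κ t + Q) + lg (Kt κ t - Q)) -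
    cfc Real.sqrt (sc N t + Xi s X))
  have h3 : fro2 (cfc Real.sqrt (Kt κ t + Q) * cfc Real.sqrt (Kt κ t - Q) -
      cfc Real.sqrt (Kt κ t - Q) * cfc Real.sqrt (Kt κ t + Q)) ≤
      2 * sig κ Q (Xi s X) t := by
    unfold sig
    linarith
  set M : ℝ := 2 * Real.sqrt (k ^ 2 + t) with hM
  have hM0 : 0 ≤ M := by positivity
  have hoA := opLe_sqrt (hQ.opLe_add hκ t hk0 ht.le)
  have hoB := opLe_sqrt (hQ.opLe_sub hκ t hk0 ht.le)
  have h4 := fro_comm_le (Real.sqrt_nonneg _) hoA hoB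
  have eA : cfc Real.sqrt (Kt κ t + Q) * cfc Real.sqrt (Kt κ t + Q) = Kt κ t + Q :=
    Sm_mul hA.posSemidef
  have eB : cfc Real.sqrt (Kt κ t - Q) * cfc Real.sqrt (Kt κ t - Q) = Kt κ t - Q :=
    Sm_mul hB.posSemidef
  rw [eA, eB, ← hM, Real.sq_sqrt hM0] at h4
  have h5 := pow_le_pow_left₀ (fro_nonneg _) h4 2
  rw [mul_pow, sq_fro, sq_fro, fro2_comm_Kt] at h5
  have h6 : (4 * M) ^ 2 = 64 * (k ^ 2 + t) := by
    rw [hM, mul_pow, mul_pow, Real.sq_sqrt (by positivity)]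
    ring
  rw [h6] at h5
  have h7 : 64 * (k ^ 2 + t) * fro2 (cfc Real.sqrt (Kt κ t + Q) * cfc Real.sqrt (Kt κ t - Q) -
      cfc Real.sqrt (Kt κ t - Q) * cfc Real.sqrt (Kt κ t + Q)) ≤
      64 * (k ^ 2 + t) * (2 * sig κ Q (Xi s X) t) :=
    mul_le_mul_of_nonneg_left h3 (by positivity)
  linarith

theorem scalar {x y k k0 t : ℝ} (hk0 : 0 < k0) (hx : k0 ≤ x) (hy : 0 < y) (hxk : x ≤ k)
    (hyk : y ≤ k) (ht : 0 < t) :
    (x - y) ^ 2 ≤ 4 * (k ^ 2 + t) / k0 ^ 2 *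
      (Real.sqrt (x ^ 2 + t) - Real.sqrt (y ^ 2 + t)) ^ 2 := by
  set a := Real.sqrt (x ^ 2 + t) with ha
  set b := Real.sqrt (y ^ 2 + t) with hb
  have ha2 : a ^ 2 = x ^ 2 + t := Real.sq_sqrt (by positivity)
  have hb2 : b ^ 2 = y ^ 2 + t := Real.sq_sqrt (by positivity)
  have ha0 : 0 ≤ a := Real.sqrt_nonneg _
  have hb0 : 0 ≤ b := Real.sqrt_nonneg _
  have hx0 : 0 < x := lt_of_lt_of_le hk0 hx
  have h1 : (x - y) * (x + y) = (a - b) * (a + b) := by nlinarith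
  have h2 : (x - y) ^ 2 * (x + y) ^ 2 = (a - b) ^ 2 * (a + b) ^ 2 := by
    rw [← mul_pow, ← mul_pow, h1]
  have h3 : (a + b) ^ 2 ≤ 4 * (k ^ 2 + t) := by
    have h4 : (a + b) ^ 2 ≤ 2 * a ^ 2 + 2 * b ^ 2 := by nlinarith [sq_nonneg (a - b)]
    have h5 : x ^ 2 ≤ k ^ 2 := pow_le_pow_left₀ hx0.le hxk 2
    have h6 : y ^ 2 ≤ k ^ 2 := pow_le_pow_left₀ hy.le hyk 2
    linarith
  have h4 : k0 ^ 2 ≤ (x + y) ^ 2 := pow_le_pow_left₀ hk0.le (by linarith) 2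
  have h5 : (x - y) ^ 2 * k0 ^ 2 ≤ 4 * (k ^ 2 + t) * (a - b) ^ 2 := by
    have h6 : (x - y) ^ 2 * k0 ^ 2 ≤ (x - y) ^ 2 * (x + y) ^ 2 :=
      mul_le_mul_of_nonneg_left h4 (sq_nonneg _)
    have h7 : (a - b) ^ 2 * (a + b) ^ 2 ≤ (a - b) ^ 2 * (4 * (k ^ 2 + t)) :=
      mul_le_mul_of_nonneg_left h3 (sq_nonneg _)
    linarith
  rw [div_mul_eq_mul_div, le_div_iff₀ (by positivity)]
  exact h5

end Crest.Agent.R332.CMM

namespace Crest.Agent.R332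

open SIGB TAILB CMM in
theorem cmm (hTC : TLTC) (hST : STAR) (hCO : CONSTS) : CMM := by
  intro s hs hs1 k k0 ε hk hk0 hε
  obtain ⟨-, hcY, -⟩ := hCO s hs hs1
  obtain ⟨C, hC, hTL⟩ := hTC s hs hs1 1 one_pos
  set A : ℝ := 4 * (k ^ 2 + 2) / k0 ^ 2 * (32 * (k ^ 2 + 2)) with hA
  have hA0 : 0 ≤ A := by positivity
  obtain ⟨δ, hδ, -, hδ2⟩ := exists_small (A * C) ε (by positivity) hε
  refine ⟨δ, hδ, ?_⟩
  intro m N κ X X' Q l hcfg hκ hTS
  obtain ⟨hTS0, t, ht, hsc, hs0, hsn, hsi⟩ := hTL m N κ X X' Q l hcfg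
  have ht1 : 1 ≤ t := ht.1
  have ht2 : t ≤ 2 := by linarith [ht.2]
  have ht0 : 0 < t := by linarith
  have hint : Integrable (fun x => sig κ (Q x) (Xi s (X x)) t) := by
    refine hsc.integrable_of_hasCompactSupport ?_
    refine HasCompactSupport.intro (isCompact_Icc (a := -l) (b := l)) fun x hx => hs0 x ?_
    by_contra hlt
    push Not at hlt
    exact hx (abs_le.1 hlt.le)
  have hpt : ∀ x, (∑ i, ∑ j, if k0 ≤ κ i then (κ i - κ j) ^ 2 * ‖Q x i j‖ ^ 2 else 0) ≤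
      A * sig κ (Q x) (Xi s (X x)) t := by
    intro x
    have h1 := sum_le_sig hST s hcY.le hk.le hκ (hcfg.btw x) (X x) ht0
    have h2 : (∑ i, ∑ j, if k0 ≤ κ i then (κ i - κ j) ^ 2 * ‖Q x i j‖ ^ 2 else 0) ≤
        4 * (k ^ 2 + 2) / k0 ^ 2 * ∑ i, ∑ j,
          (Real.sqrt (κ i ^ 2 + t) - Real.sqrt (κ j ^ 2 + t)) ^ 2 * ‖Q x i j‖ ^ 2 := by
      rw [Finset.mul_sum]
      refine Finset.sum_le_sum fun i _ => ?_
      rw [Finset.mul_sum]
      refine Finset.sum_le_sum fun j _ => ?_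
      split_ifs with hi
      · rw [← mul_assoc]
        refine mul_le_mul_of_nonneg_right ?_ (by positivity)
        refine (scalar hk0 hi (hcfg.kpos j) (hκ i) (hκ j) ht0).trans ?_
        refine mul_le_mul_of_nonneg_right ?_ (sq_nonneg _)
        gcongr
      · positivity
    refine h2.trans ?_
    rw [hA, mul_assoc]
    refine mul_le_mul_of_nonneg_left (h1.trans ?_) (by positivity)
    refine mul_le_mul_of_nonneg_right ?_ (hsn x)
    gcongr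
  have h1 : ∫ x, (∑ i, ∑ j, if k0 ≤ κ i then (κ i - κ j) ^ 2 * ‖Q x i j‖ ^ 2 else 0) ≤
      ∫ x, A * sig κ (Q x) (Xi s (X x)) t := by
    refine integral_mono_of_nonneg (Eventually.of_forall fun x => ?_) (hint.const_mul A)
      (Eventually.of_forall hpt)
    refine Finset.sum_nonneg fun i _ => Finset.sum_nonneg fun j _ => ?_
    split_ifs
    · positivity
    · exact le_rfl
  rw [integral_const_mul] at h1
  refine h1.trans ?_
  have h2 : A * (∫ x, sig κ (Q x) (Xi s (X x)) t) ≤ A * (C * δ) :=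
    mul_le_mul_of_nonneg_left (hsi.trans (mul_le_mul_of_nonneg_left hTS hC)) hA0
  linarith

end Crest.Agent.R332
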