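import Crest.Agent.R332.LIBD

/-! R332 task DLOG: derivative of the matrix logarithm. -/

set_option autoImplicit false

open MeasureTheory Matrix Filter Topology
open Crest.MathPhysics.LiebThirring
open scoped ComplexOrder

namespace Crest.Agent.R332
namespace DLOGa

variable {N : ℕ}

theorem cfc_form {A : Mt N} (hA : A.IsHermitian) (f : ℝ → ℝ) :
    cfc f A = (hA.eigenvectorUnitary : Mt N) *
      Matrix.diagonal (fun i => ((f (hA.eigenvalues i) : ℝ) : ℂ)) *
        star (hA.eigenvectorUnitary : Mt N) := by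
  rw [hA.cfc_eq, Matrix.IsHermitian.cfc, Unitary.conjStarAlgAut_apply]
  rfl

theorem star_mul_U {A : Mt N} (hA : A.IsHermitian) :
    star (hA.eigenvectorUnitary : Mt N) * (hA.eigenvectorUnitary : Mt N) = 1 :=
  Unitary.coe_star_mul_self _

theorem mul_star_U {A : Mt N} (hA : A.IsHermitian) :
    (hA.eigenvectorUnitary : Mt N) * star (hA.eigenvectorUnitary : Mt N) = 1 :=
  Unitary.coe_mul_star_self _

theorem cfc_mul' {A : Mt N} (hA : A.IsHermitian) (f g : ℝ → ℝ) :
    cfc f A * cfc g A = cfc (fun x => f x * g x) A := by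
  rw [cfc_form hA, cfc_form hA, cfc_form hA]
  have e : ∀ U D1 V D2 W : Mt N, V * U = 1 → (U * D1 * V) * (U * D2 * V) = U * (D1 * D2) * V := by
    intro U D1 V D2 _ h
    calc (U * D1 * V) * (U * D2 * V) = U * D1 * (V * U) * D2 * V := by simp only [mul_assoc]
      _ = U * (D1 * D2) * V := by rw [h, mul_one]; simp only [mul_assoc]
  rw [e _ _ _ _ 0 (star_mul_U hA), Matrix.diagonal_mul_diagonal]
  congr 3
  ext i
  push_cast
  rfl

theorem cfc_one' {A : Mt N} (hA : A.IsHermitian) (f : ℝ → ℝ)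
    (hf : ∀ i, f (hA.eigenvalues i) = 1) : cfc f A = 1 := by
  rw [cfc_form hA]
  have : (Matrix.diagonal fun i => ((f (hA.eigenvalues i) : ℝ) : ℂ)) = (1 : Mt N) := by
    rw [← Matrix.diagonal_one]
    congr 1
    ext i
    rw [hf i]
    simp
  rw [this, mul_one, mul_star_U]

theorem resolvent_eq {A : Mt N} (hA : A.IsHermitian) (u : ℝ) :
    A + sc N u = cfc (fun x => x + u) A := by
  have h1 : A = cfc (fun x : ℝ => x) A := (cfc_id' ℝ A hA.isSelfAdjoint).symm
  rw [cfc_form hA]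
  have h2 : A = (hA.eigenvectorUnitary : Mt N) *
      Matrix.diagonal (fun i => ((hA.eigenvalues i : ℝ) : ℂ)) *
        star (hA.eigenvectorUnitary : Mt N) := by
    conv_lhs => rw [h1]
    exact cfc_form hA _
  have h3 : sc N u = (hA.eigenvectorUnitary : Mt N) * (((u : ℝ) : ℂ) • (1 : Mt N)) *
        star (hA.eigenvectorUnitary : Mt N) := by
    unfold sc
    rw [Matrix.mul_smul, mul_one, Matrix.smul_mul, mul_star_U]
  conv_lhs => rw [h2, h3]
  rw [← add_mul, ← mul_add]
  congr 2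
  ext i j
  by_cases h : i = j
  · subst h; simp
  · simp [h]

theorem inv_eq {A : Mt N} (hA : A.IsHermitian) {u : ℝ}
    (hu : ∀ i, hA.eigenvalues i + u ≠ 0) :
    (A + sc N u)⁻¹ = cfc (fun x => (x + u)⁻¹) A := by
  apply Matrix.inv_eq_left_inv
  rw [resolvent_eq hA, cfc_mul' hA]
  apply cfc_one'
  intro i
  exact inv_mul_cancel₀ (hu i)

theorem isUnit_res {A : Mt N} (hA : A.IsHermitian) {u : ℝ}
    (hu : ∀ i, hA.eigenvalues i + u ≠ 0) : IsUnit (A + sc N u) := by
  have h1 : cfc (fun x => (x + u)⁻¹) A * (A + sc N u) = 1 := by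
    rw [resolvent_eq hA, cfc_mul' hA]
    apply cfc_one'
    intro i
    exact inv_mul_cancel₀ (hu i)
  exact IsUnit.of_mul_eq_one_right _ h1

theorem rtr_cfc {A : Mt N} (hA : A.IsHermitian) (f : ℝ → ℝ) (Y : Mt N) :
    rtr (cfc f A * Y) = ∑ i, f (hA.eigenvalues i) *
      ((star (hA.eigenvectorUnitary : Mt N) * Y * (hA.eigenvectorUnitary : Mt N)) i i).re := by
  unfold rtr
  rw [cfc_form hA]
  set U := (hA.eigenvectorUnitary : Mt N)
  have h1 : Matrix.trace (U * Matrix.diagonal (fun i => ((f (hA.eigenvalues i) : ℝ) : ℂ)) *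
      star U * Y) = Matrix.trace (Matrix.diagonal (fun i => ((f (hA.eigenvalues i) : ℝ) : ℂ)) *
      (star U * Y * U)) := by
    rw [Matrix.mul_assoc, Matrix.mul_assoc, Matrix.trace_mul_comm]
    simp only [Matrix.mul_assoc]
  rw [h1, Matrix.trace]
  simp only [Matrix.diag_apply, Matrix.diagonal_mul]
  rw [Complex.re_sum]
  refine Finset.sum_congr rfl fun i _ => ?_
  rw [Complex.re_ofReal_mul]

/-! ### scalar integral -/

theorem log_integral {x : ℝ} (hx : 0 < x) :
    IntegrableOn (fun u : ℝ => 1 / (1 + u) - 1 / (x + u)) (Set.Ioi 0) ∧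
      ∫ u in Set.Ioi (0 : ℝ), (1 / (1 + u) - 1 / (x + u)) = Real.log x := by
  have hderiv : ∀ u ∈ Set.Ioi (0 : ℝ), HasDerivAt
      (fun u : ℝ => Real.log (1 + u) - Real.log (x + u)) (1 / (1 + u) - 1 / (x + u)) u := by
    intro u hu
    have hu' : (0 : ℝ) < u := hu
    have h1 : HasDerivAt (fun u : ℝ => Real.log (1 + u)) (1 / (1 + u)) u :=
      ((hasDerivAt_id u).const_add 1).log (by simp; linarith)
    have h2 : HasDerivAt (fun u : ℝ => Real.log (x + u)) (1 / (x + u)) u :=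
      ((hasDerivAt_id u).const_add x).log (by simp; linarith)
    exact h1.sub h2
  have hcont : ContinuousWithinAt (fun u : ℝ => Real.log (1 + u) - Real.log (x + u))
      (Set.Ici 0) 0 := by
    apply ContinuousAt.continuousWithinAt
    apply ContinuousAt.sub
    · exact ContinuousAt.log (by fun_prop) (by norm_num)
    · exact ContinuousAt.log (by fun_prop) (by simpa using hx.ne')
  have htend : Tendsto (fun u : ℝ => Real.log (1 + u) - Real.log (x + u)) atTop (𝓝 0) := by
    have h1 : Tendsto (fun u : ℝ => (1 + u) / (x + u)) atTop (𝓝 1) := by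
      have h2 : Tendsto (fun u : ℝ => 1 + (1 - x) / (x + u)) atTop (𝓝 (1 + 0)) := by
        apply Tendsto.const_add
        apply Tendsto.const_div_atTop
        exact tendsto_atTop_add_const_left _ _ tendsto_id
      rw [add_zero] at h2
      refine h2.congr' ?_
      filter_upwards [eventually_gt_atTop (0 : ℝ)] with u hu
      have : x + u ≠ 0 := by positivity
      field_simp
      ring
    have h3 := (Real.continuousAt_log (one_ne_zero)).tendsto.comp h1
    rw [Real.log_one] at h3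
    refine h3.congr' ?_
    filter_upwards [eventually_gt_atTop (0 : ℝ)] with u hu
    rw [Function.comp_apply, Real.log_div (by positivity) (by positivity)]
  have hint : IntegrableOn (fun u : ℝ => 1 / (1 + u) - 1 / (x + u)) (Set.Ioi 0) := by
    rcases le_total 1 x with h | h
    · refine integrableOn_Ioi_deriv_of_nonneg hcont hderiv ?_ htend
      intro u hu
      have hu' : (0 : ℝ) < u := hu
      rw [sub_nonneg]
      exact one_div_le_one_div_of_le (by positivity) (by linarith)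
    · refine integrableOn_Ioi_deriv_of_nonpos hcont hderiv ?_ htend
      intro u hu
      have hu' : (0 : ℝ) < u := hu
      rw [sub_nonpos]
      exact one_div_le_one_div_of_le (by positivity) (by linarith)
  refine ⟨hint, ?_⟩
  rw [integral_Ioi_of_hasDerivAt_of_tendsto hcont hderiv hint htend]
  simp

/-- resolvent integral of the logarithm -/
theorem rtr_lg {A : Mt N} (hA : A.IsHermitian) (hpos : ∀ i, 0 < hA.eigenvalues i) (Y : Mt N) :
    IntegrableOn (fun u : ℝ => rtr Y / (1 + u) - rtr ((A + sc N u)⁻¹ * Y)) (Set.Ioi 0) ∧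
    ∫ u in Set.Ioi (0 : ℝ), (rtr Y / (1 + u) - rtr ((A + sc N u)⁻¹ * Y)) = rtr (lg A * Y) := by
  set y : Fin N → ℝ := fun i =>
      ((star (hA.eigenvectorUnitary : Mt N) * Y * (hA.eigenvectorUnitary : Mt N)) i i).re with hy
  have hY : rtr Y = ∑ i, y i := by
    have h1 : cfc (fun _ : ℝ => (1 : ℝ)) A = 1 := cfc_one' hA _ (fun _ => rfl)
    have h2 := rtr_cfc hA (fun _ => (1 : ℝ)) Y
    rw [h1, one_mul] at h2
    rw [h2]
    simp [hy]
  have hfun : ∀ u ∈ Set.Ioi (0 : ℝ), rtr Y / (1 + u) - rtr ((A + sc N u)⁻¹ * Y) =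
      ∑ i, (1 / (1 + u) - 1 / (hA.eigenvalues i + u)) * y i := by
    intro u hu
    have hu' : (0 : ℝ) < u := hu
    rw [inv_eq hA (fun i => (add_pos (hpos i) hu').ne'), rtr_cfc hA, hY, Finset.sum_div,
      ← Finset.sum_sub_distrib]
    refine Finset.sum_congr rfl fun i _ => ?_
    simp only [hy]
    ring
  have hint : IntegrableOn (fun u : ℝ => ∑ i, (1 / (1 + u) - 1 / (hA.eigenvalues i + u)) * y i)
      (Set.Ioi 0) :=
    integrable_finsetSum _ fun i _ => ((log_integral (hpos i)).1).mul_const _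
  refine ⟨hint.congr_fun (fun u hu => (hfun u hu).symm) measurableSet_Ioi, ?_⟩
  rw [setIntegral_congr_fun measurableSet_Ioi hfun]
  rw [integral_finsetSum _ fun i _ => ((log_integral (hpos i)).1).mul_const _]
  unfold lg
  rw [rtr_cfc hA]
  refine Finset.sum_congr rfl fun i _ => ?_
  rw [integral_mul_const, (log_integral (hpos i)).2]

theorem tendsto_mt {l : Filter ℝ} {f : ℝ → Mt N} {A : Mt N}
    (h : ∀ i j, Tendsto (fun τ => f τ i j) l (𝓝 (A i j))) : Tendsto f l (𝓝 A) :=
  tendsto_pi_nhds.2 fun i => tendsto_pi_nhds.2 fun j => h i j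

/-! ### norms -/

section norm
open scoped Matrix.Norms.L2Operator MatrixOrder

theorem norm_cfc_le' {A : Mt N} (hA : A.IsHermitian) (f : ℝ → ℝ) {c : ℝ} (hc : 0 ≤ c)
    (hf : ∀ i, |f (hA.eigenvalues i)| ≤ c) : ‖cfc f A‖ ≤ c := by
  rw [cfc_form hA]
  have h1 : star (hA.eigenvectorUnitary : Mt N) =
      ((star hA.eigenvectorUnitary : unitary (Mt N)) : Mt N) := rfl
  rw [h1, CStarRing.norm_mul_coe_unitary, CStarRing.norm_coe_unitary_mul,
    Matrix.l2_opNorm_diagonal, pi_norm_le_iff_of_nonneg hc]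
  intro i
  rw [Complex.norm_real]
  exact hf i

theorem norm_inv_le {A : Mt N} (hA : A.IsHermitian) {c u : ℝ} (hc : 0 < c) (hu : 0 < u)
    (h : ∀ i, c ≤ hA.eigenvalues i) : ‖(A + sc N u)⁻¹‖ ≤ 1 / (c + u) := by
  rw [inv_eq hA (fun i => by have := h i; linarith)]
  refine norm_cfc_le' hA _ (by positivity) (fun i => ?_)
  have := h i
  rw [abs_of_nonneg (by have : 0 < hA.eigenvalues i + u := by linarith
                        positivity), ← one_div]
  exact one_div_le_one_div_of_le (by linarith) (by linarith)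

theorem near {B : Mt N} (hB : B.PosDef) : ∃ c : ℝ, 0 < c ∧ ∀ (A : Mt N) (hA : A.IsHermitian),
    ‖A - B‖ < c → ∀ i, c ≤ hA.eigenvalues i := by
  have hpos := hB.isHermitian.posDef_iff_eigenvalues_pos.mp hB
  obtain ⟨c, hc, hcb⟩ : ∃ c : ℝ, 0 < c ∧ ∀ i, 2 * c ≤ hB.isHermitian.eigenvalues i := by
    rcases isEmpty_or_nonempty (Fin N) with h | h
    · exact ⟨1, one_pos, fun i => (IsEmpty.false i).elim⟩
    · obtain ⟨i0, hi0⟩ := Finite.exists_min hB.isHermitian.eigenvalues
      refine ⟨hB.isHermitian.eigenvalues i0 / 2, by have := hpos i0; positivity, fun i => ?_⟩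
      have := hi0 i
      linarith
  refine ⟨c, hc, fun A hA hAB i => ?_⟩
  have h1 : algebraMap ℝ (Mt N) (2 * c) ≤ B := by
    rw [algebraMap_le_iff_le_spectrum (a := B) (ha := hB.isHermitian.isSelfAdjoint)]
    intro x hx
    rw [hB.isHermitian.spectrum_real_eq_range_eigenvalues] at hx
    obtain ⟨j, rfl⟩ := hx
    exact hcb j
  have hsa : IsSelfAdjoint (A - B) := (hA.sub hB.isHermitian).isSelfAdjoint
  have h2 : -(algebraMap ℝ (Mt N) ‖A - B‖) ≤ A - B :=
    IsSelfAdjoint.neg_algebraMap_norm_le_self hsa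
  have h3 : algebraMap ℝ (Mt N) c ≤ A := by
    have h4 : algebraMap ℝ (Mt N) c ≤ algebraMap ℝ (Mt N) (2 * c) -
        algebraMap ℝ (Mt N) ‖A - B‖ := by
      rw [← map_sub]
      exact algebraMap_mono (Mt N) (by linarith)
    refine h4.trans ?_
    have h5 := add_le_add h1 h2
    have e1 : algebraMap ℝ (Mt N) (2 * c) + -(algebraMap ℝ (Mt N) ‖A - B‖) =
        algebraMap ℝ (Mt N) (2 * c) - algebraMap ℝ (Mt N) ‖A - B‖ := by abel
    have e2 : B + (A - B) = A := by abel
    rwa [e1, e2] at h5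
  rw [algebraMap_le_iff_le_spectrum (a := A) (ha := hA.isSelfAdjoint)] at h3
  exact h3 _ (hA.eigenvalues_mem_spectrum_real i)

theorem exists_bound (Y : Mt N) : ∃ K : ℝ, 0 ≤ K ∧ ∀ M : Mt N, |rtr (M * Y)| ≤ K * ‖M‖ := by
  let L : Mt N →ₗ[ℂ] ℂ :=
    { toFun := fun M => Matrix.trace (M * Y)
      map_add' := fun a b => by rw [add_mul, Matrix.trace_add]
      map_smul' := fun a b => by rw [Matrix.smul_mul, Matrix.trace_smul]; rfl }
  refine ⟨‖LinearMap.toContinuousLinearMap L‖, norm_nonneg _, fun M => ?_⟩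
  refine le_trans (Complex.abs_re_le_norm _) ?_
  exact (LinearMap.toContinuousLinearMap L).le_opNorm M

theorem contAt_inv {α : Type*} [TopologicalSpace α] {f : α → Mt N} {x : α}
    (hf : ContinuousAt f x) (hu : IsUnit (f x)) : ContinuousAt (fun y => (f y)⁻¹) x := by
  have h1 : (fun y => (f y)⁻¹) = fun y => Ring.inverse (f y) := by
    funext y
    rw [Matrix.nonsing_inv_eq_ringInverse]
  rw [h1]
  obtain ⟨v, hv⟩ := hu
  have h2 := NormedRing.inverse_continuousAt v
  rw [hv] at h2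
  exact ContinuousAt.comp (f := f) (g := Ring.inverse) h2 hf

theorem continuous_sc : Continuous (fun u : ℝ => sc N u) := by
  unfold sc
  exact (Complex.continuous_ofReal).smul continuous_const

theorem contOn_res {A : Mt N} (hA : A.IsHermitian) (h : ∀ i, 0 < hA.eigenvalues i) :
    ContinuousOn (fun u : ℝ => (A + sc N u)⁻¹) (Set.Ioi 0) := by
  intro u hu
  have hu' : (0 : ℝ) < u := hu
  apply ContinuousAt.continuousWithinAt
  apply contAt_inv (f := fun u : ℝ => A + sc N u)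
  · exact (continuous_const.add continuous_sc).continuousAt
  · exact isUnit_res hA (fun i => (add_pos (h i) hu').ne')

theorem integrable_sq {c : ℝ} (hc : 0 < c) (K : ℝ) :
    IntegrableOn (fun u : ℝ => K * (1 / (c + u) * (1 / (c + u)))) (Set.Ioi 0) := by
  apply Integrable.const_mul
  have hderiv : ∀ u ∈ Set.Ioi (0 : ℝ), HasDerivAt
      (fun u : ℝ => - (1 / (c + u))) (1 / (c + u) * (1 / (c + u))) u := by
    intro u hu
    have hu' : (0 : ℝ) < u := hu
    have hne : c + u ≠ 0 := by positivity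
    have h1 : HasDerivAt (fun u : ℝ => (c + u)⁻¹) (-1 / (c + u) ^ 2) u :=
      ((hasDerivAt_id u).const_add c).inv hne
    have h2 : HasDerivAt (fun u : ℝ => -((c + u)⁻¹)) (-(-1 / (c + u) ^ 2)) u := h1.neg
    have e1 : (fun u : ℝ => -(1 / (c + u))) = fun u => -((c + u)⁻¹) := by
      funext v; simp [one_div]
    have e2 : 1 / (c + u) * (1 / (c + u)) = -(-1 / (c + u) ^ 2) := by
      field_simp
    rw [e1, e2]
    exact h2
  refine integrableOn_Ioi_deriv_of_nonneg (g := fun u : ℝ => - (1 / (c + u))) (l := 0) ?_ hderiv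
    ?_ ?_
  · apply ContinuousAt.continuousWithinAt
    apply ContinuousAt.neg
    exact ContinuousAt.div continuousAt_const (by fun_prop) (by simpa using hc.ne')
  · intro u hu
    have hu' : (0 : ℝ) < u := hu
    positivity
  · rw [← neg_zero]
    apply Tendsto.neg
    apply Tendsto.const_div_atTop
    exact tendsto_atTop_add_const_left _ _ tendsto_id

theorem main (X : ℝ → Mt N) (X' : Mt N) (t : ℝ)
    (hX : ∀ τ, (X τ).IsHermitian) (hpd : (X t).PosDef) (hd : HasDerivAt X X' t) (Y : Mt N) :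
    IntegrableOn (fun u : ℝ =>
      rtr ((X t + sc N u)⁻¹ * X' * (X t + sc N u)⁻¹ * Y)) (Set.Ioi 0) ∧
    HasDerivAt (fun τ => rtr (lg (X τ) * Y))
      (∫ u in Set.Ioi (0 : ℝ), rtr ((X t + sc N u)⁻¹ * X' * (X t + sc N u)⁻¹ * Y)) t := by
  obtain ⟨c, hc, hnear⟩ := near hpd
  obtain ⟨K, hK, hKb⟩ := exists_bound Y
  have hcont : ContinuousAt X t := contAt_of_deriv hd
  have hct : ∀ i, c ≤ (hX t).eigenvalues i := hnear _ (hX t) (by simpa using hc)
  -- slopes
  set Qf : ℝ → Mt N := fun τ => (((τ - t)⁻¹ : ℝ) : ℂ) • (X τ - X t) with hQf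
  have hQt : Tendsto Qf (𝓝[≠] t) (𝓝 X') := by
    refine tendsto_mt fun i j => ?_
    have h1 := (hasDerivAt_iff_tendsto_slope.1 ((hasDerivAt_iff_entry.1 hd) i j))
    refine h1.congr fun τ => ?_
    simp [slope, hQf]
  have hevt : ∀ᶠ τ in 𝓝[≠] t, ‖Qf τ‖ ≤ ‖X'‖ + 1 := by
    have h1 : Tendsto (fun τ => ‖Qf τ‖) (𝓝[≠] t) (𝓝 ‖X'‖) := hQt.norm
    exact (h1.eventually (gt_mem_nhds (lt_add_one _))).mono fun τ h => h.le
  have hevc : ∀ᶠ τ in 𝓝 t, ‖X τ - X t‖ < c := by
    have h1 : Tendsto (fun τ => ‖X τ - X t‖) (𝓝 t) (𝓝 ‖X t - X t‖) :=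
      (hcont.sub continuousAt_const).norm
    rw [sub_self, norm_zero] at h1
    exact h1.eventually (gt_mem_nhds hc)
  have hevc' : ∀ᶠ τ in 𝓝[≠] t, ∀ i, c ≤ (hX τ).eigenvalues i :=
    (hevc.filter_mono nhdsWithin_le_nhds).mono fun τ h => hnear _ (hX τ) h
  set F : ℝ → ℝ → ℝ := fun τ u => rtr ((X t + sc N u)⁻¹ * Qf τ * (X τ + sc N u)⁻¹ * Y) with hF
  have hposτ : ∀ τ, (∀ i, c ≤ (hX τ).eigenvalues i) → ∀ i, 0 < (hX τ).eigenvalues i :=
    fun τ h i => hc.trans_le (h i)
  -- pointwise bound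
  have hbd : ∀ (A B Q : Mt N) (q : ℝ) (u : ℝ), ‖A‖ ≤ 1 / (c + u) → ‖B‖ ≤ 1 / (c + u) →
      ‖Q‖ ≤ q → 0 < u → |rtr (A * Q * B * Y)| ≤ (K * q) * (1 / (c + u) * (1 / (c + u))) := by
    intro A B Q q u hA hB hQ hu
    have hq : 0 ≤ q := (norm_nonneg _).trans hQ
    have h0 : 0 ≤ 1 / (c + u) := by positivity
    refine (hKb _).trans ?_
    rw [mul_assoc K q]
    refine mul_le_mul_of_nonneg_left ?_ hK
    calc ‖A * Q * B‖ ≤ ‖A‖ * ‖Q‖ * ‖B‖ :=
          (norm_mul_le _ _).trans (mul_le_mul_of_nonneg_right (norm_mul_le _ _) (norm_nonneg _))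
      _ ≤ 1 / (c + u) * q * (1 / (c + u)) := by gcongr
      _ = q * (1 / (c + u) * (1 / (c + u))) := by ring
  have hmeas : ∀ (A B Q : Mt N) (hA : A.IsHermitian) (hB : B.IsHermitian)
      (_ : ∀ i, 0 < hA.eigenvalues i) (_ : ∀ i, 0 < hB.eigenvalues i),
      AEStronglyMeasurable (fun u : ℝ => rtr ((A + sc N u)⁻¹ * Q * (B + sc N u)⁻¹ * Y))
        (volume.restrict (Set.Ioi 0)) := by
    intro A B Q hA hB hA0 hB0
    apply ContinuousOn.aestronglyMeasurable _ measurableSet_Ioi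
    exact continuous_rtr.comp_continuousOn
      ((((contOn_res hA hA0).mul continuousOn_const).mul (contOn_res hB hB0)).mul
        continuousOn_const)
  have hint0 : IntegrableOn (fun u : ℝ =>
      rtr ((X t + sc N u)⁻¹ * X' * (X t + sc N u)⁻¹ * Y)) (Set.Ioi 0) := by
    refine Integrable.mono' (integrable_sq hc (K * ‖X'‖))
      (hmeas _ _ _ (hX t) (hX t) (hposτ t hct) (hposτ t hct)) ?_
    refine (ae_restrict_iff' measurableSet_Ioi).2 (ae_of_all _ fun u hu => ?_)
    have h1 := norm_inv_le (hX t) hc (show (0 : ℝ) < u from hu) hct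
    exact hbd _ _ _ _ _ h1 h1 le_rfl hu
  refine ⟨hint0, ?_⟩
  rw [hasDerivAt_iff_tendsto_slope]
  have hslope : ∀ᶠ τ in 𝓝[≠] t, slope (fun τ => rtr (lg (X τ) * Y)) t τ =
      ∫ u in Set.Ioi (0 : ℝ), F τ u := by
    filter_upwards [hevc', self_mem_nhdsWithin] with τ hτ hne
    have hne' : τ - t ≠ 0 := sub_ne_zero.2 hne
    obtain ⟨i1, e1⟩ := rtr_lg (hX τ) (hposτ τ hτ) Y
    obtain ⟨i2, e2⟩ := rtr_lg (hX t) (hposτ t hct) Y
    rw [slope_def_field, ← e1, ← e2, ← integral_sub i1 i2, div_eq_inv_mul,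
      ← integral_const_mul]
    refine setIntegral_congr_fun measurableSet_Ioi fun u hu => ?_
    have hu' : (0 : ℝ) < u := hu
    have hut : IsUnit (X t + sc N u) :=
      isUnit_res (hX t) (fun i => (add_pos (hposτ t hct i) hu').ne')
    have huτ : IsUnit (X τ + sc N u) :=
      isUnit_res (hX τ) (fun i => (add_pos (hposτ τ hτ i) hu').ne')
    have hdt : IsUnit (X t + sc N u).det := (Matrix.isUnit_iff_isUnit_det _).1 hut
    have hdτ : IsUnit (X τ + sc N u).det := (Matrix.isUnit_iff_isUnit_det _).1 huτ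
    have hres : (X t + sc N u)⁻¹ * (X τ - X t) * (X τ + sc N u)⁻¹ =
        (X t + sc N u)⁻¹ - (X τ + sc N u)⁻¹ := by
      have h1 : X τ - X t = (X τ + sc N u) - (X t + sc N u) := by abel
      rw [h1, mul_sub, Matrix.nonsing_inv_mul _ hdt, sub_mul, mul_assoc,
        Matrix.mul_nonsing_inv _ hdτ, mul_one, one_mul]
    show (τ - t)⁻¹ * (rtr Y / (1 + u) - rtr ((X τ + sc N u)⁻¹ * Y) -
      (rtr Y / (1 + u) - rtr ((X t + sc N u)⁻¹ * Y))) = F τ u
    have h2 : F τ u = (τ - t)⁻¹ * rtr (((X t + sc N u)⁻¹ * (X τ - X t) *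
        (X τ + sc N u)⁻¹) * Y) := by
      simp only [hF, hQf]
      rw [Matrix.mul_smul, Matrix.smul_mul, Matrix.smul_mul]
      unfold rtr
      rw [Matrix.trace_smul, smul_eq_mul, Complex.re_ofReal_mul]
    rw [h2, hres, sub_mul]
    unfold rtr
    rw [Matrix.trace_sub, Complex.sub_re]
    ring
  rw [tendsto_congr' hslope]
  refine tendsto_integral_filter_of_dominated_convergence
    (fun u => (K * (‖X'‖ + 1)) * (1 / (c + u) * (1 / (c + u)))) ?_ ?_
    (integrable_sq hc _) ?_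
  · filter_upwards [hevc'] with τ hτ
    exact hmeas _ _ _ (hX t) (hX τ) (hposτ t hct) (hposτ τ hτ)
  · filter_upwards [hevc', hevt] with τ hτ hq
    refine (ae_restrict_iff' measurableSet_Ioi).2 (ae_of_all _ fun u hu => ?_)
    have h1 := norm_inv_le (hX t) hc (show (0 : ℝ) < u from hu) hct
    have h2 := norm_inv_le (hX τ) hc (show (0 : ℝ) < u from hu) hτ
    exact hbd _ _ _ _ _ h1 h2 hq hu
  · refine (ae_restrict_iff' measurableSet_Ioi).2 (ae_of_all _ fun u hu => ?_)
    have hu' : (0 : ℝ) < u := hu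
    have hut : IsUnit (X t + sc N u) :=
      isUnit_res (hX t) (fun i => (add_pos (hposτ t hct i) hu').ne')
    have h1 : Tendsto (fun τ => (X τ + sc N u)⁻¹) (𝓝[≠] t) (𝓝 (X t + sc N u)⁻¹) :=
      (contAt_inv (hcont.add continuousAt_const) hut).tendsto.mono_left nhdsWithin_le_nhds
    exact (continuous_rtr.tendsto _).comp
      (((tendsto_const_nhds.mul hQt).mul h1).mul tendsto_const_nhds)

end norm

end DLOGa

theorem dlog : DLOG := fun _ X X' t hX hpd hd Y => DLOGa.main X X' t hX hpd hd Y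

end Crest.Agent.R332
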