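import Mathlib

open MeasureTheory Set Filter Topology Polynomial

namespace Crest.Agent.R332.Brouwer

/-- Lagrange weights: `p(1)` from the values of `p` at nodes in `[0, t0]`. -/
theorem exists_weights (n : ℕ) (t0 : ℝ) (h0 : 0 < t0) :
    ∃ (t w : ℕ → ℝ), (∀ i ∈ Finset.range (n+1), 0 ≤ t i ∧ t i ≤ t0) ∧
      ∀ p : ℝ[X], p.natDegree ≤ n →
        p.eval 1 = ∑ i ∈ Finset.range (n+1), w i * p.eval (t i) := by
  classical
  set t : ℕ → ℝ := fun i => t0 * (i / (n+1)) with ht
  have hn : (0:ℝ) < n + 1 := by positivity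
  have hinj : Set.InjOn t (Finset.range (n+1)) := by
    intro i _ j _ hij
    simp only [ht] at hij
    have h1 := mul_left_cancel₀ h0.ne' hij
    have h2 := (div_left_inj' hn.ne').1 h1
    exact_mod_cast h2
  refine ⟨t, fun i => (Lagrange.basis (Finset.range (n+1)) t i).eval 1, ?_, ?_⟩
  · intro i hi
    have hi' : (i:ℝ) ≤ n + 1 := by
      have := Finset.mem_range.1 hi
      have : i ≤ n + 1 := by omega
      exact_mod_cast this
    refine ⟨by positivity, ?_⟩
    simp only [ht]
    have : (i:ℝ) / (n+1) ≤ 1 := (div_le_one hn).2 hi'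
    nlinarith
  · intro p hp
    have h := Lagrange.eq_interpolate (s := Finset.range (n+1)) (v := t) (f := p) hinj (by
      rw [Finset.card_range]
      exact (Polynomial.degree_le_natDegree.trans_lt (by exact_mod_cast Nat.lt_succ_of_le hp)))
    conv_lhs => rw [h, Lagrange.interpolate_apply]
    rw [Polynomial.eval_finsetSum]
    refine Finset.sum_congr rfl fun i _ => ?_
    rw [Polynomial.eval_mul, Polynomial.eval_C, mul_comm]

theorem exists_detPoly {n : ℕ} (A : EuclideanSpace ℝ (Fin n) →L[ℝ] EuclideanSpace ℝ (Fin n)) :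
    ∃ p : ℝ[X], p.natDegree ≤ n ∧ ∀ t : ℝ, p.eval t =
      (ContinuousLinearMap.id ℝ (EuclideanSpace ℝ (Fin n)) + t • A).det := by
  classical
  let b := (EuclideanSpace.basisFun (Fin n) ℝ).toBasis
  let M := LinearMap.toMatrix b b (A : EuclideanSpace ℝ (Fin n) →ₗ[ℝ] EuclideanSpace ℝ (Fin n))
  refine ⟨Matrix.det ((X : ℝ[X]) • M.map C + (1 : Matrix (Fin n) (Fin n) ℝ).map C), ?_, fun t => ?_⟩
  · simpa using Polynomial.natDegree_det_X_add_C_le M 1
  · rw [← Polynomial.coe_evalRingHom, RingHom.map_det]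
    rw [ContinuousLinearMap.det, ← LinearMap.det_toMatrix b]
    congr 1
    have h1 : LinearMap.toMatrix b b
        (((ContinuousLinearMap.id ℝ (EuclideanSpace ℝ (Fin n)) + t • A :
          EuclideanSpace ℝ (Fin n) →L[ℝ] EuclideanSpace ℝ (Fin n))) :
          EuclideanSpace ℝ (Fin n) →ₗ[ℝ] EuclideanSpace ℝ (Fin n)) = 1 + t • M := by
      have : (((ContinuousLinearMap.id ℝ (EuclideanSpace ℝ (Fin n)) + t • A :
          EuclideanSpace ℝ (Fin n) →L[ℝ] EuclideanSpace ℝ (Fin n))) :
          EuclideanSpace ℝ (Fin n) →ₗ[ℝ] EuclideanSpace ℝ (Fin n)) =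
          LinearMap.id + t • (A : EuclideanSpace ℝ (Fin n) →ₗ[ℝ] EuclideanSpace ℝ (Fin n)) := rfl
      rw [this, map_add, LinearMap.toMatrix_id, map_smul]
    rw [h1]
    ext i j
    simp only [RingHom.mapMatrix_apply, Matrix.map_apply, Matrix.add_apply, Matrix.smul_apply,
      smul_eq_mul, Polynomial.coe_evalRingHom, Polynomial.eval_add, Polynomial.eval_mul,
      Polynomial.eval_X, Polynomial.eval_C]
    ring

/-- There is no `C^1` retraction of the unit ball on the unit sphere (Milnor, Rogers). -/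
theorem no_retraction {n : ℕ} (f : EuclideanSpace ℝ (Fin n) → EuclideanSpace ℝ (Fin n))
    (hf : ∀ x ∈ Metric.closedBall (0 : EuclideanSpace ℝ (Fin n)) 1, ContDiffAt ℝ 1 f x)
    (h1 : ∀ x ∈ Metric.closedBall (0 : EuclideanSpace ℝ (Fin n)) 1, ‖f x‖ = 1)
    (h2 : ∀ x, ‖x‖ = 1 → f x = x) : False := by
  classical
  set D := Metric.closedBall (0 : EuclideanSpace ℝ (Fin n)) 1 with hD
  set B := Metric.ball (0 : EuclideanSpace ℝ (Fin n)) 1 with hB
  have hBD : B ⊆ D := Metric.ball_subset_closedBall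
  set I : EuclideanSpace ℝ (Fin n) →L[ℝ] EuclideanSpace ℝ (Fin n) := ContinuousLinearMap.id ℝ (EuclideanSpace ℝ (Fin n)) with hI
  set G : EuclideanSpace ℝ (Fin n) → (EuclideanSpace ℝ (Fin n) →L[ℝ] EuclideanSpace ℝ (Fin n)) := fun x => fderiv ℝ f x - I with hG
  have hfd : ∀ x ∈ D, HasStrictFDerivAt f (fderiv ℝ f x) x :=
    fun x hx => (hf x hx).hasStrictFDerivAt one_ne_zero
  have hGc : ContinuousOn G D := by
    intro x hx
    have h : ContinuousAt (fderiv ℝ f) x := by
      have := (hf x hx).fderiv_right (m := 0) (by norm_num)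
      exact this.continuousAt
    exact (h.sub continuousAt_const).continuousWithinAt
  obtain ⟨C0, hC0⟩ : ∃ C : ℝ, ∀ x ∈ D, ‖G x‖ ≤ C :=
    (isCompact_closedBall (0:EuclideanSpace ℝ (Fin n)) 1).exists_bound_of_continuousOn hGc
  set C : ℝ := max C0 1 with hC
  have hC1 : 1 ≤ C := le_max_right _ _
  have hGC : ∀ x ∈ D, ‖G x‖ ≤ C := fun x hx => (hC0 x hx).trans (le_max_left _ _)
  set g : EuclideanSpace ℝ (Fin n) → EuclideanSpace ℝ (Fin n) := fun x => f x - x with hg
  have hgd : ∀ x ∈ D, HasStrictFDerivAt g (G x) x := fun x hx =>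
    (hfd x hx).fun_sub (hasStrictFDerivAt_id x)
  have hglip : ∀ x ∈ D, ∀ y ∈ D, ‖g y - g x‖ ≤ C * ‖y - x‖ := by
    intro x hx y hy
    exact Convex.norm_image_sub_le_of_norm_hasFDerivWithin_le
      (fun z hz => (hgd z hz).hasFDerivAt.hasFDerivWithinAt) hGC (convex_closedBall (0:EuclideanSpace ℝ (Fin n)) 1) hx hy
  set t0 : ℝ := 1 / (2 * C) with ht0
  have ht0pos : 0 < t0 := by positivity
  have ht0C : t0 * C = 1 / 2 := by rw [ht0]; field_simp
  -- the maps
  set φ : ℝ → EuclideanSpace ℝ (Fin n) → EuclideanSpace ℝ (Fin n) := fun t x => x + t • g x with hφ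
  have hφd : ∀ t, ∀ x ∈ D, HasStrictFDerivAt (φ t) (I + t • G x) x := fun t x hx =>
    (hasStrictFDerivAt_id x).fun_add ((hgd x hx).fun_const_smul t)
  -- small `t`
  have hsmall : ∀ t, 0 ≤ t → t ≤ t0 → ∀ x ∈ D, ∀ v : EuclideanSpace ℝ (Fin n), ‖v‖ ≤ 2 * ‖(I + t • G x) v‖ := by
    intro t ht ht' x hx v
    have h3 : ‖t • (G x v)‖ ≤ 1/2 * ‖v‖ := by
      rw [norm_smul, Real.norm_of_nonneg ht]
      have := (G x).le_opNorm v
      have h4 : ‖G x v‖ ≤ C * ‖v‖ := this.trans (by gcongr; exact hGC x hx)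
      calc t * ‖G x v‖ ≤ t0 * (C * ‖v‖) := by gcongr
        _ = 1/2 * ‖v‖ := by rw [← mul_assoc, ht0C]
    have h5 : (I + t • G x) v = v + t • (G x v) := rfl
    rw [h5]
    have h6 : ‖v‖ ≤ ‖v + t • (G x v)‖ + ‖t • (G x v)‖ := by
      have := norm_sub_le (v + t • (G x v)) (t • (G x v))
      simpa using this
    linarith
  have hker : ∀ t, 0 ≤ t → t ≤ t0 → ∀ x ∈ D, (I + t • G x).det ≠ 0 := by
    intro t ht ht' x hx h0
    have h3 := LinearMap.bot_lt_ker_of_det_eq_zero (f := ((I + t • G x : EuclideanSpace ℝ (Fin n) →L[ℝ] EuclideanSpace ℝ (Fin n)) : EuclideanSpace ℝ (Fin n) →ₗ[ℝ] EuclideanSpace ℝ (Fin n))) h0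
    obtain ⟨v, hv, hv0⟩ := (Submodule.ne_bot_iff _).1 h3.ne'
    have h4 : (I + t • G x) v = 0 := hv
    have h5 := hsmall t ht ht' x hx v
    rw [h4] at h5
    simp at h5
    exact hv0 h5
  have hpos : ∀ t, 0 ≤ t → t ≤ t0 → ∀ x ∈ D, 0 < (I + t • G x).det := by
    intro t ht ht' x hx
    by_contra hneg
    push Not at hneg
    obtain ⟨p, _, hp⟩ := exists_detPoly (G x)
    have hcont : ContinuousOn (fun s => p.eval s) (Set.Icc 0 t) := p.continuous.continuousOn
    have h0 : p.eval 0 = 1 := by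
      rw [hp 0]
      simp [ContinuousLinearMap.det]
    have h3 : (0:ℝ) ∈ Set.Icc (p.eval t) (p.eval 0) := by
      rw [h0, hp t]; exact ⟨hneg, zero_le_one⟩
    obtain ⟨s, hs, hs0⟩ := intermediate_value_Icc' ht hcont h3
    have h4 : p.eval s = 0 := hs0
    rw [hp s] at h4
    exact hker s hs.1 (hs.2.trans ht') x hx h4
  have hsurj : ∀ t, 0 ≤ t → t ≤ t0 → ∀ x ∈ D, (I + t • G x).range = ⊤ := by
    intro t ht ht' x hx
    have h3 : Function.Injective ((I + t • G x : EuclideanSpace ℝ (Fin n) →L[ℝ] EuclideanSpace ℝ (Fin n)) : EuclideanSpace ℝ (Fin n) →ₗ[ℝ] EuclideanSpace ℝ (Fin n)) := by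
      rw [injective_iff_map_eq_zero]
      intro v hv
      have h5 := hsmall t ht ht' x hx v
      have h6 : (I + t • G x) v = 0 := hv
      rw [h6] at h5
      simpa using h5
    exact LinearMap.range_eq_top.2 (LinearMap.injective_iff_surjective.1 h3)
  have hinj : ∀ t, 0 ≤ t → t ≤ t0 → Set.InjOn (φ t) D := by
    intro t ht ht' x hx y hy hxy
    have h3 : y - x = - (t • (g y - g x)) := by
      have : x + t • g x = y + t • g y := hxy
      rw [smul_sub]
      have h4 : y - x = t • g x - t • g y := by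
        rw [sub_eq_sub_iff_add_eq_add]
        rw [← this]; abel
      rw [h4]; abel
    have h4 : ‖y - x‖ ≤ 1/2 * ‖y - x‖ := by
      calc ‖y - x‖ = ‖t • (g y - g x)‖ := by rw [h3, norm_neg]
        _ = t * ‖g y - g x‖ := by rw [norm_smul, Real.norm_of_nonneg ht]
        _ ≤ t0 * (C * ‖y - x‖) := by
            gcongr
            exact hglip x hx y hy
        _ = 1/2 * ‖y - x‖ := by rw [← mul_assoc, ht0C]
    have h5 : ‖y - x‖ = 0 := le_antisymm (by linarith) (norm_nonneg _)
    exact (sub_eq_zero.1 (norm_eq_zero.1 h5)).symm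
  have hne : B.Nonempty := ⟨0, by simp [hB]⟩
  have himg : ∀ t, 0 ≤ t → t ≤ t0 → φ t '' B = B := by
    intro t ht ht'
    have ht1 : t < 1 := by
      have : t0 ≤ 1/2 := by
        rw [ht0]; rw [div_le_div_iff₀ (by positivity) (by norm_num)]; linarith
      linarith
    have hsub : φ t '' B ⊆ B := by
      rintro _ ⟨x, hx, rfl⟩
      have hx1 : ‖x‖ < 1 := by simpa [hB] using hx
      have hx2 := h1 x (hBD hx)
      have : φ t x = (1 - t) • x + t • f x := by
        simp only [hφ, hg, smul_sub, sub_smul, one_smul]; abel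
      have h3 : ‖φ t x‖ < 1 := by
        rw [this]
        calc ‖(1 - t) • x + t • f x‖ ≤ ‖(1 - t) • x‖ + ‖t • f x‖ := norm_add_le _ _
          _ = (1 - t) * ‖x‖ + t * ‖f x‖ := by
              rw [norm_smul, norm_smul, Real.norm_of_nonneg (by linarith : 0 ≤ 1 - t),
                Real.norm_of_nonneg ht]
          _ < 1 := by rw [hx2]; nlinarith
      simpa [hB] using h3
    refine Subset.antisymm hsub ?_
    have hop : IsOpen (φ t '' B) := by
      rw [isOpen_iff_mem_nhds]
      rintro _ ⟨x, hx, rfl⟩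
      rw [← (hφd t x (hBD hx)).map_nhds_eq_of_surj (hsurj t ht ht' x (hBD hx))]
      exact image_mem_map (Metric.isOpen_ball.mem_nhds hx)
    refine (convex_ball (0:EuclideanSpace ℝ (Fin n)) 1).isPreconnected.subset_of_closure_inter_subset hop ?_ ?_
    · obtain ⟨x, hx⟩ := hne
      exact ⟨φ t x, hsub ⟨x, hx, rfl⟩, ⟨x, hx, rfl⟩⟩
    · rintro y ⟨hy, hyB⟩
      have hcomp : IsCompact (φ t '' D) := by
        refine (isCompact_closedBall (0:EuclideanSpace ℝ (Fin n)) 1).image_of_continuousOn ?_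
        intro x hx
        exact (hφd t x hx).continuousAt.continuousWithinAt
      have hy' : y ∈ φ t '' D :=
        (closure_minimal (image_mono hBD) hcomp.isClosed) hy
      obtain ⟨x, hx, rfl⟩ := hy'
      by_cases hx1 : ‖x‖ = 1
      · exfalso
        have h3 : φ t x = x := by simp [hφ, hg, h2 x hx1]
        have hyB' : φ t x ∈ B := hyB
        rw [h3] at hyB'
        have : ‖x‖ < 1 := by simpa [hB] using hyB'
        linarith
      · have hx2 : ‖x‖ ≤ 1 := by simpa [hD] using hx
        exact ⟨x, by simpa [hB] using lt_of_le_of_ne hx2 hx1, rfl⟩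
  -- integrals
  have hmeas : MeasurableSet B := Metric.isOpen_ball.measurableSet
  have hdetc : ∀ t : ℝ, ContinuousOn (fun x => (I + t • G x).det) D := by
    intro t
    have hc : Continuous (fun A : EuclideanSpace ℝ (Fin n) →L[ℝ] EuclideanSpace ℝ (Fin n) => A.det) := ContinuousLinearMap.continuous_det
    exact hc.comp_continuousOn (continuousOn_const.add (hGc.const_smul t))
  have hint : ∀ t : ℝ, IntegrableOn (fun x => (I + t • G x).det) B volume := by
    intro t
    exact ((hdetc t).integrableOn_compact (isCompact_closedBall (0:EuclideanSpace ℝ (Fin n)) 1)).mono_set hBD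
  have hvol : ∀ t, 0 ≤ t → t ≤ t0 → ∫ x in B, (I + t • G x).det = (volume B).toReal := by
    intro t ht ht'
    have h3 := lintegral_abs_det_fderiv_eq_addHaar_image (volume : Measure (EuclideanSpace ℝ (Fin n))) hmeas
      (fun x hx => (hφd t x (hBD hx)).hasFDerivAt.hasFDerivWithinAt) ((hinj t ht ht').mono hBD)
    rw [himg t ht ht'] at h3
    rw [← h3, integral_eq_lintegral_of_nonneg_ae]
    · congr 1
      refine setLIntegral_congr_fun hmeas fun x hx => ?_
      rw [abs_of_pos (hpos t ht ht' x (hBD hx))]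
    · refine (ae_restrict_iff' hmeas).2 (Eventually.of_forall fun x hx => ?_)
      exact (hpos t ht ht' x (hBD hx)).le
    · exact (hint t).aestronglyMeasurable
  -- det at 1 vanishes
  have hdet1 : ∀ x ∈ B, (I + (1:ℝ) • G x).det = 0 := by
    intro x hx
    have h3 : I + (1:ℝ) • G x = fderiv ℝ f x := by
      rw [one_smul]
      exact add_sub_cancel I (fderiv ℝ f x)
    rw [h3]
    by_contra hne0
    have h4 : HasFDerivAt f (fderiv ℝ f x) x := (hfd x (hBD hx)).hasFDerivAt
    have h5 := h4.norm_sq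
    have h6 : (fun y => ‖f y‖ ^ 2) =ᶠ[𝓝 x] fun _ => (1:ℝ) := by
      filter_upwards [Metric.isOpen_ball.mem_nhds hx] with y hy
      rw [h1 y (hBD hy), one_pow]
    have h7 : HasFDerivAt (fun y => ‖f y‖ ^ 2) (0 : EuclideanSpace ℝ (Fin n) →L[ℝ] ℝ) x :=
      (hasFDerivAt_const (1:ℝ) x).congr_of_eventuallyEq h6
    have h8 := h5.unique h7
    let e := LinearMap.equivOfDetNeZero ((fderiv ℝ f x : EuclideanSpace ℝ (Fin n) →L[ℝ] EuclideanSpace ℝ (Fin n)) : EuclideanSpace ℝ (Fin n) →ₗ[ℝ] EuclideanSpace ℝ (Fin n)) hne0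
    have h9 : (fderiv ℝ f x) (e.symm (f x)) = f x := by
      have := e.apply_symm_apply (f x)
      exact this
    have h10 := congrArg (fun L : EuclideanSpace ℝ (Fin n) →L[ℝ] ℝ => L (e.symm (f x))) h8
    simp only [smul_apply, ContinuousLinearMap.comp_apply, innerSL_apply_apply,
      h9, zero_apply] at h10
    rw [real_inner_self_eq_norm_sq, h1 x (hBD hx)] at h10
    norm_num at h10
  obtain ⟨t, w, htb, hw⟩ := exists_weights n t0 ht0pos
  have hsum : ∀ x, (I + (1:ℝ) • G x).det =
      ∑ i ∈ Finset.range (n+1), w i * (I + t i • G x).det := by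
    intro x
    obtain ⟨p, hp1, hp⟩ := exists_detPoly (G x)
    rw [← hp 1, hw p hp1]
    exact Finset.sum_congr rfl fun i _ => by rw [hp (t i)]
  have hw1 : ∑ i ∈ Finset.range (n+1), w i = 1 := by
    have := hw 1 (by simp)
    simpa using this.symm
  have hfin : ∫ x in B, (I + (1:ℝ) • G x).det = (volume B).toReal := by
    calc ∫ x in B, (I + (1:ℝ) • G x).det
        = ∫ x in B, ∑ i ∈ Finset.range (n+1), w i * (I + t i • G x).det := by
          simp_rw [hsum]
      _ = ∑ i ∈ Finset.range (n+1), ∫ x in B, w i * (I + t i • G x).det := by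
          rw [integral_finsetSum]
          intro i _
          exact (hint (t i)).const_mul (w i)
      _ = ∑ i ∈ Finset.range (n+1), w i * (volume B).toReal := by
          refine Finset.sum_congr rfl fun i hi => ?_
          rw [integral_const_mul, hvol (t i) (htb i hi).1 (htb i hi).2]
      _ = (volume B).toReal := by rw [← Finset.sum_mul, hw1, one_mul]
  have hzero : ∫ x in B, (I + (1:ℝ) • G x).det = 0 := by
    rw [setIntegral_congr_fun hmeas (g := fun _ => (0:ℝ)) (fun x hx => hdet1 x hx)]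
    simp
  rw [hzero] at hfin
  have hvpos : 0 < (volume B).toReal := by
    refine ENNReal.toReal_pos ?_ ?_
    · exact (Metric.measure_ball_pos volume (0:EuclideanSpace ℝ (Fin n)) one_pos).ne'
    · exact measure_ball_lt_top.ne
  linarith

/-- Brouwer's theorem for `C^1` maps. -/
theorem brouwer_contDiff {n : ℕ} (P : EuclideanSpace ℝ (Fin n) → EuclideanSpace ℝ (Fin n))
    (hP : ContDiff ℝ 1 P)
    (hD : ∀ x, ‖x‖ ≤ 1 → ‖P x‖ ≤ 1) : ∃ x, ‖x‖ ≤ 1 ∧ P x = x := by
  by_contra hno
  push Not at hno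
  set u : EuclideanSpace ℝ (Fin n) → EuclideanSpace ℝ (Fin n) := fun x => x - P x with hu
  set a : EuclideanSpace ℝ (Fin n) → ℝ := fun x => ‖u x‖ ^ 2 with ha
  set b : EuclideanSpace ℝ (Fin n) → ℝ := fun x => inner ℝ x (u x) with hb
  set c : EuclideanSpace ℝ (Fin n) → ℝ := fun x => 1 - ‖x‖ ^ 2 with hc
  set Δ : EuclideanSpace ℝ (Fin n) → ℝ := fun x => b x ^ 2 + a x * c x with hΔ
  set l : EuclideanSpace ℝ (Fin n) → ℝ := fun x => (- b x + Real.sqrt (Δ x)) / a x with hl
  have hu0 : ∀ x, ‖x‖ ≤ 1 → u x ≠ 0 := by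
    intro x hx h
    exact hno x hx (sub_eq_zero.1 h).symm
  have ha0 : ∀ x, ‖x‖ ≤ 1 → 0 < a x := fun x hx => by
    have := norm_pos_iff.2 (hu0 x hx)
    simp only [ha]; positivity
  have hbs : ∀ x, ‖x‖ = 1 → 0 < b x := by
    intro x hx
    have h3 : a x = 1 - 2 * inner ℝ x (P x) + ‖P x‖ ^ 2 := by
      simp only [ha, hu]
      rw [norm_sub_sq_real, hx]; norm_num
    have h4 : b x = 1 - inner ℝ x (P x) := by
      simp only [hb, hu]
      rw [inner_sub_right, real_inner_self_eq_norm_sq, hx]; norm_num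
    have h5 := ha0 x hx.le
    have h6 : ‖P x‖ ^ 2 ≤ 1 := by
      have := hD x hx.le
      nlinarith [norm_nonneg (P x)]
    nlinarith
  have hΔ0 : ∀ x, ‖x‖ ≤ 1 → 0 < Δ x := by
    intro x hx
    rcases hx.eq_or_lt with h | h
    · have := hbs x h
      have h3 : c x = 0 := by simp [hc, h]
      simp only [hΔ, h3]
      positivity
    · have h3 : 0 < c x := by
        simp only [hc]
        nlinarith [norm_nonneg x]
      have h4 := ha0 x hx
      simp only [hΔ]
      positivity
  refine no_retraction (fun x => x + l x • u x) ?_ ?_ ?_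
  · intro x hx
    have hx' : ‖x‖ ≤ 1 := by simpa using hx
    have hud : ContDiffAt ℝ 1 u x := contDiffAt_id.sub hP.contDiffAt
    have had : ContDiffAt ℝ 1 a x := hud.norm_sq ℝ
    have hbd : ContDiffAt ℝ 1 b x := contDiffAt_id.inner ℝ hud
    have hcd : ContDiffAt ℝ 1 c x := contDiffAt_const.sub (contDiffAt_id.norm_sq ℝ)
    have hΔd : ContDiffAt ℝ 1 Δ x := (hbd.pow 2).add (had.mul hcd)
    have hld : ContDiffAt ℝ 1 l x :=
      (hbd.neg.add (hΔd.sqrt (hΔ0 x hx').ne')).div had (ha0 x hx').ne'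
    exact contDiffAt_id.add (hld.smul hud)
  · intro x hx
    have hx' : ‖x‖ ≤ 1 := by simpa using hx
    have h3 : ‖x + l x • u x‖ ^ 2 = 1 := by
      rw [norm_add_sq_real, inner_smul_right, norm_smul, mul_pow]
      have h4 : l x * a x = - b x + Real.sqrt (Δ x) := by
        simp only [hl]
        exact div_mul_cancel₀ _ (ha0 x hx').ne'
      have h5 : Real.sqrt (Δ x) ^ 2 = Δ x := Real.sq_sqrt (hΔ0 x hx').le
      have h6 : a x * (‖x‖ ^ 2 + 2 * (l x * b x) + l x ^ 2 * a x) = a x * 1 := by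
        have h7 : (l x * a x + b x) ^ 2 = Δ x := by
          have h8 : l x * a x + b x = Real.sqrt (Δ x) := by linarith
          rw [h8, h5]
        simp only [hΔ, hc] at h7
        nlinarith
      have h8 := mul_left_cancel₀ (ha0 x hx').ne' h6
      have h9 : ‖l x‖ ^ 2 = l x ^ 2 := by rw [Real.norm_eq_abs, sq_abs]
      rw [h9]
      exact h8
    have h4 : (0:ℝ) ≤ ‖x + l x • u x‖ := norm_nonneg _
    nlinarith [sq_nonneg (‖x + l x • u x‖ - 1)]
  · intro x hx
    have h3 : c x = 0 := by simp [hc, hx]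
    have h4 : l x = 0 := by
      simp only [hl, hΔ, h3, mul_zero, add_zero]
      rw [Real.sqrt_sq (hbs x hx).le]
      simp
    simp [h4]

/-- Brouwer's theorem for the unit ball (total version). -/
theorem brouwer_total {n : ℕ} (F : EuclideanSpace ℝ (Fin n) → EuclideanSpace ℝ (Fin n))
    (hF : Continuous F) (hD : ∀ x, ‖F x‖ ≤ 1) : ∃ x, ‖x‖ ≤ 1 ∧ F x = x := by
  by_contra hno
  push Not at hno
  have hcomp : IsCompact (Metric.closedBall (0 : EuclideanSpace ℝ (Fin n)) 1) :=
    isCompact_closedBall _ _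
  obtain ⟨x0, hx0, hmin⟩ := hcomp.exists_isMinOn ⟨0, by simp⟩
    (f := fun x => ‖F x - x‖) (hF.sub continuous_id).norm.continuousOn
  have hδ : 0 < ‖F x0 - x0‖ := by
    rw [norm_pos_iff, sub_ne_zero]
    exact hno x0 (by simpa using hx0)
  set ε : ℝ := ‖F x0 - x0‖ / 4 with hε
  have hε0 : 0 < ε := by positivity
  obtain ⟨g, hg⟩ := exists_contMDiffMap_forall_mem_convex_of_local_const
    (I := modelWithCornersSelf ℝ (EuclideanSpace ℝ (Fin n))) (M := EuclideanSpace ℝ (Fin n))
    (F := EuclideanSpace ℝ (Fin n)) (n := (1 : ℕ∞))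
    (t := fun x => Metric.ball (F x) ε) (fun x => convex_ball _ _) (by
      intro x
      refine ⟨F x, ?_⟩
      have := hF.continuousAt.eventually (Metric.ball_mem_nhds (F x) hε0)
      filter_upwards [this] with y hy
      rw [Metric.mem_ball'] 
      exact hy)
  have hgs : ContDiff ℝ 1 (g : EuclideanSpace ℝ (Fin n) → EuclideanSpace ℝ (Fin n)) := by
    have := g.contMDiff
    rw [contMDiff_iff_contDiff] at this
    exact_mod_cast this
  have hgF : ∀ x, ‖g x - F x‖ < ε := fun x => by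
    have := hg x
    rwa [Metric.mem_ball, dist_eq_norm] at this
  obtain ⟨x, hx, hfix⟩ := brouwer_contDiff (fun x => (1 + ε)⁻¹ • g x) (hgs.const_smul _) (by
    intro x _
    rw [norm_smul, norm_inv, Real.norm_of_nonneg (by positivity : (0:ℝ) ≤ 1 + ε)]
    rw [inv_mul_le_iff₀ (by positivity)]
    have : ‖g x‖ ≤ ‖g x - F x‖ + ‖F x‖ := by
      simpa using norm_add_le (g x - F x) (F x)
    have h3 := hgF x
    have h4 := hD x
    linarith)
  have h3 : g x = (1 + ε) • x := by
    rw [← hfix, smul_smul, mul_inv_cancel₀ (by positivity), one_smul, hfix]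
  have h4 : ‖F x - x‖ ≤ ε + ε := by
    have h5 : F x - x = (F x - g x) + ε • x := by
      rw [h3, add_smul, one_smul]; abel
    rw [h5]
    refine (norm_add_le _ _).trans ?_
    rw [norm_sub_rev, norm_smul, Real.norm_of_nonneg hε0.le]
    have := hgF x
    nlinarith
  have h5 : ‖F x0 - x0‖ ≤ ‖F x - x‖ := hmin (by simpa using hx)
  linarith

/-- Brouwer's theorem, closed unit ball. -/
theorem brouwer_closedBall {n : ℕ}
    (f : Metric.closedBall (0 : EuclideanSpace ℝ (Fin n)) 1 →
      Metric.closedBall (0 : EuclideanSpace ℝ (Fin n)) 1) (hf : Continuous f) :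
    ∃ x, f x = x := by
  have hr : ∀ x : EuclideanSpace ℝ (Fin n), (max 1 ‖x‖)⁻¹ • x ∈
      Metric.closedBall (0 : EuclideanSpace ℝ (Fin n)) 1 := by
    intro x
    have h0 : (0:ℝ) < max 1 ‖x‖ := lt_of_lt_of_le one_pos (le_max_left _ _)
    rw [mem_closedBall_zero_iff, norm_smul, norm_inv, Real.norm_of_nonneg h0.le,
      inv_mul_le_iff₀ h0, mul_one]
    exact le_max_right _ _
  have hrc : Continuous fun x : EuclideanSpace ℝ (Fin n) => (max 1 ‖x‖)⁻¹ • x := by
    refine Continuous.smul (Continuous.inv₀ (continuous_const.max continuous_norm) ?_) continuous_id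
    intro x
    exact (lt_of_lt_of_le one_pos (le_max_left _ _)).ne'
  obtain ⟨x, hx, hfx⟩ := brouwer_total
    (fun x => (f ⟨_, hr x⟩ : EuclideanSpace ℝ (Fin n)))
    (continuous_subtype_val.comp (hf.comp (hrc.subtype_mk hr)))
    (fun x => by
      have := (f ⟨_, hr x⟩).2
      rwa [mem_closedBall_zero_iff] at this)
  have h1 : (max 1 ‖x‖)⁻¹ • x = x := by
    rw [max_eq_left hx, inv_one, one_smul]
  refine ⟨⟨x, by simpa using hx⟩, Subtype.ext ?_⟩
  have h2 : (⟨_, hr x⟩ : Metric.closedBall (0 : EuclideanSpace ℝ (Fin n)) 1) =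
      ⟨x, by simpa using hx⟩ := Subtype.ext h1
  rw [h2] at hfx
  exact hfx

/-- Brouwer's theorem for compact convex sets of a Euclidean space. -/
theorem brouwer_euclidean {n : ℕ} {K : Set (EuclideanSpace ℝ (Fin n))} (hK : IsCompact K)
    (hc : Convex ℝ K) (hne : K.Nonempty)
    (f : EuclideanSpace ℝ (Fin n) → EuclideanSpace ℝ (Fin n)) (hf : ContinuousOn f K)
    (hm : MapsTo f K K) : ∃ x ∈ K, f x = x := by
  have hex := fun u => exists_norm_eq_iInf_of_complete_convex hne hK.isComplete hc u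
  choose π hπK hπ using hex
  have hπ' : ∀ u, ∀ w ∈ K, inner ℝ (u - π u) (w - π u) ≤ 0 := fun u =>
    (norm_eq_iInf_iff_real_inner_le_zero hc (hπK u)).1 (hπ u)
  have hlip : LipschitzWith 1 π := by
    refine LipschitzWith.of_dist_le_mul fun x y => ?_
    rw [dist_eq_norm, dist_eq_norm, NNReal.coe_one, one_mul]
    have h1 := hπ' x (π y) (hπK y)
    have h2 := hπ' y (π x) (hπK x)
    have h3 : inner ℝ (π x - π y) (π x - π y) ≤ inner ℝ (x - y) (π x - π y) := by
      have e1 : inner ℝ (x - π x) (π y - π x) + inner ℝ (y - π y) (π x - π y) =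
          inner ℝ (π x - π y) (π x - π y) - inner ℝ (x - y) (π x - π y) := by
        have e2 : π y - π x = - (π x - π y) := by abel
        rw [e2, inner_neg_right, ← sub_eq_neg_add, ← inner_sub_left, ← inner_sub_left]
        congr 1; abel
      linarith
    rw [real_inner_self_eq_norm_sq] at h3
    have h4 := real_inner_le_norm (x - y) (π x - π y)
    by_cases h5 : ‖π x - π y‖ = 0
    · rw [h5]; exact norm_nonneg _
    · have h6 : 0 < ‖π x - π y‖ := lt_of_le_of_ne (norm_nonneg _) (Ne.symm h5)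
      nlinarith
  have hπid : ∀ x ∈ K, π x = x := by
    intro x hx
    have h1 := hπ' x x hx
    rw [real_inner_self_eq_norm_sq] at h1
    have h2 : ‖x - π x‖ = 0 := by nlinarith [norm_nonneg (x - π x)]
    exact (sub_eq_zero.1 (norm_eq_zero.1 h2)).symm
  obtain ⟨R, hR⟩ := hK.isBounded.exists_norm_le
  set R' : ℝ := max R 1 with hR'
  have hR0 : 0 < R' := lt_of_lt_of_le one_pos (le_max_right _ _)
  obtain ⟨x, _, hfx⟩ := brouwer_total (fun x => R'⁻¹ • f (π (R' • x)))
    (by
      have h1 : Continuous (fun x => f (π (R' • x))) :=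
        hf.comp_continuous (hlip.continuous.comp (continuous_const_smul R')) (fun x => hπK _)
      exact h1.const_smul (R'⁻¹ : ℝ))
    (fun x => by
      rw [norm_smul, norm_inv, Real.norm_of_nonneg hR0.le, inv_mul_le_iff₀ hR0, mul_one]
      exact (hR _ (hm (hπK _))).trans (le_max_left _ _))
  have h1 : f (π (R' • x)) = R' • x := by
    conv_rhs => rw [← hfx]
    rw [smul_smul, mul_inv_cancel₀ hR0.ne', one_smul]
  have h2 : R' • x ∈ K := by rw [← h1]; exact hm (hπK _)
  refine ⟨R' • x, h2, ?_⟩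
  rw [hπid _ h2] at h1
  exact h1

/-- Brouwer's theorem: every continuous self map of a nonempty compact convex subset of a
finite-dimensional real normed space has a fixed point. -/
theorem brouwer {E : Type*} [NormedAddCommGroup E] [NormedSpace ℝ E] [FiniteDimensional ℝ E]
    {K : Set E} (hK : IsCompact K) (hc : Convex ℝ K) (hne : K.Nonempty)
    (f : E → E) (hf : ContinuousOn f K) (hm : MapsTo f K K) : ∃ x ∈ K, f x = x := by
  let e := toEuclidean (E := E)
  obtain ⟨x, hx, hfx⟩ := brouwer_euclidean (K := e '' K) (hK.image e.continuous)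
    (hc.is_linear_image e.toLinearEquiv.toLinearMap.isLinear) (hne.image e) (fun x => e (f (e.symm x)))
    (by
      refine e.continuous.comp_continuousOn (hf.comp e.symm.continuous.continuousOn ?_)
      rintro _ ⟨y, hy, rfl⟩
      simpa using hy)
    (by
      rintro _ ⟨y, hy, rfl⟩
      refine ⟨f y, hm hy, ?_⟩
      simp)
  obtain ⟨y, hy, rfl⟩ := hx
  refine ⟨y, hy, ?_⟩
  simpa using hfx

/-- Brouwer's theorem, version for maps of the subtype. -/
theorem brouwer_subtype {E : Type*} [NormedAddCommGroup E] [NormedSpace ℝ E]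
    [FiniteDimensional ℝ E] {K : Set E} (hK : IsCompact K) (hc : Convex ℝ K) (hne : K.Nonempty)
    (f : K → K) (hf : Continuous f) : ∃ x, f x = x := by
  classical
  obtain ⟨x, hx, hfx⟩ := brouwer hK hc hne
    (fun x => if h : x ∈ K then (f ⟨x, h⟩ : E) else x)
    (by
      rw [continuousOn_iff_continuous_domRestrict]
      have : (K.domRestrict fun x => if h : x ∈ K then (f ⟨x, h⟩ : E) else x) =
          fun x : K => (f x : E) := by
        funext x
        simp [Set.domRestrict]
      rw [this]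
      exact continuous_subtype_val.comp hf)
    (by
      intro x hx
      simp [hx])
  refine ⟨⟨x, hx⟩, Subtype.ext ?_⟩
  simpa [hx] using hfx

end Crest.Agent.R332.Brouwer
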