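import Crest.Agent.R332.Defs

/-! Derivative toolkit for matrix valued curves (topology `instTopologicalSpaceMatrix`,
no norm instance in the statements). -/

set_option autoImplicit false

open MeasureTheory Matrix Filter Topology
open Crest.MathPhysics.LiebThirring
open scoped ComplexOrder

namespace Crest.Agent.R332

section
variable {m N K : ℕ}

section norm
attribute [local instance] Matrix.normedAddCommGroup Matrix.normedSpace

theorem hasDerivWithinAt_iff_entry {A : ℝ → Rc m N} {A' : Rc m N} {s : Set ℝ} {x : ℝ} :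
    HasDerivWithinAt A A' s x ↔
      ∀ i j, HasDerivWithinAt (fun y => A y i j) (A' i j) s x := by
  have h1 : HasDerivWithinAt A A' s x ↔ ∀ i, HasDerivWithinAt (fun y => A y i) (A' i) s x :=
    hasDerivWithinAt_pi
  rw [h1]
  exact forall_congr' fun i => hasDerivWithinAt_pi

theorem hasDerivAt_iff_entry {A : ℝ → Rc m N} {A' : Rc m N} {x : ℝ} :
    HasDerivAt A A' x ↔ ∀ i j, HasDerivAt (fun y => A y i j) (A' i j) x := by
  have h1 : HasDerivAt A A' x ↔ ∀ i, HasDerivAt (fun y => A y i) (A' i) x :=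
    hasDerivAt_pi
  rw [h1]
  exact forall_congr' fun i => hasDerivAt_pi

theorem contAt_of_deriv {A : ℝ → Rc m N} {A' : Rc m N} {x : ℝ}
    (h : HasDerivAt A A' x) : ContinuousAt A x := by
  exact HasDerivAt.continuousAt h

theorem contWithinAt_of_deriv {A : ℝ → Rc m N} {A' : Rc m N} {s : Set ℝ} {x : ℝ}
    (h : HasDerivWithinAt A A' s x) : ContinuousWithinAt A s x := by
  exact HasDerivWithinAt.continuousWithinAt h

end norm

theorem cont_of_deriv {A A' : ℝ → Rc m N} (h : ∀ x, HasDerivAt A (A' x) x) :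
    Continuous A := continuous_iff_continuousAt.2 fun x => contAt_of_deriv (h x)

theorem contOn_of_deriv {A A' : ℝ → Rc m N} {s : Set ℝ}
    (h : ∀ x ∈ s, HasDerivWithinAt A (A' x) s x) : ContinuousOn A s :=
  fun x hx => contWithinAt_of_deriv (h x hx)

theorem HDW.mul {A : ℝ → Rc m N} {B : ℝ → Rc N K} {A' : Rc m N} {B' : Rc N K} {s : Set ℝ}
    {x : ℝ} (hA : HasDerivWithinAt A A' s x) (hB : HasDerivWithinAt B B' s x) :
    HasDerivWithinAt (fun y => A y * B y) (A' * B x + A x * B') s x := by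
  rw [hasDerivWithinAt_iff_entry] at hA hB ⊢
  intro i j
  have : HasDerivWithinAt (fun y => ∑ k, A y i k * B y k j)
      (∑ k, (A' i k * B x k j + A x i k * B' k j)) s x :=
    HasDerivWithinAt.fun_sum fun k _ => (hA i k).mul (hB k j)
  rw [Matrix.add_apply, Matrix.mul_apply, Matrix.mul_apply, ← Finset.sum_add_distrib]
  exact this

theorem HD.mul {A : ℝ → Rc m N} {B : ℝ → Rc N K} {A' : Rc m N} {B' : Rc N K}
    {x : ℝ} (hA : HasDerivAt A A' x) (hB : HasDerivAt B B' x) :
    HasDerivAt (fun y => A y * B y) (A' * B x + A x * B') x := by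
  rw [hasDerivAt_iff_entry] at hA hB ⊢
  intro i j
  have : HasDerivAt (fun y => ∑ k, A y i k * B y k j)
      (∑ k, (A' i k * B x k j + A x i k * B' k j)) x :=
    HasDerivAt.fun_sum fun k _ => (hA i k).mul (hB k j)
  rw [Matrix.add_apply, Matrix.mul_apply, Matrix.mul_apply, ← Finset.sum_add_distrib]
  exact this

theorem HDW.add {A B : ℝ → Rc m N} {A' B' : Rc m N} {s : Set ℝ}
    {x : ℝ} (hA : HasDerivWithinAt A A' s x) (hB : HasDerivWithinAt B B' s x) :
    HasDerivWithinAt (fun y => A y + B y) (A' + B') s x := by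
  rw [hasDerivWithinAt_iff_entry] at hA hB ⊢
  exact fun i j => (hA i j).add (hB i j)

theorem HD.add {A B : ℝ → Rc m N} {A' B' : Rc m N}
    {x : ℝ} (hA : HasDerivAt A A' x) (hB : HasDerivAt B B' x) :
    HasDerivAt (fun y => A y + B y) (A' + B') x := by
  rw [hasDerivAt_iff_entry] at hA hB ⊢
  exact fun i j => (hA i j).add (hB i j)

theorem HDW.sub {A B : ℝ → Rc m N} {A' B' : Rc m N} {s : Set ℝ}
    {x : ℝ} (hA : HasDerivWithinAt A A' s x) (hB : HasDerivWithinAt B B' s x) :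
    HasDerivWithinAt (fun y => A y - B y) (A' - B') s x := by
  rw [hasDerivWithinAt_iff_entry] at hA hB ⊢
  exact fun i j => (hA i j).sub (hB i j)

theorem HD.sub {A B : ℝ → Rc m N} {A' B' : Rc m N}
    {x : ℝ} (hA : HasDerivAt A A' x) (hB : HasDerivAt B B' x) :
    HasDerivAt (fun y => A y - B y) (A' - B') x := by
  rw [hasDerivAt_iff_entry] at hA hB ⊢
  exact fun i j => (hA i j).sub (hB i j)

theorem HDW.neg {A : ℝ → Rc m N} {A' : Rc m N} {s : Set ℝ}
    {x : ℝ} (hA : HasDerivWithinAt A A' s x) :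
    HasDerivWithinAt (fun y => - A y) (- A') s x := by
  rw [hasDerivWithinAt_iff_entry] at hA ⊢
  exact fun i j => (hA i j).neg

theorem HD.neg {A : ℝ → Rc m N} {A' : Rc m N} {x : ℝ} (hA : HasDerivAt A A' x) :
    HasDerivAt (fun y => - A y) (- A') x := by
  rw [hasDerivAt_iff_entry] at hA ⊢
  exact fun i j => (hA i j).neg

theorem HDW.const (A : Rc m N) (s : Set ℝ) (x : ℝ) :
    HasDerivWithinAt (fun _ : ℝ => A) 0 s x := by
  rw [hasDerivWithinAt_iff_entry]
  exact fun i j => hasDerivWithinAt_const x s (A i j)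

theorem HD.const (A : Rc m N) (x : ℝ) : HasDerivAt (fun _ : ℝ => A) 0 x := by
  rw [hasDerivAt_iff_entry]
  exact fun i j => hasDerivAt_const x (A i j)

theorem HDW.mul_left (C : Rc K m) {A : ℝ → Rc m N} {A' : Rc m N} {s : Set ℝ}
    {x : ℝ} (hA : HasDerivWithinAt A A' s x) :
    HasDerivWithinAt (fun y => C * A y) (C * A') s x := by
  simpa using HDW.mul (HDW.const C s x) hA

theorem HD.mul_left (C : Rc K m) {A : ℝ → Rc m N} {A' : Rc m N}
    {x : ℝ} (hA : HasDerivAt A A' x) : HasDerivAt (fun y => C * A y) (C * A') x := by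
  simpa using HD.mul (HD.const C x) hA

theorem HDW.mul_right (C : Rc N K) {A : ℝ → Rc m N} {A' : Rc m N} {s : Set ℝ}
    {x : ℝ} (hA : HasDerivWithinAt A A' s x) :
    HasDerivWithinAt (fun y => A y * C) (A' * C) s x := by
  simpa using HDW.mul hA (HDW.const C s x)

theorem HD.mul_right (C : Rc N K) {A : ℝ → Rc m N} {A' : Rc m N}
    {x : ℝ} (hA : HasDerivAt A A' x) : HasDerivAt (fun y => A y * C) (A' * C) x := by
  simpa using HD.mul hA (HD.const C x)

theorem HDW.smul {f : ℝ → ℝ} {f' : ℝ} {A : ℝ → Rc m N} {A' : Rc m N} {s : Set ℝ}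
    {x : ℝ} (hf : HasDerivWithinAt f f' s x) (hA : HasDerivWithinAt A A' s x) :
    HasDerivWithinAt (fun y => ((f y : ℝ) : ℂ) • A y)
      (((f' : ℝ) : ℂ) • A x + ((f x : ℝ) : ℂ) • A') s x := by
  rw [hasDerivWithinAt_iff_entry] at hA ⊢
  intro i j
  have h : HasDerivWithinAt (fun y => ((f y : ℝ) : ℂ) * A y i j)
      (((f' : ℝ) : ℂ) * A x i j + ((f x : ℝ) : ℂ) * A' i j) s x := (hf.ofReal_comp).mul (hA i j)
  exact h

theorem HD.smul {f : ℝ → ℝ} {f' : ℝ} {A : ℝ → Rc m N} {A' : Rc m N}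
    {x : ℝ} (hf : HasDerivAt f f' x) (hA : HasDerivAt A A' x) :
    HasDerivAt (fun y => ((f y : ℝ) : ℂ) • A y)
      (((f' : ℝ) : ℂ) • A x + ((f x : ℝ) : ℂ) • A') x := by
  rw [hasDerivAt_iff_entry] at hA ⊢
  intro i j
  have h : HasDerivAt (fun y => ((f y : ℝ) : ℂ) * A y i j)
      (((f' : ℝ) : ℂ) * A x i j + ((f x : ℝ) : ℂ) * A' i j) x := (hf.ofReal_comp).mul (hA i j)
  exact h

theorem HDW.csmul (c : ℂ) {A : ℝ → Rc m N} {A' : Rc m N} {s : Set ℝ}
    {x : ℝ} (hA : HasDerivWithinAt A A' s x) :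
    HasDerivWithinAt (fun y => c • A y) (c • A') s x := by
  rw [hasDerivWithinAt_iff_entry] at hA ⊢
  intro i j
  simpa [Matrix.smul_apply, smul_eq_mul] using (hA i j).const_mul c

theorem HD.csmul (c : ℂ) {A : ℝ → Rc m N} {A' : Rc m N}
    {x : ℝ} (hA : HasDerivAt A A' x) : HasDerivAt (fun y => c • A y) (c • A') x := by
  rw [hasDerivAt_iff_entry] at hA ⊢
  intro i j
  simpa [Matrix.smul_apply, smul_eq_mul] using (hA i j).const_mul c

theorem HDW.conjT {A : ℝ → Rc m N} {A' : Rc m N} {s : Set ℝ}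
    {x : ℝ} (hA : HasDerivWithinAt A A' s x) :
    HasDerivWithinAt (fun y => (A y)ᴴ) (A'ᴴ) s x := by
  rw [hasDerivWithinAt_iff_entry] at hA ⊢
  intro i j
  simpa [Matrix.conjTranspose_apply] using (hA j i).star

theorem HD.conjT {A : ℝ → Rc m N} {A' : Rc m N}
    {x : ℝ} (hA : HasDerivAt A A' x) : HasDerivAt (fun y => (A y)ᴴ) (A'ᴴ) x := by
  rw [hasDerivAt_iff_entry] at hA ⊢
  intro i j
  simpa [Matrix.conjTranspose_apply] using (hA j i).star

theorem HDW.re {f : ℝ → ℂ} {f' : ℂ} {s : Set ℝ} {x : ℝ} (h : HasDerivWithinAt f f' s x) :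
    HasDerivWithinAt (fun y => (f y).re) f'.re s x := by
  have := (Complex.reCLM.hasFDerivAt.comp_hasDerivWithinAt x h)
  exact this

theorem HD.re {f : ℝ → ℂ} {f' : ℂ} {x : ℝ} (h : HasDerivAt f f' x) :
    HasDerivAt (fun y => (f y).re) f'.re x := by
  have := (Complex.reCLM.hasFDerivAt.comp_hasDerivAt x h)
  exact this

theorem HDW.rtr {A : ℝ → Mt N} {A' : Mt N} {s : Set ℝ}
    {x : ℝ} (hA : HasDerivWithinAt A A' s x) :
    HasDerivWithinAt (fun y => rtr (A y)) (rtr A') s x := by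
  rw [hasDerivWithinAt_iff_entry] at hA
  have : HasDerivWithinAt (fun y => ∑ k, A y k k) (∑ k, A' k k) s x :=
    HasDerivWithinAt.fun_sum fun k _ => hA k k
  exact HDW.re this

theorem HD.rtr {A : ℝ → Mt N} {A' : Mt N}
    {x : ℝ} (hA : HasDerivAt A A' x) : HasDerivAt (fun y => rtr (A y)) (rtr A') x := by
  rw [hasDerivAt_iff_entry] at hA
  have : HasDerivAt (fun y => ∑ k, A y k k) (∑ k, A' k k) x :=
    HasDerivAt.fun_sum fun k _ => hA k k
  exact HD.re this

theorem continuous_rtr : Continuous (rtr : Mt N → ℝ) := by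
  unfold rtr
  exact Complex.continuous_re.comp (Continuous.matrix_trace continuous_id)

theorem continuous_fro2' : Continuous (fro2 : Rc m N → ℝ) := by
  unfold fro2
  refine continuous_finsetSum _ fun i _ => continuous_finsetSum _ fun j _ => ?_
  exact ((continuous_id.matrix_elem i j).norm).pow 2

theorem continuous_fro' : Continuous (fro : Rc m N → ℝ) :=
  Real.continuous_sqrt.comp continuous_fro2'

/-- quadratic form derivative: for a fixed vector -/
theorem HDW.quad {A : ℝ → Mt N} {A' : Mt N} {s : Set ℝ}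
    {x : ℝ} (v : Fin N → ℂ) (hA : HasDerivWithinAt A A' s x) :
    HasDerivWithinAt (fun y => (star v ⬝ᵥ (A y *ᵥ v)).re) (star v ⬝ᵥ (A' *ᵥ v)).re s x := by
  rw [hasDerivWithinAt_iff_entry] at hA
  refine HDW.re ?_
  have : HasDerivWithinAt (fun y => ∑ i, star (v i) * ∑ j, A y i j * v j)
      (∑ i, star (v i) * ∑ j, A' i j * v j) s x :=
    HasDerivWithinAt.fun_sum fun i _ =>
      (HasDerivWithinAt.fun_sum fun j _ => (hA i j).mul_const (v j)).const_mul _
  exact this

theorem HD.quad {A : ℝ → Mt N} {A' : Mt N}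
    {x : ℝ} (v : Fin N → ℂ) (hA : HasDerivAt A A' x) :
    HasDerivAt (fun y => (star v ⬝ᵥ (A y *ᵥ v)).re) (star v ⬝ᵥ (A' *ᵥ v)).re x := by
  rw [hasDerivAt_iff_entry] at hA
  refine HD.re ?_
  have : HasDerivAt (fun y => ∑ i, star (v i) * ∑ j, A y i j * v j)
      (∑ i, star (v i) * ∑ j, A' i j * v j) x :=
    HasDerivAt.fun_sum fun i _ =>
      (HasDerivAt.fun_sum fun j _ => (hA i j).mul_const (v j)).const_mul _
  exact this

end

end Crest.Agent.R332
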