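import Mathlib

/-!
# Global ODE existence and continuous dependence (row 332, G3)

* `ODE3.exists_sol`: a field `f : ℝ → E → E`, `K`-Lipschitz in `y` for every `t ∈ [a,b]`, continuous in
  `t ∈ [a,b]` for every `y`, has for every `y₀` a solution on `[a,b]` with `y a = y₀`.
* `ODE3.unique`: uniqueness.
* `ODE3.param_unif`: uniform continuous dependence on a parameter and on the initial value.
* `ODE3.param_cont`: joint continuity in `(p,t)`.
-/

set_option autoImplicit false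

open Set Filter Topology
open scoped NNReal

namespace Crest.Agent.R332
namespace ODE3

variable {E : Type*} [NormedAddCommGroup E] [NormedSpace ℝ E]

/-- radial retraction on the ball of radius `R` -/
noncomputable def ret (R : ℝ) (y : E) : E := (R / max R ‖y‖) • y

theorem ret_of_le {R : ℝ} (hR : 0 < R) {y : E} (hy : ‖y‖ ≤ R) : ret R y = y := by
  unfold ret
  rw [max_eq_left hy, div_self hR.ne', one_smul]

theorem norm_ret_le {R : ℝ} (hR : 0 < R) (y : E) : ‖ret R y‖ ≤ R := by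
  unfold ret
  have hm : 0 < max R ‖y‖ := lt_of_lt_of_le hR (le_max_left _ _)
  rw [norm_smul, Real.norm_eq_abs, abs_of_pos (div_pos hR hm), div_mul_eq_mul_div,
    div_le_iff₀ hm]
  exact mul_le_mul_of_nonneg_left (le_max_right _ _) hR.le

theorem norm_ret_le_norm {R : ℝ} (hR : 0 < R) (y : E) : ‖ret R y‖ ≤ ‖y‖ := by
  unfold ret
  have hm : 0 < max R ‖y‖ := lt_of_lt_of_le hR (le_max_left _ _)
  rw [norm_smul, Real.norm_eq_abs, abs_of_pos (div_pos hR hm)]
  have : R / max R ‖y‖ ≤ 1 := (div_le_one hm).2 (le_max_left _ _)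
  exact mul_le_of_le_one_left (norm_nonneg _) this

theorem lip_ret {R : ℝ} (hR : 0 < R) : LipschitzWith 2 (ret (E := E) R) := by
  refine LipschitzWith.of_dist_le_mul fun x y => ?_
  rw [dist_eq_norm, dist_eq_norm]
  set a := max R ‖x‖ with ha
  set b := max R ‖y‖ with hb
  have ha0 : 0 < a := lt_of_lt_of_le hR (le_max_left _ _)
  have hb0 : 0 < b := lt_of_lt_of_le hR (le_max_left _ _)
  have e1 : ret R x - ret R y = (R / a) • (x - y) + (R / a - R / b) • y := by
    unfold ret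
    rw [← ha, ← hb, smul_sub, sub_smul]
    abel
  have hab : |b - a| ≤ ‖x - y‖ := by
    calc |b - a| ≤ |‖y‖ - ‖x‖| := by
          rw [ha, hb]
          have := abs_max_sub_max_le_abs ‖y‖ ‖x‖ R
          rwa [max_comm ‖y‖ R, max_comm ‖x‖ R] at this
      _ ≤ ‖y - x‖ := abs_norm_sub_norm_le y x
      _ = ‖x - y‖ := norm_sub_rev y x
  have e2 : ‖(R / a - R / b) • y‖ ≤ ‖x - y‖ := by
    rw [norm_smul, Real.norm_eq_abs]
    have h1 : R / a - R / b = (R / a) * ((b - a) / b) := by field_simp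
    rw [h1, abs_mul, abs_of_pos (div_pos hR ha0), abs_div, abs_of_pos hb0]
    have h2 : R / a ≤ 1 := (div_le_one ha0).2 (le_max_left _ _)
    have h3 : ‖y‖ / b ≤ 1 := (div_le_one hb0).2 (le_max_right _ _)
    calc R / a * (|b - a| / b) * ‖y‖ = (R / a) * |b - a| * (‖y‖ / b) := by ring
      _ ≤ 1 * |b - a| * 1 := by
          apply mul_le_mul _ h3 (by positivity) (by positivity)
          exact mul_le_mul_of_nonneg_right h2 (abs_nonneg _)
      _ ≤ ‖x - y‖ := by simpa using hab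
  have e3 : ‖(R / a) • (x - y)‖ ≤ ‖x - y‖ := by
    rw [norm_smul, Real.norm_eq_abs, abs_of_pos (div_pos hR ha0)]
    exact mul_le_of_le_one_left (norm_nonneg _) ((div_le_one ha0).2 (le_max_left _ _))
  rw [e1]
  calc _ ≤ ‖(R / a) • (x - y)‖ + ‖(R / a - R / b) • y‖ := norm_add_le _ _
    _ ≤ ‖x - y‖ + ‖x - y‖ := add_le_add e3 e2
    _ = ((2 : ℝ≥0) : ℝ) * ‖x - y‖ := by push_cast; ring

/-- existence for bounded fields -/
theorem exists_sol_bdd [CompleteSpace E] {f : ℝ → E → E} {K L : ℝ≥0} {a b : ℝ} (hab : a ≤ b)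
    (hL : ∀ t ∈ Icc a b, LipschitzWith K (f t))
    (hc : ∀ y, ContinuousOn (fun t => f t y) (Icc a b))
    (hb : ∀ t ∈ Icc a b, ∀ y, ‖f t y‖ ≤ L) (y₀ : E) :
    ∃ y : ℝ → E, y a = y₀ ∧ ∀ t ∈ Icc a b, HasDerivWithinAt y (f t (y t)) (Icc a b) t := by
  have hba : 0 ≤ b - a := by linarith
  have hP : IsPicardLindelof f (⟨a, left_mem_Icc.2 hab⟩ : Icc a b) y₀ (L * ⟨b - a, hba⟩) 0 L K := by
    refine ⟨fun t ht => (hL t ht).lipschitzOnWith, fun x _ => hc x, fun t ht x _ => hb t ht x, ?_⟩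
    simp only [sub_self, NNReal.coe_zero, sub_zero]
    rw [max_eq_left hba]
    exact le_rfl
  obtain ⟨α, h1, h2⟩ := hP.exists_eq_forall_mem_Icc_hasDerivWithinAt₀
  exact ⟨α, h1, h2⟩

/-- global existence -/
theorem exists_sol [CompleteSpace E] {f : ℝ → E → E} {K : ℝ≥0} {a b : ℝ} (hab : a ≤ b)
    (hL : ∀ t ∈ Icc a b, LipschitzWith K (f t))
    (hc : ∀ y, ContinuousOn (fun t => f t y) (Icc a b)) (y₀ : E) :
    ∃ y : ℝ → E, y a = y₀ ∧ ∀ t ∈ Icc a b, HasDerivWithinAt y (f t (y t)) (Icc a b) t := by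
  obtain ⟨M, hM⟩ := isCompact_Icc.exists_bound_of_continuousOn (hc 0)
  set M' : ℝ := |M| with hM'
  have hM0 : 0 ≤ M' := abs_nonneg _
  set R : ℝ := gronwallBound ‖y₀‖ K M' (b - a) + 1 with hRdef
  have hg0 : 0 ≤ gronwallBound ‖y₀‖ K M' (b - a) := by
    have h1 := gronwallBound_mono (norm_nonneg y₀) hM0 K.coe_nonneg (by linarith : (0:ℝ) ≤ b - a)
    rw [gronwallBound_x0] at h1
    exact (norm_nonneg _).trans h1
  have hR : 0 < R := by linarith
  have hlin : ∀ t ∈ Icc a b, ∀ y, ‖f t y‖ ≤ K * ‖y‖ + M' := by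
    intro t ht y
    have h1 := (hL t ht).dist_le_mul y 0
    rw [dist_eq_norm, dist_zero_right] at h1
    calc ‖f t y‖ = ‖(f t y - f t 0) + f t 0‖ := by rw [sub_add_cancel]
      _ ≤ ‖f t y - f t 0‖ + ‖f t 0‖ := norm_add_le _ _
      _ ≤ K * ‖y‖ + M' := add_le_add h1 ((hM t ht).trans (le_abs_self M))
  have hbd : ∀ t ∈ Icc a b, ∀ y, ‖f t (ret R y)‖ ≤ ((⟨K * R + M', by positivity⟩ : ℝ≥0) : ℝ) := by
    intro t ht y
    refine (hlin t ht _).trans ?_
    change K * ‖ret R y‖ + M' ≤ K * R + M'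
    have := mul_le_mul_of_nonneg_left (norm_ret_le hR y) K.coe_nonneg
    linarith
  obtain ⟨y, hy0, hy⟩ := exists_sol_bdd (f := fun t y => f t (ret R y)) (K := K * 2) hab
    (fun t ht => (hL t ht).comp (lip_ret hR)) (fun y => hc (ret R y)) hbd y₀
  have hycont : ContinuousOn y (Icc a b) := fun t ht => (hy t ht).continuousWithinAt
  have hder : ∀ t ∈ Ico a b, HasDerivWithinAt y (f t (ret R (y t))) (Ici t) t := by
    intro t ht
    exact (hy t (Ico_subset_Icc_self ht)).mono_of_mem_nhdsWithin (Icc_mem_nhdsGE_of_mem ht)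
  have hgr := norm_le_gronwallBound_of_norm_deriv_right_le (f := y)
    (f' := fun t => f t (ret R (y t))) (δ := ‖y₀‖) (K := K) (ε := M') hycont hder
    (by rw [hy0]) (fun t ht => by
      refine (hlin t (Ico_subset_Icc_self ht) _).trans ?_
      have := mul_le_mul_of_nonneg_left (norm_ret_le_norm hR (y t)) K.coe_nonneg
      linarith)
  refine ⟨y, hy0, fun t ht => ?_⟩
  have h1 := hgr t ht
  have h2 : gronwallBound ‖y₀‖ K M' (t - a) ≤ gronwallBound ‖y₀‖ K M' (b - a) :=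
    gronwallBound_mono (norm_nonneg y₀) hM0 K.coe_nonneg (by linarith [ht.2])
  have h3 : ret R (y t) = y t := ret_of_le hR (by linarith)
  have h4 := hy t ht
  rwa [h3] at h4

/-- uniqueness -/
theorem unique {f : ℝ → E → E} {K : ℝ≥0} {a b : ℝ}
    (hL : ∀ t ∈ Icc a b, LipschitzWith K (f t)) {y z : ℝ → E}
    (hy : ∀ t ∈ Icc a b, HasDerivWithinAt y (f t (y t)) (Icc a b) t)
    (hz : ∀ t ∈ Icc a b, HasDerivWithinAt z (f t (z t)) (Icc a b) t) (h : y a = z a) :
    ∀ t ∈ Icc a b, y t = z t := by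
  have := ODE_solution_unique_of_mem_Icc_right (v := f) (s := fun _ => univ) (K := K) (f := y)
    (g := z) (a := a) (b := b)
    (fun t ht => (hL t (Ico_subset_Icc_self ht)).lipschitzOnWith)
    (fun t ht => (hy t ht).continuousWithinAt)
    (fun t ht => (hy t (Ico_subset_Icc_self ht)).mono_of_mem_nhdsWithin
      (Icc_mem_nhdsGE_of_mem ht)) (fun _ _ => mem_univ _)
    (fun t ht => (hz t ht).continuousWithinAt)
    (fun t ht => (hz t (Ico_subset_Icc_self ht)).mono_of_mem_nhdsWithin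
      (Icc_mem_nhdsGE_of_mem ht)) (fun _ _ => mem_univ _) h
  exact this

/-- comparison of two solutions -/
theorem dist_le {f g : ℝ → E → E} {K : ℝ≥0} {a b ε : ℝ}
    (hL : ∀ t ∈ Icc a b, LipschitzWith K (f t)) {y z : ℝ → E}
    (hy : ∀ t ∈ Icc a b, HasDerivWithinAt y (f t (y t)) (Icc a b) t)
    (hz : ∀ t ∈ Icc a b, HasDerivWithinAt z (g t (z t)) (Icc a b) t)
    (hε : ∀ t ∈ Icc a b, dist (g t (z t)) (f t (z t)) ≤ ε) :
    ∀ t ∈ Icc a b, dist (y t) (z t) ≤ gronwallBound (dist (y a) (z a)) K (0 + ε) (t - a) := by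
  refine dist_le_of_approx_trajectories_ODE_of_mem (v := f) (s := fun _ => univ) (K := K)
    (f' := fun t => f t (y t)) (g' := fun t => g t (z t)) (εf := 0) (εg := ε)
    (fun t ht => (hL t (Ico_subset_Icc_self ht)).lipschitzOnWith)
    (fun t ht => (hy t ht).continuousWithinAt)
    (fun t ht => (hy t (Ico_subset_Icc_self ht)).mono_of_mem_nhdsWithin
      (Icc_mem_nhdsGE_of_mem ht)) (fun t _ => by simp) (fun _ _ => mem_univ _)
    (fun t ht => (hz t ht).continuousWithinAt)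
    (fun t ht => (hz t (Ico_subset_Icc_self ht)).mono_of_mem_nhdsWithin
      (Icc_mem_nhdsGE_of_mem ht)) (fun t ht => hε t (Ico_subset_Icc_self ht))
    (fun _ _ => mem_univ _) le_rfl

theorem gronwall_small (K T : ℝ) (hK : 0 ≤ K) (hT : 0 ≤ T) {ε : ℝ} (hε : 0 < ε) :
    ∃ η : ℝ, 0 < η ∧ ∀ δ : ℝ, 0 ≤ δ → δ ≤ η → ∀ t, 0 ≤ t → t ≤ T →
      gronwallBound δ K (0 + δ) t ≤ ε := by
  -- `gronwallBound δ K δ t = δ * gronwallBound 1 K 1 t`
  have hlin : ∀ δ t, gronwallBound δ K (0 + δ) t = δ * gronwallBound 1 K 1 t := by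
    intro δ t
    unfold gronwallBound
    split_ifs
    · ring
    · ring
  set G := gronwallBound 1 K 1 T with hG
  have hG0 : 0 < G := by
    have h1 := gronwallBound_mono (zero_le_one) zero_le_one hK hT
    rw [gronwallBound_x0] at h1
    linarith
  refine ⟨ε / G, by positivity, fun δ hδ hδη t ht htT => ?_⟩
  rw [hlin]
  have h2 : gronwallBound 1 K 1 t ≤ G := gronwallBound_mono zero_le_one zero_le_one hK htT
  calc δ * gronwallBound 1 K 1 t ≤ δ * G := mul_le_mul_of_nonneg_left h2 hδ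
    _ ≤ (ε / G) * G := mul_le_mul_of_nonneg_right hδη hG0.le
    _ = ε := by field_simp

/-- uniform continuous dependence on a parameter and on the initial value -/
theorem param_unif {P : Type*} [TopologicalSpace P] {f : P → ℝ → E → E} {K : ℝ≥0} {a b : ℝ}
    (hab : a ≤ b)
    (hf : ContinuousOn (fun q : P × ℝ × E => f q.1 q.2.1 q.2.2) (univ ×ˢ (Icc a b ×ˢ univ)))
    (hL : ∀ p, ∀ t ∈ Icc a b, LipschitzWith K (f p t)) {y : P → ℝ → E}
    (hy : ∀ p, ∀ t ∈ Icc a b, HasDerivWithinAt (y p) (f p t (y p t)) (Icc a b) t)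
    (p₀ : P) (hy0 : ContinuousAt (fun p => y p a) p₀) {ε : ℝ} (hε : 0 < ε) :
    ∀ᶠ p in 𝓝 p₀, ∀ t ∈ Icc a b, dist (y p t) (y p₀ t) ≤ ε := by
  obtain ⟨η, hη, hη2⟩ := gronwall_small K (b - a) K.coe_nonneg (by linarith) hε
  -- the field along the reference trajectory
  have hcont : ContinuousOn (fun q : P × ℝ => f q.1 q.2 (y p₀ q.2)) (univ ×ˢ Icc a b) := by
    have h1 : ContinuousOn (fun q : P × ℝ => (q.1, q.2, y p₀ q.2)) (univ ×ˢ Icc a b) := by
      refine continuousOn_fst.prodMk (continuousOn_snd.prodMk ?_)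
      have h2 : ContinuousOn (y p₀) (Icc a b) := fun t ht => (hy p₀ t ht).continuousWithinAt
      exact h2.comp continuousOn_snd (fun q hq => hq.2)
    exact hf.comp h1 (fun q hq => ⟨mem_univ _, hq.2, mem_univ _⟩)
  have hunif : ∀ᶠ p in 𝓝 p₀, ∀ t ∈ Icc a b,
      dist (f p t (y p₀ t)) (f p₀ t (y p₀ t)) < η := by
    -- work on the subtype `Icc a b`
    have hc1 : Continuous (fun q : P × Icc a b => f q.1 q.2 (y p₀ q.2)) := by
      have := hcont.comp_continuous (f := fun q : P × Icc a b => ((q.1, (q.2 : ℝ)) : P × ℝ))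
        (by fun_prop) (fun q => ⟨mem_univ _, q.2.2⟩)
      exact this
    have hc2 : Continuous (fun q : P × Icc a b => f p₀ q.2 (y p₀ q.2)) := by
      have := hc1.comp (f := fun q : P × Icc a b => ((p₀, q.2) : P × Icc a b)) (by fun_prop)
      exact this
    have hc3 : Continuous (fun q : P × Icc a b =>
        dist (f q.1 q.2 (y p₀ q.2)) (f p₀ q.2 (y p₀ q.2))) := hc1.dist hc2
    have h1 : ∀ t ∈ (univ : Set (Icc a b)), ∀ᶠ q : P × Icc a b in 𝓝 (p₀, t),
        dist (f q.1 q.2 (y p₀ q.2)) (f p₀ q.2 (y p₀ q.2)) < η := by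
      intro t _
      have h6 := hc3.tendsto (p₀, t)
      simp only [dist_self] at h6
      exact h6.eventually (gt_mem_nhds hη)
    have h7 := isCompact_univ.eventually_forall_of_forall_eventually (x₀ := p₀)
      (K := (univ : Set (Icc a b)))
      (P := fun p (t : Icc a b) => dist (f p t (y p₀ t)) (f p₀ t (y p₀ t)) < η) h1
    filter_upwards [h7] with p hp t ht
    exact hp ⟨t, ht⟩ (mem_univ _)
  have hinit : ∀ᶠ p in 𝓝 p₀, dist (y p a) (y p₀ a) < η :=
    (Metric.tendsto_nhds.1 hy0 η hη)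
  filter_upwards [hunif, hinit] with p h1 h2 t ht
  have h3 := dist_le (hL p) (hy p) (hy p₀) (ε := η) (fun s hs => by
    rw [dist_comm]; exact (h1 s hs).le) t ht
  refine h3.trans ?_
  refine le_trans ?_ (hη2 η hη.le le_rfl (t - a) (by linarith [ht.1]) (by linarith [ht.2]))
  -- monotone in δ
  have : gronwallBound (dist (y p a) (y p₀ a)) K (0 + η) (t - a) ≤
      gronwallBound η K (0 + η) (t - a) := by
    unfold gronwallBound
    split_ifs
    · linarith
    · have := mul_le_mul_of_nonneg_right h2.le (Real.exp_pos ((K : ℝ) * (t - a))).le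
      linarith
  exact this

/-- joint continuity -/
theorem param_cont {P : Type*} [TopologicalSpace P] {f : P → ℝ → E → E} {K : ℝ≥0} {a b : ℝ}
    (hab : a ≤ b)
    (hf : ContinuousOn (fun q : P × ℝ × E => f q.1 q.2.1 q.2.2) (univ ×ˢ (Icc a b ×ˢ univ)))
    (hL : ∀ p, ∀ t ∈ Icc a b, LipschitzWith K (f p t)) {y : P → ℝ → E}
    (hy : ∀ p, ∀ t ∈ Icc a b, HasDerivWithinAt (y p) (f p t (y p t)) (Icc a b) t)
    (hy0 : Continuous (fun p => y p a)) :
    ContinuousOn (fun q : P × ℝ => y q.1 q.2) (univ ×ˢ Icc a b) := by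
  rintro ⟨p₀, t₀⟩ ⟨_, ht₀⟩
  rw [ContinuousWithinAt, Metric.tendsto_nhds]
  intro ε hε
  have h1 := param_unif hab hf hL hy p₀ hy0.continuousAt (ε := ε / 2) (by positivity)
  have h2 : ∀ᶠ t in 𝓝[Icc a b] t₀, dist (y p₀ t) (y p₀ t₀) < ε / 2 :=
    Metric.tendsto_nhds.1 (hy p₀ t₀ ht₀).continuousWithinAt (ε / 2) (by positivity)
  rw [nhdsWithin_prod_eq, nhdsWithin_univ]
  have h3 := h1.prod_mk (h2.and self_mem_nhdsWithin)
  filter_upwards [h3] with q hq
  obtain ⟨hq1, hq2, hq3⟩ := hq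
  calc dist (y q.1 q.2) (y p₀ t₀) ≤ dist (y q.1 q.2) (y p₀ q.2) + dist (y p₀ q.2) (y p₀ t₀) :=
        dist_triangle _ _ _
    _ < ε / 2 + ε / 2 := add_lt_add_of_le_of_lt (hq1 q.2 hq3) hq2
    _ = ε := by ring

/-- everything together: existence of the solution family -/
theorem exists_family [CompleteSpace E] {P : Type*} [TopologicalSpace P] {f : P → ℝ → E → E}
    {K : ℝ≥0} {a b : ℝ} (hab : a ≤ b)
    (hf : ContinuousOn (fun q : P × ℝ × E => f q.1 q.2.1 q.2.2) (univ ×ˢ (Icc a b ×ˢ univ)))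
    (hL : ∀ p, ∀ t ∈ Icc a b, LipschitzWith K (f p t)) (y₀ : P → E) (hy₀ : Continuous y₀) :
    ∃ y : P → ℝ → E, (∀ p, y p a = y₀ p) ∧
      (∀ p, ∀ t ∈ Icc a b, HasDerivWithinAt (y p) (f p t (y p t)) (Icc a b) t) ∧
      ContinuousOn (fun q : P × ℝ => y q.1 q.2) (univ ×ˢ Icc a b) := by
  have hc : ∀ p y, ContinuousOn (fun t => f p t y) (Icc a b) := by
    intro p y
    exact hf.comp (f := fun t : ℝ => (p, t, y)) (by fun_prop)
      (fun t ht => ⟨mem_univ _, ht, mem_univ _⟩)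
  choose y hy1 hy2 using fun p => exists_sol hab (hL p) (hc p) (y₀ p)
  refine ⟨y, hy1, hy2, param_cont hab hf hL hy2 ?_⟩
  simpa only [hy1] using hy₀

end ODE3
end Crest.Agent.R332
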