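import Crest.Agent.R332.Defs
import Crest.Agent.R332.LIBD
import Crest.Agent.R332.ODE
import Crest.Agent.R332.Brouwer

set_option autoImplicit false

open MeasureTheory Matrix Filter Topology Set
open Crest.MathPhysics.LiebThirring
open scoped ComplexOrder

namespace Crest.Agent.R332

namespace EX

/-- cutoff -/
noncomputable def chi (r y : ℝ) : ℝ := max 0 (min 1 (2 - y / r))

theorem chi_nonneg (r y : ℝ) : 0 ≤ chi r y := le_max_left _ _
theorem chi_le_one (r y : ℝ) : chi r y ≤ 1 := max_le zero_le_one (min_le_left _ _)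
theorem chi_one {r y : ℝ} (hr : 0 < r) (h : y ≤ r) : chi r y = 1 := by
  have h1 : y / r ≤ 1 := (div_le_one hr).2 h
  unfold chi
  rw [min_eq_left (by linarith), max_eq_right zero_le_one]
theorem chi_zero {r y : ℝ} (hr : 0 < r) (h : 2 * r ≤ y) : chi r y = 0 := by
  have h1 : 2 ≤ y / r := (le_div_iff₀ hr).2 h
  unfold chi
  rw [max_eq_left]
  exact (min_le_right _ _).trans (by linarith)
theorem chi_lip {r : ℝ} (hr : 0 < r) (y z : ℝ) : |chi r y - chi r z| ≤ |y - z| / r := by
  have h1 : ∀ u v : ℝ, |max 0 (min 1 u) - max 0 (min 1 v)| ≤ |u - v| := by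
    intro u v
    have h2 := abs_max_sub_max_le_abs (min 1 u) (min 1 v) 0
    have h3 : |min 1 u - min 1 v| ≤ |u - v| := by
      rcases le_total 1 u with h | h <;> rcases le_total 1 v with h' | h'
      · rw [min_eq_left h, min_eq_left h']; simp
      · rw [min_eq_left h, min_eq_right h', abs_of_nonneg (by linarith), abs_of_nonneg (by linarith)]
        linarith
      · rw [min_eq_right h, min_eq_left h', abs_of_nonpos (by linarith),
          abs_of_nonpos (by linarith)]
        linarith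
      · rw [min_eq_right h, min_eq_right h']
    rw [max_comm 0, max_comm 0]
    exact h2.trans h3
  refine (h1 _ _).trans (le_of_eq ?_)
  rw [show 2 - y / r - (2 - z / r) = -((y - z) / r) by ring, abs_neg, abs_div, abs_of_pos hr]
theorem chi_cont (r : ℝ) : Continuous (chi r) := by
  unfold chi
  fun_prop

theorem lip_quad {E : Type*} [NormedRing E] [NormedSpace ℝ E] {r : ℝ} (hr : 0 < r) (M : E) :
    ∀ P Q : E, ‖chi r ‖P‖ • (M - P * P) - chi r ‖Q‖ • (M - Q * Q)‖ ≤
      (‖M‖ / r + 8 * r) * ‖P - Q‖ := by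
  have hl : ∀ P Q : E, |chi r ‖P‖ - chi r ‖Q‖| ≤ ‖P - Q‖ / r := by
    intro P Q
    refine (chi_lip hr _ _).trans ?_
    gcongr
    exact abs_norm_sub_norm_le P Q
  have key : ∀ P Q : E, ‖Q‖ ≤ 2 * r →
      ‖chi r ‖P‖ • (P * P) - chi r ‖Q‖ • (Q * Q)‖ ≤ 8 * r * ‖P - Q‖ := by
    intro P Q hQ
    have e1 : chi r ‖P‖ • (P * P) - chi r ‖Q‖ • (Q * Q) =
        chi r ‖P‖ • (P * P - Q * Q) + (chi r ‖P‖ - chi r ‖Q‖) • (Q * Q) := by
      rw [smul_sub, sub_smul]; abel
    have h2 : ‖(chi r ‖P‖ - chi r ‖Q‖) • (Q * Q)‖ ≤ 4 * r * ‖P - Q‖ := by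
      rw [norm_smul, Real.norm_eq_abs]
      calc |chi r ‖P‖ - chi r ‖Q‖| * ‖Q * Q‖ ≤ (‖P - Q‖ / r) * ((2 * r) * (2 * r)) := by
            refine mul_le_mul (hl P Q) ?_ (norm_nonneg _) (by positivity)
            refine (norm_mul_le _ _).trans ?_
            exact mul_le_mul hQ hQ (norm_nonneg _) (by positivity)
        _ = 4 * r * ‖P - Q‖ := by field_simp; ring
    have h1 : ‖chi r ‖P‖ • (P * P - Q * Q)‖ ≤ 4 * r * ‖P - Q‖ := by
      by_cases hP : ‖P‖ ≤ 2 * r
      · rw [norm_smul, Real.norm_eq_abs, abs_of_nonneg (chi_nonneg _ _)]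
        have h3 : ‖P * P - Q * Q‖ ≤ 4 * r * ‖P - Q‖ := by
          have e2 : P * P - Q * Q = P * (P - Q) + (P - Q) * Q := by noncomm_ring
          rw [e2]
          refine (norm_add_le _ _).trans ?_
          have h4 := norm_mul_le P (P - Q)
          have h5 := norm_mul_le (P - Q) Q
          have h6 : ‖P‖ * ‖P - Q‖ ≤ 2 * r * ‖P - Q‖ :=
            mul_le_mul_of_nonneg_right hP (norm_nonneg _)
          have h7 : ‖P - Q‖ * ‖Q‖ ≤ ‖P - Q‖ * (2 * r) :=
            mul_le_mul_of_nonneg_left hQ (norm_nonneg _)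
          linarith
        calc chi r ‖P‖ * ‖P * P - Q * Q‖ ≤ 1 * ‖P * P - Q * Q‖ :=
              mul_le_mul_of_nonneg_right (chi_le_one _ _) (norm_nonneg _)
          _ ≤ 4 * r * ‖P - Q‖ := by rw [one_mul]; exact h3
      · rw [chi_zero hr (not_le.1 hP).le, zero_smul, norm_zero]
        positivity
    rw [e1]
    refine (norm_add_le _ _).trans ?_
    linarith
  intro P Q
  have e3 : chi r ‖P‖ • (M - P * P) - chi r ‖Q‖ • (M - Q * Q) =
      (chi r ‖P‖ - chi r ‖Q‖) • M - (chi r ‖P‖ • (P * P) - chi r ‖Q‖ • (Q * Q)) := by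
    rw [smul_sub, smul_sub, sub_smul]; abel
  have h8 : ‖(chi r ‖P‖ - chi r ‖Q‖) • M‖ ≤ ‖M‖ / r * ‖P - Q‖ := by
    rw [norm_smul, Real.norm_eq_abs]
    calc |chi r ‖P‖ - chi r ‖Q‖| * ‖M‖ ≤ (‖P - Q‖ / r) * ‖M‖ :=
          mul_le_mul_of_nonneg_right (hl P Q) (norm_nonneg _)
      _ = ‖M‖ / r * ‖P - Q‖ := by ring
  have h9 : ‖chi r ‖P‖ • (P * P) - chi r ‖Q‖ • (Q * Q)‖ ≤ 8 * r * ‖P - Q‖ := by
    by_cases hQ : ‖Q‖ ≤ 2 * r
    · exact key P Q hQ
    · by_cases hP : ‖P‖ ≤ 2 * r
      · rw [norm_sub_rev, norm_sub_rev P Q]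
        exact key Q P hP
      · rw [chi_zero hr (not_le.1 hQ).le, chi_zero hr (not_le.1 hP).le, zero_smul, zero_smul,
          sub_zero, norm_zero]
        positivity
  rw [e3]
  refine (norm_sub_le _ _).trans ?_
  rw [add_mul]
  exact add_le_add h8 h9

variable {N : ℕ}

/-! ### quadratic forms -/

noncomputable def qf (A : Mt N) (v : Fin N → ℂ) : ℝ := (star v ⬝ᵥ (A *ᵥ v)).re

noncomputable def nsq (v : Fin N → ℂ) : ℝ := (star v ⬝ᵥ v).re

theorem qf_add (A B : Mt N) (v : Fin N → ℂ) : qf (A + B) v = qf A v + qf B v := by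
  unfold qf
  rw [Matrix.add_mulVec, dotProduct_add, Complex.add_re]

theorem qf_sub (A B : Mt N) (v : Fin N → ℂ) : qf (A - B) v = qf A v - qf B v := by
  unfold qf
  rw [Matrix.sub_mulVec, dotProduct_sub, Complex.sub_re]

theorem qf_neg (A : Mt N) (v : Fin N → ℂ) : qf (-A) v = - qf A v := by
  unfold qf
  rw [Matrix.neg_mulVec, dotProduct_neg, Complex.neg_re]

theorem qf_smul (c : ℝ) (A : Mt N) (v : Fin N → ℂ) : qf (c • A) v = c * qf A v := by
  unfold qf
  rw [Matrix.smul_mulVec, dotProduct_smul]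
  simp

theorem qf_sc (c : ℝ) (v : Fin N → ℂ) : qf (sc N c) v = c * nsq v := by
  unfold qf sc nsq
  rw [Matrix.smul_mulVec, dotProduct_smul, Matrix.one_mulVec]
  simp

theorem qf_nonneg {A : Mt N} (h : A.PosSemidef) (v : Fin N → ℂ) : 0 ≤ qf A v := by
  have := h.dotProduct_mulVec_nonneg v
  exact (Complex.le_def.1 this).1

theorem psd_of {A : Mt N} (hA : A.IsHermitian) (h : ∀ v, 0 ≤ qf A v) : A.PosSemidef := by
  refine Matrix.PosSemidef.of_dotProduct_mulVec_nonneg hA fun v => ?_
  rw [Complex.le_def]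
  refine ⟨h v, ?_⟩
  have h1 := hA.im_star_dotProduct_mulVec_self v
  simp only [Complex.zero_im]
  exact h1.symm

theorem nsq_nonneg (v : Fin N → ℂ) : 0 ≤ nsq v := by
  have h : (0:ℂ) ≤ star v ⬝ᵥ v := dotProduct_star_self_nonneg v
  exact (Complex.le_def.1 h).1

theorem nsq_pos {v : Fin N → ℂ} (h : v ≠ 0) : 0 < nsq v := by
  have h1 : (0:ℂ) < star v ⬝ᵥ v := by
    have := Matrix.PosDef.dotProduct_mulVec_pos (Matrix.PosDef.one (n := Fin N) (R := ℂ)) h
    simpa using this
  exact (Complex.lt_def.1 h1).1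

theorem sc_herm (c : ℝ) : (sc N c).IsHermitian := by
  unfold sc Matrix.IsHermitian
  rw [Matrix.conjTranspose_smul, Matrix.conjTranspose_one]
  simp

theorem sc_mul (c : ℝ) (A : Mt N) : sc N c * A = c • A := by
  unfold sc
  rw [Matrix.smul_mul, Matrix.one_mul]
  rfl

theorem mul_sc (c : ℝ) (A : Mt N) : A * sc N c = c • A := by
  unfold sc
  rw [Matrix.mul_smul, Matrix.mul_one]
  rfl

/-- `A * A ≤ c A` for `0 ≤ A ≤ c` -/
theorem sq_le {A : Mt N} {c : ℝ} (hc : 0 < c) (hA : A.PosSemidef) (h : (sc N c - A).PosSemidef)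
    (v : Fin N → ℂ) : qf (A * A) v ≤ c * qf A v := by
  have h1 : ((sc N c - A) * A * (sc N c - A)).PosSemidef := by
    have := hA.conjTranspose_mul_mul_same (sc N c - A)
    rwa [h.isHermitian.eq] at this
  have h2 : (A * (sc N c - A) * A).PosSemidef := by
    have := h.conjTranspose_mul_mul_same A
    rwa [hA.isHermitian.eq] at this
  have h3 : (sc N c - A) * A * (sc N c - A) + A * (sc N c - A) * A = c • (c • A - A * A) := by
    simp only [Matrix.sub_mul, Matrix.mul_sub, sc_mul, mul_sc, smul_sub]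
    rw [Matrix.smul_mul]
    abel
  have h4 := qf_nonneg (h1.add h2) v
  rw [h3, qf_smul, qf_sub, qf_smul] at h4
  have h5 := nonneg_of_mul_nonneg_right h4 hc
  linarith

/-- `Q * Q ≤ k^2` for `-k ≤ Q ≤ k` -/
theorem sq_le' {Q : Mt N} {k : ℝ} (hk : 0 < k) (h1 : (sc N k - Q).PosSemidef)
    (h2 : (sc N k + Q).PosSemidef) : (sc N (k ^ 2) - Q * Q).PosSemidef := by
  have h3 : ((sc N k - Q) * (sc N k + Q) * (sc N k - Q)).PosSemidef := by
    have := h2.conjTranspose_mul_mul_same (sc N k - Q)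
    rwa [h1.isHermitian.eq] at this
  have h4 : ((sc N k + Q) * (sc N k - Q) * (sc N k + Q)).PosSemidef := by
    have := h1.conjTranspose_mul_mul_same (sc N k + Q)
    rwa [h2.isHermitian.eq] at this
  have hss : k • sc N k = sc N (k ^ 2) := by
    unfold sc
    rw [← smul_assoc, pow_two]
    congr 1
    push_cast
    rw [Complex.real_smul]
  have h5 : (sc N k - Q) * (sc N k + Q) * (sc N k - Q) +
      (sc N k + Q) * (sc N k - Q) * (sc N k + Q) = (2 * k) • (sc N (k ^ 2) - Q * Q) := by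
    rw [← hss]
    simp only [Matrix.sub_mul, Matrix.mul_sub, Matrix.add_mul, Matrix.mul_add, sc_mul, mul_sc,
      smul_sub, Matrix.smul_mul, two_mul, add_smul]
    abel
  have h6 := h3.add h4
  rw [h5] at h6
  have hQ : Q.IsHermitian := by
    have := (sc_herm (N := N) k).sub h1.isHermitian
    simpa using this
  refine psd_of ?_ fun v => ?_
  · refine (sc_herm _).sub ?_
    unfold Matrix.IsHermitian
    rw [Matrix.conjTranspose_mul, hQ.eq]
  · have := qf_nonneg h6 v
    rw [qf_smul] at this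
    exact nonneg_of_mul_nonneg_right this (by positivity)

theorem nsq_eq (v : Fin N → ℂ) : nsq v = ∑ i, ‖v i‖ ^ 2 := by
  unfold nsq dotProduct
  rw [Complex.re_sum]
  refine Finset.sum_congr rfl fun i _ => ?_
  rw [Pi.star_apply, Complex.star_def, ← Complex.normSq_eq_conj_mul_self, Complex.ofReal_re,
    Complex.normSq_eq_norm_sq]

theorem abs_qf_le (A : Mt N) (v : Fin N → ℂ) : |qf A v| ≤ fro A * nsq v := by
  have h1 : |qf A v| ≤ ∑ i, ∑ j, ‖v i‖ * (‖A i j‖ * ‖v j‖) := by
    unfold qf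
    refine (Complex.abs_re_le_norm _).trans ?_
    unfold dotProduct
    refine (norm_sum_le _ _).trans (Finset.sum_le_sum fun i _ => ?_)
    rw [norm_mul, Pi.star_apply, norm_star, ← Finset.mul_sum]
    refine mul_le_mul_of_nonneg_left ?_ (norm_nonneg _)
    unfold Matrix.mulVec dotProduct
    refine (norm_sum_le _ _).trans (le_of_eq ?_)
    exact Finset.sum_congr rfl fun j _ => norm_mul _ _
  refine h1.trans ?_
  have h2 := Real.sum_mul_le_sqrt_mul_sqrt (Finset.univ : Finset (Fin N × Fin N))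
    (fun z => ‖A z.1 z.2‖) (fun z => ‖v z.1‖ * ‖v z.2‖)
  have h3 : ∑ z : Fin N × Fin N, ‖A z.1 z.2‖ * (‖v z.1‖ * ‖v z.2‖) =
      ∑ i, ∑ j, ‖v i‖ * (‖A i j‖ * ‖v j‖) := by
    rw [Fintype.sum_prod_type]
    exact Finset.sum_congr rfl fun i _ => Finset.sum_congr rfl fun j _ => by ring
  have h4 : ∑ z : Fin N × Fin N, ‖A z.1 z.2‖ ^ 2 = fro2 A := by
    rw [Fintype.sum_prod_type]; rfl
  have h5 : ∑ z : Fin N × Fin N, (‖v z.1‖ * ‖v z.2‖) ^ 2 = (nsq v) ^ 2 := by
    rw [Fintype.sum_prod_type, nsq_eq, pow_two, Finset.sum_mul_sum]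
    exact Finset.sum_congr rfl fun i _ => Finset.sum_congr rfl fun j _ => by ring
  rw [h3, h4, h5, Real.sqrt_sq (nsq_nonneg v)] at h2
  exact h2

theorem psd_sub_of_fro {A : Mt N} {c : ℝ} (hA : A.IsHermitian) (h : fro A ≤ c) :
    (sc N c - A).PosSemidef := by
  refine psd_of ((sc_herm c).sub hA) fun v => ?_
  rw [qf_sub, qf_sc]
  have h1 := (abs_le.1 (abs_qf_le A v)).2
  have h2 := mul_le_mul_of_nonneg_right h (nsq_nonneg v)
  linarith

theorem fro_le_of {Q : Mt N} {k : ℝ} (hk : 0 < k) (h1 : (sc N k - Q).PosSemidef)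
    (h2 : (sc N k + Q).PosSemidef) : fro Q ≤ Real.sqrt N * k := by
  have hQ : Q.IsHermitian := by
    have := (sc_herm (N := N) k).sub h1.isHermitian
    simpa using this
  have h3 := sq_le' hk h1 h2
  have h4 : fro2 Q ≤ N * k ^ 2 := by
    have h5 : ∀ i, ∑ j, ‖Q i j‖ ^ 2 ≤ k ^ 2 := by
      intro i
      have h6 := h3.diag_nonneg (i := i)
      have h7 : (0:ℝ) ≤ ((sc N (k ^ 2) - Q * Q) i i).re := (Complex.le_def.1 h6).1
      have h8 : ((Q * Q) i i).re = ∑ j, ‖Q i j‖ ^ 2 := by
        rw [Matrix.mul_apply, Complex.re_sum]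
        refine Finset.sum_congr rfl fun j _ => ?_
        have h9 : Q j i = star (Q i j) := (hQ.apply j i).symm
        rw [h9, Complex.star_def, Complex.mul_conj, Complex.ofReal_re, Complex.normSq_eq_norm_sq]
      have h10 : ((sc N (k ^ 2)) i i).re = k ^ 2 := by
        unfold sc
        rw [Matrix.smul_apply, Matrix.one_apply_eq, smul_eq_mul, mul_one, Complex.ofReal_re]
      rw [Matrix.sub_apply, Complex.sub_re, h8, h10] at h7
      linarith
    calc fro2 Q ≤ ∑ _i : Fin N, k ^ 2 := Finset.sum_le_sum fun i _ => h5 i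
      _ = N * k ^ 2 := by simp
  unfold fro
  calc Real.sqrt (fro2 Q) ≤ Real.sqrt (N * k ^ 2) := Real.sqrt_le_sqrt h4
    _ = Real.sqrt N * k := by
      rw [Real.sqrt_mul (Nat.cast_nonneg N), Real.sqrt_sq hk.le]

/-! ### functional calculus -/

theorem cfc_form {A : Mt N} (hA : A.IsHermitian) (f : ℝ → ℝ) :
    cfc f A = (hA.eigenvectorUnitary : Mt N) *
      Matrix.diagonal (fun i => ((f (hA.eigenvalues i) : ℝ) : ℂ)) *
        (hA.eigenvectorUnitary : Mt N)ᴴ := by
  rw [hA.cfc_eq]
  rfl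

theorem self_form {A : Mt N} (hA : A.IsHermitian) :
    A = (hA.eigenvectorUnitary : Mt N) *
      Matrix.diagonal (fun i => ((hA.eigenvalues i : ℝ) : ℂ)) *
        (hA.eigenvectorUnitary : Mt N)ᴴ := by
  conv_lhs => rw [hA.spectral_theorem]
  rfl

theorem UU {A : Mt N} (hA : A.IsHermitian) :
    (hA.eigenvectorUnitary : Mt N) * (hA.eigenvectorUnitary : Mt N)ᴴ = 1 :=
  Unitary.coe_mul_star_self _

theorem sc_form {A : Mt N} (hA : A.IsHermitian) (c : ℝ) :
    sc N c = (hA.eigenvectorUnitary : Mt N) *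
      Matrix.diagonal (fun _ => ((c : ℝ) : ℂ)) * (hA.eigenvectorUnitary : Mt N)ᴴ := by
  have h1 : Matrix.diagonal (fun _ : Fin N => ((c : ℝ) : ℂ)) = sc N c := by
    unfold sc
    rw [← Matrix.diagonal_one, ← Matrix.diagonal_smul]
    congr 1
    funext i
    simp
  rw [h1, mul_sc, Matrix.smul_mul, UU]
  rfl

theorem diag_psd (U : Mt N) (d : Fin N → ℝ) (h : ∀ i, 0 ≤ d i) :
    (U * Matrix.diagonal (fun i => ((d i : ℝ) : ℂ)) * Uᴴ).PosSemidef := by
  refine Matrix.PosSemidef.mul_mul_conjTranspose_same ?_ U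
  refine Matrix.PosSemidef.diagonal ?_
  intro i
  show (0:ℂ) ≤ ((d i : ℝ) : ℂ)
  exact_mod_cast h i

theorem cfc_psd {A : Mt N} (hA : A.IsHermitian) (f : ℝ → ℝ) (h : ∀ i, 0 ≤ f (hA.eigenvalues i)) :
    (cfc f A).PosSemidef := by
  rw [cfc_form hA]
  exact diag_psd _ (fun i => f (hA.eigenvalues i)) h

theorem cfc_le {A : Mt N} (hA : A.IsHermitian) (f : ℝ → ℝ) (c : ℝ)
    (h : ∀ i, f (hA.eigenvalues i) ≤ c) : (sc N c - cfc f A).PosSemidef := by
  rw [cfc_form hA, sc_form hA c, ← Matrix.sub_mul, ← Matrix.mul_sub, Matrix.diagonal_sub]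
  have := diag_psd (hA.eigenvectorUnitary : Mt N) (fun i => c - f (hA.eigenvalues i))
    (fun i => sub_nonneg.2 (h i))
  simpa using this

theorem le_of_eig {A : Mt N} (hA : A.IsHermitian) (c : ℝ) (h : ∀ i, hA.eigenvalues i ≤ c) :
    (sc N c - A).PosSemidef := by
  have h1 : sc N c - A = (hA.eigenvectorUnitary : Mt N) *
      Matrix.diagonal (fun i => ((c - hA.eigenvalues i : ℝ) : ℂ)) *
        (hA.eigenvectorUnitary : Mt N)ᴴ := by
    calc sc N c - A = sc N c - (hA.eigenvectorUnitary : Mt N) *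
      Matrix.diagonal (fun i => ((hA.eigenvalues i : ℝ) : ℂ)) *
        (hA.eigenvectorUnitary : Mt N)ᴴ := by rw [← self_form hA]
      _ = _ := by
        rw [sc_form hA c, ← Matrix.sub_mul, ← Matrix.mul_sub, Matrix.diagonal_sub]
        simp
  rw [h1]
  exact diag_psd (hA.eigenvectorUnitary : Mt N) (fun i => c - hA.eigenvalues i)
    (fun i => sub_nonneg.2 (h i))

theorem cfc_self {A : Mt N} (hA : A.IsHermitian) (f : ℝ → ℝ)
    (h : ∀ i, f (hA.eigenvalues i) = hA.eigenvalues i) : cfc f A = A := by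
  conv_rhs => rw [self_form hA]
  rw [cfc_form hA]
  simp only [h]

theorem cfc_vec {A : Mt N} (hA : A.IsHermitian) (f : ℝ → ℝ) (i : Fin N) :
    cfc f A *ᵥ ⇑(hA.eigenvectorBasis i) =
      ((f (hA.eigenvalues i) : ℝ) : ℂ) • ⇑(hA.eigenvectorBasis i) := by
  rw [cfc_form hA, ← Matrix.mulVec_mulVec, ← Matrix.mulVec_mulVec]
  have h1 : (hA.eigenvectorUnitary : Mt N)ᴴ *ᵥ ⇑(hA.eigenvectorBasis i) = Pi.single i 1 :=
    hA.star_eigenvectorUnitary_mulVec i
  rw [h1, Matrix.diagonal_mulVec_single, mul_one]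
  have h2 : (Pi.single i ((f (hA.eigenvalues i) : ℝ) : ℂ) : Fin N → ℂ) =
      ((f (hA.eigenvalues i) : ℝ) : ℂ) • Pi.single i 1 := by
    rw [← Pi.single_smul]; simp
  rw [h2, Matrix.mulVec_smul, hA.eigenvectorUnitary_mulVec]

theorem vec_eig {A : Mt N} (hA : A.IsHermitian) (i : Fin N) :
    A *ᵥ ⇑(hA.eigenvectorBasis i) =
      ((hA.eigenvalues i : ℝ) : ℂ) • ⇑(hA.eigenvectorBasis i) := by
  rw [hA.mulVec_eigenvectorBasis]
  rfl

theorem nsq_eig {A : Mt N} (hA : A.IsHermitian) (i : Fin N) :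
    nsq ⇑(hA.eigenvectorBasis i) = 1 := by
  rw [nsq_eq]
  have h := hA.eigenvectorBasis.orthonormal.1 i
  rw [EuclideanSpace.norm_eq] at h
  have h2 : (0:ℝ) ≤ ∑ j, ‖(hA.eigenvectorBasis i) j‖ ^ 2 :=
    Finset.sum_nonneg fun _ _ => by positivity
  have h3 := Real.sq_sqrt h2
  rw [h] at h3
  linarith

/-- eigenvector of a matrix: value of the quadratic form -/
theorem qf_of_eig {A : Mt N} {v : Fin N → ℂ} {l : ℝ} (h : A *ᵥ v = ((l : ℝ) : ℂ) • v) :
    qf A v = l * nsq v := by
  unfold qf nsq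
  rw [h, dotProduct_smul]
  simp

/-- `<v, (A K + K A) v> = 2 l <v, A v>` when `K v = l v` -/
theorem qf_anti {A K : Mt N} {v : Fin N → ℂ} {l : ℝ} (hK : K.IsHermitian)
    (h : K *ᵥ v = ((l : ℝ) : ℂ) • v) : qf (A * K + K * A) v = 2 * l * qf A v := by
  rw [qf_add]
  have h1 : qf (A * K) v = l * qf A v := by
    unfold qf
    rw [← Matrix.mulVec_mulVec, h, Matrix.mulVec_smul, dotProduct_smul]
    simp
  have h2 : qf (K * A) v = l * qf A v := by
    unfold qf
    rw [← Matrix.mulVec_mulVec, dotProduct_mulVec (star v) K]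
    have h3 : star v ᵥ* K = ((l : ℝ) : ℂ) • star v := by
      have h4 : star (K *ᵥ v) = star v ᵥ* Kᴴ := Matrix.star_mulVec _ _
      rw [hK.eq, h] at h4
      rw [← h4, star_smul]
      simp
    rw [h3, smul_dotProduct]
    simp
  rw [h1, h2]
  ring

/-! ### the truncated flow -/

def SR (N : ℕ) (R : ℝ) : Set (Mt N) := {K | K.PosSemidef ∧ (sc N R - K).PosSemidef}

theorem SR_fro {R : ℝ} (hR : 0 < R) {K : Mt N} (hK : K ∈ SR N R) : fro K ≤ Real.sqrt N * R := by
  refine fro_le_of hR hK.2 ?_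
  have h1 : (sc N R).PosSemidef := by
    have := hK.2.add hK.1
    simpa using this
  exact h1.add hK.1

section norm
attribute [local instance] Matrix.frobeniusNormedAddCommGroup Matrix.frobeniusNormedSpace
  Matrix.frobeniusNormedRing

theorem fro_eq_norm (A : Mt N) : fro A = ‖A‖ := by
  rw [Matrix.frobenius_norm_def]
  unfold fro fro2
  rw [Real.sqrt_eq_rpow]
  simp

theorem trunc {a b : ℝ} (hab : a < b) (V : Mt N → ℝ → Mt N) (R r : ℝ) (hR : 0 < R) (hr : 0 < r)
    (hV : ContinuousOn (fun z : Mt N × ℝ => V z.1 z.2) ({K | K.PosSemidef} ×ˢ Set.Icc a b))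
    (hH : ∀ K : Mt N, K.PosSemidef → ∀ x ∈ Set.Icc a b, (V K x).IsHermitian) :
    ∃ Q : SR N R → ℝ → Mt N, (∀ K, Q K a = - (K : Mt N)) ∧
      (∀ K, ∀ x ∈ Icc a b, HasDerivWithinAt (Q K)
        (V K x - chi r (fro (Q K x)) • ((K : Mt N) * (K : Mt N) - Q K x * Q K x))
          (Icc a b) x) ∧
      (∀ K, ∀ x ∈ Icc a b, (Q K x).IsHermitian) ∧
      Continuous (fun K => Q K b) := by
  set f : SR N R → ℝ → Mt N → Mt N := fun K x Q =>
    V K x - chi r ‖Q‖ • ((K : Mt N) * (K : Mt N) - Q * Q) with hfdef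
  set L : NNReal := Real.toNNReal ((Real.sqrt N * R) ^ 2 / r + 8 * r) with hL
  have hf : ContinuousOn (fun q : SR N R × ℝ × Mt N => f q.1 q.2.1 q.2.2)
      (univ ×ˢ (Icc a b ×ˢ univ)) := by
    have h1 : ContinuousOn (fun q : SR N R × ℝ × Mt N => V q.1 q.2.1)
        (univ ×ˢ (Icc a b ×ˢ univ)) := by
      refine ContinuousOn.comp (g := fun z : Mt N × ℝ => V z.1 z.2)
        (f := fun q : SR N R × ℝ × Mt N => ((q.1 : Mt N), q.2.1)) hV ?_ ?_
      · exact Continuous.continuousOn (by fun_prop)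
      · rintro ⟨K, x, Q⟩ ⟨_, hx, _⟩
        exact ⟨K.2.1, hx⟩
    refine h1.sub (Continuous.continuousOn ?_)
    refine Continuous.smul ((chi_cont r).comp (by fun_prop)) ?_
    fun_prop
  have hLip : ∀ p, ∀ t ∈ Icc a b, LipschitzWith L (f p t) := by
    intro K t _
    refine LipschitzWith.of_dist_le_mul fun P Q => ?_
    rw [dist_eq_norm, dist_eq_norm]
    have e1 : f K t P - f K t Q = -(chi r ‖P‖ • ((K : Mt N) * (K : Mt N) - P * P) -
        chi r ‖Q‖ • ((K : Mt N) * (K : Mt N) - Q * Q)) := by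
      simp only [hfdef]; abel
    rw [e1, norm_neg]
    refine (lip_quad hr _ P Q).trans ?_
    refine mul_le_mul_of_nonneg_right ?_ (norm_nonneg _)
    rw [hL, Real.coe_toNNReal _ (by positivity)]
    have h2 : ‖(K : Mt N) * (K : Mt N)‖ ≤ (Real.sqrt N * R) ^ 2 := by
      refine (norm_mul_le _ _).trans ?_
      have h3 : ‖(K : Mt N)‖ ≤ Real.sqrt N * R := by
        rw [← fro_eq_norm]; exact SR_fro hR K.2
      rw [pow_two]
      exact mul_le_mul h3 h3 (norm_nonneg _) (by positivity)
    gcongr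
  obtain ⟨y, hy0, hy1, hy2⟩ := ODE3.exists_family (E := Mt N) (P := SR N R) (f := f) (K := L)
    hab.le hf hLip (fun K => -(K : Mt N)) (by fun_prop)
  refine ⟨y, hy0, ?_, ?_, ?_⟩
  · intro K x hx
    have := hy1 K x hx
    simp only [hfdef] at this
    rw [fro_eq_norm]
    exact this
  · intro K
    have hz : ∀ x ∈ Icc a b, HasDerivWithinAt (fun x => (y K x)ᴴ) (f K x ((y K x)ᴴ)) (Icc a b) x := by
      intro x hx
      have h1 := HDW.conjT (hy1 K x hx)
      have h2 : (f K x (y K x))ᴴ = f K x ((y K x)ᴴ) := by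
        simp only [hfdef]
        rw [Matrix.conjTranspose_sub, Matrix.conjTranspose_smul, Matrix.conjTranspose_sub,
          Matrix.conjTranspose_mul, Matrix.conjTranspose_mul, K.2.1.isHermitian.eq,
          (hH K K.2.1 x hx).eq, Matrix.frobenius_norm_conjTranspose]
        simp
      rw [h2] at h1
      exact h1
    have h0 : y K a = (y K a)ᴴ := by
      rw [hy0 K, Matrix.conjTranspose_neg, K.2.1.isHermitian.eq]
    intro x hx
    have := ODE3.unique (f := f K) (K := L) (hLip K) (hy1 K) hz h0 x hx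
    exact this.symm
  · have h1 : Continuous (fun K : SR N R => ((K, b) : SR N R × ℝ)) := by fun_prop
    rw [← continuousOn_univ]
    exact ContinuousOn.comp (g := fun q : SR N R × ℝ => y q.1 q.2) hy2 h1.continuousOn
      (fun K _ => ⟨mem_univ _, right_mem_Icc.2 hab.le⟩)

theorem isClosed_psd : IsClosed {A : Mt N | A.PosSemidef} := by
  have h1 : {A : Mt N | A.PosSemidef} = {A | Aᴴ = A} ∩ ⋂ v : Fin N → ℂ, {A | 0 ≤ qf A v} := by
    ext A
    simp only [mem_ofPred_eq, mem_inter_iff, mem_iInter]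
    exact ⟨fun h => ⟨h.isHermitian, fun v => qf_nonneg h v⟩, fun h => psd_of h.1 h.2⟩
  rw [h1]
  refine IsClosed.inter (isClosed_eq (by fun_prop) continuous_id) (isClosed_iInter fun v => ?_)
  refine isClosed_le continuous_const ?_
  unfold qf
  fun_prop

theorem SR_compact {R : ℝ} (hR : 0 < R) : IsCompact (SR N R) := by
  refine Metric.isCompact_of_isClosed_isBounded ?_ ?_
  · refine IsClosed.inter isClosed_psd ?_
    exact isClosed_psd.preimage (f := fun K : Mt N => sc N R - K) (by fun_prop)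
  · refine Metric.isBounded_iff_subset_closedBall 0 |>.2 ⟨Real.sqrt N * R, fun K hK => ?_⟩
    rw [mem_closedBall_zero_iff, ← fro_eq_norm]
    exact SR_fro hR hK

theorem brouwer_SR {R : ℝ} (hR : 0 < R) (T : SR N R → SR N R) (hT : Continuous T) :
    ∃ K, T K = K := by
  refine Brouwer.brouwer_subtype (SR_compact hR) ?_ ?_ T hT
  · intro A hA B hB s t hs ht hst
    refine ⟨?_, ?_⟩
    · exact (hA.1.smul hs).add (hB.1.smul ht)
    · have h1 : sc N R - (s • A + t • B) = s • (sc N R - A) + t • (sc N R - B) := by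
        rw [smul_sub, smul_sub]
        have : sc N R = s • sc N R + t • sc N R := by rw [← add_smul, hst, one_smul]
        conv_lhs => rw [this]
        abel
      rw [h1]
      exact (hA.2.smul hs).add (hB.2.smul ht)
  · refine ⟨0, Matrix.PosSemidef.zero, ?_⟩
    rw [sub_zero]
    refine psd_of (sc_herm R) fun v => ?_
    rw [qf_sc]
    exact mul_nonneg hR.le (nsq_nonneg v)

end norm

/-! ### monotonicity -/

theorem incr {a b c : ℝ} (hab : a < b) {g g' : ℝ → ℝ}
    (hg : ∀ x ∈ Icc a b, HasDerivWithinAt g (g' x) (Icc a b) x) (hc : ∀ x ∈ Icc a b, g' x ≤ c) :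
    g b - g a ≤ c * (b - a) := by
  have h1 : AntitoneOn (fun x => g x - c * x) (Icc a b) := by
    refine antitoneOn_of_hasDerivWithinAt_nonpos (convex_Icc a b) (f' := fun x => g' x - c * 1)
      ?_ ?_ ?_
    · intro x hx
      exact ((hg x hx).sub ((hasDerivWithinAt_id x _).const_mul c)).continuousWithinAt
    · intro x hx
      exact ((hg x (interior_subset hx)).sub ((hasDerivWithinAt_id x _).const_mul c)).mono
        interior_subset
    · intro x hx
      have := hc x (interior_subset hx)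
      linarith
  have h2 := h1 (left_mem_Icc.2 hab.le) (right_mem_Icc.2 hab.le) hab.le
  simp only at h2
  linarith

/-- `K + Q ≥ 0` along the truncated flow -/
theorem psdA (hPOS : POS) {a b r : ℝ} (hab : a < b) {K : Mt N} (hK : K.IsHermitian)
    {V Q : ℝ → Mt N} (hV : ∀ x ∈ Icc a b, (V x).PosSemidef)
    (hQ : ∀ x ∈ Icc a b, HasDerivWithinAt Q
      (V x - chi r (fro (Q x)) • (K * K - Q x * Q x)) (Icc a b) x)
    (hH : ∀ x ∈ Icc a b, (Q x).IsHermitian) (h0 : Q a = -K) :
    ∀ x ∈ Icc a b, (K + Q x).PosSemidef := by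
  have hQc : ContinuousOn Q (Icc a b) := contOn_of_deriv hQ
  refine hPOS N a b hab (fun x => K + Q x) V
    (fun x => (chi r (fro (Q x)) / 2) • (K - Q x)) ?_ ?_ ?_ ?_ hV ?_
  · intro x hx
    have h1 := HDW.add (HDW.const K (Icc a b) x) (hQ x hx)
    have h2 : (0 : Mt N) + (V x - chi r (fro (Q x)) • (K * K - Q x * Q x)) =
        V x - ((K + Q x) * ((chi r (fro (Q x)) / 2) • (K - Q x)) +
          ((chi r (fro (Q x)) / 2) • (K - Q x)) * (K + Q x)) := by
      rw [zero_add, Matrix.mul_smul, Matrix.smul_mul, ← smul_add]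
      have h3 : (K + Q x) * (K - Q x) + (K - Q x) * (K + Q x) =
          (2:ℝ) • (K * K - Q x * Q x) := by
        rw [two_smul]
        noncomm_ring
      rw [h3, smul_smul]
      congr 3
      ring
    rw [h2] at h1
    exact h1
  · have h1 : ContinuousOn (fun x => K - Q x) (Icc a b) := continuousOn_const.sub hQc
    have h2 : ContinuousOn (fun x => chi r (fro (Q x)) / 2) (Icc a b) :=
      (((chi_cont r).comp continuous_fro').comp_continuousOn hQc).div_const _
    exact h2.smul h1
  · intro x hx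
    have h4 : (K - Q x).IsHermitian := hK.sub (hH x hx)
    unfold Matrix.IsHermitian
    rw [Matrix.conjTranspose_smul, h4.eq]
    simp
  · intro x hx
    exact hK.add (hH x hx)
  · show (K + Q a).PosSemidef
    rw [h0, add_neg_cancel]
    exact Matrix.PosSemidef.zero

/-- `K - Q ≥ 0` along the truncated flow -/
theorem psdC (hPOS : POS) {a b r : ℝ} (hab : a < b) {K : Mt N} (hK : K.IsHermitian)
    {V Q : ℝ → Mt N} (hV : ∀ x ∈ Icc a b, (V x).PosSemidef)
    (hQ : ∀ x ∈ Icc a b, HasDerivWithinAt Q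
      (V x - chi r (fro (Q x)) • (K * K - Q x * Q x)) (Icc a b) x)
    (hH : ∀ x ∈ Icc a b, (Q x).IsHermitian) (h0 : Q b = K) :
    ∀ x ∈ Icc a b, (K - Q x).PosSemidef := by
  have hQc : ContinuousOn Q (Icc a b) := contOn_of_deriv hQ
  have hmaps : ∀ y ∈ Icc a b, a + b - y ∈ Icc a b := by
    intro y hy
    exact ⟨by linarith [hy.2], by linarith [hy.1]⟩
  have key : ∀ y ∈ Icc a b, (K - Q (a + b - y)).PosSemidef := by
    refine hPOS N a b hab (fun y => K - Q (a + b - y)) (fun y => V (a + b - y))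
      (fun y => (chi r (fro (Q (a + b - y))) / 2) • (K + Q (a + b - y))) ?_ ?_ ?_ ?_ ?_ ?_
    · intro y hy
      have h0' := hQ _ (hmaps y hy)
      have h1 : HasDerivWithinAt (fun z => Q (a + b - z))
          (-(V (a + b - y) - chi r (fro (Q (a + b - y))) •
            (K * K - Q (a + b - y) * Q (a + b - y)))) (Icc a b) y := by
        rw [hasDerivWithinAt_iff_entry] at h0' ⊢
        intro i j
        have h3 : HasDerivWithinAt (fun z : ℝ => a + b - z) (-1) (Icc a b) y := by
          simpa using (hasDerivWithinAt_id y (Icc a b)).const_sub (a + b)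
        have h4 := (h0' i j).scomp y h3 hmaps
        exact HasDerivWithinAt.congr_deriv h4 (by rw [neg_one_smul]; rfl)
      have h2 := HDW.sub (HDW.const K (Icc a b) y) h1
      have h5 : (0 : Mt N) - (-(V (a + b - y) - chi r (fro (Q (a + b - y))) •
            (K * K - Q (a + b - y) * Q (a + b - y)))) =
          V (a + b - y) - ((K - Q (a + b - y)) *
            ((chi r (fro (Q (a + b - y))) / 2) • (K + Q (a + b - y))) +
          ((chi r (fro (Q (a + b - y))) / 2) • (K + Q (a + b - y))) * (K - Q (a + b - y))) := by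
        generalize Q (a + b - y) = P
        rw [zero_sub, neg_neg, Matrix.mul_smul, Matrix.smul_mul, ← smul_add]
        have h3 : (K - P) * (K + P) + (K + P) * (K - P) = (2:ℝ) • (K * K - P * P) := by
          rw [two_smul]
          noncomm_ring
        rw [h3, smul_smul]
        congr 3
        ring
      rw [h5] at h2
      exact h2
    · have hQc' : ContinuousOn (fun y => Q (a + b - y)) (Icc a b) :=
        hQc.comp (by fun_prop) hmaps
      have h1 : ContinuousOn (fun x => K + Q (a + b - x)) (Icc a b) := continuousOn_const.add hQc'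
      have h2 : ContinuousOn (fun x => chi r (fro (Q (a + b - x))) / 2) (Icc a b) :=
        (((chi_cont r).comp continuous_fro').comp_continuousOn hQc').div_const _
      exact h2.smul h1
    · intro y hy
      have h4 : (K + Q (a + b - y)).IsHermitian := hK.add (hH _ (hmaps y hy))
      unfold Matrix.IsHermitian
      rw [Matrix.conjTranspose_smul, h4.eq]
      simp
    · intro y hy
      exact hK.sub (hH _ (hmaps y hy))
    · intro y hy
      exact hV _ (hmaps y hy)
    · show (K - Q (a + b - a)).PosSemidef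
      rw [add_sub_cancel_left, h0, sub_self]
      exact Matrix.PosSemidef.zero
  intro x hx
  have := key (a + b - x) (hmaps x hx)
  rwa [sub_sub_cancel] at this

/-- derivative of `<v, (K + Q) v>` for an eigenvector `v` of `K` -/
theorem quadA {a b r : ℝ} {K : Mt N} (hK : K.IsHermitian) {V Q : ℝ → Mt N}
    (hQ : ∀ x ∈ Icc a b, HasDerivWithinAt Q
      (V x - chi r (fro (Q x)) • (K * K - Q x * Q x)) (Icc a b) x)
    {v : Fin N → ℂ} {l : ℝ} (hv : K *ᵥ v = ((l : ℝ) : ℂ) • v) :
    ∀ x ∈ Icc a b, HasDerivWithinAt (fun x => qf (K + Q x) v)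
      (qf (V x) v - chi r (fro (Q x)) *
        (2 * l * qf (K + Q x) v - qf ((K + Q x) * (K + Q x)) v)) (Icc a b) x := by
  intro x hx
  have h1 := HDW.quad v (HDW.add (HDW.const K (Icc a b) x) (hQ x hx))
  have h2 : K * K - Q x * Q x = ((K + Q x) * K + K * (K + Q x)) - (K + Q x) * (K + Q x) := by
    noncomm_ring
  have h3 : qf (0 + (V x - chi r (fro (Q x)) • (K * K - Q x * Q x))) v =
      qf (V x) v - chi r (fro (Q x)) *
        (2 * l * qf (K + Q x) v - qf ((K + Q x) * (K + Q x)) v) := by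
    rw [zero_add, qf_sub, qf_smul, h2, qf_sub, qf_anti hK hv]
  rw [← h3]
  exact h1

end EX

open EX in
theorem ex : POS → CFCC → EX := by
  intro hPOS hCFCC N a b hab V B0 hV hB0 hne
  set B : ℝ := max B0 0 + 1 with hBdef
  have hB : 0 < B := by
    have := le_max_right B0 0
    linarith
  have hVp : ∀ K : Mt N, K.PosSemidef → ∀ x ∈ Icc a b, (V K x).PosSemidef :=
    fun K hK x hx => (hB0 K hK x hx).1
  have hVB : ∀ K : Mt N, K.PosSemidef → ∀ x ∈ Icc a b, ∀ v, qf (V K x) v ≤ B * nsq v := by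
    intro K hK x hx v
    have h1 := qf_nonneg (hB0 K hK x hx).2 v
    rw [qf_sub, qf_sc] at h1
    have h2 : B0 * nsq v ≤ B * nsq v := by
      refine mul_le_mul_of_nonneg_right ?_ (nsq_nonneg v)
      have := le_max_left B0 0
      linarith
    linarith
  set ℓ : ℝ := b - a with hℓ
  have hℓ0 : 0 < ℓ := by rw [hℓ]; linarith
  set k : ℝ := B * ℓ / 2 with hk
  have hk0 : 0 < k := by positivity
  set r : ℝ := Real.sqrt N * k + 1 with hr
  have hr0 : 0 < r := by positivity
  set R : ℝ := 2 * r + B * ℓ with hR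
  have hR0 : 0 < R := by positivity
  obtain ⟨Q, hQa, hQd, hQh, hQc⟩ := trunc hab V R r hR0 hr0 hV
    (fun K hK x hx => (hVp K hK x hx).isHermitian)
  -- the fixed point map
  set F : SR N R → Mt N := fun K => (1 / 2 : ℝ) • ((K : Mt N) + Q K b) with hF
  have hFh : ∀ K, (F K).IsHermitian := by
    intro K
    have h4 : ((K : Mt N) + Q K b).IsHermitian :=
      K.2.1.isHermitian.add (hQh K b (right_mem_Icc.2 hab.le))
    unfold Matrix.IsHermitian
    simp only [hF]
    rw [Matrix.conjTranspose_smul, h4.eq]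
    simp
  set clip : ℝ → ℝ := fun x => min (max x 0) R with hclip
  have hclipc : Continuous clip := by
    simp only [hclip]; fun_prop
  have hclip0 : ∀ x, 0 ≤ clip x := fun x => le_min (le_max_right _ _) hR0.le
  have hclipR : ∀ x, clip x ≤ R := fun x => min_le_right _ _
  have hTmem : ∀ K, cfc clip (F K) ∈ SR N R := fun K =>
    ⟨cfc_psd (hFh K) clip (fun _ => hclip0 _), cfc_le (hFh K) clip R (fun _ => hclipR _)⟩
  obtain ⟨K0, hK0⟩ := brouwer_SR hR0 (fun K => ⟨cfc clip (F K), hTmem K⟩) (by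
    refine Continuous.subtype_mk ?_ _
    have h1 : Continuous F := by
      simp only [hF]
      exact (continuous_subtype_val.add hQc).const_smul (1 / 2 : ℝ)
    rw [← continuousOn_univ]
    exact (hCFCC N clip hclipc).comp h1.continuousOn (fun K _ => hFh K))
  have hK : (K0 : Mt N) = cfc clip (F K0) := (congrArg Subtype.val hK0).symm
  set K : Mt N := (K0 : Mt N) with hKdef
  have hKp : K.PosSemidef := K0.2.1
  have hKh : K.IsHermitian := hKp.isHermitian
  have hKR : (sc N R - K).PosSemidef := K0.2.2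
  set q : ℝ → Mt N := Q K0 with hq
  have hqa : q a = -K := hQa K0
  have hqd : ∀ x ∈ Icc a b, HasDerivWithinAt q
      (V K x - chi r (fro (q x)) • (K * K - q x * q x)) (Icc a b) x := hQd K0
  have hqh : ∀ x ∈ Icc a b, (q x).IsHermitian := hQh K0
  have hA := psdA hPOS hab hKh (hVp K hKp) hqd hqh hqa
  have ha : a ∈ Icc a b := left_mem_Icc.2 hab.le
  have hb : b ∈ Icc a b := right_mem_Icc.2 hab.le
  have hFA : ∀ v, qf (F K0) v = qf (K + q b) v / 2 := by
    intro v
    simp only [hF]
    rw [qf_smul]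
    ring
  have hAa : ∀ v, qf (K + q a) v = 0 := by
    intro v
    rw [hqa, add_neg_cancel]
    unfold qf
    simp
  -- `F ≤ R`
  have hFR : ∀ i, (hFh K0).eigenvalues i ≤ R := by
    intro i
    by_contra hcon
    push Not at hcon
    set v : Fin N → ℂ := ⇑((hFh K0).eigenvectorBasis i) with hv
    set lam : ℝ := (hFh K0).eigenvalues i with hlam
    have hv1 : nsq v = 1 := nsq_eig (hFh K0) i
    have hKv : K *ᵥ v = ((R : ℝ) : ℂ) • v := by
      rw [hK]
      have h1 := cfc_vec (hFh K0) clip i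
      have h2 : clip lam = R := by
        simp only [hclip]
        rw [max_eq_left (by linarith), min_eq_right hcon.le]
      rw [← hlam, h2] at h1
      exact h1
    have hder := quadA hKh hqd hKv
    have hinc := incr hab hder (c := B) (by
      intro x hx
      have h1 := hVB K hKp x hx v
      rw [hv1, mul_one] at h1
      have hα := qf_nonneg (hA x hx) v
      have h2 : 0 ≤ chi r (fro (q x)) *
          (2 * R * qf (K + q x) v - qf ((K + q x) * (K + q x)) v) := by
        by_cases hfr : 2 * r ≤ fro (q x)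
        · rw [chi_zero hr0 hfr, zero_mul]
        · refine mul_nonneg (chi_nonneg _ _) ?_
          have h3 : (sc N (R + 2 * r) - (K + q x)).PosSemidef := by
            have h4 := hKR.add (psd_sub_of_fro (hqh x hx) (not_le.1 hfr).le)
            have h5 : sc N R - K + (sc N (2 * r) - q x) = sc N (R + 2 * r) - (K + q x) := by
              unfold sc
              push_cast
              rw [add_smul]
              abel
            rw [h5] at h4
            exact h4
          have h6 := sq_le (by positivity) (hA x hx) h3 v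
          have h7 : (R + 2 * r) * qf (K + q x) v ≤ 2 * R * qf (K + q x) v := by
            refine mul_le_mul_of_nonneg_right ?_ hα
            have : 0 < B * ℓ := by positivity
            linarith
          linarith
      linarith)
    rw [hAa v, sub_zero] at hinc
    have h8 : qf (F K0) v = lam * nsq v := qf_of_eig (vec_eig (hFh K0) i)
    rw [hFA v, hv1] at h8
    have : 0 < B * ℓ := by positivity
    linarith
  -- `K = F K`
  have hFp : ∀ i, 0 ≤ (hFh K0).eigenvalues i := by
    have h1 : (F K0).PosSemidef := by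
      refine psd_of (hFh K0) fun v => ?_
      rw [hFA v]
      have := qf_nonneg (hA b hb) v
      linarith
    exact fun i => h1.eigenvalues_nonneg i
  have hKF : K = F K0 := by
    rw [hK]
    refine cfc_self (hFh K0) clip fun i => ?_
    simp only [hclip]
    rw [max_eq_left (hFp i), min_eq_left (hFR i)]
  have hqb : q b = K := by
    have h1 : (2:ℝ) • F K0 = K + q b := by
      show (2:ℝ) • ((1 / 2 : ℝ) • (K + q b)) = K + q b
      rw [smul_smul]
      norm_num
    rw [← hKF, two_smul] at h1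
    exact (add_left_cancel h1).symm
  have hC := psdC hPOS hab hKh (hVp K hKp) hqd hqh hqb
  -- the bound on `K`
  have hKk : ∀ i, hKh.eigenvalues i ≤ k := by
    intro i0
    obtain ⟨i, hi⟩ := @Finite.exists_max (Fin N) ℝ _ ⟨i0⟩ _ hKh.eigenvalues
    refine (hi i0).trans ?_
    by_contra hcon
    push Not at hcon
    set v : Fin N → ℂ := ⇑(hKh.eigenvectorBasis i) with hv
    set lam : ℝ := hKh.eigenvalues i with hlam
    have hv1 : nsq v = 1 := nsq_eig hKh i
    have hKv : K *ᵥ v = ((lam : ℝ) : ℂ) • v := vec_eig hKh i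
    have hder := quadA hKh hqd hKv
    have hlam0 : 0 < lam := hk0.trans hcon
    have hinc := incr hab hder (c := B) (by
      intro x hx
      have h1 := hVB K hKp x hx v
      rw [hv1, mul_one] at h1
      have h2 : 0 ≤ chi r (fro (q x)) *
          (2 * lam * qf (K + q x) v - qf ((K + q x) * (K + q x)) v) := by
        refine mul_nonneg (chi_nonneg _ _) ?_
        have h3 : (sc N (2 * lam) - (K + q x)).PosSemidef := by
          have h4 := le_of_eig hKh lam hi
          have h5 := (h4.add h4).add (hC x hx)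
          have h6 : sc N lam - K + (sc N lam - K) + (K - q x) = sc N (2 * lam) - (K + q x) := by
            unfold sc
            rw [two_mul]
            push_cast
            rw [add_smul]
            abel
          rw [h6] at h5
          exact h5
        have h7 := sq_le (by positivity) (hA x hx) h3 v
        linarith
      linarith)
    rw [hAa v, sub_zero, hqb, qf_add, qf_of_eig hKv, hv1] at hinc
    have : k = B * (b - a) / 2 := by rw [hk, hℓ]
    linarith
  have hKk' : (sc N k - K).PosSemidef := le_of_eig hKh k hKk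
  have hfro : ∀ x ∈ Icc a b, fro (q x) ≤ r := by
    intro x hx
    have h1 : (sc N k - q x).PosSemidef := by
      have h3 := hKk'.add (hC x hx)
      have h4 : sc N k - K + (K - q x) = sc N k - q x := by abel
      rwa [h4] at h3
    have h2 : (sc N k + q x).PosSemidef := by
      have h3 := hKk'.add (hA x hx)
      have h4 : sc N k - K + (K + q x) = sc N k + q x := by abel
      rwa [h4] at h3
    have := fro_le_of hk0 h1 h2
    rw [hr]
    linarith
  have hqd' : ∀ x ∈ Icc a b, HasDerivWithinAt q (V K x - K * K + q x * q x) (Icc a b) x := by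
    intro x hx
    have h1 := hqd x hx
    rw [chi_one hr0 (hfro x hx), one_smul] at h1
    have h2 : V K x - (K * K - q x * q x) = V K x - K * K + q x * q x := by abel
    rw [← h2]
    exact h1
  refine ⟨K, ?_, q, hqd', hqa, hqb, fun x hx => ⟨hqh x hx, hA x hx, hC x hx⟩⟩
  -- positivity
  rw [hKh.posDef_iff_eigenvalues_pos]
  intro i
  by_contra hcon
  have hlam : hKh.eigenvalues i = 0 := le_antisymm (not_lt.1 hcon) (hKp.eigenvalues_nonneg i)
  set v : Fin N → ℂ := ⇑(hKh.eigenvectorBasis i) with hv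
  have hv1 : nsq v = 1 := nsq_eig hKh i
  have hv0 : v ≠ 0 := by
    intro h0
    rw [h0] at hv1
    unfold nsq at hv1
    simp at hv1
  have hKv : K *ᵥ v = ((0 : ℝ) : ℂ) • v := by
    have := vec_eig hKh i
    rw [hlam] at this
    exact this
  have hα0 : ∀ x ∈ Icc a b, qf (K + q x) v = 0 := by
    intro x hx
    have h1 := qf_nonneg (hA x hx) v
    have h2 := qf_nonneg (hC x hx) v
    have h3 : qf K v = 0 := by rw [qf_of_eig hKv, zero_mul]
    rw [qf_sub, h3] at h2
    rw [qf_add, h3] at h1 ⊢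
    linarith
  obtain ⟨x, hx, hVx⟩ := hne K hKp v hv0
  apply hVx
  have hder := quadA hKh hqd hKv x hx
  have hder0 : HasDerivWithinAt (fun x => qf (K + q x) v) 0 (Icc a b) x := by
    refine (hasDerivWithinAt_const x (Icc a b) (0:ℝ)).congr (fun y hy => hα0 y hy) (hα0 x hx)
  have heq := (uniqueDiffOn_Icc hab x hx).eq_deriv _ hder hder0
  rw [hα0 x hx] at heq
  have h4 : 0 ≤ qf ((K + q x) * (K + q x)) v := by
    have h5 : ((K + q x) * (K + q x)).PosSemidef := by
      have := Matrix.posSemidef_conjTranspose_mul_self (K + q x)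
      rwa [(hA x hx).isHermitian.eq] at this
    exact qf_nonneg h5 v
  have h6 : 0 ≤ chi r (fro (q x)) * qf ((K + q x) * (K + q x)) v :=
    mul_nonneg (chi_nonneg _ _) h4
  have h7 := qf_nonneg (hVp K hKp x hx) v
  have h8 : qf (V K x) v = 0 := by nlinarith
  rw [← (hVp K hKp x hx).dotProduct_mulVec_zero_iff v]
  apply Complex.ext
  · exact h8
  · exact (hVp K hKp x hx).isHermitian.im_star_dotProduct_mulVec_self v

end Crest.Agent.R332
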