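import Crest.Agent.R332.LIBD

/-! Functional calculus toolkit. -/

set_option autoImplicit false

open MeasureTheory Matrix Filter Topology
open Crest.MathPhysics.LiebThirring
open scoped ComplexOrder

namespace Crest.Agent.R332

variable {N : ℕ}

theorem dg_isHermitian (κ : Fin N → ℝ) : (dg κ).IsHermitian := by
  unfold dg Matrix.IsHermitian
  rw [Matrix.diagonal_conjTranspose]
  congr 1
  ext i
  simp

theorem sc_isHermitian (t : ℝ) : (sc N t).IsHermitian := by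
  unfold sc Matrix.IsHermitian
  rw [Matrix.conjTranspose_smul, Matrix.conjTranspose_one]
  simp

theorem dg_mul (κ μ : Fin N → ℝ) : dg κ * dg μ = dg (fun i => κ i * μ i) := by
  unfold dg
  rw [Matrix.diagonal_mul_diagonal]
  congr 1
  ext i
  push_cast
  rfl

theorem dg_add (κ μ : Fin N → ℝ) : dg κ + dg μ = dg (fun i => κ i + μ i) := by
  unfold dg
  rw [Matrix.diagonal_add]
  congr 1
  ext i
  push_cast
  rfl

theorem dg_sub (κ μ : Fin N → ℝ) : dg κ - dg μ = dg (fun i => κ i - μ i) := by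
  unfold dg
  rw [Matrix.diagonal_sub]
  congr 1
  ext i
  push_cast
  rfl

theorem dg_neg (κ : Fin N → ℝ) : - dg κ = dg (fun i => - κ i) := by
  unfold dg
  rw [Matrix.diagonal_neg]
  congr 1
  ext i
  push_cast
  rfl

theorem dg_smul (c : ℝ) (κ : Fin N → ℝ) : ((c : ℝ) : ℂ) • dg κ = dg (fun i => c * κ i) := by
  unfold dg
  rw [← Matrix.diagonal_smul]
  congr 1
  ext i
  simp

theorem sc_eq_dg (t : ℝ) : sc N t = dg (fun _ => t) := by
  unfold sc dg
  rw [← Matrix.diagonal_one, ← Matrix.diagonal_smul]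
  congr 1
  ext i
  simp

theorem dg_one : dg (fun _ : Fin N => (1 : ℝ)) = 1 := by
  unfold dg
  simp

theorem dg_zero : dg (fun _ : Fin N => (0 : ℝ)) = 0 := by
  unfold dg
  simp

theorem sc_add (a b : ℝ) : sc N (a + b) = sc N a + sc N b := by
  unfold sc; push_cast; rw [add_smul]
theorem sc_sub (a b : ℝ) : sc N (a - b) = sc N a - sc N b := by
  unfold sc; push_cast; rw [sub_smul]
theorem sc_neg (a : ℝ) : sc N (-a) = - sc N a := by
  unfold sc; push_cast; rw [neg_smul]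
theorem sc_zero : sc N 0 = 0 := by
  unfold sc; simp
theorem sc_one : sc N 1 = 1 := by
  unfold sc; simp
theorem sc_mul (a : ℝ) (A : Mt N) : sc N a * A = ((a : ℝ) : ℂ) • A := by
  unfold sc; simp
theorem mul_sc (a : ℝ) (A : Mt N) : A * sc N a = ((a : ℝ) : ℂ) • A := by
  unfold sc; simp
theorem sc_mul_sc (a b : ℝ) : sc N a * sc N b = sc N (a * b) := by
  rw [sc_mul]; unfold sc; push_cast; rw [smul_smul]
theorem sc_comm (a : ℝ) (A : Mt N) : sc N a * A = A * sc N a := by rw [sc_mul, mul_sc]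
theorem smul_sc (a b : ℝ) : ((a : ℝ) : ℂ) • sc N b = sc N (a * b) := by
  rw [← sc_mul, sc_mul_sc]

theorem rtr_sc (t : ℝ) : rtr (sc N t) = N * t := by
  unfold rtr sc
  rw [Matrix.trace_smul, Matrix.trace_one]
  simp [mul_comm]

theorem rtr_dg (κ : Fin N → ℝ) : rtr (dg κ) = ∑ i, κ i := by
  unfold rtr dg
  rw [Matrix.trace_diagonal, Complex.re_sum]
  simp

theorem rtr_add (A B : Mt N) : rtr (A + B) = rtr A + rtr B := by
  unfold rtr; rw [Matrix.trace_add, Complex.add_re]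
theorem rtr_sub (A B : Mt N) : rtr (A - B) = rtr A - rtr B := by
  unfold rtr; rw [Matrix.trace_sub, Complex.sub_re]
theorem rtr_neg (A : Mt N) : rtr (-A) = - rtr A := by
  unfold rtr; rw [Matrix.trace_neg, Complex.neg_re]
theorem rtr_zero : rtr (0 : Mt N) = 0 := by
  unfold rtr; simp
theorem rtr_one : rtr (1 : Mt N) = N := by
  unfold rtr; simp
theorem rtr_smul (c : ℝ) (A : Mt N) : rtr (((c : ℝ) : ℂ) • A) = c * rtr A := by
  unfold rtr; rw [Matrix.trace_smul]; simp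
theorem rtr_mul_comm {m : ℕ} (A : Rc m N) (B : Rc N m) : rtr (A * B) = rtr (B * A) := by
  unfold rtr; rw [Matrix.trace_mul_comm]
theorem rtr_conjTranspose (A : Mt N) : rtr Aᴴ = rtr A := by
  unfold rtr; rw [Matrix.trace_conjTranspose]; simp
theorem rtr_sum {ι : Type*} (s : Finset ι) (f : ι → Mt N) :
    rtr (∑ i ∈ s, f i) = ∑ i ∈ s, rtr (f i) := by
  unfold rtr; rw [Matrix.trace_sum, Complex.re_sum]

/-- unitary matrices -/
theorem U_mul_star (U : Matrix.unitaryGroup (Fin N) ℂ) : (U : Mt N) * (U : Mt N)ᴴ = 1 := by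
  have := Matrix.mem_unitaryGroup_iff.1 U.2
  exact this
theorem U_star_mul (U : Matrix.unitaryGroup (Fin N) ℂ) : (U : Mt N)ᴴ * (U : Mt N) = 1 := by
  have := Matrix.mem_unitaryGroup_iff'.1 U.2
  exact this

theorem rtr_conj (U : Matrix.unitaryGroup (Fin N) ℂ) (A : Mt N) :
    rtr ((U : Mt N) * A * (U : Mt N)ᴴ) = rtr A := by
  rw [Matrix.mul_assoc, rtr_mul_comm, Matrix.mul_assoc, U_star_mul, Matrix.mul_one]

theorem rtr_conj' (U : Matrix.unitaryGroup (Fin N) ℂ) (A : Mt N) :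
    rtr ((U : Mt N)ᴴ * A * (U : Mt N)) = rtr A := by
  rw [Matrix.mul_assoc, rtr_mul_comm, Matrix.mul_assoc, U_mul_star, Matrix.mul_one]

theorem conj_isHermitian {m : ℕ} {A : Mt N} (hA : A.IsHermitian) (B : Rc m N) :
    (B * A * Bᴴ).IsHermitian := by
  unfold Matrix.IsHermitian at *
  rw [Matrix.conjTranspose_mul, Matrix.conjTranspose_mul, Matrix.conjTranspose_conjTranspose, hA,
    Matrix.mul_assoc]

/-- the functional calculus of a diagonalised matrix -/
theorem cfc_diag (U : Matrix.unitaryGroup (Fin N) ℂ) (κ : Fin N → ℝ) (f : ℝ → ℝ) :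
    cfc f ((U : Mt N) * dg κ * (U : Mt N)ᴴ) = (U : Mt N) * dg (f ∘ κ) * (U : Mt N)ᴴ := by
  set A : Mt N := (U : Mt N) * dg κ * (U : Mt N)ᴴ with hAdef
  have hA : A.IsHermitian := conj_isHermitian (dg_isHermitian κ) _
  obtain ⟨q, hq⟩ : ∃ q : Polynomial ℝ, ∀ i, q.eval (κ i) = f (κ i) := by
    classical
    refine ⟨Lagrange.interpolate (Finset.univ.image κ) id f, fun i => ?_⟩
    have := Lagrange.eval_interpolate_at_node (s := Finset.univ.image κ) (v := id) f
      (Function.injective_id.injOn) (i := κ i) (Finset.mem_image_of_mem κ (Finset.mem_univ i))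
    simpa using this
  -- powers
  have hpow : ∀ n : ℕ, A ^ n = (U : Mt N) * dg (fun i => κ i ^ n) * (U : Mt N)ᴴ := by
    intro n
    induction n with
    | zero =>
      simp only [pow_zero]
      rw [dg_one, Matrix.mul_one, U_mul_star]
    | succ n ih =>
      rw [pow_succ, ih, hAdef]
      calc (U : Mt N) * dg (fun i => κ i ^ n) * (U : Mt N)ᴴ * ((U : Mt N) * dg κ * (U : Mt N)ᴴ)
          = (U : Mt N) * dg (fun i => κ i ^ n) * ((U : Mt N)ᴴ * (U : Mt N)) * dg κ *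
              (U : Mt N)ᴴ := by simp only [Matrix.mul_assoc]
        _ = _ := by
          rw [U_star_mul, Matrix.mul_one, Matrix.mul_assoc (U : Mt N), dg_mul]
          simp only [pow_succ]
  have hpoly : ∀ p : Polynomial ℝ, Polynomial.aeval A p =
      (U : Mt N) * dg (fun i => p.eval (κ i)) * (U : Mt N)ᴴ := by
    intro p
    induction p using Polynomial.induction_on' with
    | add p q hp hq =>
      rw [map_add, hp, hq]
      simp only [Polynomial.eval_add]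
      rw [← dg_add, Matrix.mul_add, Matrix.add_mul]
    | monomial n a =>
      rw [Polynomial.aeval_monomial, hpow]
      simp only [Polynomial.eval_monomial]
      rw [← dg_smul, Matrix.mul_smul, Matrix.smul_mul]
      rw [← Algebra.smul_def]
      ext i j
      simp [Matrix.smul_apply]
  have hspec : spectrum ℝ A ⊆ Set.range κ := by
    intro x hx
    by_contra hcon
    apply hx
    -- x - A invertible
    have hne : ∀ i, x - κ i ≠ 0 := fun i h => hcon ⟨i, by linarith⟩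
    have hsc : algebraMap ℝ (Mt N) x = (U : Mt N) * dg (fun _ => x) * (U : Mt N)ᴴ := by
      rw [← sc_eq_dg, mul_sc, Matrix.smul_mul, U_mul_star, Algebra.algebraMap_eq_smul_one]
      ext i j
      simp [Matrix.smul_apply]
    have e1 : algebraMap ℝ (Mt N) x - A = (U : Mt N) * dg (fun i => x - κ i) * (U : Mt N)ᴴ := by
      rw [hsc, hAdef, ← dg_sub, Matrix.mul_sub, Matrix.sub_mul]
    change IsUnit (algebraMap ℝ (Mt N) x - A)
    rw [e1]
    refine ⟨⟨_, (U : Mt N) * dg (fun i => (x - κ i)⁻¹) * (U : Mt N)ᴴ, ?_, ?_⟩, rfl⟩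
    · calc (U : Mt N) * dg (fun i => x - κ i) * (U : Mt N)ᴴ *
            ((U : Mt N) * dg (fun i => (x - κ i)⁻¹) * (U : Mt N)ᴴ)
          = (U : Mt N) * dg (fun i => x - κ i) * ((U : Mt N)ᴴ * (U : Mt N)) *
            dg (fun i => (x - κ i)⁻¹) * (U : Mt N)ᴴ := by simp only [Matrix.mul_assoc]
        _ = 1 := by
          rw [U_star_mul, Matrix.mul_one, Matrix.mul_assoc (U : Mt N), dg_mul]
          simp only [mul_inv_cancel₀ (hne _)]
          rw [dg_one, Matrix.mul_one, U_mul_star]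
    · calc (U : Mt N) * dg (fun i => (x - κ i)⁻¹) * (U : Mt N)ᴴ *
            ((U : Mt N) * dg (fun i => x - κ i) * (U : Mt N)ᴴ)
          = (U : Mt N) * dg (fun i => (x - κ i)⁻¹) * ((U : Mt N)ᴴ * (U : Mt N)) *
            dg (fun i => x - κ i) * (U : Mt N)ᴴ := by simp only [Matrix.mul_assoc]
        _ = 1 := by
          rw [U_star_mul, Matrix.mul_one, Matrix.mul_assoc (U : Mt N), dg_mul]
          simp only [inv_mul_cancel₀ (hne _)]
          rw [dg_one, Matrix.mul_one, U_mul_star]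
  have h1 : cfc f A = cfc (fun x => q.eval x) A := by
    refine cfc_congr fun x hx => ?_
    obtain ⟨i, rfl⟩ := hspec hx
    exact (hq i).symm
  have h2 : cfc (fun x => q.eval x) A = Polynomial.aeval A q := cfc_polynomial q A hA
  rw [h1, h2, hpoly]
  congr 3
  ext i
  exact hq i

theorem cfc_dg (κ : Fin N → ℝ) (f : ℝ → ℝ) : cfc f (dg κ) = dg (f ∘ κ) := by
  have h := cfc_diag (1 : Matrix.unitaryGroup (Fin N) ℂ) κ f
  simpa using h

/-- diagonalisation -/
theorem exists_diag {A : Mt N} (hA : A.IsHermitian) :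
    ∃ (U : Matrix.unitaryGroup (Fin N) ℂ), A = (U : Mt N) * dg hA.eigenvalues * (U : Mt N)ᴴ := by
  refine ⟨hA.eigenvectorUnitary, ?_⟩
  have h := hA.spectral_theorem
  rw [Unitary.conjStarAlgAut_apply] at h
  exact h



/-- generic form: rewrite every Hermitian matrix as `U dg κ U*` -/
theorem cfc_eq_of_diag {A : Mt N} (U : Matrix.unitaryGroup (Fin N) ℂ) (κ : Fin N → ℝ)
    (h : A = (U : Mt N) * dg κ * (U : Mt N)ᴴ) (f : ℝ → ℝ) :
    cfc f A = (U : Mt N) * dg (fun i => f (κ i)) * (U : Mt N)ᴴ := by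
  rw [h, cfc_diag]; rfl

theorem conj_mul (U : Matrix.unitaryGroup (Fin N) ℂ) (A B : Mt N) :
    ((U : Mt N) * A * (U : Mt N)ᴴ) * ((U : Mt N) * B * (U : Mt N)ᴴ) =
      (U : Mt N) * (A * B) * (U : Mt N)ᴴ := by
  calc _ = (U : Mt N) * A * ((U : Mt N)ᴴ * (U : Mt N)) * B * (U : Mt N)ᴴ := by
        simp only [Matrix.mul_assoc]
    _ = _ := by rw [U_star_mul, Matrix.mul_one]; simp only [Matrix.mul_assoc]

theorem conj_mul' (U : Matrix.unitaryGroup (Fin N) ℂ) (A B : Mt N) :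
    ((U : Mt N)ᴴ * A * (U : Mt N)) * ((U : Mt N)ᴴ * B * (U : Mt N)) =
      (U : Mt N)ᴴ * (A * B) * (U : Mt N) := by
  calc _ = (U : Mt N)ᴴ * A * ((U : Mt N) * (U : Mt N)ᴴ) * B * (U : Mt N) := by
        simp only [Matrix.mul_assoc]
    _ = _ := by rw [U_mul_star, Matrix.mul_one]; simp only [Matrix.mul_assoc]

theorem conj_conj (U : Matrix.unitaryGroup (Fin N) ℂ) (A : Mt N) :
    (U : Mt N) * ((U : Mt N)ᴴ * A * (U : Mt N)) * (U : Mt N)ᴴ = A := by
  calc _ = ((U : Mt N) * (U : Mt N)ᴴ) * A * ((U : Mt N) * (U : Mt N)ᴴ) := by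
        simp only [Matrix.mul_assoc]
    _ = A := by rw [U_mul_star]; simp

theorem conj_conj' (U : Matrix.unitaryGroup (Fin N) ℂ) (A : Mt N) :
    (U : Mt N)ᴴ * ((U : Mt N) * A * (U : Mt N)ᴴ) * (U : Mt N) = A := by
  calc _ = ((U : Mt N)ᴴ * (U : Mt N)) * A * ((U : Mt N)ᴴ * (U : Mt N)) := by
        simp only [Matrix.mul_assoc]
    _ = A := by rw [U_star_mul]; simp

/-- functional calculus commutes with unitary conjugation -/
theorem cfc_conj (U : Matrix.unitaryGroup (Fin N) ℂ) {A : Mt N} (hA : A.IsHermitian)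
    (f : ℝ → ℝ) :
    cfc f ((U : Mt N) * A * (U : Mt N)ᴴ) = (U : Mt N) * cfc f A * (U : Mt N)ᴴ := by
  obtain ⟨V, hV⟩ := exists_diag hA
  have e : (U : Mt N) * A * (U : Mt N)ᴴ =
      ((U * V : Matrix.unitaryGroup (Fin N) ℂ) : Mt N) * dg hA.eigenvalues *
        ((U * V : Matrix.unitaryGroup (Fin N) ℂ) : Mt N)ᴴ := by
    conv_lhs => rw [hV]
    rw [Submonoid.coe_mul, Matrix.conjTranspose_mul]
    simp only [Matrix.mul_assoc]
  rw [cfc_eq_of_diag (U * V) hA.eigenvalues e f, cfc_eq_of_diag V _ hV f,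
    Submonoid.coe_mul, Matrix.conjTranspose_mul]
  simp only [Matrix.mul_assoc]

theorem star_U_mem (U : Matrix.unitaryGroup (Fin N) ℂ) :
    ((star U : Matrix.unitaryGroup (Fin N) ℂ) : Mt N) = (U : Mt N)ᴴ := rfl

theorem cfc_conj' (U : Matrix.unitaryGroup (Fin N) ℂ) {A : Mt N} (hA : A.IsHermitian)
    (f : ℝ → ℝ) :
    cfc f ((U : Mt N)ᴴ * A * (U : Mt N)) = (U : Mt N)ᴴ * cfc f A * (U : Mt N) := by
  have h := cfc_conj (star U) hA f
  rw [star_U_mem, Matrix.conjTranspose_conjTranspose] at h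
  exact h

theorem cfc_isHermitian {A : Mt N} (hA : A.IsHermitian) (f : ℝ → ℝ) :
    (cfc f A).IsHermitian := by
  obtain ⟨V, hV⟩ := exists_diag hA
  rw [cfc_eq_of_diag V _ hV f]
  exact conj_isHermitian (dg_isHermitian _) _

/-- cfc is always Hermitian (junk value 0) -/
theorem cfc_isHermitian' (A : Mt N) (f : ℝ → ℝ) : (cfc f A).IsHermitian := by
  have h : IsSelfAdjoint (cfc f A) := cfc_predicate f A
  exact h

theorem rtr_cfc {A : Mt N} (hA : A.IsHermitian) (f : ℝ → ℝ) :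
    rtr (cfc f A) = ∑ i, f (hA.eigenvalues i) := by
  obtain ⟨V, hV⟩ := exists_diag hA
  rw [cfc_eq_of_diag V _ hV f, rtr_conj, rtr_dg]

theorem tracePow_eq_rtr (A : Mt N) (p : ℝ) : tracePow A p = rtr (pw A p) := rfl

theorem tracePow_eq_sum {A : Mt N} (hA : A.IsHermitian) (p : ℝ) :
    tracePow A p = ∑ i, hA.eigenvalues i ^ p := rtr_cfc hA _

theorem tracePow_dg (κ : Fin N → ℝ) (p : ℝ) : tracePow (dg κ) p = ∑ i, κ i ^ p := by
  rw [tracePow_eq_rtr]; unfold pw; rw [cfc_dg, rtr_dg]; rfl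

theorem tracePow_conj (U : Matrix.unitaryGroup (Fin N) ℂ) {A : Mt N} (hA : A.IsHermitian)
    (p : ℝ) : tracePow ((U : Mt N) * A * (U : Mt N)ᴴ) p = tracePow A p := by
  rw [tracePow_eq_rtr, tracePow_eq_rtr]; unfold pw; rw [cfc_conj U hA, rtr_conj]

theorem tracePow_conj' (U : Matrix.unitaryGroup (Fin N) ℂ) {A : Mt N} (hA : A.IsHermitian)
    (p : ℝ) : tracePow ((U : Mt N)ᴴ * A * (U : Mt N)) p = tracePow A p := by
  rw [tracePow_eq_rtr, tracePow_eq_rtr]; unfold pw; rw [cfc_conj' U hA, rtr_conj']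

/-- PSD criteria -/
theorem dg_posSemidef {κ : Fin N → ℝ} (h : ∀ i, 0 ≤ κ i) : (dg κ).PosSemidef := by
  unfold dg
  refine Matrix.PosSemidef.diagonal fun i => ?_
  simpa using h i

theorem dg_posDef {κ : Fin N → ℝ} (h : ∀ i, 0 < κ i) : (dg κ).PosDef := by
  unfold dg
  refine Matrix.PosDef.diagonal fun i => ?_
  simpa using h i

theorem conj_posSemidef {m : ℕ} {A : Mt N} (hA : A.PosSemidef) (B : Rc m N) :
    (B * A * Bᴴ).PosSemidef := hA.mul_mul_conjTranspose_same B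

theorem psd_of_diag {A : Mt N} (U : Matrix.unitaryGroup (Fin N) ℂ) (κ : Fin N → ℝ)
    (h : A = (U : Mt N) * dg κ * (U : Mt N)ᴴ) (hκ : ∀ i, 0 ≤ κ i) : A.PosSemidef := by
  rw [h]; exact conj_posSemidef (dg_posSemidef hκ) _

theorem posDef_conj (U : Matrix.unitaryGroup (Fin N) ℂ) {A : Mt N} (hA : A.PosDef) :
    ((U : Mt N) * A * (U : Mt N)ᴴ).PosDef := by
  refine hA.mul_mul_conjTranspose_same ?_
  intro v w h
  have h2 := congrArg (fun z => z ᵥ* (U : Mt N)ᴴ) h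
  simp only [Matrix.vecMul_vecMul, U_mul_star, Matrix.vecMul_one] at h2
  exact h2

theorem posDef_of_diag {A : Mt N} (U : Matrix.unitaryGroup (Fin N) ℂ) (κ : Fin N → ℝ)
    (h : A = (U : Mt N) * dg κ * (U : Mt N)ᴴ) (hκ : ∀ i, 0 < κ i) : A.PosDef := by
  rw [h]; exact posDef_conj U (dg_posDef hκ)

theorem cfc_posSemidef {A : Mt N} (hA : A.IsHermitian) {f : ℝ → ℝ}
    (hf : ∀ i, 0 ≤ f (hA.eigenvalues i)) : (cfc f A).PosSemidef := by
  obtain ⟨V, hV⟩ := exists_diag hA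
  exact psd_of_diag V _ (cfc_eq_of_diag V _ hV f) hf

theorem cfc_posDef {A : Mt N} (hA : A.IsHermitian) {f : ℝ → ℝ}
    (hf : ∀ i, 0 < f (hA.eigenvalues i)) : (cfc f A).PosDef := by
  obtain ⟨V, hV⟩ := exists_diag hA
  exact posDef_of_diag V _ (cfc_eq_of_diag V _ hV f) hf

theorem pw_posSemidef {A : Mt N} (hA : A.PosSemidef) (p : ℝ) : (pw A p).PosSemidef :=
  cfc_posSemidef hA.1 fun i => Real.rpow_nonneg (hA.eigenvalues_nonneg i) p

theorem pw_posDef {A : Mt N} (hA : A.PosDef) (p : ℝ) : (pw A p).PosDef :=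
  cfc_posDef hA.1 fun i => Real.rpow_pos_of_pos (hA.eigenvalues_pos i) p

theorem tracePow_nonneg {A : Mt N} (hA : A.PosSemidef) (p : ℝ) : 0 ≤ tracePow A p := by
  rw [tracePow_eq_sum hA.1]
  exact Finset.sum_nonneg fun i _ => Real.rpow_nonneg (hA.eigenvalues_nonneg i) p

theorem rtr_nonneg {A : Mt N} (hA : A.PosSemidef) : 0 ≤ rtr A := by
  unfold rtr
  exact (Complex.nonneg_iff.1 hA.trace_nonneg).1

/-- cfc congruence on eigenvalues -/
theorem cfc_congr_eig {A : Mt N} (hA : A.IsHermitian) {f g : ℝ → ℝ}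
    (h : ∀ i, f (hA.eigenvalues i) = g (hA.eigenvalues i)) : cfc f A = cfc g A := by
  obtain ⟨V, hV⟩ := exists_diag hA
  rw [cfc_eq_of_diag V _ hV f, cfc_eq_of_diag V _ hV g]
  simp only [h]

theorem cfc_congr_psd {A : Mt N} (hA : A.PosSemidef) {f g : ℝ → ℝ}
    (h : ∀ x, 0 ≤ x → f x = g x) : cfc f A = cfc g A :=
  cfc_congr_eig hA.1 fun i => h _ (hA.eigenvalues_nonneg i)

theorem cfc_congr_posDef {A : Mt N} (hA : A.PosDef) {f g : ℝ → ℝ}
    (h : ∀ x, 0 < x → f x = g x) : cfc f A = cfc g A :=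
  cfc_congr_eig hA.1 fun i => h _ (hA.eigenvalues_pos i)

theorem cfc_mul_mt {A : Mt N} (hA : A.IsHermitian) (f g : ℝ → ℝ) :
    cfc f A * cfc g A = cfc (fun x => f x * g x) A := by
  obtain ⟨V, hV⟩ := exists_diag hA
  rw [cfc_eq_of_diag V _ hV f, cfc_eq_of_diag V _ hV g, cfc_eq_of_diag V _ hV, conj_mul, dg_mul]

theorem cfc_add_mt {A : Mt N} (hA : A.IsHermitian) (f g : ℝ → ℝ) :
    cfc f A + cfc g A = cfc (fun x => f x + g x) A := by
  obtain ⟨V, hV⟩ := exists_diag hA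
  rw [cfc_eq_of_diag V _ hV f, cfc_eq_of_diag V _ hV g, cfc_eq_of_diag V _ hV,
    ← Matrix.add_mul, ← Matrix.mul_add, dg_add]

theorem cfc_sub_mt {A : Mt N} (hA : A.IsHermitian) (f g : ℝ → ℝ) :
    cfc f A - cfc g A = cfc (fun x => f x - g x) A := by
  obtain ⟨V, hV⟩ := exists_diag hA
  rw [cfc_eq_of_diag V _ hV f, cfc_eq_of_diag V _ hV g, cfc_eq_of_diag V _ hV,
    ← Matrix.sub_mul, ← Matrix.mul_sub, dg_sub]

theorem cfc_smul_mt {A : Mt N} (hA : A.IsHermitian) (c : ℝ) (f : ℝ → ℝ) :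
    ((c : ℝ) : ℂ) • cfc f A = cfc (fun x => c * f x) A := by
  obtain ⟨V, hV⟩ := exists_diag hA
  rw [cfc_eq_of_diag V _ hV f, cfc_eq_of_diag V _ hV, ← dg_smul, Matrix.mul_smul,
    Matrix.smul_mul]

theorem cfc_neg_mt {A : Mt N} (hA : A.IsHermitian) (f : ℝ → ℝ) :
    - cfc f A = cfc (fun x => - f x) A := by
  obtain ⟨V, hV⟩ := exists_diag hA
  rw [cfc_eq_of_diag V _ hV f, cfc_eq_of_diag V _ hV, ← dg_neg, Matrix.mul_neg,
    Matrix.neg_mul]

theorem cfc_const_mt {A : Mt N} (hA : A.IsHermitian) (c : ℝ) :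
    cfc (fun _ : ℝ => c) A = sc N c := by
  obtain ⟨V, hV⟩ := exists_diag hA
  rw [cfc_eq_of_diag V _ hV, ← sc_eq_dg, mul_sc, Matrix.smul_mul, U_mul_star]
  rfl

theorem cfc_id_mt {A : Mt N} (hA : A.IsHermitian) : cfc (fun x : ℝ => x) A = A := by
  obtain ⟨V, hV⟩ := exists_diag hA
  rw [cfc_eq_of_diag V _ hV]
  exact hV.symm

theorem cfc_comp_mt {A : Mt N} (hA : A.IsHermitian) (f g : ℝ → ℝ) :
    cfc g (cfc f A) = cfc (fun x => g (f x)) A := by
  obtain ⟨V, hV⟩ := exists_diag hA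
  rw [cfc_eq_of_diag V _ (cfc_eq_of_diag V _ hV f) g, cfc_eq_of_diag V _ hV]

theorem cfc_comp_smul_mt {A : Mt N} (hA : A.IsHermitian) (c : ℝ) (f : ℝ → ℝ) :
    cfc f (((c : ℝ) : ℂ) • A) = cfc (fun x => f (c * x)) A := by
  have h : ((c : ℝ) : ℂ) • A = cfc (fun x : ℝ => c * x) A := by
    conv_lhs => rw [← cfc_id_mt hA]
    rw [cfc_smul_mt hA]
  rw [h, cfc_comp_mt hA]

theorem cfc_comp_add_sc {A : Mt N} (hA : A.IsHermitian) (c : ℝ) (f : ℝ → ℝ) :
    cfc f (A + sc N c) = cfc (fun x => f (x + c)) A := by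
  have h : A + sc N c = cfc (fun x : ℝ => x + c) A := by
    conv_lhs => rw [← cfc_id_mt hA, ← cfc_const_mt hA c]
    exact cfc_add_mt hA _ _
  rw [h, cfc_comp_mt hA]

theorem cfc_comp_sc_add {A : Mt N} (hA : A.IsHermitian) (c : ℝ) (f : ℝ → ℝ) :
    cfc f (sc N c + A) = cfc (fun x => f (c + x)) A := by
  rw [add_comm, cfc_comp_add_sc hA]
  simp only [add_comm]

theorem cfc_sc (t : ℝ) (f : ℝ → ℝ) : cfc f (sc N t) = sc N (f t) := by
  rw [sc_eq_dg, cfc_dg, sc_eq_dg]; rfl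

theorem lg_sc (t : ℝ) : lg (sc N t) = sc N (Real.log t) := cfc_sc t _

theorem lg_isHermitian (A : Mt N) : (lg A).IsHermitian := cfc_isHermitian' A _

theorem lg_smul {A : Mt N} (hA : A.PosDef) {c : ℝ} (hc : 0 < c) :
    lg (((c : ℝ) : ℂ) • A) = sc N (Real.log c) + lg A := by
  unfold lg
  rw [cfc_comp_smul_mt hA.1]
  have h : cfc (fun x => Real.log (c * x)) A = cfc (fun x => Real.log c + Real.log x) A :=
    cfc_congr_posDef hA fun x hx => Real.log_mul hc.ne' hx.ne'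
  rw [h, ← cfc_add_mt hA.1, cfc_const_mt hA.1]

theorem exp_lg {A : Mt N} (hA : A.PosDef) : cfc Real.exp (lg A) = A := by
  unfold lg
  rw [cfc_comp_mt hA.1, cfc_congr_posDef hA (g := fun x => x) fun x hx => Real.exp_log hx,
    cfc_id_mt hA.1]

theorem lg_exp {A : Mt N} (hA : A.IsHermitian) : lg (cfc Real.exp A) = A := by
  unfold lg
  rw [cfc_comp_mt hA, cfc_congr_eig hA (g := fun x => x) fun i => Real.log_exp _,
    cfc_id_mt hA]

theorem mul_pw {A : Mt N} (hA : A.PosSemidef) {p : ℝ} (hp : 0 < p) :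
    A * pw A p = pw A (1 + p) := by
  have h : cfc (fun x : ℝ => x) A * pw A p = cfc (fun x => x * x ^ p) A :=
    cfc_mul_mt hA.1 _ _
  rw [cfc_id_mt hA.1] at h
  rw [h]
  refine cfc_congr_psd hA fun x hx => ?_
  rcases hx.eq_or_lt with rfl | hx
  · rw [Real.zero_rpow hp.ne', Real.zero_rpow (by linarith), mul_zero]
  · rw [Real.rpow_add hx, Real.rpow_one]

theorem pw_mul {A : Mt N} (hA : A.PosSemidef) {p : ℝ} (hp : 0 < p) :
    pw A p * A = pw A (1 + p) := by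
  have h : pw A p * cfc (fun x : ℝ => x) A = cfc (fun x => x ^ p * x) A :=
    cfc_mul_mt hA.1 _ _
  rw [cfc_id_mt hA.1] at h
  rw [h]
  refine cfc_congr_psd hA fun x hx => ?_
  rcases hx.eq_or_lt with rfl | hx
  · rw [Real.zero_rpow hp.ne', Real.zero_rpow (by linarith), mul_zero]
  · rw [Real.rpow_add hx, Real.rpow_one, mul_comm]

theorem pw_pw {A : Mt N} (hA : A.PosSemidef) (p q : ℝ) : pw (pw A p) q = pw A (p * q) := by
  unfold pw
  rw [cfc_comp_mt hA.1]
  exact cfc_congr_psd hA fun x hx => (Real.rpow_mul hx p q).symm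

theorem pw_smul {A : Mt N} (hA : A.PosSemidef) {c : ℝ} (hc : 0 ≤ c) (p : ℝ) :
    pw (((c : ℝ) : ℂ) • A) p = ((c ^ p : ℝ) : ℂ) • pw A p := by
  unfold pw
  rw [cfc_comp_smul_mt hA.1, cfc_smul_mt hA.1]
  exact cfc_congr_psd hA fun x hx => Real.mul_rpow hc hx

theorem pw_one {A : Mt N} (hA : A.IsHermitian) : pw A 1 = A := by
  unfold pw
  simp only [Real.rpow_one]
  exact cfc_id_mt hA

theorem tracePow_smul {A : Mt N} (hA : A.PosSemidef) {c : ℝ} (hc : 0 ≤ c) (p : ℝ) :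
    tracePow (((c : ℝ) : ℂ) • A) p = c ^ p * tracePow A p := by
  rw [tracePow_eq_rtr, pw_smul hA hc, rtr_smul]; rfl

theorem tracePow_pw {A : Mt N} (hA : A.PosSemidef) (p q : ℝ) :
    tracePow (pw A p) q = tracePow A (p * q) := by
  rw [tracePow_eq_rtr, pw_pw hA]; rfl

theorem pw_zero_mt {p : ℝ} (hp : 0 < p) : pw (0 : Mt N) p = 0 := by
  have h : (0 : Mt N) = dg (fun _ => 0) := dg_zero.symm
  unfold pw
  rw [h, cfc_dg]
  congr 1
  ext i
  exact Real.zero_rpow hp.ne'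

/-- sorted diagonalisation -/
theorem exists_diag_antitone {A : Mt N} (hA : A.IsHermitian) :
    ∃ (U : Matrix.unitaryGroup (Fin N) ℂ) (κ : Fin N → ℝ), Antitone κ ∧
      A = (U : Mt N) * dg κ * (U : Mt N)ᴴ ∧ ∃ σ : Equiv.Perm (Fin N), κ = hA.eigenvalues ∘ σ := by
  obtain ⟨U, hU⟩ := exists_diag hA
  set e := hA.eigenvalues with he
  set σ : Equiv.Perm (Fin N) := Tuple.sort (fun i => - e i) with hσ
  have hmono : Monotone ((fun i => - e i) ∘ σ) := Tuple.monotone_sort _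
  let V : Mt N := (U : Mt N).submatrix id σ
  have hV1 : V * Vᴴ = 1 := by
    show (U : Mt N).submatrix id σ * ((U : Mt N).submatrix id σ)ᴴ = 1
    rw [Matrix.conjTranspose_submatrix, Matrix.submatrix_mul_equiv, U_mul_star]
    simp
  have hV : V ∈ Matrix.unitaryGroup (Fin N) ℂ := Matrix.mem_unitaryGroup_iff.2 hV1
  refine ⟨⟨V, hV⟩, e ∘ σ, fun i j hij => ?_, ?_, σ, rfl⟩
  · have := hmono hij
    simp only [Function.comp_apply] at this ⊢
    linarith
  · show A = V * dg (e ∘ σ) * Vᴴ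
    have h1 : dg (e ∘ σ) = (dg e).submatrix σ σ := by
      ext i j
      simp only [dg, Matrix.submatrix_apply, Matrix.diagonal_apply, Function.comp_apply,
        EmbeddingLike.apply_eq_iff_eq]
    rw [h1]
    show A = (U : Mt N).submatrix id σ * (dg e).submatrix σ σ * ((U : Mt N).submatrix id σ)ᴴ
    rw [Matrix.conjTranspose_submatrix, Matrix.submatrix_mul_equiv, Matrix.submatrix_mul_equiv,
      ← hU]
    simp

theorem exists_diag_psd {A : Mt N} (hA : A.PosSemidef) :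
    ∃ (U : Matrix.unitaryGroup (Fin N) ℂ) (κ : Fin N → ℝ), Antitone κ ∧ (∀ i, 0 ≤ κ i) ∧
      A = (U : Mt N) * dg κ * (U : Mt N)ᴴ := by
  obtain ⟨U, κ, h1, h2, σ, h3⟩ := exists_diag_antitone hA.1
  exact ⟨U, κ, h1, fun i => by rw [h3]; exact hA.eigenvalues_nonneg _, h2⟩

theorem exists_diag_posDef {A : Mt N} (hA : A.PosDef) :
    ∃ (U : Matrix.unitaryGroup (Fin N) ℂ) (κ : Fin N → ℝ), Antitone κ ∧ (∀ i, 0 < κ i) ∧
      A = (U : Mt N) * dg κ * (U : Mt N)ᴴ := by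
  obtain ⟨U, κ, h1, h2, σ, h3⟩ := exists_diag_antitone hA.1
  exact ⟨U, κ, h1, fun i => by rw [h3]; exact hA.eigenvalues_pos _, h2⟩


/-! continuity of the functional calculus -/
section cont
open scoped Matrix.Norms.L2Operator

theorem spectrum_pos_of_posDef {N : ℕ} {A : Mt N} (hA : A.PosDef) {x : ℝ}
    (hx : x ∈ spectrum ℝ A) : 0 < x := by
  rw [hA.1.spectrum_real_eq_range_eigenvalues] at hx
  obtain ⟨i, rfl⟩ := hx
  exact hA.eigenvalues_pos i

theorem cfcc_on {N : ℕ} (f : ℝ → ℝ) (s : Set ℝ) (hs : IsOpen s) (hf : ContinuousOn f s) :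
    ContinuousOn (fun A : Mt N => cfc f A) {A | A.IsHermitian ∧ spectrum ℝ A ⊆ s} := by
  have h := ContinuousOn.cfc_of_mem_nhdsSet (A := Mt N) (X := Mt N) (𝕜 := ℝ) (s := s) f
    (a := fun A => A) (t := {A | A.IsHermitian ∧ spectrum ℝ A ⊆ s})
    (hs.mem_nhdsSet.2 (by
      intro x hx
      simp only [Set.mem_iUnion] at hx
      obtain ⟨A, hA, hx⟩ := hx
      exact hA.2 hx)) continuousOn_id (fun A hA => hA.1) hf
  exact h

theorem cfcc : CFCC := by
  intro N f hf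
  refine (cfcc_on f Set.univ isOpen_univ hf.continuousOn).mono fun A hA => ?_
  exact ⟨hA, Set.subset_univ _⟩

theorem lgc : LGC := by
  intro N
  have h := cfcc_on (N := N) Real.log (Set.Ioi 0) isOpen_Ioi
    (Real.continuousOn_log.mono fun x hx => ne_of_gt hx)
  exact h.mono fun A hA => ⟨hA.1, fun x hx => spectrum_pos_of_posDef hA hx⟩

end cont

end Crest.Agent.R332
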