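import Crest.Agent.R332.Defs
import Crest.Agent.R332.LIBC

/-! Task FINAL: final identification of the potential. -/

set_option autoImplicit false

open MeasureTheory Matrix Filter Topology
open Crest.MathPhysics.LiebThirring
open scoped ComplexOrder

namespace Crest.Agent.R332.FINAL

open Crest.Agent.R332

theorem le_of_isUnit_mul {m J : ℕ} (A : Rc J m) (B : Rc m J) (h : IsUnit (A * B)) : J ≤ m := by
  have h1 : (A * B).rank = J := by
    rw [Matrix.rank_of_isUnit _ h, Fintype.card_fin]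
  have h2 : (A * B).rank ≤ A.rank := Matrix.rank_mul_le_left A B
  have h3 : A.rank ≤ m := Matrix.rank_le_width A
  omega

theorem dg_inj {N : ℕ} {a b : Fin N → ℝ} (h : dg a = dg b) : a = b := by
  ext i
  have := congrFun (congrFun h i) i
  simp only [dg, Matrix.diagonal_apply_eq] at this
  exact_mod_cast this

/-- `D G D` diagonal with `D > 0` diagonal forces `G` diagonal -/
theorem gram_eq {J : ℕ} (G : Mt J) (d e : Fin J → ℝ) (hd : ∀ i, 0 < d i)
    (h : dg d * G * dg d = dg (fun i => d i * e i * d i)) : G = dg e := by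
  ext i j
  have h1 := congrFun (congrFun h i) j
  simp only [dg, Matrix.diagonal_mul, Matrix.mul_diagonal] at h1
  have hi : ((d i : ℝ) : ℂ) ≠ 0 := by exact_mod_cast (hd i).ne'
  have hj : ((d j : ℝ) : ℂ) ≠ 0 := by exact_mod_cast (hd j).ne'
  by_cases hij : i = j
  · subst hij
    rw [Matrix.diagonal_apply_eq] at h1
    simp only [dg, Matrix.diagonal_apply_eq]
    push_cast at h1
    have h2 := mul_right_cancel₀ hi h1
    exact mul_left_cancel₀ hi h2
  · rw [Matrix.diagonal_apply_ne _ hij] at h1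
    simp only [dg, Matrix.diagonal_apply_ne _ hij]
    rcases mul_eq_zero.1 h1 with h2 | h2
    · rcases mul_eq_zero.1 h2 with h3 | h3
      · exact absurd h3 hi
      · exact h3
    · exact absurd h2 hj

theorem exists_unitary_ext {m J : ℕ} (hJ : J ≤ m) (ξ : Rc m J) (n : Fin J → ℝ)
    (hn : ∀ i, 0 < n i) (hG : ξᴴ * ξ = dg n) :
    ∃ U : Matrix.unitaryGroup (Fin m) ℂ, ∀ d : Fin J → ℝ,
      ξ * dg d * ξᴴ = (U : Mt m) *
        dg (fun i : Fin m => if h : (i : ℕ) < J then n ⟨i, h⟩ * d ⟨i, h⟩ else 0) *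
          (U : Mt m)ᴴ := by
  obtain ⟨e, rfl⟩ := Nat.exists_eq_add_of_le hJ
  -- normalised columns
  let u : Fin J → EuclideanSpace ℂ (Fin (J + e)) := fun j =>
    WithLp.toLp 2 (fun i => ξ i j / ((Real.sqrt (n j) : ℝ) : ℂ))
  have hsq : ∀ j, ((Real.sqrt (n j) : ℝ) : ℂ) * ((Real.sqrt (n j) : ℝ) : ℂ) = ((n j : ℝ) : ℂ) := by
    intro j
    rw [← Complex.ofReal_mul, Real.mul_self_sqrt (hn j).le]
  have hs0 : ∀ j, ((Real.sqrt (n j) : ℝ) : ℂ) ≠ 0 := by
    intro j
    exact_mod_cast (Real.sqrt_pos.2 (hn j)).ne'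
  have hGe : ∀ i j, ∑ a, star (ξ a i) * ξ a j = if i = j then ((n i : ℝ) : ℂ) else 0 := by
    intro i j
    have h1 := congrFun (congrFun hG i) j
    simp only [Matrix.mul_apply, Matrix.conjTranspose_apply, dg, Matrix.diagonal_apply] at h1
    exact h1
  have hu : Orthonormal ℂ u := by
    rw [orthonormal_iff_ite]
    intro i j
    rw [EuclideanSpace.inner_eq_star_dotProduct]
    have e1 : (WithLp.ofLp (u j)) ⬝ᵥ star (WithLp.ofLp (u i)) =
        (∑ a, star (ξ a i) * ξ a j) /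
          (((Real.sqrt (n i) : ℝ) : ℂ) * ((Real.sqrt (n j) : ℝ) : ℂ)) := by
      rw [Finset.sum_div]
      unfold dotProduct
      refine Finset.sum_congr rfl fun a _ => ?_
      simp only [u, Pi.star_apply, star_div₀]
      have : star ((Real.sqrt (n i) : ℝ) : ℂ) = ((Real.sqrt (n i) : ℝ) : ℂ) := Complex.conj_ofReal _
      rw [this]
      field_simp
    rw [e1, hGe]
    by_cases hij : i = j
    · subst hij
      simp only [if_true]
      rw [hsq i]
      exact div_self (by exact_mod_cast (hn i).ne')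
    · simp [hij]
  let v : Fin (J + e) → EuclideanSpace ℂ (Fin (J + e)) := Fin.addCases u (fun _ => 0)
  have hvi : ∀ j : Fin J, v (Fin.castAdd e j) = u j := fun j => Fin.addCases_left j
  have hv : Orthonormal ℂ (Set.restrict (Set.range (Fin.castAdd e : Fin J → Fin (J + e))) v) := by
    rw [orthonormal_iff_ite]
    rintro ⟨_, i, rfl⟩ ⟨_, j, rfl⟩
    have h1 := orthonormal_iff_ite.1 hu i j
    show inner ℂ (v (Fin.castAdd e i)) (v (Fin.castAdd e j)) = _
    rw [hvi, hvi, h1]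
    by_cases hij : i = j
    · subst hij
      simp
    · rw [if_neg hij, if_neg]
      intro h
      exact hij ((Fin.castAdd_injective J e) (congrArg Subtype.val h))
  obtain ⟨b, hb⟩ := hv.exists_orthonormalBasis_extension_of_card_eq
    (by simp : Module.finrank ℂ (EuclideanSpace ℂ (Fin (J + e))) = Fintype.card (Fin (J + e)))
  have hbu : ∀ j : Fin J, b (Fin.castAdd e j) = u j := by
    intro j
    rw [hb _ ⟨j, rfl⟩]
    exact hvi j
  let M : Mt (J + e) := fun a i => b i a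
  have hM : Mᴴ * M = 1 := by
    ext i j
    have h1 := orthonormal_iff_ite.1 b.orthonormal i j
    rw [EuclideanSpace.inner_eq_star_dotProduct] at h1
    rw [Matrix.mul_apply, Matrix.one_apply, ← h1]
    unfold dotProduct
    refine Finset.sum_congr rfl fun a _ => ?_
    simp only [Matrix.conjTranspose_apply, M, Pi.star_apply]
    exact mul_comm _ _
  refine ⟨⟨M, Matrix.mem_unitaryGroup_iff'.2 hM⟩, fun d => ?_⟩
  ext x y
  show (ξ * dg d * ξᴴ) x y = (M * dg (fun i : Fin (J + e) =>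
      if h : (i : ℕ) < J then n ⟨i, h⟩ * d ⟨i, h⟩ else 0) * Mᴴ) x y
  rw [Matrix.mul_apply, Matrix.mul_apply, Fin.sum_univ_add]
  have z1 : ∑ i : Fin e, (M * dg (fun i : Fin (J + e) =>
      if h : (i : ℕ) < J then n ⟨i, h⟩ * d ⟨i, h⟩ else 0)) x (Fin.natAdd J i) *
        Mᴴ (Fin.natAdd J i) y = 0 := by
    refine Finset.sum_eq_zero fun i _ => ?_
    simp only [dg, Matrix.mul_diagonal]
    have : ¬ ((Fin.natAdd J i : Fin (J + e)) : ℕ) < J := by simp
    rw [dif_neg this]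
    simp
  rw [z1, add_zero]
  refine Finset.sum_congr rfl fun i _ => ?_
  simp only [dg, Matrix.mul_diagonal, Matrix.conjTranspose_apply]
  have : ((Fin.castAdd e i : Fin (J + e)) : ℕ) < J := by simp
  rw [dif_pos this]
  simp only [M, hbu, u]
  have e0 : (⟨((Fin.castAdd e i : Fin (J + e)) : ℕ), this⟩ : Fin J) = i := by
    ext; simp
  rw [e0, star_div₀]
  have e1 : star ((Real.sqrt (n i) : ℝ) : ℂ) = ((Real.sqrt (n i) : ℝ) : ℂ) := Complex.conj_ofReal _
  rw [e1]
  have h0 := hs0 i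
  have h2 := hsq i
  push_cast
  rw [← h2]
  field_simp

end Crest.Agent.R332.FINAL

namespace Crest.Agent.R332

open FINAL

theorem final : CONSTS → TRX → Crest.Agent.R332.FINAL := by
  intro hC hT s hs0 hs1 m W hW J k hk U c ξ xi hxi hL
  obtain ⟨-, hcY, -, -, -, -, -⟩ := hC s hs0 hs1
  have hr1 : 1 < s⁻¹ := (one_lt_inv₀ hs0).2 hs1
  have hch : ∀ (i : Fin J) (y : ℝ), 0 < Real.cosh (s⁻¹ * k i * (y - c i)) := fun i y =>
    Real.cosh_pos _
  have hJ : J ≤ m := by
    obtain ⟨y, hy⟩ := hL.exists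
    have hpd : ((U : Mt J) * dg (fun i => k i ^ 2 / Real.cosh (s⁻¹ * k i * (y - c i)) ^ 2) *
        (U : Mt J)ᴴ).PosDef :=
      posDef_conj U (dg_posDef fun i => div_pos (pow_pos (hk i) 2) (pow_pos (hch i y) 2))
    have hu := hpd.isUnit
    rw [← hy, ← Matrix.smul_mul] at hu
    exact le_of_isUnit_mul _ _ hu
  refine ⟨hJ, fun hR => ?_⟩
  -- the Gram matrix
  set n : Fin J → ℝ := fun i => ((cY s)⁻¹ * k i ^ 2) ^ s with hn
  have hnpos : ∀ i, 0 < n i := fun i =>
    Real.rpow_pos_of_pos (mul_pos (inv_pos.2 hcY) (pow_pos (hk i) 2)) s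
  have hG : ξᴴ * ξ = dg n := by
    obtain ⟨y, hy, hRy⟩ := (hL.and hR).exists
    set M : Mt J := (xi y)ᴴ * xi y with hM
    have hMp : M.PosSemidef := Matrix.posSemidef_conjTranspose_mul_self _
    have h1 : ((cY s : ℝ) : ℂ) • pw M s⁻¹ = (U : Mt J) *
        dg (fun i => k i ^ 2 / Real.cosh (s⁻¹ * k i * (y - c i)) ^ 2) * (U : Mt J)ᴴ := by
      rw [← hy, hRy]
      congr 1
      have h2 := (hT m J (xi y)).1 (fun x : ℝ => x ^ (s⁻¹ - 1))
      have h3 : (xi y)ᴴ * pw (xi y * (xi y)ᴴ) (s⁻¹ - 1) * xi y =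
          (xi y)ᴴ * (xi y * cfc (fun x : ℝ => x ^ (s⁻¹ - 1)) ((xi y)ᴴ * xi y)) := by
        rw [h2, Matrix.mul_assoc]; rfl
      rw [h3, ← Matrix.mul_assoc]
      have h4 := mul_pw hMp (p := s⁻¹ - 1) (by linarith)
      have h5 : (1 : ℝ) + (s⁻¹ - 1) = s⁻¹ := by ring
      rw [h5] at h4
      exact h4.symm
    have hcc : ((cY s : ℝ) : ℂ) ≠ 0 := by exact_mod_cast hcY.ne'
    have h2 : pw M s⁻¹ = (U : Mt J) *
        dg (fun i => (cY s)⁻¹ * (k i ^ 2 / Real.cosh (s⁻¹ * k i * (y - c i)) ^ 2)) *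
          (U : Mt J)ᴴ := by
      rw [← dg_smul, Matrix.mul_smul, Matrix.smul_mul, ← h1, smul_smul]
      rw [Complex.ofReal_inv, inv_mul_cancel₀ hcc, one_smul]
    have h3 : M = (U : Mt J) *
        dg (fun i => ((cY s)⁻¹ * (k i ^ 2 / Real.cosh (s⁻¹ * k i * (y - c i)) ^ 2)) ^ s) *
          (U : Mt J)ᴴ := by
      have h4 : pw (pw M s⁻¹) s = M := by
        rw [pw_pw hMp, inv_mul_cancel₀ hs0.ne', pw_one hMp.1]
      rw [← h4]
      exact cfc_eq_of_diag U _ h2 _
    have h5 : M = (U : Mt J) *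
        (dg (fun i => Real.cosh (s⁻¹ * k i * (y - c i)) ^ (-s)) * (ξᴴ * ξ) *
          dg (fun i => Real.cosh (s⁻¹ * k i * (y - c i)) ^ (-s))) * (U : Mt J)ᴴ := by
      rw [hM, hxi y, Matrix.conjTranspose_mul, Matrix.conjTranspose_mul,
        Matrix.conjTranspose_conjTranspose, (dg_isHermitian _)]
      simp only [Matrix.mul_assoc]
    refine gram_eq _ _ _ (fun i => Real.rpow_pos_of_pos (hch i y) (-s)) ?_
    have h6 := conj_conj' U (dg (fun i => Real.cosh (s⁻¹ * k i * (y - c i)) ^ (-s)) * (ξᴴ * ξ) *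
          dg (fun i => Real.cosh (s⁻¹ * k i * (y - c i)) ^ (-s)))
    rw [← h6, ← h5, h3, conj_conj']
    congr 1
    ext i
    have hc0 := hch i y
    have hc2 : 0 < Real.cosh (s⁻¹ * k i * (y - c i)) ^ 2 := pow_pos hc0 2
    have e1 : (cY s)⁻¹ * (k i ^ 2 / Real.cosh (s⁻¹ * k i * (y - c i)) ^ 2) =
        ((cY s)⁻¹ * k i ^ 2) * ((Real.cosh (s⁻¹ * k i * (y - c i)))⁻¹ *
          (Real.cosh (s⁻¹ * k i * (y - c i)))⁻¹) := by
      field_simp
    rw [e1, Real.mul_rpow (mul_pos (inv_pos.2 hcY) (pow_pos (hk i) 2)).le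
      (mul_pos (inv_pos.2 hc0) (inv_pos.2 hc0)).le,
      Real.mul_rpow (inv_pos.2 hc0).le (inv_pos.2 hc0).le, Real.inv_rpow hc0.le,
      ← Real.rpow_neg hc0.le]
    simp only [hn]
    ring
  obtain ⟨U', hU'⟩ := exists_unitary_ext hJ ξ n hnpos hG
  refine ⟨U', fun i => if h : (i : ℕ) < J then k ⟨i, h⟩ else 0,
    fun i => if h : (i : ℕ) < J then c ⟨i, h⟩ else 0, fun i => ?_, ?_⟩
  · by_cases h : (i : ℕ) < J
    · simp only [dif_pos h]; exact (hk _).le
    · simp only [dif_neg h]; exact le_refl _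
  filter_upwards [hR] with y hy
  have hWp := hW.psd y
  set D : Fin J → ℝ := fun i => Real.cosh (s⁻¹ * k i * (y - c i)) ^ (-s) *
    Real.cosh (s⁻¹ * k i * (y - c i)) ^ (-s) with hD
  have h1 : RW s (W y) = (U' : Mt m) *
      dg (fun i : Fin m => if h : (i : ℕ) < J then n ⟨i, h⟩ * D ⟨i, h⟩ else 0) *
        (U' : Mt m)ᴴ := by
    rw [← hU', hy, hxi y, Matrix.conjTranspose_mul, Matrix.conjTranspose_mul,
        Matrix.conjTranspose_conjTranspose, (dg_isHermitian _), hD, ← dg_mul]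
    calc _ = ξ * dg (fun i => Real.cosh (s⁻¹ * k i * (y - c i)) ^ (-s)) *
          ((U : Mt J)ᴴ * (U : Mt J)) *
          dg (fun i => Real.cosh (s⁻¹ * k i * (y - c i)) ^ (-s)) * ξᴴ := by
            simp only [Matrix.mul_assoc]
      _ = _ := by
        rw [U_star_mul, Matrix.mul_one]
        simp only [Matrix.mul_assoc]
  have hcr : 0 < cY s * (s⁻¹ + 1) := mul_pos hcY (by linarith)
  have h2 : W y = cfc (fun z : ℝ => cY s * (s⁻¹ + 1) * z ^ s⁻¹) (RW s (W y)) := by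
    unfold RW
    rw [cfc_comp_mt hWp.1]
    conv_lhs => rw [← cfc_id_mt hWp.1]
    refine cfc_congr_psd hWp fun x hx => ?_
    have hx' : 0 ≤ x / (cY s * (s⁻¹ + 1)) := div_nonneg hx hcr.le
    rw [← Real.rpow_mul hx', mul_inv_cancel₀ hs0.ne', Real.rpow_one]
    field_simp
  rw [h2, cfc_eq_of_diag U' _ h1]
  show _ = (U' : Mt m) * _ * (U' : Mt m)ᴴ
  congr 2
  show dg _ = dg _
  congr 1
  ext i
  by_cases h : (i : ℕ) < J
  · simp only [dif_pos h]
    have hc0 := hch ⟨i, h⟩ y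
    unfold soliton
    have e1 : n ⟨i, h⟩ * D ⟨i, h⟩ = (((cY s)⁻¹ * k ⟨i, h⟩ ^ 2) *
        ((Real.cosh (s⁻¹ * k ⟨i, h⟩ * (y - c ⟨i, h⟩)))⁻¹ *
          (Real.cosh (s⁻¹ * k ⟨i, h⟩ * (y - c ⟨i, h⟩)))⁻¹)) ^ s := by
      rw [Real.mul_rpow (mul_pos (inv_pos.2 hcY) (pow_pos (hk _) 2)).le
        (mul_pos (inv_pos.2 hc0) (inv_pos.2 hc0)).le,
        Real.mul_rpow (inv_pos.2 hc0).le (inv_pos.2 hc0).le, Real.inv_rpow hc0.le,
        ← Real.rpow_neg hc0.le]
    rw [e1, ← Real.rpow_mul (by positivity), mul_inv_cancel₀ hs0.ne', Real.rpow_one]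
    field_simp
  · simp only [dif_neg h]
    rw [Real.zero_rpow (by linarith)]
    unfold soliton
    simp

end Crest.Agent.R332
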