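import Crest.Agent.R332.Defs

/-! two scalar improper integrals -/

set_option autoImplicit false

open MeasureTheory Filter Topology Set

namespace Crest.Agent.R332

namespace GINT'

/-- first integrand -/
noncomputable def g1 (s ξ t : ℝ) : ℝ := t ^ (s - 1) * Real.log (1 + ξ / t)
/-- second integrand -/
noncomputable def g2 (s ξ t : ℝ) : ℝ :=
  t ^ (s - 1) * (t * ((1 + ξ / t) * Real.log (1 + ξ / t) - ξ / t))

lemma cont_g1 {s ξ : ℝ} (hξ : 0 ≤ ξ) : ContinuousOn (g1 s ξ) (Ioi 0) := by
  have h1 : ContinuousOn (fun t : ℝ => ξ / t) (Ioi 0) :=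
    continuousOn_const.div continuousOn_id fun t ht => (ne_of_gt ht)
  refine ContinuousOn.mul ?_ ?_
  · exact continuousOn_id.rpow_const fun t ht => Or.inl (ne_of_gt ht)
  · refine ContinuousOn.log (continuousOn_const.add h1) fun t ht => ?_
    have : 0 ≤ ξ / t := div_nonneg hξ (le_of_lt ht)
    linarith

lemma cont_g2 {s ξ : ℝ} (hξ : 0 ≤ ξ) : ContinuousOn (g2 s ξ) (Ioi 0) := by
  have h1 : ContinuousOn (fun t : ℝ => ξ / t) (Ioi 0) :=
    continuousOn_const.div continuousOn_id fun t ht => (ne_of_gt ht)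
  have h2 : ContinuousOn (fun t : ℝ => Real.log (1 + ξ / t)) (Ioi 0) := by
    refine ContinuousOn.log (continuousOn_const.add h1) fun t ht => ?_
    have : 0 ≤ ξ / t := div_nonneg hξ (le_of_lt ht)
    linarith
  refine ContinuousOn.mul ?_ ?_
  · exact continuousOn_id.rpow_const fun t ht => Or.inl (ne_of_gt ht)
  · exact continuousOn_id.mul (((continuousOn_const.add h1).mul h2).sub h1)

lemma g1_nonneg {s ξ t : ℝ} (hξ : 0 ≤ ξ) (ht : 0 < t) : 0 ≤ g1 s ξ t := by
  unfold g1
  have : 0 ≤ ξ / t := by positivity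
  have := Real.log_nonneg (by linarith : 1 ≤ 1 + ξ / t)
  positivity

lemma h_bounds {x : ℝ} (hx : 0 ≤ x) : 0 ≤ (1 + x) * Real.log (1 + x) - x ∧
    (1 + x) * Real.log (1 + x) - x ≤ x * Real.log (1 + x) := by
  have h1 : Real.log (1 + x) ≤ x := by
    have := Real.log_le_sub_one_of_pos (by linarith : 0 < 1 + x)
    linarith
  have h2 : x / (1 + x) ≤ Real.log (1 + x) := by
    have h3 := Real.log_le_sub_one_of_pos (by positivity : 0 < (1 + x)⁻¹)
    rw [Real.log_inv] at h3
    have h4 : x / (1 + x) = 1 - (1 + x)⁻¹ := by field_simp; ring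
    rw [h4]; linarith
  rw [div_le_iff₀ (by linarith)] at h2
  constructor <;> nlinarith

lemma g2_bounds {s ξ t : ℝ} (hξ : 0 ≤ ξ) (ht : 0 < t) : 0 ≤ g2 s ξ t ∧
    g2 s ξ t ≤ ξ * g1 s ξ t := by
  have hx : 0 ≤ ξ / t := by positivity
  obtain ⟨h1, h2⟩ := h_bounds hx
  unfold g2 g1
  have h3 : 0 < t ^ (s - 1) := Real.rpow_pos_of_pos ht _
  constructor
  · positivity
  · calc t ^ (s - 1) * (t * ((1 + ξ / t) * Real.log (1 + ξ / t) - ξ / t))
        ≤ t ^ (s - 1) * (t * (ξ / t * Real.log (1 + ξ / t))) := by gcongr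
      _ = ξ * (t ^ (s - 1) * Real.log (1 + ξ / t)) := by field_simp

lemma int_g1_one {s : ℝ} (h0 : 0 < s) (h1 : s < 1) : IntegrableOn (g1 s 1) (Ioi 0) := by
  have hu : Ioi (0 : ℝ) = Ioc 0 1 ∪ Ioi 1 := (Ioc_union_Ioi_eq_Ioi zero_le_one).symm
  rw [hu]
  have hm := (cont_g1 (s := s) (zero_le_one (α := ℝ)))
  refine IntegrableOn.union ?_ ?_
  · have hi : IntegrableOn (fun t : ℝ => (2 ^ (s / 2) / (s / 2)) * t ^ (s / 2 - 1))
        (Ioc 0 1) := by
      have := (intervalIntegral.intervalIntegrable_rpow' (a := 0) (b := 1)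
        (by linarith : -1 < s / 2 - 1))
      rw [intervalIntegrable_iff, uIoc_of_le zero_le_one] at this
      exact this.const_mul _
    refine Integrable.mono' hi
      ((hm.mono fun t ht => ht.1).aestronglyMeasurable measurableSet_Ioc) ?_
    refine (ae_restrict_iff' measurableSet_Ioc).2 (Eventually.of_forall fun t ht => ?_)
    have ht0 : 0 < t := ht.1
    rw [Real.norm_of_nonneg (g1_nonneg zero_le_one ht0)]
    unfold g1
    have h2 : Real.log (1 + 1 / t) ≤ (2 / t) ^ (s / 2) / (s / 2) := by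
      refine (Real.log_le_log (by positivity) ?_).trans
        (Real.log_le_rpow_div (by positivity) (by linarith))
      have : 1 ≤ 1 / t := by rw [le_div_iff₀ ht0]; linarith [ht.2]
      have h3 : 2 / t = 1 / t + 1 / t := by ring
      rw [h3]; linarith
    have h4 : (2 / t) ^ (s / 2) = 2 ^ (s / 2) * t ^ (-(s / 2)) := by
      rw [Real.div_rpow (by norm_num) ht0.le, Real.rpow_neg ht0.le]; rfl
    have h5 : t ^ (s / 2 - 1) = t ^ (s - 1) * t ^ (-(s / 2)) := by
      rw [← Real.rpow_add ht0]; congr 1; ring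
    calc t ^ (s - 1) * Real.log (1 + 1 / t) ≤ t ^ (s - 1) * ((2 / t) ^ (s / 2) / (s / 2)) := by
          gcongr
      _ = _ := by rw [h4, h5]; ring
  · have hi : IntegrableOn (fun t : ℝ => t ^ (s - 2)) (Ioi 1) :=
      integrableOn_Ioi_rpow_of_lt (by linarith) one_pos
    refine Integrable.mono' hi ((hm.mono fun t (ht : 1 < t) =>
      (lt_trans one_pos ht : 0 < t)).aestronglyMeasurable measurableSet_Ioi) ?_
    refine (ae_restrict_iff' measurableSet_Ioi).2 (Eventually.of_forall fun t ht => ?_)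
    have ht0 : 0 < t := lt_trans one_pos ht
    rw [Real.norm_of_nonneg (g1_nonneg zero_le_one ht0)]
    unfold g1
    have h2 : Real.log (1 + 1 / t) ≤ 1 / t := by
      have := Real.log_le_sub_one_of_pos (by positivity : 0 < 1 + 1 / t)
      linarith
    calc t ^ (s - 1) * Real.log (1 + 1 / t) ≤ t ^ (s - 1) * (1 / t) := by gcongr
      _ = t ^ (s - 2) := by
        have : s - 2 = (s - 1) - 1 := by ring
        rw [this, Real.rpow_sub_one ht0.ne' (s - 1)]; ring

lemma int_g2_one {s : ℝ} (h0 : 0 < s) (h1 : s < 1) : IntegrableOn (g2 s 1) (Ioi 0) := by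
  refine Integrable.mono' (int_g1_one h0 h1)
    ((cont_g2 zero_le_one).aestronglyMeasurable measurableSet_Ioi) ?_
  refine (ae_restrict_iff' measurableSet_Ioi).2 (Eventually.of_forall fun t ht => ?_)
  obtain ⟨h2, h3⟩ := g2_bounds (s := s) zero_le_one ht
  rw [Real.norm_of_nonneg h2]
  linarith

/-- the primitive used for the second integral -/
noncomputable def F (s u : ℝ) : ℝ :=
  u ^ (1 + s) / (1 + s) * ((1 + 1 / u) * Real.log (1 + 1 / u) - 1 / u)

lemma F_bounds {s u : ℝ} (h0 : 0 < s) (hu : 0 < u) :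
    0 ≤ F s u ∧ F s u ≤ u * g1 s 1 u := by
  have hx : 0 ≤ 1 / u := by positivity
  obtain ⟨h1, h2⟩ := h_bounds hx
  have h3 : 0 < u ^ (1 + s) := Real.rpow_pos_of_pos hu _
  unfold F g1
  have hl : 0 ≤ Real.log (1 + 1 / u) := Real.log_nonneg (by linarith)
  constructor
  · positivity
  · have h4 : u ^ (1 + s) = u * (u * u ^ (s - 1)) := by
      have : 1 + s = (s - 1) + 1 + 1 := by ring
      rw [this, Real.rpow_add_one hu.ne', Real.rpow_add_one hu.ne']; ring
    calc u ^ (1 + s) / (1 + s) * ((1 + 1 / u) * Real.log (1 + 1 / u) - 1 / u)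
        ≤ u ^ (1 + s) / 1 * (1 / u * Real.log (1 + 1 / u)) := by
          gcongr
          linarith
      _ = u * (u ^ (s - 1) * Real.log (1 + 1 / u)) := by
          rw [h4]; field_simp

lemma second_one {s : ℝ} (h0 : 0 < s) (h1 : s < 1) :
    ∫ t in Ioi (0 : ℝ), g2 s 1 t = (∫ t in Ioi (0 : ℝ), g1 s 1 t) / (1 + s) := by
  have hint : IntegrableOn (fun u => g2 s 1 u - g1 s 1 u / (1 + s)) (Ioi 0) :=
    (int_g2_one h0 h1).sub ((int_g1_one h0 h1).div_const _)
  have hd : ∀ u ∈ Ioi (0 : ℝ), HasDerivAt (F s) (g2 s 1 u - g1 s 1 u / (1 + s)) u := by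
    intro u hu
    have hu0 : (0 : ℝ) < u := hu
    have hpos : 0 < 1 + 1 / u := by positivity
    have e1 : HasDerivAt (fun u : ℝ => u ^ (1 + s) / (1 + s)) (u ^ s) u := by
      have := (Real.hasDerivAt_rpow_const (x := u) (p := 1 + s) (Or.inl hu0.ne')).div_const (1 + s)
      refine this.congr_deriv ?_
      have : 1 + s - 1 = s := by ring
      rw [this]; field_simp
    have e2 : HasDerivAt (fun u : ℝ => 1 / u) (-(1 / u ^ 2)) u := by
      have := hasDerivAt_inv hu0.ne'
      simp only [one_div]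
      exact this
    have e3 : HasDerivAt (fun u : ℝ => 1 + 1 / u) (-(1 / u ^ 2)) u := e2.const_add 1
    have e4 := e3.log hpos.ne'
    have e5 := (e3.mul e4).sub e2
    have e6 := e1.mul e5
    refine e6.congr_deriv ?_
    change u ^ s * ((1 + 1 / u) * Real.log (1 + 1 / u) - 1 / u) + u ^ (1 + s) / (1 + s) *
      (-(1 / u ^ 2) * Real.log (1 + 1 / u) + (1 + 1 / u) * (-(1 / u ^ 2) / (1 + 1 / u))
        - -(1 / u ^ 2)) = _
    unfold g2 g1
    have hx : (1 + 1 / u) * (-(1 / u ^ 2) / (1 + 1 / u)) = -(1 / u ^ 2) := by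
      field_simp
    rw [hx]
    generalize Real.log (1 + 1 / u) = LL
    have h4 : u ^ (1 + s) = u * u ^ s := by rw [add_comm, Real.rpow_add_one hu0.ne']; ring
    have h5 : u ^ (s - 1) = u ^ s / u := Real.rpow_sub_one hu0.ne' s
    rw [h4, h5]
    field_simp
    ring
  have ht0 : Tendsto (F s) (𝓝[>] 0) (𝓝 0) := by
    have hb : ∀ᶠ u in 𝓝[>] (0 : ℝ), F s u ≤ u ^ s * Real.log 2 + -(Real.log u * u ^ s) := by
      filter_upwards [Ioo_mem_nhdsGT (zero_lt_one (α := ℝ))] with u hu
      have hu0 : 0 < u := hu.1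
      refine (F_bounds h0 hu0).2.trans ?_
      unfold g1
      have h2 : Real.log (1 + 1 / u) ≤ Real.log 2 - Real.log u := by
        rw [← Real.log_div (by norm_num) hu0.ne']
        refine Real.log_le_log (by positivity) ?_
        have : 1 ≤ 1 / u := by rw [le_div_iff₀ hu0]; linarith [hu.2]
        have h3 : 2 / u = 1 / u + 1 / u := by ring
        rw [h3]; linarith
      have h5 : u * u ^ (s - 1) = u ^ s := by
        rw [Real.rpow_sub_one hu0.ne' s]; field_simp
      calc u * (u ^ (s - 1) * Real.log (1 + 1 / u)) = u ^ s * Real.log (1 + 1 / u) := by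
            rw [← mul_assoc, h5]
        _ ≤ u ^ s * (Real.log 2 - Real.log u) := by
            have : 0 < u ^ s := Real.rpow_pos_of_pos hu0 _
            gcongr
        _ = _ := by ring
    have hlim : Tendsto (fun u : ℝ => u ^ s * Real.log 2 + -(Real.log u * u ^ s)) (𝓝[>] 0)
        (𝓝 0) := by
      have e1 : Tendsto (fun u : ℝ => u ^ s) (𝓝[>] 0) (𝓝 0) := by
        have := (Real.continuousAt_rpow_const 0 s (Or.inr h0.le)).tendsto
        rw [Real.zero_rpow h0.ne'] at this
        exact this.mono_left nhdsWithin_le_nhds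
      have e2 := tendsto_log_mul_rpow_nhdsGT_zero h0
      have := (e1.mul_const (Real.log 2)).add e2.neg
      simpa using this
    refine tendsto_of_tendsto_of_tendsto_of_le_of_le' tendsto_const_nhds hlim ?_ hb
    filter_upwards [self_mem_nhdsWithin] with u hu
    exact (F_bounds h0 hu).1
  have htop : Tendsto (F s) atTop (𝓝 0) := by
    have hb : ∀ᶠ u in (atTop : Filter ℝ), F s u ≤ u ^ (-(1 - s)) := by
      filter_upwards [eventually_gt_atTop (0 : ℝ)] with u hu0
      have hx : 0 ≤ 1 / u := by positivity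
      have h3 : 0 < u ^ (1 + s) := Real.rpow_pos_of_pos hu0 _
      unfold F
      have h2 : Real.log (1 + 1 / u) ≤ 1 / u := by
        have := Real.log_le_sub_one_of_pos (by positivity : 0 < 1 + 1 / u)
        linarith
      have h5 : (1 + 1 / u) * Real.log (1 + 1 / u) - 1 / u ≤ (1 / u) ^ 2 := by
        have : (1 + 1 / u) * Real.log (1 + 1 / u) ≤ (1 + 1 / u) * (1 / u) := by gcongr
        linarith [this, (by ring : (1 + 1 / u) * (1 / u) = 1 / u + (1 / u) ^ 2)]
      have h6 := (h_bounds hx).1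
      calc u ^ (1 + s) / (1 + s) * ((1 + 1 / u) * Real.log (1 + 1 / u) - 1 / u)
          ≤ u ^ (1 + s) / 1 * (1 / u) ^ 2 := by
            gcongr
            linarith
        _ = u ^ (-(1 - s)) := by
            have h7 : u ^ (1 + s) = u ^ (-(1 - s)) * u ^ (2 : ℝ) := by
              rw [← Real.rpow_add hu0]; congr 1; ring
            rw [h7, Real.rpow_two]; field_simp
    have hlim : Tendsto (fun u : ℝ => u ^ (-(1 - s))) atTop (𝓝 0) :=
      tendsto_rpow_neg_atTop (by linarith)
    refine tendsto_of_tendsto_of_tendsto_of_le_of_le' tendsto_const_nhds hlim ?_ hb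
    filter_upwards [eventually_gt_atTop (0 : ℝ)] with u hu
    exact (F_bounds h0 hu).1
  have key2 : ∫ u in Ioi (0 : ℝ), (g2 s 1 u - g1 s 1 u / (1 + s)) = 0 - 0 := by
    have := integral_Ioi_of_hasDerivAt_of_tendsto (f := fun u => if u ≤ 0 then 0 else F s u)
      (f' := fun u => g2 s 1 u - g1 s 1 u / (1 + s)) (a := 0) (m := 0) ?_ ?_ hint ?_
    · simpa using this
    · have : ContinuousWithinAt (fun u => if u ≤ 0 then 0 else F s u) (Ioi 0) 0 := by
        unfold ContinuousWithinAt
        simp only [le_refl, if_true]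
        refine ht0.congr' ?_
        filter_upwards [self_mem_nhdsWithin] with u hu
        rw [if_neg (not_le.2 hu)]
      have h2 := continuousWithinAt_insert_self.2 this
      rwa [Ioi_insert] at h2
    · intro u hu
      refine (hd u hu).congr_of_eventuallyEq ?_
      filter_upwards [Ioi_mem_nhds hu] with v hv
      rw [if_neg (not_le.2 hv)]
    · refine htop.congr' ?_
      filter_upwards [eventually_gt_atTop (0 : ℝ)] with u hu
      rw [if_neg (not_le.2 hu)]
  rw [integral_sub (int_g2_one h0 h1) ((int_g1_one h0 h1).div_const _), integral_div] at key2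
  linarith

end GINT'

open GINT' in
theorem gint : GINT := by
  intro s h0 h1
  have hIs : Is s = ∫ t in Ioi (0 : ℝ), g1 s 1 t := rfl
  have hi1 := int_g1_one h0 h1
  have hi2 := int_g2_one h0 h1
  refine ⟨?_, ?_⟩
  · rw [hIs, setIntegral_pos_iff_support_of_nonneg_ae _ hi1]
    · have : Ioi (0 : ℝ) ⊆ Function.support (g1 s 1) ∩ Ioi 0 := by
        intro t ht
        refine ⟨?_, ht⟩
        have ht0 : (0 : ℝ) < t := ht
        have h2 : 0 < Real.log (1 + 1 / t) := Real.log_pos (by
          have : 0 < 1 / t := by positivity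
          linarith)
        have : 0 < g1 s 1 t := by unfold g1; positivity
        exact this.ne'
      refine lt_of_lt_of_le ?_ (measure_mono this)
      simp
    · exact (ae_restrict_iff' measurableSet_Ioi).2 (Eventually.of_forall fun t ht =>
        g1_nonneg zero_le_one ht)
  · intro ξ hξ
    change (IntegrableOn (g1 s ξ) (Ioi 0) ∧ ∫ t in Ioi (0 : ℝ), g1 s ξ t = Is s * ξ ^ s) ∧
      (IntegrableOn (g2 s ξ) (Ioi 0) ∧
        ∫ t in Ioi (0 : ℝ), g2 s ξ t = Is s / (1 + s) * ξ ^ (1 + s))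
    rcases hξ.eq_or_lt with rfl | hξ
    · have e1 : g1 s 0 = fun _ => 0 := by funext t; simp [g1]
      have e2 : g2 s 0 = fun _ => 0 := by funext t; simp [g2]
      rw [e1, e2, Real.zero_rpow h0.ne', Real.zero_rpow (by linarith)]
      simp [integrableOn_zero]
    · have hc1 : ∀ u ∈ Ioi (0 : ℝ), g1 s ξ (ξ * u) = ξ ^ (s - 1) * g1 s 1 u := by
        intro u hu
        have hu0 : (0 : ℝ) < u := hu
        unfold g1
        rw [Real.mul_rpow hξ.le hu0.le]
        have : ξ / (ξ * u) = 1 / u := by field_simp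
        rw [this]; ring
      have hc2 : ∀ u ∈ Ioi (0 : ℝ), g2 s ξ (ξ * u) = ξ ^ s * g2 s 1 u := by
        intro u hu
        have hu0 : (0 : ℝ) < u := hu
        unfold g2
        rw [Real.mul_rpow hξ.le hu0.le]
        have : ξ / (ξ * u) = 1 / u := by field_simp
        rw [this, Real.rpow_sub_one hξ.ne' s]; field_simp
      have i1 : IntegrableOn (fun u => g1 s ξ (ξ * u)) (Ioi 0) :=
        (IntegrableOn.congr_fun (hi1.const_mul (ξ ^ (s - 1))) (fun u hu => (hc1 u hu).symm)
          measurableSet_Ioi)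
      have i2 : IntegrableOn (fun u => g2 s ξ (ξ * u)) (Ioi 0) :=
        (IntegrableOn.congr_fun (hi2.const_mul (ξ ^ s)) (fun u hu => (hc2 u hu).symm)
          measurableSet_Ioi)
      have j1 := (integrableOn_Ioi_comp_mul_left_iff (g1 s ξ) 0 hξ).1 i1
      have j2 := (integrableOn_Ioi_comp_mul_left_iff (g2 s ξ) 0 hξ).1 i2
      rw [mul_zero] at j1 j2
      have k1 := integral_comp_mul_left_Ioi (g1 s ξ) 0 hξ
      have k2 := integral_comp_mul_left_Ioi (g2 s ξ) 0 hξ
      rw [mul_zero, setIntegral_congr_fun measurableSet_Ioi hc1, integral_const_mul, ← hIs,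
        smul_eq_mul] at k1
      rw [mul_zero, setIntegral_congr_fun measurableSet_Ioi hc2, integral_const_mul,
        second_one h0 h1, ← hIs, smul_eq_mul] at k2
      refine ⟨⟨j1, ?_⟩, ⟨j2, ?_⟩⟩
      · have : ∫ t in Ioi (0 : ℝ), g1 s ξ t = ξ * (ξ ^ (s - 1) * Is s) := by
          rw [k1]; field_simp
        rw [this, Real.rpow_sub_one hξ.ne' s]; field_simp
      · have : ∫ t in Ioi (0 : ℝ), g2 s ξ t = ξ * (ξ ^ s * (Is s / (1 + s))) := by
          rw [k2]; field_simp
        rw [this, add_comm 1 s, Real.rpow_add_one hξ.ne' s]; ring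

end Crest.Agent.R332
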