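import Mathlib

/-! Golden–Thompson inequality for complex Hermitian matrices with commutator remainder. -/

set_option autoImplicit false

namespace Crest.Agent.R332
namespace GT

open Matrix Filter Topology
open scoped ComplexOrder

/-! ### Lie–Trotter -/

section Trotter

variable {𝔸 : Type*} [NormedRing 𝔸] [NormOneClass 𝔸]

theorem pow_sub_pow_norm_le (P Q : 𝔸) (M : ℝ) (hM : 0 ≤ M) (hP : ‖P‖ ≤ M) (hQ : ‖Q‖ ≤ M)
    (n : ℕ) : ‖P ^ (n + 1) - Q ^ (n + 1)‖ ≤ (n + 1) * M ^ n * ‖P - Q‖ := by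
  induction n with
  | zero => simp
  | succ n ih =>
    have h1 : P ^ (n + 1 + 1) - Q ^ (n + 1 + 1)
        = P * (P ^ (n + 1) - Q ^ (n + 1)) + (P - Q) * Q ^ (n + 1) := by
      rw [pow_succ' P (n + 1), pow_succ' Q (n + 1)]
      noncomm_ring
    rw [h1]
    have h2 : ‖Q ^ (n + 1)‖ ≤ M ^ (n + 1) :=
      (norm_pow_le Q (n + 1)).trans (pow_le_pow_left₀ (norm_nonneg _) hQ _)
    calc ‖P * (P ^ (n + 1) - Q ^ (n + 1)) + (P - Q) * Q ^ (n + 1)‖
        ≤ ‖P‖ * ‖P ^ (n + 1) - Q ^ (n + 1)‖ + ‖P - Q‖ * ‖Q ^ (n + 1)‖ :=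
          (norm_add_le _ _).trans (add_le_add (norm_mul_le _ _) (norm_mul_le _ _))
      _ ≤ M * ((n + 1) * M ^ n * ‖P - Q‖) + ‖P - Q‖ * M ^ (n + 1) := by
          gcongr
      _ = ((n + 1 : ℕ) + 1) * M ^ (n + 1) * ‖P - Q‖ := by
          push_cast; ring

variable [NormedAlgebra ℝ 𝔸] [CompleteSpace 𝔸]

omit [CompleteSpace 𝔸] in
theorem norm_exp_le (x : 𝔸) : ‖NormedSpace.exp x‖ ≤ Real.exp ‖x‖ := by
  rw [NormedSpace.exp_eq_tsum ℝ, Real.exp_eq_exp_ℝ, NormedSpace.exp_eq_tsum ℝ]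
  have hs := NormedSpace.norm_expSeries_summable' (𝕂 := ℝ) x
  refine (norm_tsum_le_tsum_norm hs).trans ?_
  refine hs.tsum_le_tsum (fun i => ?_) (NormedSpace.expSeries_summable' (𝕂 := ℝ) ‖x‖)
  rw [norm_smul, smul_eq_mul, Real.norm_of_nonneg (by positivity)]
  gcongr
  exact norm_pow_le x i

omit [NormOneClass 𝔸] in
theorem hasDerivAt_exp_smul (A : 𝔸) :
    HasDerivAt (fun t : ℝ => NormedSpace.exp (t • A)) A 0 := by
  have h := hasDerivAt_exp_smul_const (𝕂 := ℝ) A 0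
  simpa using h

theorem lie_trotter (A B : 𝔸) :
    Tendsto (fun n : ℕ => (NormedSpace.exp ((1 / (n + 1 : ℝ)) • A) *
      NormedSpace.exp ((1 / (n + 1 : ℝ)) • B)) ^ (n + 1)) atTop
      (𝓝 (NormedSpace.exp (A + B))) := by
  let _ : NormedAlgebra ℚ 𝔸 := NormedAlgebra.restrictScalars ℚ ℝ 𝔸
  set h : ℝ → 𝔸 := fun t => NormedSpace.exp (t • A) * NormedSpace.exp (t • B) -
    NormedSpace.exp (t • (A + B)) with hdef
  have hd : HasDerivAt h 0 0 := by
    have h1 : HasDerivAt h (A * NormedSpace.exp ((0 : ℝ) • B) +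
        NormedSpace.exp ((0 : ℝ) • A) * B - (A + B)) 0 :=
      ((hasDerivAt_exp_smul A).mul (hasDerivAt_exp_smul B)).sub (hasDerivAt_exp_smul (A + B))
    have h2 : A * NormedSpace.exp ((0 : ℝ) • B) +
        NormedSpace.exp ((0 : ℝ) • A) * B - (A + B) = 0 := by simp
    rwa [h2] at h1
  have h0 : h 0 = 0 := by simp [hdef]
  have hs : Tendsto (fun n : ℕ => ((n : ℝ) + 1) • h (1 / ((n : ℝ) + 1))) atTop (𝓝 0) := by
    have h1 := hd.tendsto_slope
    have h2 : Tendsto (fun n : ℕ => 1 / ((n : ℝ) + 1)) atTop (𝓝[≠] 0) := by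
      refine tendsto_nhdsWithin_iff.2 ⟨tendsto_one_div_add_atTop_nhds_zero_nat, ?_⟩
      filter_upwards with n
      have : (n : ℝ) + 1 ≠ 0 := by positivity
      simpa using this
    refine (h1.comp h2).congr (fun n => ?_)
    simp [slope_def_module, h0]
  have hsn : Tendsto (fun n : ℕ => Real.exp (‖A‖ + ‖B‖) *
      ‖((n : ℝ) + 1) • h (1 / ((n : ℝ) + 1))‖) atTop (𝓝 0) := by
    have := (hs.norm).const_mul (Real.exp (‖A‖ + ‖B‖))
    simpa using this
  rw [tendsto_iff_norm_sub_tendsto_zero]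
  refine squeeze_zero (fun n => norm_nonneg _) (fun n => ?_) hsn
  have hn : (0 : ℝ) < (n : ℝ) + 1 := by positivity
  set t : ℝ := 1 / ((n : ℝ) + 1) with ht
  have ht0 : 0 < t := by positivity
  have hQ : NormedSpace.exp (A + B) = NormedSpace.exp (t • (A + B)) ^ (n + 1) := by
    rw [← NormedSpace.exp_nsmul, ← Nat.cast_smul_eq_nsmul ℝ, smul_smul]
    have : ((n + 1 : ℕ) : ℝ) * t = 1 := by
      rw [ht]; push_cast; field_simp
    rw [this, one_smul]
  rw [hQ]
  set M : ℝ := Real.exp (t * (‖A‖ + ‖B‖)) with hM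
  have hMpos : 0 < M := Real.exp_pos _
  have hP' : ‖NormedSpace.exp (t • A) * NormedSpace.exp (t • B)‖ ≤ M := by
    refine (norm_mul_le _ _).trans ?_
    rw [hM, mul_add, Real.exp_add]
    refine mul_le_mul ?_ ?_ (norm_nonneg _) (Real.exp_pos _).le
    · have := norm_exp_le (t • A)
      rwa [norm_smul, Real.norm_of_nonneg ht0.le] at this
    · have := norm_exp_le (t • B)
      rwa [norm_smul, Real.norm_of_nonneg ht0.le] at this
  have hQ' : ‖NormedSpace.exp (t • (A + B))‖ ≤ M := by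
    refine (norm_exp_le _).trans ?_
    rw [norm_smul, Real.norm_of_nonneg ht0.le, hM]
    refine Real.exp_le_exp.2 ?_
    exact mul_le_mul_of_nonneg_left (norm_add_le _ _) ht0.le
  refine (pow_sub_pow_norm_le _ _ M hMpos.le hP' hQ' n).trans ?_
  rw [norm_smul, Real.norm_of_nonneg hn.le]
  have hMn : M ^ n ≤ Real.exp (‖A‖ + ‖B‖) := by
    rw [hM, ← Real.exp_nat_mul]
    refine Real.exp_le_exp.2 ?_
    have h3 : (n : ℝ) * t ≤ 1 := by
      rw [ht, mul_one_div, div_le_one hn]; linarith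
    have h4 : 0 ≤ ‖A‖ + ‖B‖ := by positivity
    calc (n : ℝ) * (t * (‖A‖ + ‖B‖)) = (n * t) * (‖A‖ + ‖B‖) := by ring
      _ ≤ 1 * (‖A‖ + ‖B‖) := mul_le_mul_of_nonneg_right h3 h4
      _ = _ := one_mul _
  have h5 : 0 ≤ ((n : ℝ) + 1) * ‖h t‖ := by positivity
  calc ((n : ℝ) + 1) * M ^ n * ‖NormedSpace.exp (t • A) * NormedSpace.exp (t • B) -
        NormedSpace.exp (t • (A + B))‖ = M ^ n * (((n : ℝ) + 1) * ‖h t‖) := by
        simp only [hdef]; ring
    _ ≤ Real.exp (‖A‖ + ‖B‖) * (((n : ℝ) + 1) * ‖h t‖) :=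
        mul_le_mul_of_nonneg_right hMn h5

end Trotter

variable {n : Type*} [Fintype n]

/-! ### trace inequalities -/

theorem trace_mul_conjTranspose_re (A : Matrix n n ℂ) :
    (trace (A * Aᴴ)).re = ∑ i, ∑ j, ‖A i j‖ ^ 2 := by
  simp only [trace, diag, mul_apply, conjTranspose_apply, Complex.re_sum]
  refine Finset.sum_congr rfl fun i _ => Finset.sum_congr rfl fun j _ => ?_
  rw [Complex.star_def, Complex.mul_conj, Complex.ofReal_re, Complex.normSq_eq_norm_sq]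

theorem trace_conjTranspose_mul_re (A : Matrix n n ℂ) :
    (trace (Aᴴ * A)).re = ∑ i, ∑ j, ‖A i j‖ ^ 2 := by
  rw [trace_mul_comm, trace_mul_conjTranspose_re]

theorem trace_mul_conjTranspose_re_nonneg (A : Matrix n n ℂ) :
    0 ≤ (trace (A * Aᴴ)).re := by
  rw [trace_mul_conjTranspose_re]; positivity

theorem trace_cs (A B : Matrix n n ℂ) :
    ‖trace (A * B)‖ ≤ Real.sqrt ((trace (A * Aᴴ)).re) * Real.sqrt ((trace (B * Bᴴ)).re) := by
  rw [trace_mul_conjTranspose_re, trace_mul_conjTranspose_re, Finset.sum_comm (f := fun i j => ‖B i j‖ ^ 2)]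
  rw [← Finset.sum_product', ← Finset.sum_product', ← Real.sqrt_mul (by positivity)]
  refine Real.le_sqrt_of_sq_le ?_
  refine le_trans ?_ (Finset.sum_mul_sq_le_sq_mul_sq _ _ _)
  gcongr
  have : trace (A * B) = ∑ x ∈ (Finset.univ : Finset n) ×ˢ (Finset.univ : Finset n),
      A x.1 x.2 * B x.2 x.1 := by
    rw [Finset.sum_product]
    simp only [trace, diag, mul_apply]
  rw [this]
  refine (norm_sum_le _ _).trans (le_of_eq ?_)
  exact Finset.sum_congr rfl fun x _ => norm_mul _ _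

variable [DecidableEq n]

theorem trace_pow_comm (A B : Matrix n n ℂ) (m : ℕ) :
    trace ((A * B) ^ m) = trace ((B * A) ^ m) := by
  cases m with
  | zero => simp
  | succ m =>
    rw [pow_succ, ← mul_assoc, mul_pow_mul, mul_assoc, trace_mul_comm, mul_assoc, ← pow_succ]

/-- `‖tr M²‖ ≤ tr M M*` -/
theorem gamma_zero (M : Matrix n n ℂ) : ‖trace (M ^ 2)‖ ≤ (trace (M * Mᴴ)).re := by
  rw [sq]
  refine (trace_cs M M).trans (le_of_eq ?_)
  exact Real.mul_self_sqrt (trace_mul_conjTranspose_re_nonneg M)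

/-- squares `C* C` -/
def PS (X : Matrix n n ℂ) : Prop := ∃ C : Matrix n n ℂ, X = Cᴴ * C

omit [DecidableEq n] in
theorem PS.herm {X : Matrix n n ℂ} (h : PS X) : Xᴴ = X := by
  obtain ⟨C, rfl⟩ := h
  simp

theorem PS.sq {X : Matrix n n ℂ} (h : Xᴴ = X) : PS (X ^ 2) := ⟨X, by rw [h, _root_.sq]⟩

omit [DecidableEq n] in
/-- `‖tr XY‖ ≤ Re tr XY` for PSD -/
theorem alpha_zero (X Y : Matrix n n ℂ) (hX : PS X) (hY : PS Y) :
    ‖trace (X * Y)‖ ≤ (trace (X * Y)).re := by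
  obtain ⟨C, rfl⟩ := hX
  obtain ⟨D, rfl⟩ := hY
  have h1 : trace (Cᴴ * C * (Dᴴ * D)) = trace ((D * Cᴴ) * (D * Cᴴ)ᴴ) := by
    rw [conjTranspose_mul, conjTranspose_conjTranspose, trace_mul_comm (Cᴴ * C)]
    rw [show Dᴴ * D * (Cᴴ * C) = Dᴴ * (D * (Cᴴ * C)) from mul_assoc _ _ _, trace_mul_comm Dᴴ]
    simp only [mul_assoc]
  rw [h1]
  have h2 : (0 : ℂ) ≤ trace ((D * Cᴴ) * (D * Cᴴ)ᴴ) :=
    (posSemidef_self_mul_conjTranspose _).trace_nonneg
  rw [Complex.le_def] at h2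
  have h3 : trace ((D * Cᴴ) * (D * Cᴴ)ᴴ) = (((trace ((D * Cᴴ) * (D * Cᴴ)ᴴ)).re : ℝ) : ℂ) := by
    apply Complex.ext
    · simp
    · rw [← h2.2]; simp
  rw [h3, Complex.norm_real, Complex.ofReal_re, Real.norm_of_nonneg h2.1]

theorem trace_sq_aux {X Y : Matrix n n ℂ} (hX : Xᴴ = X) (hY : Yᴴ = Y) (m : ℕ) :
    trace ((X * Y * (X * Y)ᴴ) ^ m) = trace ((X ^ 2 * Y ^ 2) ^ m) := by
  rw [conjTranspose_mul, hX, hY, mul_assoc X Y (Y * X), trace_pow_comm X,
    show Y * (Y * X) * X = Y ^ 2 * X ^ 2 by simp only [_root_.sq, mul_assoc], trace_pow_comm]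

theorem joint (k : ℕ) :
    (∀ M : Matrix n n ℂ, ‖trace (M ^ (2 ^ (k + 1)))‖ ≤ (trace ((M * Mᴴ) ^ (2 ^ k))).re) ∧
    (∀ X Y : Matrix n n ℂ, PS X → PS Y →
      ‖trace ((X * Y) ^ (2 ^ k))‖ ≤ (trace (X ^ (2 ^ k) * Y ^ (2 ^ k))).re) := by
  induction k with
  | zero =>
    refine ⟨fun M => ?_, fun X Y hX hY => ?_⟩
    · simpa using gamma_zero M
    · simpa using alpha_zero X Y hX hY
  | succ k ih =>
    obtain ⟨G, Al⟩ := ih
    refine ⟨fun M => ?_, fun X Y hX hY => ?_⟩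
    · have e1 : M ^ (2 ^ (k + 1 + 1)) = (M ^ 2) ^ (2 ^ (k + 1)) := by
        rw [← pow_mul]; congr 1; ring
      rw [e1]
      refine (G (M ^ 2)).trans ?_
      have e2 : trace ((M ^ 2 * (M ^ 2)ᴴ) ^ (2 ^ k)) =
          trace (((Mᴴ * M) * (M * Mᴴ)) ^ (2 ^ k)) := by
        rw [conjTranspose_pow, _root_.sq, _root_.sq,
          show M * M * (Mᴴ * Mᴴ) = (M * M * Mᴴ) * Mᴴ by simp only [mul_assoc], trace_pow_comm]
        simp only [mul_assoc]
      rw [e2]
      refine (Complex.re_le_norm _).trans ?_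
      refine (Al _ _ ⟨M, rfl⟩ ⟨Mᴴ, by simp⟩).trans ?_
      refine (Complex.re_le_norm _).trans ?_
      refine (trace_cs _ _).trans (le_of_eq ?_)
      have e3 : (2 : ℕ) ^ (k + 1) = 2 ^ k + 2 ^ k := by ring
      have e4 : trace ((Mᴴ * M) ^ (2 ^ (k + 1))) = trace ((M * Mᴴ) ^ (2 ^ (k + 1))) :=
        trace_pow_comm _ _ _
      have e5 : ((Mᴴ * M) ^ (2 ^ k)) * ((Mᴴ * M) ^ (2 ^ k))ᴴ = (Mᴴ * M) ^ (2 ^ (k + 1)) := by
        rw [conjTranspose_pow, conjTranspose_mul, conjTranspose_conjTranspose, ← pow_add, e3]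
      have e6 : ((M * Mᴴ) ^ (2 ^ k)) * ((M * Mᴴ) ^ (2 ^ k))ᴴ = (M * Mᴴ) ^ (2 ^ (k + 1)) := by
        rw [conjTranspose_pow, conjTranspose_mul, conjTranspose_conjTranspose, ← pow_add, e3]
      have e7 : 0 ≤ (trace ((M * Mᴴ) ^ (2 ^ (k + 1)))).re := by
        rw [← e6]; exact trace_mul_conjTranspose_re_nonneg _
      rw [e5, e6, e4, Real.mul_self_sqrt e7]
    · have e1 : ‖trace ((X * Y) ^ (2 ^ (k + 1)))‖ ≤
          (trace ((X * Y * (X * Y)ᴴ) ^ (2 ^ k))).re := G (X * Y)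
      refine e1.trans ?_
      rw [trace_sq_aux hX.herm hY.herm]
      refine (Complex.re_le_norm _).trans ?_
      refine (Al _ _ (PS.sq hX.herm) (PS.sq hY.herm)).trans (le_of_eq ?_)
      rw [← pow_mul, ← pow_mul, ← pow_succ']

theorem step {X Y : Matrix n n ℂ} (hX : Xᴴ = X) (hY : Yᴴ = Y) (k : ℕ) :
    ‖trace ((X * Y) ^ (2 ^ (k + 1)))‖ ≤ (trace ((X ^ 2 * Y ^ 2) ^ (2 ^ k))).re := by
  rw [← trace_sq_aux hX hY]
  exact (joint k).1 (X * Y)

theorem chain (k : ℕ) : ∀ {X Y : Matrix n n ℂ}, Xᴴ = X → Yᴴ = Y →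
    (trace ((X * Y) ^ (2 ^ (k + 1)))).re ≤
      (trace ((X ^ (2 ^ k) * Y ^ (2 ^ k)) ^ 2)).re := by
  induction k with
  | zero => intro X Y _ _; simp
  | succ k ih =>
    intro X Y hX hY
    refine (Complex.re_le_norm _).trans ?_
    refine (step hX hY (k + 1)).trans ?_
    have h := ih (X := X ^ 2) (Y := Y ^ 2) (by rw [conjTranspose_pow, hX])
      (by rw [conjTranspose_pow, hY])
    refine h.trans (le_of_eq ?_)
    rw [← pow_mul, ← pow_mul, ← pow_succ']

/-- `tr (ST)² = tr S²T² - ½‖[S,T]‖²` for Hermitian `S, T`. -/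
theorem defect {S T : Matrix n n ℂ} (hS : Sᴴ = S) (hT : Tᴴ = T) :
    (trace ((S * T) ^ 2)).re = (trace (S ^ 2 * T ^ 2)).re -
      1 / 2 * ∑ i, ∑ j, ‖(S * T - T * S) i j‖ ^ 2 := by
  rw [← trace_mul_conjTranspose_re]
  have h1 : trace ((S * T - T * S) * (S * T - T * S)ᴴ) =
      2 * trace (S ^ 2 * T ^ 2) - 2 * trace ((S * T) ^ 2) := by
    rw [conjTranspose_sub, conjTranspose_mul, conjTranspose_mul, hS, hT]
    have e1 : trace (S * T * (T * S)) = trace (S ^ 2 * T ^ 2) := by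
      rw [show S * T * (T * S) = (S * (T * T)) * S by simp only [mul_assoc], trace_mul_comm]
      simp only [_root_.sq, mul_assoc]
    have e2 : trace (T * S * (S * T)) = trace (S ^ 2 * T ^ 2) := by
      rw [show T * S * (S * T) = T * (S * S * T) by simp only [mul_assoc], trace_mul_comm]
      simp only [_root_.sq, mul_assoc]
    have e3 : trace (T * S * (T * S)) = trace ((S * T) ^ 2) := by
      rw [_root_.sq, show T * S * (T * S) = T * (S * T * S) by simp only [mul_assoc],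
        trace_mul_comm]
      simp only [mul_assoc]
    have e4 : trace (S * T * (S * T)) = trace ((S * T) ^ 2) := by rw [_root_.sq]
    rw [sub_mul, mul_sub, mul_sub, trace_sub, trace_sub, trace_sub, e1, e2, e3, e4]
    ring
  rw [h1]
  simp
  ring

theorem herm_exp_smul {A : Matrix n n ℂ} (hA : A.IsHermitian) (t : ℝ) :
    (NormedSpace.exp (t • A))ᴴ = NormedSpace.exp (t • A) := by
  rw [← exp_conjTranspose, conjTranspose_smul, hA]
  simp

section
attribute [local instance] Matrix.linftyOpNormedRing Matrix.linftyOpNormedAlgebra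
  Matrix.linftyOpNormedAddCommGroup

theorem lie_trotter_matrix [Nonempty n] (A B : Matrix n n ℂ) :
    Tendsto (fun n : ℕ => (NormedSpace.exp ((1 / (n + 1 : ℝ)) • A) *
      NormedSpace.exp ((1 / (n + 1 : ℝ)) • B)) ^ (n + 1)) atTop
      (𝓝 (NormedSpace.exp (A + B))) := by
  exact lie_trotter A B

end

/-- **Golden–Thompson**, strengthened: `tr e^{A+B} ≤ tr (e^{A/2}e^{B/2})²`. -/
theorem golden_thompson_half (A B : Matrix n n ℂ) (hA : A.IsHermitian) (hB : B.IsHermitian) :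
    (trace (NormedSpace.exp (A + B))).re ≤
      (trace ((NormedSpace.exp ((1 / 2 : ℝ) • A) * NormedSpace.exp ((1 / 2 : ℝ) • B)) ^ 2)).re := by
  rcases isEmpty_or_nonempty n with hn | hn
  · simp [trace]
  have hlim := lie_trotter_matrix A B
  have hsub : Tendsto (fun k : ℕ => 2 ^ (k + 1) - 1) atTop atTop := by
    refine tendsto_atTop_mono (fun k => ?_) tendsto_id
    have : k + 1 < 2 ^ (k + 1) := Nat.lt_two_pow_self
    simp only [id]; omega
  have h2 := hlim.comp hsub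
  have hc : Continuous fun M : Matrix n n ℂ => (trace M).re :=
    Complex.continuous_re.comp (continuous_id.matrix_trace)
  have h3 := (hc.tendsto _).comp h2
  refine le_of_tendsto' h3 fun k => ?_
  have hk : (2 ^ (k + 1) - 1 : ℕ) + 1 = 2 ^ (k + 1) :=
    Nat.sub_add_cancel Nat.one_le_two_pow
  have hk' : (((2 ^ (k + 1) - 1 : ℕ) : ℝ) + 1) = 2 ^ (k + 1) := by exact_mod_cast hk
  simp only [Function.comp]
  rw [hk, hk']
  have hX : (NormedSpace.exp ((1 / (2 : ℝ) ^ (k + 1)) • A))ᴴ =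
      NormedSpace.exp ((1 / (2 : ℝ) ^ (k + 1)) • A) := herm_exp_smul hA _
  have hY : (NormedSpace.exp ((1 / (2 : ℝ) ^ (k + 1)) • B))ᴴ =
      NormedSpace.exp ((1 / (2 : ℝ) ^ (k + 1)) • B) := herm_exp_smul hB _
  refine (chain k hX hY).trans (le_of_eq ?_)
  rw [← exp_nsmul, ← exp_nsmul, ← Nat.cast_smul_eq_nsmul ℝ, ← Nat.cast_smul_eq_nsmul ℝ,
    smul_smul, smul_smul]
  have : ((2 ^ k : ℕ) : ℝ) * (1 / 2 ^ (k + 1)) = 1 / 2 := by
    push_cast; rw [pow_succ]; field_simp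
  rw [this]

/-- **Golden–Thompson** with remainder. -/
theorem golden_thompson_rem (A B : Matrix n n ℂ) (hA : A.IsHermitian) (hB : B.IsHermitian) :
    (trace (NormedSpace.exp (A + B))).re +
      1 / 2 * ∑ i, ∑ j, ‖(NormedSpace.exp ((1 / 2 : ℝ) • A) * NormedSpace.exp ((1 / 2 : ℝ) • B) -
        NormedSpace.exp ((1 / 2 : ℝ) • B) * NormedSpace.exp ((1 / 2 : ℝ) • A)) i j‖ ^ 2 ≤
      (trace (NormedSpace.exp A * NormedSpace.exp B)).re := by
  have h1 := golden_thompson_half A B hA hB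
  have h2 := defect (herm_exp_smul hA (1 / 2)) (herm_exp_smul hB (1 / 2))
  have h3 : ∀ C : Matrix n n ℂ, NormedSpace.exp ((1 / 2 : ℝ) • C) ^ 2 = NormedSpace.exp C := by
    intro C
    rw [← exp_nsmul, ← Nat.cast_smul_eq_nsmul ℝ, smul_smul]
    norm_num
  rw [h3, h3] at h2
  linarith

theorem golden_thompson (A B : Matrix n n ℂ) (hA : A.IsHermitian) (hB : B.IsHermitian) :
    (trace (NormedSpace.exp (A + B))).re ≤
      (trace (NormedSpace.exp A * NormedSpace.exp B)).re := by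
  refine le_trans ?_ (golden_thompson_rem A B hA hB)
  have : 0 ≤ 1 / 2 * ∑ i, ∑ j, ‖(NormedSpace.exp ((1 / 2 : ℝ) • A) *
      NormedSpace.exp ((1 / 2 : ℝ) • B) -
        NormedSpace.exp ((1 / 2 : ℝ) • B) * NormedSpace.exp ((1 / 2 : ℝ) • A)) i j‖ ^ 2 := by
    positivity
  linarith

section
open scoped Matrix.Norms.L2Operator

/-- for Hermitian matrices, if the exponentials commute then the matrices commute -/
theorem commute_of_commute_exp {A B : Matrix n n ℂ} (hA : A.IsHermitian) (hB : B.IsHermitian)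
    (h : Commute (NormedSpace.exp A) (NormedSpace.exp B)) : Commute A B := by
  have hA' : IsSelfAdjoint A := hA
  have hB' : IsSelfAdjoint B := hB
  have eA : CFC.log (NormedSpace.exp A) = A := CFC.log_exp A hA'
  have eB : CFC.log (NormedSpace.exp B) = B := CFC.log_exp B hB'
  have h1 : Commute A (NormedSpace.exp B) := by
    rw [← eA, CFC.log]
    exact h.cfc_real _
  have h2 : Commute B A := by
    rw [← eB, CFC.log]
    exact h1.symm.cfc_real _
  exact h2.symm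

end

/-- equality case in Golden–Thompson -/
theorem golden_thompson_eq (A B : Matrix n n ℂ) (hA : A.IsHermitian) (hB : B.IsHermitian)
    (h : (trace (NormedSpace.exp A * NormedSpace.exp B)).re ≤
      (trace (NormedSpace.exp (A + B))).re) : Commute A B := by
  have h1 := golden_thompson_rem A B hA hB
  have h2 : ∑ i, ∑ j, ‖(NormedSpace.exp ((1 / 2 : ℝ) • A) * NormedSpace.exp ((1 / 2 : ℝ) • B) -
        NormedSpace.exp ((1 / 2 : ℝ) • B) * NormedSpace.exp ((1 / 2 : ℝ) • A)) i j‖ ^ 2 = 0 := by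
    refine le_antisymm (by linarith) (by positivity)
  have h3 : NormedSpace.exp ((1 / 2 : ℝ) • A) * NormedSpace.exp ((1 / 2 : ℝ) • B) =
        NormedSpace.exp ((1 / 2 : ℝ) • B) * NormedSpace.exp ((1 / 2 : ℝ) • A) := by
    rw [← sub_eq_zero]
    ext i j
    have h4 := (Finset.sum_eq_zero_iff_of_nonneg (fun i _ => by positivity)).1 h2 i
      (Finset.mem_univ _)
    have h5 := (Finset.sum_eq_zero_iff_of_nonneg (fun i _ => by positivity)).1 h4 j
      (Finset.mem_univ _)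
    simpa using h5
  have hherm : ∀ C : Matrix n n ℂ, C.IsHermitian → ((1 / 2 : ℝ) • C).IsHermitian := by
    intro C hC
    unfold Matrix.IsHermitian
    rw [conjTranspose_smul, hC]
    simp
  have h4 := commute_of_commute_exp (hherm A hA) (hherm B hB) h3
  have h5 := (h4.smul_left (2 : ℝ)).smul_right (2 : ℝ)
  simpa [smul_smul] using h5

end GT
end Crest.Agent.R332
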