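import Crest.Agent.R332.Defs
import Crest.Agent.R332.LIBC
import Crest.Agent.R332.GoldenThompson

/-! Golden–Thompson in logarithmic form. -/

set_option autoImplicit false

open MeasureTheory Matrix Filter Topology
open Crest.MathPhysics.LiebThirring
open scoped ComplexOrder

namespace Crest.Agent.R332
namespace GTL

variable {N : ℕ}

theorem exp_eq_cfc {A : Mt N} (hA : A.IsHermitian) :
    NormedSpace.exp A = cfc Real.exp A := by
  obtain ⟨V, hV⟩ := exists_diag hA
  rw [cfc_eq_of_diag V _ hV]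
  have hinv : (V : Mt N)⁻¹ = (V : Mt N)ᴴ := Matrix.inv_eq_left_inv (U_star_mul V)
  have hu : IsUnit (V : Mt N) := by
    rw [Matrix.isUnit_iff_isUnit_det]
    exact Matrix.isUnit_det_of_left_inverse (U_star_mul V)
  conv_lhs => rw [hV, ← hinv]
  rw [Matrix.exp_conj _ _ hu, hinv]
  congr 2
  unfold dg
  rw [Matrix.exp_diagonal]
  congr 1
  funext i
  rw [Pi.coe_exp]
  show NormedSpace.exp ((hA.eigenvalues i : ℝ) : ℂ) = ((Real.exp (hA.eigenvalues i) : ℝ) : ℂ)
  rw [Complex.ofReal_exp, Complex.exp_eq_exp_ℂ]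

theorem half_eq (A : Mt N) : (1 / 2 : ℝ) • A = ((1 / 2 : ℝ) : ℂ) • A := by
  ext i j
  simp [Matrix.smul_apply]

end GTL

open GTL in
theorem gtl : GTL := by
  intro N A B hA hB
  have h := GT.golden_thompson_rem (lg A) (lg B) (lg_isHermitian A) (lg_isHermitian B)
  have hAB : (lg A + lg B).IsHermitian := (lg_isHermitian A).add (lg_isHermitian B)
  have key : ∀ C : Mt N, C.PosDef → NormedSpace.exp ((1 / 2 : ℝ) • lg C) = cfc Real.sqrt C := by
    intro C hC
    have e1 : (1 / 2 : ℝ) • lg C = cfc (fun x => (1 / 2) * Real.log x) C := by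
      rw [half_eq]; exact cfc_smul_mt hC.1 _ _
    rw [e1, exp_eq_cfc (cfc_isHermitian' _ _), cfc_comp_mt hC.1]
    refine cfc_congr_posDef hC fun x hx => ?_
    show Real.exp (1 / 2 * Real.log x) = Real.sqrt x
    rw [Real.sqrt_eq_rpow, Real.rpow_def_of_pos hx, mul_comm]
  rw [key A hA, key B hB, exp_eq_cfc hAB, exp_eq_cfc (lg_isHermitian A),
    exp_eq_cfc (lg_isHermitian B), exp_lg hA, exp_lg hB] at h
  exact h

end Crest.Agent.R332
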