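import Mathlib
import Crest.Prelude.Def_LiebThirring

/-!
# R332 interface (rows S0515, S0516): sharp 1D Lieb-Thirring for matrix potentials

Notation: `s = γ - 1/2 ∈ (0,1)`, `r = s⁻¹ > 1`, `p = 1 + s`.
All closed `Prop`s below are the tasks (see table r332_tasks).
-/

set_option autoImplicit false

open MeasureTheory Matrix Filter Topology
open Crest.MathPhysics.LiebThirring
open scoped ComplexOrder

namespace Crest.Agent.R332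

abbrev Mt (N : ℕ) : Type := Matrix (Fin N) (Fin N) ℂ
abbrev Rc (m N : ℕ) : Type := Matrix (Fin m) (Fin N) ℂ

/-- real part of the trace -/
noncomputable def rtr {N : ℕ} (A : Mt N) : ℝ := (Matrix.trace A).re
/-- Frobenius norm squared -/
noncomputable def fro2 {m N : ℕ} (A : Rc m N) : ℝ := ∑ i, ∑ j, ‖A i j‖ ^ 2
/-- Frobenius norm -/
noncomputable def fro {m N : ℕ} (A : Rc m N) : ℝ := Real.sqrt (fro2 A)
/-- real diagonal matrix -/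
noncomputable def dg {N : ℕ} (κ : Fin N → ℝ) : Mt N :=
  Matrix.diagonal fun i => ((κ i : ℝ) : ℂ)
/-- scalar matrix -/
noncomputable def sc (N : ℕ) (t : ℝ) : Mt N := ((t : ℝ) : ℂ) • (1 : Mt N)
/-- `K_t = sqrt (K^2 + t)` -/
noncomputable def Kt {N : ℕ} (κ : Fin N → ℝ) (t : ℝ) : Mt N :=
  dg fun i => Real.sqrt (κ i ^ 2 + t)
noncomputable def lg {N : ℕ} (A : Mt N) : Mt N := cfc Real.log A
noncomputable def pw {N : ℕ} (A : Mt N) (p : ℝ) : Mt N := cfc (fun x : ℝ => x ^ p) A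
/-- `H_t = log (K_t + Q) + log (K_t - Q) - log t` -/
noncomputable def Hm {N : ℕ} (κ : Fin N → ℝ) (Q : Mt N) (t : ℝ) : Mt N :=
  lg (Kt κ t + Q) + lg (Kt κ t - Q) - sc N (Real.log t)
/-- `Z = K^2 - Q^2` -/
noncomputable def Zm {N : ℕ} (κ : Fin N → ℝ) (Q : Mt N) : Mt N := dg κ * dg κ - Q * Q
/-- `-K ≤ Q ≤ K` -/
def Btw {N : ℕ} (κ : Fin N → ℝ) (Q : Mt N) : Prop :=
  Q.IsHermitian ∧ (dg κ + Q).PosSemidef ∧ (dg κ - Q).PosSemidef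
noncomputable def rho {N : ℕ} (κ : Fin N → ℝ) (Q : Mt N) (t : ℝ) : ℝ :=
  rtr (Zm κ Q) - t * rtr (Hm κ Q t)
/-- slack of the Golden-Thompson + Gibbs step -/
noncomputable def sig {N : ℕ} (κ : Fin N → ℝ) (Q X : Mt N) (t : ℝ) : ℝ :=
  rtr ((Kt κ t + Q) * (Kt κ t - Q)) - rtr (sc N t + X)
    - rtr ((sc N t + X) * (lg (Kt κ t + Q) + lg (Kt κ t - Q) - lg (sc N t + X)))
/-- `-c ≤ A ≤ c` -/
def OpLe {N : ℕ} (A : Mt N) (c : ℝ) : Prop :=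
  (sc N c - A).PosSemidef ∧ (sc N c + A).PosSemidef

/-! ### constants -/
noncomputable def bet (s : ℝ) : ℝ := ∫ q in (-1 : ℝ)..1, (1 - q ^ 2) ^ s
noncomputable def cs (s : ℝ) : ℝ := (1 + s) ^ (1 + s) / s ^ s
noncomputable def Cc (s : ℝ) : ℝ := sharpConst (s + 1 / 2)
noncomputable def cY (s : ℝ) : ℝ := ((1 + s) * Cc s) ^ (-(s⁻¹)) / (s⁻¹ + 1)
noncomputable def Is (s : ℝ) : ℝ := ∫ u in Set.Ioi (0 : ℝ), u ^ (s - 1) * Real.log (1 + 1 / u)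
noncomputable def th (s : ℝ) : ℝ := s / (1 + s)

/-! ### Part A: matrix analysis and the twisted Lieb-Thirring inequality -/

/-- spectral pairing -/
def SPEC : Prop := ∀ (N : ℕ) (A B : Mt N) (hA : A.IsHermitian) (hB : B.IsHermitian),
  ∃ p : Fin N → Fin N → ℝ, (∀ i j, 0 ≤ p i j) ∧ (∀ i, ∑ j, p i j = 1) ∧
    (∀ j, ∑ i, p i j = 1) ∧
    ∀ f g : ℝ → ℝ, rtr (cfc f A * cfc g B) =
      ∑ i, ∑ j, p i j * (f (hA.eigenvalues i) * g (hB.eigenvalues j))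

/-- Golden-Thompson in logarithmic form with commutator remainder -/
def GTL : Prop := ∀ (N : ℕ) (A B : Mt N), A.PosDef → B.PosDef →
  rtr (cfc Real.exp (lg A + lg B)) +
    (1 / 2) * fro2 (cfc Real.sqrt A * cfc Real.sqrt B - cfc Real.sqrt B * cfc Real.sqrt A) ≤
      rtr (A * B)

/-- Golden-Thompson + Gibbs -/
def STAR : Prop := ∀ (N : ℕ) (A B Y : Mt N), A.PosDef → B.PosDef → Y.PosDef →
  rtr (Y * (lg A + lg B - lg Y)) + rtr Y +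
    fro2 (cfc (fun x => Real.exp (x / 2)) (lg A + lg B) - cfc Real.sqrt Y) +
    (1 / 2) * fro2 (cfc Real.sqrt A * cfc Real.sqrt B - cfc Real.sqrt B * cfc Real.sqrt A) ≤
      rtr (A * B)

/-- continuity of the functional calculus -/
def CFCC : Prop := ∀ (N : ℕ) (f : ℝ → ℝ), Continuous f →
  ContinuousOn (fun A : Mt N => cfc f A) {A | A.IsHermitian}
def LGC : Prop := ∀ (N : ℕ), ContinuousOn (fun A : Mt N => lg A) {A | A.PosDef}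

/-- derivative of the matrix logarithm along a curve (resolvent formula) -/
def DLOG : Prop := ∀ (N : ℕ) (X : ℝ → Mt N) (X' : Mt N) (t : ℝ),
  (∀ τ, (X τ).IsHermitian) → (X t).PosDef → HasDerivAt X X' t → ∀ Y : Mt N,
    IntegrableOn (fun u : ℝ =>
      rtr ((X t + sc N u)⁻¹ * X' * (X t + sc N u)⁻¹ * Y)) (Set.Ioi 0) ∧
    HasDerivAt (fun τ => rtr (lg (X τ) * Y))
      (∫ u in Set.Ioi (0 : ℝ), rtr ((X t + sc N u)⁻¹ * X' * (X t + sc N u)⁻¹ * Y)) t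

/-- the Cauchy-Schwarz inequality (I1) -/
def I1P : Prop := ∀ (N : ℕ) (κ : Fin N → ℝ), (∀ i, 0 < κ i) → ∀ Q : Mt N, Btw κ Q →
  ∀ t : ℝ, 0 < t →
    (∫ u in Set.Ioi (0 : ℝ), rtr ((Kt κ t + Q + sc N u)⁻¹ * ((1 / 2 : ℂ) • (Kt κ t)⁻¹) *
        (Kt κ t + Q + sc N u)⁻¹ * (Zm κ Q + sc N t))) +
    (∫ u in Set.Ioi (0 : ℝ), rtr ((Kt κ t - Q + sc N u)⁻¹ * ((1 / 2 : ℂ) • (Kt κ t)⁻¹) *
        (Kt κ t - Q + sc N u)⁻¹ * (Zm κ Q + sc N t))) ≤ N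

def YDER : Prop := ∀ (N : ℕ) (κ : Fin N → ℝ), (∀ i, 0 < κ i) → ∀ Q : Mt N, Btw κ Q →
  ∀ t : ℝ, 0 < t → ∃ y' : ℝ,
    HasDerivAt (fun τ => rtr (Hm κ Q τ * (Zm κ Q + sc N τ))) y' t ∧ t * y' ≤ - rho κ Q t

/-- large `t`: `t H_t = Z + O(1/t)`, uniformly in `N` -/
def HBL : Prop := ∀ k : ℝ, 0 ≤ k → ∃ C : ℝ, 0 ≤ C ∧ ∀ (N : ℕ) (κ : Fin N → ℝ),
  (∀ i, 0 ≤ κ i ∧ κ i ≤ k) → ∀ Q : Mt N, Btw κ Q → ∀ t : ℝ, 1 ≤ t →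
    OpLe (((t : ℝ) : ℂ) • Hm κ Q t - Zm κ Q) (C / t)
/-- small `t` -/
def HBS : Prop := ∀ k : ℝ, 0 ≤ k → ∃ C : ℝ, 0 ≤ C ∧ ∀ (N : ℕ) (κ : Fin N → ℝ),
  (∀ i, 0 ≤ κ i ∧ κ i ≤ k) → ∀ Q : Mt N, Btw κ Q → ∀ t : ℝ, 0 < t → t ≤ 1 →
    OpLe (Hm κ Q t) (C * (1 + |Real.log t|))
/-- large `t`, exponential form -/
def HBE : Prop := ∀ k : ℝ, 0 ≤ k → ∃ C : ℝ, 0 ≤ C ∧ ∀ (N : ℕ) (κ : Fin N → ℝ),
  (∀ i, 0 ≤ κ i ∧ κ i ≤ k) → ∀ Q : Mt N, Btw κ Q → ∀ t : ℝ, 1 ≤ t →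
    OpLe (cfc Real.exp (lg (Kt κ t + Q) + lg (Kt κ t - Q)) - sc N t - Zm κ Q) (C / t)

def YINT : Prop := ∀ s : ℝ, 0 < s → s < 1 → ∀ (N : ℕ) (κ : Fin N → ℝ), (∀ i, 0 < κ i) →
  ∀ Q : Mt N, Btw κ Q →
    (∀ Y : Mt N, IntegrableOn (fun t : ℝ => t ^ (s - 1) * rtr (Hm κ Q t * Y)) (Set.Ioi 0)) ∧
    IntegrableOn (fun t : ℝ => t ^ (s - 1) * rho κ Q t) (Set.Ioi 0) ∧
    (1 + s) * (∫ t in Set.Ioi (0 : ℝ), t ^ (s - 1) * rho κ Q t) ≤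
      s * ∫ t in Set.Ioi (0 : ℝ), t ^ (s - 1) * rtr (Hm κ Q t * Zm κ Q)

/-- scalar integrals -/
def GINT : Prop := ∀ s : ℝ, 0 < s → s < 1 → 0 < Is s ∧ ∀ ξ : ℝ, 0 ≤ ξ →
    (IntegrableOn (fun t : ℝ => t ^ (s - 1) * Real.log (1 + ξ / t)) (Set.Ioi 0) ∧
      ∫ t in Set.Ioi (0 : ℝ), t ^ (s - 1) * Real.log (1 + ξ / t) = Is s * ξ ^ s) ∧
    (IntegrableOn (fun t : ℝ => t ^ (s - 1) *
        (t * ((1 + ξ / t) * Real.log (1 + ξ / t) - ξ / t))) (Set.Ioi 0) ∧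
      ∫ t in Set.Ioi (0 : ℝ), t ^ (s - 1) *
        (t * ((1 + ξ / t) * Real.log (1 + ξ / t) - ξ / t)) = Is s / (1 + s) * ξ ^ (1 + s))

/-- the pointwise calibration inequality with slack -/
def PWI : Prop := ∀ s : ℝ, 0 < s → s < 1 → ∀ (N : ℕ) (κ : Fin N → ℝ), (∀ i, 0 < κ i) →
  ∀ Q : Mt N, Btw κ Q → ∀ V : Mt N, V.PosSemidef →
    IntegrableOn (fun t : ℝ => t ^ (s - 1) * rtr (Hm κ Q t * (V - Zm κ Q))) (Set.Ioi 0) ∧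
    IntegrableOn (fun t : ℝ => t ^ (s - 1) * sig κ Q (((th s : ℝ) : ℂ) • V) t) (Set.Ioi 0) ∧
    s * (∫ t in Set.Ioi (0 : ℝ), t ^ (s - 1) * rtr (Hm κ Q t * (V - Zm κ Q))) +
      (1 + s) * (∫ t in Set.Ioi (0 : ℝ), t ^ (s - 1) * sig κ Q (((th s : ℝ) : ℂ) • V) t) ≤
        Is s * th s ^ (1 + s) * tracePow V (1 + s)

/-- line integral of the calibration gradient -/
def PATH : Prop := ∀ (N : ℕ) (κ : Fin N → ℝ), (∀ i, 0 < κ i) → ∀ t : ℝ, 0 < t →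
  ∀ a b : ℝ, a < b → ∀ Q Q' : ℝ → Mt N,
    (∀ x ∈ Set.Icc a b, HasDerivWithinAt Q (Q' x) (Set.Icc a b) x) →
    ContinuousOn Q' (Set.Icc a b) → (∀ x ∈ Set.Icc a b, Btw κ (Q x)) →
    Q a = - dg κ → Q b = dg κ →
      ∫ x in a..b, rtr (Hm κ (Q x) t * Q' x) =
        ∑ i, ∫ q in (-(κ i))..(κ i), Real.log (1 + (κ i ^ 2 - q ^ 2) / t)

def TINT : Prop := ∀ s : ℝ, 0 < s → s < 1 → ∀ k : ℝ, 0 < k →
    IntegrableOn (fun t : ℝ => t ^ (s - 1) *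
      ∫ q in (-k)..k, Real.log (1 + (k ^ 2 - q ^ 2) / t)) (Set.Ioi 0) ∧
    ∫ t in Set.Ioi (0 : ℝ), t ^ (s - 1) *
      ∫ q in (-k)..k, Real.log (1 + (k ^ 2 - q ^ 2) / t) = Is s * bet s * k ^ (1 + 2 * s)

/-- twisted Lieb-Thirring inequality with slack -/
def TLT : Prop := ∀ s : ℝ, 0 < s → s < 1 → ∀ T : ℝ, 0 < T → ∃ C : ℝ, 0 ≤ C ∧
  ∀ (N : ℕ) (κ : Fin N → ℝ), (∀ i, 0 < κ i) → ∀ a b : ℝ, a < b → ∀ Q V : ℝ → Mt N,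
    (∀ x ∈ Set.Icc a b,
      HasDerivWithinAt Q (V x - dg κ * dg κ + Q x * Q x) (Set.Icc a b) x) →
    ContinuousOn V (Set.Icc a b) → (∀ x ∈ Set.Icc a b, (V x).PosSemidef) →
    (∀ x ∈ Set.Icc a b, Btw κ (Q x)) → Q a = - dg κ → Q b = dg κ →
      cs s * bet s * ∑ i, κ i ^ (1 + 2 * s) ≤ ∫ x in a..b, tracePow (V x) (1 + s) ∧
      ∃ t ∈ Set.Icc T (2 * T),
        ContinuousOn (fun x => sig κ (Q x) (((th s : ℝ) : ℂ) • V x) t) (Set.Icc a b) ∧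
        ∫ x in a..b, sig κ (Q x) (((th s : ℝ) : ℂ) • V x) t ≤
          C * ((∫ x in a..b, tracePow (V x) (1 + s)) -
            cs s * bet s * ∑ i, κ i ^ (1 + 2 * s))

/-! ### Part B: existence of `K̂` -/

/-- positivity for the linear (Lyapunov) equation -/
def POS : Prop := ∀ (N : ℕ) (a b : ℝ), a < b → ∀ A V G : ℝ → Mt N,
    (∀ x ∈ Set.Icc a b,
      HasDerivWithinAt A (V x - (A x * G x + G x * A x)) (Set.Icc a b) x) →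
    ContinuousOn G (Set.Icc a b) → (∀ x ∈ Set.Icc a b, (G x).IsHermitian) →
    (∀ x ∈ Set.Icc a b, (A x).IsHermitian) →
    (∀ x ∈ Set.Icc a b, (V x).PosSemidef) → (A a).PosSemidef →
      ∀ x ∈ Set.Icc a b, (A x).PosSemidef

/-- the Riccati boundary value problem, solved by Brouwer -/
def EX : Prop := ∀ (N : ℕ) (a b : ℝ), a < b → ∀ (V : Mt N → ℝ → Mt N) (B : ℝ),
    ContinuousOn (fun z : Mt N × ℝ => V z.1 z.2) ({K | K.PosSemidef} ×ˢ Set.Icc a b) →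
    (∀ K : Mt N, K.PosSemidef → ∀ x ∈ Set.Icc a b,
      (V K x).PosSemidef ∧ (sc N B - V K x).PosSemidef) →
    (∀ K : Mt N, K.PosSemidef → ∀ v : Fin N → ℂ, v ≠ 0 →
      ∃ x ∈ Set.Icc a b, V K x *ᵥ v ≠ 0) →
    ∃ K : Mt N, K.PosDef ∧ ∃ Q : ℝ → Mt N,
      (∀ x ∈ Set.Icc a b,
        HasDerivWithinAt Q (V K x - K * K + Q x * Q x) (Set.Icc a b) x) ∧
      Q a = - K ∧ Q b = K ∧
      ∀ x ∈ Set.Icc a b, (Q x).IsHermitian ∧ (K + Q x).PosSemidef ∧ (K - Q x).PosSemidef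

/-! ### Part C: from trial families to configurations -/

/-- potential `𝒲 = c (r+1) (X* X)^r` -/
noncomputable def Wm {m N : ℕ} (s : ℝ) (X : Rc m N) : Mt N :=
  ((cY s * (s⁻¹ + 1) : ℝ) : ℂ) • pw (Xᴴ * X) s⁻¹
/-- `Ξ = c (X* X)^r` -/
noncomputable def Xi {m N : ℕ} (s : ℝ) (X : Rc m N) : Mt N :=
  ((cY s : ℝ) : ℂ) • pw (Xᴴ * X) s⁻¹

structure Config (s : ℝ) (m N : ℕ) (κ : Fin N → ℝ) (X X' : ℝ → Rc m N) (Q : ℝ → Mt N)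
    (l : ℝ) : Prop where
  kpos : ∀ i, 0 < κ i
  kanti : Antitone κ
  lpos : 0 < l
  dX : ∀ x, HasDerivAt X (X' x) x
  cX' : Continuous X'
  X0 : ∀ x, l ≤ |x| → X x = 0 ∧ X' x = 0
  dQ : ∀ x, HasDerivAt Q (Wm s (X x) - dg κ * dg κ + Q x * Q x) x
  btw : ∀ x, Btw κ (Q x)
  Qm : ∀ x, x ≤ -l → Q x = - dg κ
  Qp : ∀ x, l ≤ x → Q x = dg κ

/-- Young slack -/
noncomputable def YSf {m N : ℕ} (s : ℝ) (W : ℝ → Mt m) (X : ℝ → Rc m N) (x : ℝ) : ℝ :=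
  Cc s * tracePow (W x) (1 + s) + cY s * tracePow (X x * (X x)ᴴ) (s⁻¹ + 1) -
    rtr (W x * (X x * (X x)ᴴ))
noncomputable def YS {m N : ℕ} (s : ℝ) (W : ℝ → Mt m) (X : ℝ → Rc m N) : ℝ :=
  ∫ x, YSf s W X x
/-- kinetic slack -/
noncomputable def KS {m N : ℕ} (X X' : ℝ → Rc m N) (Q : ℝ → Mt N) : ℝ :=
  ∫ x, fro2 (X' x + X x * Q x)
/-- twisted LT slack -/
noncomputable def TS {m N : ℕ} (s : ℝ) (κ : Fin N → ℝ) (X : ℝ → Rc m N) : ℝ :=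
  (∫ x, tracePow (Wm s (X x)) (1 + s)) - cs s * bet s * ∑ i, κ i ^ (1 + 2 * s)
/-- the Young-optimal density `(W / (c (r+1)))^s` -/
noncomputable def RW {m : ℕ} (s : ℝ) (W : Mt m) : Mt m :=
  cfc (fun w : ℝ => (w / (cY s * (s⁻¹ + 1))) ^ s) W

def CONSTS : Prop := ∀ s : ℝ, 0 < s → s < 1 →
  0 < Cc s ∧ 0 < cY s ∧ 0 < bet s ∧ 0 < cs s ∧ Cc s * (cs s * bet s) = 1 ∧
  cY s * s⁻¹ = Cc s * (cY s * (s⁻¹ + 1)) ^ (1 + s) ∧ th s * (cY s * (s⁻¹ + 1)) = cY s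

/-- scalar Young with remainder -/
def YOUNG : Prop := ∀ s : ℝ, 0 < s → s < 1 → ∃ c' : ℝ, 0 < c' ∧ ∀ w y : ℝ, 0 ≤ w → 0 ≤ y →
  c' * |y - (w / (cY s * (s⁻¹ + 1))) ^ s| ^ (s⁻¹ + 1) + w * y ≤
    Cc s * w ^ (1 + s) + cY s * y ^ (s⁻¹ + 1)
/-- trace Young with remainder -/
def YOUNGM : Prop := ∀ s : ℝ, 0 < s → s < 1 → ∀ m : ℕ, ∃ c' : ℝ, 0 < c' ∧
  ∀ W R : Mt m, W.PosSemidef → R.PosSemidef →
  c' * fro (R - RW s W) ^ (s⁻¹ + 1) + rtr (W * R) ≤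
    Cc s * tracePow W (1 + s) + cY s * tracePow R (s⁻¹ + 1)

/-- functional calculus of `X X*` versus `X* X` -/
def TRX : Prop := ∀ (m N : ℕ) (X : Rc m N),
  (∀ f : ℝ → ℝ, X * cfc f (Xᴴ * X) = cfc f (X * Xᴴ) * X) ∧
  (∀ f : ℝ → ℝ, f 0 = 0 → rtr (cfc f (X * Xᴴ)) = rtr (cfc f (Xᴴ * X)))

/-- weights -/
def WGT : Prop := ∀ γ : ℝ, 1 / 2 < γ → γ < 3 / 2 → ∀ (N : ℕ) (κ : Fin N → ℝ),
  (∀ i, 0 < κ i) → ∀ δ : ℝ, 0 < δ → ∃ (ω : Mt N → Mt N) (B : ℝ),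
    ContinuousOn ω {K | K.PosSemidef} ∧
    (∀ K : Mt N, K.PosSemidef → (ω K).PosDef ∧ (sc N B - ω K * ω K).PosSemidef) ∧
    ∀ K : Mt N, K.PosDef → (∑ i, κ i ^ (2 * γ)) - δ ≤
      rtr (ω K * ω K * (dg κ * dg κ - K * K)) + tracePow K (2 * γ)

/-- data extracted from a trial family -/
structure TrialData (m N : ℕ) (W : ℝ → Mt m) (κ : Fin N → ℝ) (Φ Φ' : ℝ → Rc m N)
    (l : ℝ) : Prop where
  kpos : ∀ i, 0 < κ i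
  lpos : 0 < l
  dΦ : ∀ x, HasDerivAt Φ (Φ' x) x
  cΦ' : Continuous Φ'
  Φ0 : ∀ x, l ≤ |x| → Φ x = 0 ∧ Φ' x = 0
  orth : ∀ i j, ∫ x, ((Φ x)ᴴ * Φ x) i j = if i = j then 1 else 0
  intW : ∀ i j, Integrable (fun x => ((Φ x)ᴴ * W x * Φ x) i j)
  energy : ∀ i j, ∫ x, (((Φ' x)ᴴ * Φ' x) i j - ((Φ x)ᴴ * W x * Φ x) i j) =
    if i = j then -((κ i : ℝ) : ℂ) ^ 2 else 0

/-- reduction of the energy matrix to its negative part -/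
def RED : Prop := ∀ γ : ℝ, 1 / 2 < γ → γ < 3 / 2 → ∀ (m : ℕ) (W : ℝ → Mt m),
  (∀ i j, Measurable fun x => W x i j) → (∀ x, (W x).PosSemidef) →
  (Integrable fun x => tracePow (W x) (γ + 1 / 2)) →
  ∀ (n : ℕ) (φ : Fin n → ℝ → Vec m), IsTrialFamily φ →
    ∃ (N : ℕ) (κ : Fin N → ℝ) (Φ Φ' : ℝ → Rc m N) (l : ℝ), TrialData m N W κ Φ Φ' l ∧
      negMoment (energyMatrix W φ) γ = ∑ i, κ i ^ (2 * γ)

/-- kinetic identity -/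
def KIN : Prop := ∀ (m N : ℕ) (a b : ℝ), a < b → ∀ (X X' : ℝ → Rc m N) (Q Q' : ℝ → Mt N),
    (∀ x ∈ Set.Icc a b, HasDerivWithinAt X (X' x) (Set.Icc a b) x) →
    ContinuousOn X' (Set.Icc a b) →
    (∀ x ∈ Set.Icc a b, HasDerivWithinAt Q (Q' x) (Set.Icc a b) x) →
    ContinuousOn Q' (Set.Icc a b) → (∀ x ∈ Set.Icc a b, (Q x).IsHermitian) →
    X a = 0 → X b = 0 →
      ∫ x in a..b, fro2 (X' x + X x * Q x) =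
        (∫ x in a..b, fro2 (X' x)) +
          ∫ x in a..b, rtr ((X x)ᴴ * X x * (Q x * Q x - Q' x))

/-- a configuration from orthonormal data and a weight function -/
def CFG : Prop := ∀ s : ℝ, 0 < s → s < 1 → ∀ (m N : ℕ) (Φ Φ' : ℝ → Rc m N) (l : ℝ),
  0 < l → (∀ x, HasDerivAt Φ (Φ' x) x) → Continuous Φ' →
  (∀ x, l ≤ |x| → Φ x = 0 ∧ Φ' x = 0) →
  (∀ i j, ∫ x, ((Φ x)ᴴ * Φ x) i j = if i = j then 1 else 0) →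
  ∀ (ω : Mt N → Mt N) (B : ℝ), ContinuousOn ω {K | K.PosSemidef} →
    (∀ K : Mt N, K.PosSemidef → (ω K).PosDef ∧ (sc N B - ω K * ω K).PosSemidef) →
    ∃ (K : Mt N) (U : Matrix.unitaryGroup (Fin N) ℂ) (κ : Fin N → ℝ) (Q : ℝ → Mt N),
      K.PosDef ∧ K = (U : Mt N) * dg κ * (U : Mt N)ᴴ ∧
      Config s m N κ (fun x => Φ x * ω K * (U : Mt N)) (fun x => Φ' x * ω K * (U : Mt N)) Q l

/-- integrability of the Young slack -/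
def YSI : Prop := ∀ s : ℝ, 0 < s → s < 1 → ∀ (m : ℕ) (W : ℝ → Mt m),
  (∀ i j, Measurable fun x => W x i j) → (∀ x, (W x).PosSemidef) →
  (Integrable fun x => tracePow (W x) (1 + s)) → ∀ (N : ℕ) (X : ℝ → Rc m N) (l : ℝ),
    Continuous X → (∀ x, l ≤ |x| → X x = 0) →
      Integrable (fun x => tracePow (X x * (X x)ᴴ) (s⁻¹ + 1)) ∧
      Integrable (fun x => rtr (W x * (X x * (X x)ᴴ))) ∧
      Integrable (YSf s W X) ∧ ∀ x, 0 ≤ YSf s W X x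

/-- the Lieb-Thirring inequality with all slacks -/
def MAIN : Prop := ∀ s : ℝ, 0 < s → s < 1 → ∀ (m : ℕ) (W : ℝ → Mt m),
  (∀ i j, Measurable fun x => W x i j) → (∀ x, (W x).PosSemidef) →
  (Integrable fun x => tracePow (W x) (1 + s)) →
  ∀ (n : ℕ) (φ : Fin n → ℝ → Vec m), IsTrialFamily φ → ∀ δ : ℝ, 0 < δ →
    ∃ (N : ℕ) (κ : Fin N → ℝ) (X X' : ℝ → Rc m N) (Q : ℝ → Mt N) (l : ℝ),
      Config s m N κ X X' Q l ∧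
      negMoment (energyMatrix W φ) (s + 1 / 2) + YS s W X + KS X X' Q + Cc s * TS s κ X ≤
        Cc s * (∫ x, tracePow (W x) (1 + s)) + δ

/-- TLT for configurations -/
def TLTC : Prop := ∀ s : ℝ, 0 < s → s < 1 → ∀ T : ℝ, 0 < T → ∃ C : ℝ, 0 ≤ C ∧
  ∀ (m N : ℕ) (κ : Fin N → ℝ) (X X' : ℝ → Rc m N) (Q : ℝ → Mt N) (l : ℝ),
    Config s m N κ X X' Q l → 0 ≤ TS s κ X ∧ ∃ t ∈ Set.Icc T (2 * T),
      Continuous (fun x => sig κ (Q x) (Xi s (X x)) t) ∧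
      (∀ x, l ≤ |x| → sig κ (Q x) (Xi s (X x)) t = 0) ∧
      (∀ x, 0 ≤ sig κ (Q x) (Xi s (X x)) t) ∧
      ∫ x, sig κ (Q x) (Xi s (X x)) t ≤ C * TS s κ X

/-! ### Part D: equality cases, sufficiency -/

def SOLC : Prop := ∀ s : ℝ, 0 < s → s < 1 → ∀ a c : ℝ, 0 ≤ a →
  Integrable (fun x => soliton s⁻¹ a c x ^ (1 + s)) ∧
    Cc s * ∫ x, soliton s⁻¹ a c x ^ (1 + s) = a ^ (2 * (s + 1 / 2))

def SOLT : Prop := ∀ s : ℝ, 0 < s → s < 1 → ∀ a c : ℝ, 0 < a → ∀ ε : ℝ, 0 < ε →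
  ∃ f : ℝ → ℝ, ContDiff ℝ (⊤ : ℕ∞) f ∧ HasCompactSupport f ∧ ∫ x, f x ^ 2 = 1 ∧
    ∫ x, (deriv f x ^ 2 - soliton s⁻¹ a c x * f x ^ 2) ≤ -a ^ 2 + ε

/-- sufficiency -/
def SUFF : Prop := ∀ s : ℝ, 0 < s → s < 1 → ∀ (m : ℕ) (W : ℝ → Mt m),
  (∃ (U : Matrix.unitaryGroup (Fin m) ℂ) (a c : Fin m → ℝ), (∀ i, 0 ≤ a i) ∧
        ∀ᵐ x : ℝ, W x = (U : Mt m) *
          Matrix.diagonal (fun i => ((soliton s⁻¹ (a i) (c i) x : ℝ) : ℂ)) *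
            star (U : Mt m)) →
  ∀ ε : ℝ, 0 < ε → ∃ (n : ℕ) (φ : Fin n → ℝ → Vec m), IsTrialFamily φ ∧
        Cc s * (∫ x, tracePow (W x) (1 + s)) - ε < negMoment (energyMatrix W φ) (s + 1 / 2)

/-! ### Part E: equality cases, necessity -/

/-- top left `J × J` block, zero extended -/
noncomputable def blk {N : ℕ} (J : ℕ) (A : Mt N) : Mt J := fun i j =>
  if h : (i : ℕ) < N ∧ (j : ℕ) < N then A ⟨i, h.1⟩ ⟨j, h.2⟩ else 0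
/-- first `J` columns, zero extended -/
noncomputable def cblk {m N : ℕ} (J : ℕ) (A : Rc m N) : Rc m J := fun a j =>
  if h : (j : ℕ) < N then A a ⟨j, h⟩ else 0
/-- zero extension of `κ` -/
noncomputable def kap {N : ℕ} (κ : Fin N → ℝ) (i : ℕ) : ℝ := if h : i < N then κ ⟨i, h⟩ else 0

/-- convergence in the Young slack -/
def YCV : Prop := ∀ s : ℝ, 0 < s → s < 1 → ∀ m : ℕ, ∃ c' : ℝ, 0 < c' ∧ ∀ (W : ℝ → Mt m),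
  (∀ i j, Measurable fun x => W x i j) → (∀ x, (W x).PosSemidef) →
  (Integrable fun x => tracePow (W x) (1 + s)) → ∀ (N : ℕ) (X : ℝ → Rc m N) (l : ℝ),
    Continuous X → (∀ x, l ≤ |x| → X x = 0) →
      Integrable (fun x => fro (X x * (X x)ᴴ - RW s (W x)) ^ (s⁻¹ + 1)) ∧
      c' * (∫ x, fro (X x * (X x)ᴴ - RW s (W x)) ^ (s⁻¹ + 1)) ≤ YS s W X

/-- commutator estimate -/
def CMM : Prop := ∀ s : ℝ, 0 < s → s < 1 → ∀ k k0 ε : ℝ, 0 < k → 0 < k0 → 0 < ε →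
  ∃ δ : ℝ, 0 < δ ∧ ∀ (m N : ℕ) (κ : Fin N → ℝ) (X X' : ℝ → Rc m N) (Q : ℝ → Mt N) (l : ℝ),
    Config s m N κ X X' Q l → (∀ i, κ i ≤ k) → TS s κ X ≤ δ →
      ∫ x, (∑ i, ∑ j, if k0 ≤ κ i then (κ i - κ j) ^ 2 * ‖Q x i j‖ ^ 2 else 0) ≤ ε

/-- `Ξ ≈ K² - Q²` on the top block -/
def XIZ : Prop := ∀ s : ℝ, 0 < s → s < 1 → ∀ (m J : ℕ) (k B L ε : ℝ), 0 < k → 0 < B →
  0 < L → 0 < ε →
  ∃ δ : ℝ, 0 < δ ∧ ∀ (N : ℕ) (κ : Fin N → ℝ) (X X' : ℝ → Rc m N) (Q : ℝ → Mt N) (l : ℝ),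
    Config s m N κ X X' Q l → (∀ i, κ i ≤ k) → TS s κ X ≤ δ →
    (∫ x, tracePow (X x * (X x)ᴴ) (s⁻¹ + 1)) ≤ B →
      ∫ x in (-L)..L, fro (blk J (Xi s (X x) - Zm κ (Q x))) ≤ ε

/-- the tail of the density is small -/
def TAILB : Prop := ∀ s : ℝ, 0 < s → s < 1 → ∀ (m : ℕ) (k L ε : ℝ), 0 < k → 0 < L → 0 < ε →
  ∃ δ : ℝ, 0 < δ ∧ ∀ (N : ℕ) (κ : Fin N → ℝ) (X X' : ℝ → Rc m N) (Q : ℝ → Mt N) (l : ℝ),
    Config s m N κ X X' Q l → (∀ i, κ i ≤ k) → TS s κ X ≤ δ →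
    ∀ J : ℕ, (∀ i : Fin N, J ≤ (i : ℕ) → κ i ≤ δ) →
      ∫ x in (-L)..L, (rtr (X x * (X x)ᴴ) -
        rtr (cblk J (X x) * (cblk J (X x))ᴴ)) ^ (s⁻¹ : ℝ) ≤ ε

/-- non-stationarity (small potentials cannot move `Q` far from `K`) -/
def NONST : Prop := ∀ (J : ℕ) (p : ℝ), 1 < p → ∀ k0 : ℝ, 0 < k0 → ∃ η : ℝ, 0 < η ∧
  ∀ κ : Fin J → ℝ, (∀ i, k0 ≤ κ i) → ∀ (q V V1 : ℝ → Mt J) (L l : ℝ), L ≤ l →
    (∀ x, HasDerivAt q (V x - dg κ * dg κ + q x * q x) x) → Continuous V → Continuous V1 →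
    (∀ x, Btw κ (q x)) → q l = dg κ →
    ∫ x in L..l, fro (V1 x) ^ p ≤ η → ∫ x in L..l, fro (V x - V1 x) ≤ η →
      fro (dg κ - q L) ≤ k0 / 2

/-- limit of the Riccati blocks -/
def QLIM : Prop := ∀ r : ℝ, 0 < r → ∀ (J : ℕ) (k : Fin J → ℝ), (∀ i, 0 < k i) →
  ∀ (κ : ℕ → Fin J → ℝ) (q V : ℕ → ℝ → Mt J),
    (∀ i, Tendsto (fun n => κ n i) atTop (𝓝 (k i))) →
    (∀ n x, HasDerivAt (q n) (V n x - dg (κ n) * dg (κ n) + q n x * q n x) x) →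
    (∀ n, Continuous (V n)) → (∀ n x, Btw (κ n) (q n x)) →
    (∀ L : ℝ, 0 < L → Tendsto (fun n => ∫ x in (-L)..L, fro (V n x -
      ((r + 1 : ℝ) : ℂ) • (dg (κ n) * dg (κ n) - q n x * q n x))) atTop (𝓝 0)) →
    Tendsto (fun n => ∫ x in (0 : ℝ)..1, fro2 (dg (κ n) * q n x - q n x * dg (κ n)))
      atTop (𝓝 0) →
    (∃ L ε : ℝ, 0 < L ∧ 0 < ε ∧ (∀ i, ε < k i) ∧
      ∀ᶠ n in atTop, fro (dg (κ n) - q n L) ≤ ε ∧ fro (dg (κ n) + q n (-L)) ≤ ε) →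
    ∃ (φ : ℕ → ℕ) (U : Matrix.unitaryGroup (Fin J) ℂ) (c : Fin J → ℝ), StrictMono φ ∧
      (U : Mt J) * dg k = dg k * (U : Mt J) ∧
      ∀ x, Tendsto (fun n => q (φ n) x) atTop
        (𝓝 ((U : Mt J) * dg (fun i => k i * Real.tanh (r * k i * (x - c i))) * (U : Mt J)ᴴ))

/-- limit of the density columns -/
def XLIM : Prop := ∀ s : ℝ, 0 < s → s < 1 → ∀ (m J : ℕ) (k : Fin J → ℝ), (∀ i, 0 < k i) →
  ∀ (U : Matrix.unitaryGroup (Fin J) ℂ) (c : Fin J → ℝ) (q : ℕ → ℝ → Mt J)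
    (x x' : ℕ → ℝ → Rc m J),
    (∀ n y, HasDerivAt (x n) (x' n y) y) → (∀ n, Continuous (x' n)) →
    (∀ n, Continuous (q n)) → (∃ B : ℝ, ∀ n y, fro (q n y) ≤ B) →
    (∀ y, Tendsto (fun n => q n y) atTop
        (𝓝 ((U : Mt J) * dg (fun i => k i * Real.tanh (s⁻¹ * k i * (y - c i))) *
          (U : Mt J)ᴴ))) →
    (∀ L : ℝ, 0 < L → Tendsto (fun n => ∫ y in (-L)..L, fro (x' n y + x n y * q n y))
      atTop (𝓝 0)) →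
    (∃ x0 B : ℝ, ∀ n, fro (x n x0) ≤ B) →
    ∃ (φ : ℕ → ℕ) (ξ : Rc m J), StrictMono φ ∧
      ∀ y, Tendsto (fun n => x (φ n) y) atTop
        (𝓝 (ξ * dg (fun i => Real.cosh (s⁻¹ * k i * (y - c i)) ^ (-s)) * (U : Mt J)ᴴ))

/-- a sequence of configurations with vanishing slacks -/
structure CSeq (s : ℝ) (m : ℕ) (W : ℝ → Mt m) where
  N : ℕ → ℕ
  κ : ∀ n, Fin (N n) → ℝ
  X : ∀ n, ℝ → Rc m (N n)
  X' : ∀ n, ℝ → Rc m (N n)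
  Q : ∀ n, ℝ → Mt (N n)
  l : ℕ → ℝ
  cfg : ∀ n, Config s m (N n) (κ n) (X n) (X' n) (Q n) (l n)
  ys : Tendsto (fun n => YS s W (X n)) atTop (𝓝 0)
  ks : Tendsto (fun n => KS (X n) (X' n) (Q n)) atTop (𝓝 0)
  ts : Tendsto (fun n => TS s (κ n) (X n)) atTop (𝓝 0)

/-- the hypotheses on `W` -/
structure WHyp (s : ℝ) (m : ℕ) (W : ℝ → Mt m) : Prop where
  meas : ∀ i j, Measurable fun x => W x i j
  psd : ∀ x, (W x).PosSemidef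
  int : Integrable fun x => tracePow (W x) (1 + s)

/-- subsequence with convergent eigenvalues and a.e. convergent density -/
def SUBS : Prop := ∀ s : ℝ, 0 < s → s < 1 → ∀ (m : ℕ) (W : ℝ → Mt m), WHyp s m W →
  CSeq s m W → ∃ (S : CSeq s m W) (k : ℕ → ℝ) (K B : ℝ), Antitone k ∧ 0 < K ∧ 0 < B ∧
    (∀ i, 0 ≤ k i) ∧ Tendsto k atTop (𝓝 0) ∧ (∀ n i, S.κ n i ≤ K) ∧
    (∀ n, ∫ x, tracePow (S.X n x * (S.X n x)ᴴ) (s⁻¹ + 1) ≤ B) ∧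
    (∀ i, Tendsto (fun n => kap (S.κ n) i) atTop (𝓝 (k i))) ∧
    (∀ᵐ x, Tendsto (fun n => S.X n x * (S.X n x)ᴴ) atTop (𝓝 (RW s (W x)))) ∧
    (∀ η : ℝ, 0 < η → ∃ L : ℝ, 0 < L ∧ ∀ n,
      ∫ x in {x : ℝ | L < |x|}, tracePow (Wm s (S.X n x)) (1 + s) ≤ η)

/-- block limit -/
def BLK : Prop := ∀ s : ℝ, 0 < s → s < 1 → ∀ (m : ℕ) (W : ℝ → Mt m), WHyp s m W →
  ∀ (S : CSeq s m W) (k : ℕ → ℝ) (K B : ℝ), Antitone k → 0 < K → 0 < B →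
    (∀ i, 0 ≤ k i) → Tendsto k atTop (𝓝 0) → (∀ n i, S.κ n i ≤ K) →
    (∀ n, ∫ x, tracePow (S.X n x * (S.X n x)ᴴ) (s⁻¹ + 1) ≤ B) →
    (∀ i, Tendsto (fun n => kap (S.κ n) i) atTop (𝓝 (k i))) →
    (∀ᵐ x, Tendsto (fun n => S.X n x * (S.X n x)ᴴ) atTop (𝓝 (RW s (W x)))) →
    (∀ η : ℝ, 0 < η → ∃ L : ℝ, 0 < L ∧ ∀ n,
      ∫ x in {x : ℝ | L < |x|}, tracePow (Wm s (S.X n x)) (1 + s) ≤ η) →
    ∀ J : ℕ, (∀ i < J, k J < k i) →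
      ∃ (φ : ℕ → ℕ) (U : Matrix.unitaryGroup (Fin J) ℂ) (c : Fin J → ℝ) (ξ : Rc m J)
        (xi : ℝ → Rc m J), StrictMono φ ∧
        (∀ y, xi y = ξ * dg (fun i => Real.cosh (s⁻¹ * k i * (y - c i)) ^ (-s)) *
          (U : Mt J)ᴴ) ∧
        (∀ y, Tendsto (fun n => cblk J (S.X (φ n) y)) atTop (𝓝 (xi y))) ∧
        (∀ᵐ y, ((cY s : ℝ) : ℂ) • ((xi y)ᴴ * pw (RW s (W y)) (s⁻¹ - 1) * xi y) =
          (U : Mt J) * dg (fun i => k i ^ 2 / Real.cosh (s⁻¹ * k i * (y - c i)) ^ 2) *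
            (U : Mt J)ᴴ)

/-- final identification -/
def FINAL : Prop := ∀ s : ℝ, 0 < s → s < 1 → ∀ (m : ℕ) (W : ℝ → Mt m), WHyp s m W →
  ∀ (J : ℕ) (k : Fin J → ℝ), (∀ i, 0 < k i) → ∀ (U : Matrix.unitaryGroup (Fin J) ℂ)
    (c : Fin J → ℝ) (ξ : Rc m J) (xi : ℝ → Rc m J),
    (∀ y, xi y = ξ * dg (fun i => Real.cosh (s⁻¹ * k i * (y - c i)) ^ (-s)) *
          (U : Mt J)ᴴ) →
    (∀ᵐ y, ((cY s : ℝ) : ℂ) • ((xi y)ᴴ * pw (RW s (W y)) (s⁻¹ - 1) * xi y) =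
          (U : Mt J) * dg (fun i => k i ^ 2 / Real.cosh (s⁻¹ * k i * (y - c i)) ^ 2) *
            (U : Mt J)ᴴ) →
    J ≤ m ∧ ((∀ᵐ y, RW s (W y) = xi y * (xi y)ᴴ) →
      ∃ (U : Matrix.unitaryGroup (Fin m) ℂ) (a c : Fin m → ℝ), (∀ i, 0 ≤ a i) ∧
        ∀ᵐ x : ℝ, W x = (U : Mt m) *
          Matrix.diagonal (fun i => ((soliton s⁻¹ (a i) (c i) x : ℝ) : ℂ)) *
            star (U : Mt m))

/-- rigidity -/
def RIG : Prop := ∀ s : ℝ, 0 < s → s < 1 → ∀ (m : ℕ) (W : ℝ → Mt m), WHyp s m W →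
  (∀ ε : ℝ, 0 < ε → ∃ (N : ℕ) (κ : Fin N → ℝ) (X X' : ℝ → Rc m N) (Q : ℝ → Mt N) (l : ℝ),
      Config s m N κ X X' Q l ∧ YS s W X ≤ ε ∧ KS X X' Q ≤ ε ∧ TS s κ X ≤ ε) →
  ∃ (U : Matrix.unitaryGroup (Fin m) ℂ) (a c : Fin m → ℝ), (∀ i, 0 ≤ a i) ∧
        ∀ᵐ x : ℝ, W x = (U : Mt m) *
          Matrix.diagonal (fun i => ((soliton s⁻¹ (a i) (c i) x : ℝ) : ℂ)) *
            star (U : Mt m)

end Crest.Agent.R332
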