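import Crest.Agent.R332.LIBC

/-! Frobenius norm toolkit. -/

set_option autoImplicit false

open MeasureTheory Matrix Filter Topology
open Crest.MathPhysics.LiebThirring
open scoped ComplexOrder

namespace Crest.Agent.R332

variable {m N K : ℕ}

theorem fro2_nonneg (A : Rc m N) : 0 ≤ fro2 A := by
  unfold fro2; positivity
theorem fro_nonneg (A : Rc m N) : 0 ≤ fro A := Real.sqrt_nonneg _
theorem sq_fro (A : Rc m N) : fro A ^ 2 = fro2 A := Real.sq_sqrt (fro2_nonneg A)

section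
open scoped Matrix.Norms.Frobenius

theorem fro_eq_norm (A : Rc m N) : fro A = ‖A‖ := by
  rw [Matrix.frobenius_norm_def]
  unfold fro fro2
  rw [Real.sqrt_eq_rpow]
  norm_num

theorem fro_add_le (A B : Rc m N) : fro (A + B) ≤ fro A + fro B := by
  simp only [fro_eq_norm]; exact norm_add_le A B
theorem fro_sub_le (A B : Rc m N) : fro (A - B) ≤ fro A + fro B := by
  simp only [fro_eq_norm]; exact norm_sub_le A B
theorem fro_neg (A : Rc m N) : fro (-A) = fro A := by
  simp only [fro_eq_norm]; exact norm_neg A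
theorem fro_zero : fro (0 : Rc m N) = 0 := by
  simp only [fro_eq_norm]; exact norm_zero
theorem fro_eq_zero {A : Rc m N} : fro A = 0 ↔ A = 0 := by
  simp only [fro_eq_norm]; exact norm_eq_zero
theorem fro_smul (c : ℂ) (A : Rc m N) : fro (c • A) = ‖c‖ * fro A := by
  simp only [fro_eq_norm]; exact norm_smul c A
theorem fro_mul_le (A : Rc m N) (B : Rc N K) : fro (A * B) ≤ fro A * fro B := by
  simp only [fro_eq_norm]; exact Matrix.frobenius_norm_mul A B
theorem fro_conjTranspose (A : Rc m N) : fro Aᴴ = fro A := by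
  simp only [fro_eq_norm]; exact Matrix.frobenius_norm_conjTranspose A
theorem fro_sub_comm (A B : Rc m N) : fro (A - B) = fro (B - A) := by
  simp only [fro_eq_norm]; exact norm_sub_rev A B
theorem abs_fro_sub_fro_le (A B : Rc m N) : |fro A - fro B| ≤ fro (A - B) := by
  simp only [fro_eq_norm]; exact abs_norm_sub_norm_le A B
theorem fro_sum_le {ι : Type*} (s : Finset ι) (f : ι → Rc m N) :
    fro (∑ i ∈ s, f i) ≤ ∑ i ∈ s, fro (f i) := by
  simp only [fro_eq_norm]; exact norm_sum_le s f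

theorem tendsto_iff_fro {ι : Type*} {l : Filter ι} {f : ι → Rc m N} {A : Rc m N} :
    Tendsto f l (𝓝 A) ↔ Tendsto (fun i => fro (f i - A)) l (𝓝 0) := by
  simp only [fro_eq_norm]
  exact tendsto_iff_norm_sub_tendsto_zero

/-- mean value / integral bound in terms of `fro` -/
theorem fro_sub_le_integral {f f' : ℝ → Rc m N} {a b : ℝ} (hab : a ≤ b)
    (hf : ∀ x ∈ Set.Icc a b, HasDerivWithinAt f (f' x) (Set.Icc a b) x)
    (hc : ContinuousOn f' (Set.Icc a b)) :
    fro (f b - f a) ≤ ∫ x in a..b, fro (f' x) := by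
  simp only [fro_eq_norm]
  have h1 : ∫ x in a..b, f' x = f b - f a := by
    refine intervalIntegral.integral_eq_sub_of_hasDeriv_right (f := f) (f' := f') ?_ ?_ ?_
    · rw [Set.uIcc_of_le hab]
      exact fun x hx => (hf x hx).continuousWithinAt
    · intro x hx
      rw [min_eq_left hab, max_eq_right hab] at hx
      have h2 := (hf x ⟨hx.1.le, hx.2.le⟩)
      have h3 : HasDerivAt f (f' x) x := h2.hasDerivAt (Icc_mem_nhds hx.1 hx.2)
      exact h3.hasDerivWithinAt
    · rw [← Set.uIcc_of_le hab] at hc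
      exact hc.intervalIntegrable
  rw [← h1]
  exact intervalIntegral.norm_integral_le_integral_norm hab

end

theorem fro2_smul (c : ℂ) (A : Rc m N) : fro2 (c • A) = ‖c‖ ^ 2 * fro2 A := by
  rw [← sq_fro, fro_smul, mul_pow, sq_fro]
theorem fro2_neg (A : Rc m N) : fro2 (-A) = fro2 A := by rw [← sq_fro, fro_neg, sq_fro]
theorem fro2_conjTranspose (A : Rc m N) : fro2 Aᴴ = fro2 A := by
  rw [← sq_fro, fro_conjTranspose, sq_fro]
theorem fro2_zero : fro2 (0 : Rc m N) = 0 := by rw [← sq_fro, fro_zero]; norm_num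
theorem fro2_eq_zero {A : Rc m N} : fro2 A = 0 ↔ A = 0 := by
  rw [← sq_fro, pow_eq_zero_iff two_ne_zero, fro_eq_zero]

theorem fro2_eq (A : Rc m N) : fro2 A = rtr (Aᴴ * A) := by
  unfold fro2 rtr
  rw [Matrix.trace, Complex.re_sum, Finset.sum_comm]
  refine Finset.sum_congr rfl fun j _ => ?_
  rw [Matrix.diag_apply, Matrix.mul_apply, Complex.re_sum]
  refine Finset.sum_congr rfl fun i _ => ?_
  rw [Matrix.conjTranspose_apply, Complex.star_def, mul_comm, Complex.mul_conj,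
    Complex.ofReal_re, Complex.normSq_eq_norm_sq]

theorem fro2_eq' (A : Rc m N) : fro2 A = rtr (A * Aᴴ) := by
  rw [← fro2_conjTranspose, fro2_eq, Matrix.conjTranspose_conjTranspose]

theorem norm_apply_le_fro (A : Rc m N) (i : Fin m) (j : Fin N) : ‖A i j‖ ≤ fro A := by
  refine Real.le_sqrt_of_sq_le ?_
  unfold fro2
  refine le_trans ?_ (Finset.single_le_sum (f := fun i => ∑ j, ‖A i j‖ ^ 2)
    (fun i _ => Finset.sum_nonneg fun j _ => by positivity) (Finset.mem_univ i))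
  exact Finset.single_le_sum (f := fun j => ‖A i j‖ ^ 2) (fun j _ => by positivity)
    (Finset.mem_univ j)

theorem fro2_le_of_entry {A : Rc m N} {c : ℝ} (h : ∀ i j, ‖A i j‖ ≤ c) :
    fro2 A ≤ m * N * c ^ 2 := by
  unfold fro2
  calc ∑ i : Fin m, ∑ j : Fin N, ‖A i j‖ ^ 2 ≤ ∑ i : Fin m, ∑ j : Fin N, c ^ 2 := by
        refine Finset.sum_le_sum fun i _ => Finset.sum_le_sum fun j _ => ?_
        exact pow_le_pow_left₀ (norm_nonneg _) (h i j) 2
    _ = m * N * c ^ 2 := by simp; ring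

/-- Hilbert–Schmidt Cauchy–Schwarz -/
theorem abs_rtr_mul_le (A : Rc m N) (B : Rc N m) : |rtr (A * B)| ≤ fro A * fro B := by
  unfold rtr
  refine (Complex.abs_re_le_norm _).trans ?_
  have h1 : trace (A * B) = ∑ x ∈ (Finset.univ : Finset (Fin m)) ×ˢ (Finset.univ : Finset (Fin N)),
      A x.1 x.2 * B x.2 x.1 := by
    rw [Finset.sum_product]
    rfl
  rw [h1]
  refine (norm_sum_le _ _).trans ?_
  simp only [norm_mul]
  unfold fro
  rw [← Real.sqrt_mul (fro2_nonneg A)]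
  refine Real.le_sqrt_of_sq_le ?_
  refine (Finset.sum_mul_sq_le_sq_mul_sq _ _ _).trans (le_of_eq ?_)
  unfold fro2
  rw [Finset.sum_product, Finset.sum_product,
    Finset.sum_comm (s := (Finset.univ : Finset (Fin N)))]

theorem abs_rtr_le (A : Mt N) : |rtr A| ≤ Real.sqrt N * fro A := by
  have h := abs_rtr_mul_le (1 : Mt N) A
  rw [Matrix.one_mul] at h
  have h2 : fro (1 : Mt N) = Real.sqrt N := by
    unfold fro
    rw [fro2_eq, Matrix.conjTranspose_one, Matrix.one_mul, rtr_one]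
  rwa [h2] at h

theorem rtr_mul_nonneg {A B : Mt N} (hA : A.PosSemidef) (hB : B.PosSemidef) :
    0 ≤ rtr (A * B) := by
  obtain ⟨U, κ, _, hκ, hU⟩ := exists_diag_psd hA
  have h1 : rtr (A * B) = rtr (dg κ * ((U : Mt N)ᴴ * B * (U : Mt N))) := by
    rw [hU, Matrix.mul_assoc, Matrix.mul_assoc, rtr_mul_comm]
    simp only [Matrix.mul_assoc]
  rw [h1]
  have h2 : ((U : Mt N)ᴴ * B * (U : Mt N)).PosSemidef := hB.conjTranspose_mul_mul_same _
  unfold rtr dg
  rw [Matrix.trace, Complex.re_sum]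
  refine Finset.sum_nonneg fun i _ => ?_
  rw [Matrix.diag_apply, Matrix.diagonal_mul, Complex.re_ofReal_mul]
  exact mul_nonneg (hκ i) (Complex.nonneg_iff.1 h2.diag_nonneg).1

theorem rtr_mul_le_mul {A B C : Mt N} (h : (B - A).PosSemidef) (hC : C.PosSemidef) :
    rtr (A * C) ≤ rtr (B * C) := by
  have := rtr_mul_nonneg h hC
  rw [Matrix.sub_mul, rtr_sub] at this
  linarith

theorem rtr_le_of_psd {A B : Mt N} (h : (B - A).PosSemidef) : rtr A ≤ rtr B := by
  have := rtr_nonneg h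
  rw [rtr_sub] at this
  linarith

/-- `Aᴴ A ≤ c` implies `‖A B‖_F² ≤ c ‖B‖_F²` -/
theorem fro2_mul_le_of_le {A : Rc m N} {c : ℝ} (h : (sc N c - Aᴴ * A).PosSemidef)
    (B : Rc N K) : fro2 (A * B) ≤ c * fro2 B := by
  have h1 : fro2 (A * B) = rtr ((Aᴴ * A) * (B * Bᴴ)) := by
    rw [fro2_eq, Matrix.conjTranspose_mul, Matrix.mul_assoc, rtr_mul_comm]
    simp only [Matrix.mul_assoc]
  have h2 := rtr_mul_le_mul h (Matrix.posSemidef_self_mul_conjTranspose B)
  rw [sc_mul, rtr_smul, ← fro2_eq'] at h2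
  rw [h1]; exact h2

theorem fro2_mul_le_of_le' {A : Rc N m} {c : ℝ} (h : (sc N c - A * Aᴴ).PosSemidef)
    (B : Rc K N) : fro2 (B * A) ≤ c * fro2 B := by
  have h1 : fro2 (B * A) = fro2 (Aᴴ * Bᴴ) := by
    rw [← Matrix.conjTranspose_mul, fro2_conjTranspose]
  rw [h1, ← fro2_conjTranspose B]
  refine fro2_mul_le_of_le ?_ _
  rwa [Matrix.conjTranspose_conjTranspose]

theorem fro_mul_le_of_le {A : Rc m N} {c : ℝ} (hc : 0 ≤ c)
    (h : (sc N (c ^ 2) - Aᴴ * A).PosSemidef) (B : Rc N K) : fro (A * B) ≤ c * fro B := by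
  unfold fro
  refine (Real.sqrt_le_sqrt (fro2_mul_le_of_le h B)).trans ?_
  rw [Real.sqrt_mul (by positivity), Real.sqrt_sq hc]

theorem fro_mul_le_of_le' {A : Rc N m} {c : ℝ} (hc : 0 ≤ c)
    (h : (sc N (c ^ 2) - A * Aᴴ).PosSemidef) (B : Rc K N) : fro (B * A) ≤ c * fro B := by
  unfold fro
  refine (Real.sqrt_le_sqrt (fro2_mul_le_of_le' h B)).trans ?_
  rw [Real.sqrt_mul (by positivity), Real.sqrt_sq hc]

theorem fro2_U_mul (U : Matrix.unitaryGroup (Fin N) ℂ) (B : Rc N K) :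
    fro2 ((U : Mt N) * B) = fro2 B := by
  rw [fro2_eq, Matrix.conjTranspose_mul, Matrix.mul_assoc, ← Matrix.mul_assoc _ (U : Mt N),
    U_star_mul, Matrix.one_mul, ← fro2_eq]

theorem fro2_mul_U (U : Matrix.unitaryGroup (Fin N) ℂ) (B : Rc K N) :
    fro2 (B * (U : Mt N)) = fro2 B := by
  rw [fro2_eq', Matrix.conjTranspose_mul, Matrix.mul_assoc, ← Matrix.mul_assoc (U : Mt N),
    U_mul_star, Matrix.one_mul, ← fro2_eq']

theorem fro2_mul_Ustar (U : Matrix.unitaryGroup (Fin N) ℂ) (B : Rc K N) :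
    fro2 (B * (U : Mt N)ᴴ) = fro2 B := fro2_mul_U (star U) B

theorem fro2_Ustar_mul (U : Matrix.unitaryGroup (Fin N) ℂ) (B : Rc N K) :
    fro2 ((U : Mt N)ᴴ * B) = fro2 B := fro2_U_mul (star U) B

theorem fro2_conj (U : Matrix.unitaryGroup (Fin N) ℂ) (B : Mt N) :
    fro2 ((U : Mt N) * B * (U : Mt N)ᴴ) = fro2 B := by
  rw [fro2_mul_Ustar, fro2_U_mul]

theorem fro2_conj' (U : Matrix.unitaryGroup (Fin N) ℂ) (B : Mt N) :
    fro2 ((U : Mt N)ᴴ * B * (U : Mt N)) = fro2 B := by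
  rw [fro2_mul_U, fro2_Ustar_mul]

theorem fro2_dg (κ : Fin N → ℝ) : fro2 (dg κ) = ∑ i, κ i ^ 2 := by
  rw [fro2_eq, dg_isHermitian κ, dg_mul, rtr_dg]
  simp only [sq]

theorem fro2_herm {A : Mt N} (hA : A.IsHermitian) : fro2 A = ∑ i, hA.eigenvalues i ^ 2 := by
  obtain ⟨U, hU⟩ := exists_diag hA
  conv_lhs => rw [hU]
  rw [fro2_conj, fro2_dg]

/-- polarisation -/
theorem fro2_sub (A B : Rc m N) : fro2 (A - B) = fro2 A - 2 * rtr (Aᴴ * B) + fro2 B := by
  have h : rtr (Bᴴ * A) = rtr (Aᴴ * B) := by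
    rw [← rtr_conjTranspose, Matrix.conjTranspose_mul, Matrix.conjTranspose_conjTranspose]
  rw [fro2_eq, fro2_eq, fro2_eq, Matrix.conjTranspose_sub, Matrix.sub_mul, Matrix.mul_sub,
    Matrix.mul_sub, rtr_sub, rtr_sub, rtr_sub, h]
  ring

theorem fro2_add (A B : Rc m N) : fro2 (A + B) = fro2 A + 2 * rtr (Aᴴ * B) + fro2 B := by
  have h : rtr (Bᴴ * A) = rtr (Aᴴ * B) := by
    rw [← rtr_conjTranspose, Matrix.conjTranspose_mul, Matrix.conjTranspose_conjTranspose]
  rw [fro2_eq, fro2_eq, fro2_eq, Matrix.conjTranspose_add, Matrix.add_mul, Matrix.mul_add,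
    Matrix.mul_add, rtr_add, rtr_add, rtr_add, h]
  ring

/-- Cauchy-Schwarz for interval integrals of continuous functions -/
theorem integral_mul_le_sqrt {f g : ℝ → ℝ} {a b : ℝ} (hab : a ≤ b)
    (hf : ContinuousOn f (Set.Icc a b)) (hg : ContinuousOn g (Set.Icc a b)) :
    ∫ x in a..b, f x * g x ≤ Real.sqrt (∫ x in a..b, f x ^ 2) *
      Real.sqrt (∫ x in a..b, g x ^ 2) := by
  rw [← Real.sqrt_mul (intervalIntegral.integral_nonneg hab fun x _ => sq_nonneg _)]
  refine Real.le_sqrt_of_sq_le ?_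
  set F := ∫ x in a..b, f x ^ 2
  set G := ∫ x in a..b, g x ^ 2
  set H := ∫ x in a..b, f x * g x
  have huf : ContinuousOn f (Set.uIcc a b) := by rwa [Set.uIcc_of_le hab]
  have hug : ContinuousOn g (Set.uIcc a b) := by rwa [Set.uIcc_of_le hab]
  have hi1 : IntervalIntegrable (fun x => f x ^ 2) volume a b := (huf.pow 2).intervalIntegrable
  have hi2 : IntervalIntegrable (fun x => g x ^ 2) volume a b := (hug.pow 2).intervalIntegrable
  have hi3 : IntervalIntegrable (fun x => f x * g x) volume a b :=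
    (huf.mul hug).intervalIntegrable
  have key : ∀ t : ℝ, 0 ≤ G * (t * t) + (2 * H) * t + F := by
    intro t
    have h1 : 0 ≤ ∫ x in a..b, (f x + t * g x) ^ 2 :=
      intervalIntegral.integral_nonneg hab fun x _ => sq_nonneg _
    have h2 : ∫ x in a..b, (f x + t * g x) ^ 2 =
        ∫ x in a..b, ((f x ^ 2 + (2 * t) * (f x * g x)) + t ^ 2 * g x ^ 2) := by
      congr 1; ext x; ring
    rw [h2, intervalIntegral.integral_add (hi1.add (hi3.const_mul _)) (hi2.const_mul _),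
      intervalIntegral.integral_add hi1 (hi3.const_mul _),
      intervalIntegral.integral_const_mul, intervalIntegral.integral_const_mul] at h1
    nlinarith
  have h3 := discrim_le_zero key
  unfold discrim at h3
  nlinarith

end Crest.Agent.R332
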