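import Mathlib
import Crest.Agent.R332.Defs
import Crest.Agent.R332.LIBC
import Crest.Agent.R332.LIBF
import Crest.Agent.R332.LIBK

/-!
# R332 HBE: exponential form of HBL
-/

set_option autoImplicit false

open MeasureTheory Matrix Filter Topology
open Crest.MathPhysics.LiebThirring
open scoped ComplexOrder

namespace Crest.Agent.R332

namespace HBEaux

variable {N : ℕ}

theorem exp_bound {B x : ℝ} (hB : |x| ≤ B) :
    |Real.exp x - 1 - x| ≤ (Real.exp B + 2) * x ^ 2 := by
  have hE : 0 < Real.exp B := Real.exp_pos B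
  have hx2 : 0 ≤ x ^ 2 := sq_nonneg x
  rcases le_total |x| 1 with h | h
  · have := Real.abs_exp_sub_one_sub_id_le h
    nlinarith
  · have h1 : |x| ≤ x ^ 2 := by rw [← sq_abs]; nlinarith
    have h2 : 1 ≤ x ^ 2 := h.trans h1
    have h3 : Real.exp x ≤ Real.exp B := Real.exp_le_exp.2 ((le_abs_self x).trans hB)
    have h4 : 0 < Real.exp x := Real.exp_pos x
    have h5 : Real.exp x ≤ Real.exp B * x ^ 2 := by nlinarith
    have h6 := le_abs_self x
    have h7 := neg_abs_le x
    rw [abs_le]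
    constructor <;> nlinarith

end HBEaux

open HBEaux

theorem hbe (hbl : HBL) : HBE := by
  intro k hk
  obtain ⟨C, hC, hH⟩ := hbl k hk
  set B : ℝ := 2 * k ^ 2 + C with hBdef
  have hB : 0 ≤ B := by positivity
  refine ⟨C + (Real.exp B + 2) * B ^ 2, by positivity, ?_⟩
  intro N κ hκ Q hQ t ht
  have ht0 : 0 < t := by linarith
  have h1 := hH N κ hκ Q hQ t ht
  have hZ : OpLe (Zm κ Q) (2 * k ^ 2) := by
    have hk' : ∀ i, κ i ≤ k := fun i => (hκ i).2
    unfold Zm
    have a1 : OpLe (dg κ * dg κ) (k ^ 2) := by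
      rw [dg_mul]
      refine opLe_dg fun i => ?_
      rw [abs_of_nonneg (mul_nonneg (hκ i).1 (hκ i).1)]
      nlinarith [(hκ i).1, (hκ i).2]
    have a2 : OpLe (Q * Q) (k ^ 2) :=
      opLe_of_psd_le (herm_mul_self_psd hQ.1) (hQ.opLe hk').sq_le
    exact (a1.sub a2).mono (by linarith)
  have htH : OpLe (((t : ℝ) : ℂ) • Hm κ Q t) B := by
    have := h1.add hZ
    rw [sub_add_cancel] at this
    refine this.mono ?_
    have : C / t ≤ C := div_le_self hC ht
    rw [hBdef]; linarith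
  have hHm : OpLe (Hm κ Q t) (B / t) := by
    have := htH.smul (t⁻¹)
    rw [smul_smul, ← Complex.ofReal_mul, inv_mul_cancel₀ ht0.ne', Complex.ofReal_one,
      one_smul, abs_of_pos (inv_pos.2 ht0)] at this
    rwa [div_eq_inv_mul]
  have hBt : B / t ≤ B := div_le_self hB ht
  have hherm := hHm.herm
  have e1 : lg (Kt κ t + Q) + lg (Kt κ t - Q) = Hm κ Q t + sc N (Real.log t) := by
    unfold Hm; abel
  have e2 : cfc Real.exp (lg (Kt κ t + Q) + lg (Kt κ t - Q)) - sc N t - Zm κ Q =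
      (((t : ℝ) : ℂ) • Hm κ Q t - Zm κ Q) +
        cfc (fun x : ℝ => t * (Real.exp x - 1 - x)) (Hm κ Q t) := by
    rw [e1, cfc_comp_add_sc hherm]
    have e3 : cfc (fun x : ℝ => Real.exp (x + Real.log t)) (Hm κ Q t) =
        sc N t + ((t : ℝ) : ℂ) • Hm κ Q t +
          cfc (fun x : ℝ => t * (Real.exp x - 1 - x)) (Hm κ Q t) := by
      have e4 : ((t : ℝ) : ℂ) • Hm κ Q t = cfc (fun x : ℝ => t * x) (Hm κ Q t) := by
        rw [← cfc_smul_mt hherm, cfc_id_mt hherm]
      rw [e4, ← cfc_const_mt hherm t, cfc_add_mt hherm, cfc_add_mt hherm]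
      congr 1
      ext x
      rw [Real.exp_add, Real.exp_log ht0]
      ring
    rw [e3]
    abel
  rw [e2]
  have h2 : OpLe (cfc (fun x : ℝ => t * (Real.exp x - 1 - x)) (Hm κ Q t))
      ((Real.exp B + 2) * B ^ 2 / t) := by
    refine hHm.cfc fun x hx => ?_
    rw [abs_mul, abs_of_pos ht0]
    have h3 := exp_bound (hx.trans hBt)
    have h4 : x ^ 2 ≤ (B / t) ^ 2 := by
      rw [← sq_abs]; exact pow_le_pow_left₀ (abs_nonneg x) hx 2
    calc t * |Real.exp x - 1 - x| ≤ t * ((Real.exp B + 2) * x ^ 2) :=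
          mul_le_mul_of_nonneg_left h3 ht0.le
      _ ≤ t * ((Real.exp B + 2) * (B / t) ^ 2) := by
          refine mul_le_mul_of_nonneg_left (mul_le_mul_of_nonneg_left h4 ?_) ht0.le
          positivity
      _ = (Real.exp B + 2) * B ^ 2 / t := by field_simp
  refine (h1.add h2).mono ?_
  rw [← add_div]

end Crest.Agent.R332
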