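import Mathlib
import Crest.Agent.R332.Defs
import Crest.Agent.R332.LIBC

/-!
# R332 LIBN: operator norm `opn` of matrices (no instances exported)
-/

set_option autoImplicit false

open MeasureTheory Matrix Filter Topology
open Crest.MathPhysics.LiebThirring
open scoped ComplexOrder

namespace Crest.Agent.R332.LIBN

/-- l2 operator norm -/
noncomputable def opn {N : ℕ} (A : Mt N) : ℝ := ‖Matrix.toEuclideanCLM (n := Fin N) (𝕜 := ℂ) A‖

variable {N : ℕ}

section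
open scoped Matrix.Norms.L2Operator

theorem opn_eq (A : Mt N) : opn A = ‖A‖ := rfl

theorem opn_nonneg (A : Mt N) : 0 ≤ opn A := norm_nonneg _
theorem opn_zero : opn (0 : Mt N) = 0 := by rw [opn_eq, norm_zero]
theorem opn_add (A B : Mt N) : opn (A + B) ≤ opn A + opn B := by
  simp only [opn_eq]; exact norm_add_le A B
theorem opn_sub (A B : Mt N) : opn (A - B) ≤ opn A + opn B := by
  simp only [opn_eq]; exact norm_sub_le A B
theorem opn_neg (A : Mt N) : opn (-A) = opn A := by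
  simp only [opn_eq]; exact norm_neg A
theorem opn_smul (c : ℝ) (A : Mt N) : opn (((c : ℝ) : ℂ) • A) = |c| * opn A := by
  simp only [opn_eq]; rw [norm_smul, Complex.norm_real, Real.norm_eq_abs]
theorem opn_mul (A B : Mt N) : opn (A * B) ≤ opn A * opn B := by
  simp only [opn_eq]; exact norm_mul_le A B
theorem opn_dg_le {κ : Fin N → ℝ} {c : ℝ} (hc : 0 ≤ c) (h : ∀ i, |κ i| ≤ c) :
    opn (dg κ) ≤ c := by
  rw [opn_eq]; unfold dg
  rw [Matrix.l2_opNorm_diagonal, pi_norm_le_iff_of_nonneg hc]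
  intro i
  rw [Complex.norm_real, Real.norm_eq_abs]
  exact h i
theorem abs_le_opn_dg (κ : Fin N → ℝ) (i : Fin N) : |κ i| ≤ opn (dg κ) := by
  rw [opn_eq]; unfold dg
  rw [Matrix.l2_opNorm_diagonal]
  have h := norm_le_pi_norm (fun i => ((κ i : ℝ) : ℂ)) i
  rwa [Complex.norm_real, Real.norm_eq_abs] at h
theorem opn_sc_le (c : ℝ) : opn (sc N c) ≤ |c| := by
  rw [sc_eq_dg]; exact opn_dg_le (abs_nonneg c) fun _ => le_rfl
theorem opn_one_le : opn (1 : Mt N) ≤ 1 := by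
  rw [← sc_one]; simpa using opn_sc_le (N := N) 1
theorem opn_U_le (U : Matrix.unitaryGroup (Fin N) ℂ) : opn (U : Mt N) ≤ 1 := by
  have h := Matrix.l2_opNorm_conjTranspose_mul_self (𝕜 := ℂ) (U : Mt N)
  rw [U_star_mul] at h
  have h1 : ‖(1 : Mt N)‖ ≤ 1 := opn_one_le
  rw [opn_eq]
  rw [h] at h1
  nlinarith [norm_nonneg (U : Mt N)]
theorem opn_U_star_le (U : Matrix.unitaryGroup (Fin N) ℂ) : opn ((U : Mt N)ᴴ) ≤ 1 := by
  rw [opn_eq, Matrix.l2_opNorm_conjTranspose]; exact opn_U_le U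
theorem opn_conj_le (U : Matrix.unitaryGroup (Fin N) ℂ) (A : Mt N) :
    opn ((U : Mt N) * A * (U : Mt N)ᴴ) ≤ opn A := by
  have h1 := opn_mul ((U : Mt N) * A) (U : Mt N)ᴴ
  have h2 := opn_mul (U : Mt N) A
  have h3 := opn_U_le U
  have h4 := opn_U_star_le U
  have h5 := opn_nonneg A
  have h6 := opn_nonneg ((U : Mt N) * A)
  have h7 := opn_nonneg (U : Mt N)
  nlinarith
theorem opn_conj_le' (U : Matrix.unitaryGroup (Fin N) ℂ) (A : Mt N) :
    opn ((U : Mt N)ᴴ * A * (U : Mt N)) ≤ opn A := by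
  have h := opn_conj_le (star U) A
  rwa [star_U_mem, Matrix.conjTranspose_conjTranspose] at h
theorem opn_conj (U : Matrix.unitaryGroup (Fin N) ℂ) (A : Mt N) :
    opn ((U : Mt N) * A * (U : Mt N)ᴴ) = opn A := by
  refine le_antisymm (opn_conj_le U A) ?_
  have h := opn_conj_le' U ((U : Mt N) * A * (U : Mt N)ᴴ)
  rwa [conj_conj'] at h

theorem abs_eig_le_opn {A : Mt N} (hA : A.IsHermitian) (i : Fin N) :
    |hA.eigenvalues i| ≤ opn A := by
  obtain ⟨U, hU⟩ := exists_diag hA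
  have h := opn_conj U (dg hA.eigenvalues)
  rw [← hU] at h
  rw [h]; exact abs_le_opn_dg _ i

theorem opn_cfc_le {A : Mt N} (hA : A.IsHermitian) {f : ℝ → ℝ} {c : ℝ} (hc : 0 ≤ c)
    (h : ∀ i, |f (hA.eigenvalues i)| ≤ c) : opn (cfc f A) ≤ c := by
  obtain ⟨U, hU⟩ := exists_diag hA
  rw [cfc_eq_of_diag U _ hU f]
  exact (opn_conj_le U _).trans (opn_dg_le hc h)

theorem opn_le_of_eig {A : Mt N} (hA : A.IsHermitian) {c : ℝ} (hc : 0 ≤ c)
    (h : ∀ i, |hA.eigenvalues i| ≤ c) : opn A ≤ c := by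
  have := opn_cfc_le (f := fun x => x) hA hc h
  rwa [cfc_id_mt hA] at this

/-- eigenvalue bounds from operator inequalities -/
theorem eig_le_of_psd {A : Mt N} (hA : A.IsHermitian) {c : ℝ} (h : (sc N c - A).PosSemidef)
    (i : Fin N) : hA.eigenvalues i ≤ c := by
  obtain ⟨U, hU⟩ := exists_diag hA
  have h2 := conj_posSemidef h ((U : Mt N)ᴴ)
  rw [Matrix.conjTranspose_conjTranspose] at h2
  have e : (U : Mt N)ᴴ * (sc N c - A) * (U : Mt N) = dg (fun i => c - hA.eigenvalues i) := by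
    conv_lhs => rw [hU]
    rw [Matrix.mul_sub, Matrix.sub_mul, conj_conj', mul_sc, Matrix.smul_mul, U_star_mul,
      ← dg_sub, ← sc_eq_dg]
    rfl
  rw [e] at h2
  unfold dg at h2
  rw [Matrix.posSemidef_diagonal_iff] at h2
  have h3 := h2 i
  have h4 : (0 : ℝ) ≤ c - hA.eigenvalues i := by exact_mod_cast h3
  linarith

theorem le_eig_of_psd {A : Mt N} (hA : A.IsHermitian) {c : ℝ} (h : (A - sc N c).PosSemidef)
    (i : Fin N) : c ≤ hA.eigenvalues i := by
  obtain ⟨U, hU⟩ := exists_diag hA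
  have h2 := conj_posSemidef h ((U : Mt N)ᴴ)
  rw [Matrix.conjTranspose_conjTranspose] at h2
  have e : (U : Mt N)ᴴ * (A - sc N c) * (U : Mt N) = dg (fun i => hA.eigenvalues i - c) := by
    conv_lhs => rw [hU]
    rw [Matrix.mul_sub, Matrix.sub_mul, conj_conj', mul_sc, Matrix.smul_mul, U_star_mul,
      ← dg_sub, ← sc_eq_dg]
    rfl
  rw [e] at h2
  unfold dg at h2
  rw [Matrix.posSemidef_diagonal_iff] at h2
  have h3 := h2 i
  have h4 : (0 : ℝ) ≤ hA.eigenvalues i - c := by exact_mod_cast h3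
  linarith

theorem psd_of_eig_le {A : Mt N} (hA : A.IsHermitian) {c : ℝ}
    (h : ∀ i, hA.eigenvalues i ≤ c) : (sc N c - A).PosSemidef := by
  have e : sc N c - A = cfc (fun x : ℝ => c - x) A := by
    rw [← cfc_sub_mt hA, cfc_const_mt hA, cfc_id_mt hA]
  rw [e]
  exact cfc_posSemidef hA fun i => sub_nonneg.2 (h i)

theorem psd_of_le_eig {A : Mt N} (hA : A.IsHermitian) {c : ℝ}
    (h : ∀ i, c ≤ hA.eigenvalues i) : (A - sc N c).PosSemidef := by
  have e : A - sc N c = cfc (fun x : ℝ => x - c) A := by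
    rw [← cfc_sub_mt hA, cfc_const_mt hA, cfc_id_mt hA]
  rw [e]
  exact cfc_posSemidef hA fun i => sub_nonneg.2 (h i)

theorem opLe_herm {A : Mt N} {c : ℝ} (h : OpLe A c) : A.IsHermitian := by
  have := h.2.1.sub (sc_isHermitian c)
  rwa [add_sub_cancel_left] at this

theorem opLe_of_eig {A : Mt N} (hA : A.IsHermitian) {c : ℝ}
    (h : ∀ i, |hA.eigenvalues i| ≤ c) : OpLe A c := by
  refine ⟨psd_of_eig_le hA fun i => (abs_le.1 (h i)).2, ?_⟩
  have := psd_of_le_eig hA (c := -c) fun i => (abs_le.1 (h i)).1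
  rw [sc_neg, sub_neg_eq_add, add_comm] at this
  exact this

theorem opLe_of_opn {A : Mt N} (hA : A.IsHermitian) {c : ℝ} (h : opn A ≤ c) : OpLe A c :=
  opLe_of_eig hA fun i => (abs_eig_le_opn hA i).trans h

theorem opLe_abs_eig {A : Mt N} {c : ℝ} (h : OpLe A c) (i : Fin N) :
    |(opLe_herm h).eigenvalues i| ≤ c := by
  refine abs_le.2 ⟨le_eig_of_psd (opLe_herm h) ?_ i, eig_le_of_psd (opLe_herm h) h.1 i⟩
  rw [sc_neg, sub_neg_eq_add, add_comm]; exact h.2

theorem opLe_opn_le {A : Mt N} {c : ℝ} (h : OpLe A c) (hc : 0 ≤ c) : opn A ≤ c :=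
  opn_le_of_eig (opLe_herm h) hc (opLe_abs_eig h)

theorem opLe_mono {A : Mt N} {c d : ℝ} (h : OpLe A c) (hcd : c ≤ d) : OpLe A d :=
  opLe_of_eig (opLe_herm h) fun i => (opLe_abs_eig h i).trans hcd

theorem opLe_cfc {A : Mt N} (hA : A.IsHermitian) {f : ℝ → ℝ} {c : ℝ}
    (h : ∀ i, |f (hA.eigenvalues i)| ≤ c) : OpLe (cfc f A) c := by
  obtain ⟨U, hU⟩ := exists_diag hA
  constructor
  · have e : sc N c - cfc f A = cfc (fun x : ℝ => c - f x) A := by
      rw [← cfc_sub_mt hA, cfc_const_mt hA]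
    rw [e]
    exact cfc_posSemidef hA fun i => sub_nonneg.2 (abs_le.1 (h i)).2
  · have e : sc N c + cfc f A = cfc (fun x : ℝ => c + f x) A := by
      rw [← cfc_add_mt hA, cfc_const_mt hA]
    rw [e]
    exact cfc_posSemidef hA fun i => by linarith [(abs_le.1 (h i)).1]

end

/-- `‖Q‖ ≤ k` -/
theorem btw_opn_le {κ : Fin N → ℝ} {Q : Mt N} (h : Btw κ Q) {k : ℝ} (hk : 0 ≤ k)
    (hκ : ∀ i, κ i ≤ k) : opn Q ≤ k := by
  refine opLe_opn_le ⟨?_, ?_⟩ hk
  · have h1 := h.2.2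
    have h2 : (sc N k - dg κ).PosSemidef := by
      rw [sc_eq_dg, dg_sub]; exact dg_posSemidef fun i => sub_nonneg.2 (hκ i)
    have := h2.add h1
    rwa [sub_add_sub_cancel] at this
  · have h1 := h.2.1
    have h2 : (sc N k - dg κ).PosSemidef := by
      rw [sc_eq_dg, dg_sub]; exact dg_posSemidef fun i => sub_nonneg.2 (hκ i)
    have := h2.add h1
    have e : sc N k - dg κ + (dg κ + Q) = sc N k + Q := by abel
    rwa [e] at this

theorem btw_neg {κ : Fin N → ℝ} {Q : Mt N} (h : Btw κ Q) : Btw κ (-Q) := by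
  refine ⟨h.1.neg, ?_, ?_⟩
  · rw [← sub_eq_add_neg]; exact h.2.2
  · rw [sub_neg_eq_add]; exact h.2.1

end Crest.Agent.R332.LIBN
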