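import Mathlib
import Crest.Agent.R332.Defs
import Crest.Agent.R332.LIBC
import Crest.Agent.R332.LIBN

/-!
# R332 HBL: `t H_t = Z + O(1/t)` in operator norm, uniformly in `N`
-/

set_option autoImplicit false

open MeasureTheory Matrix Filter Topology
open Crest.MathPhysics.LiebThirring
open scoped ComplexOrder

namespace Crest.Agent.R332

namespace HBLaux

open LIBN

variable {N : ℕ}

/-- scalar Taylor bound -/
theorem log_bound {δ : ℝ} (hδ : 0 < δ) (x : ℝ) (hx : δ ≤ 1 + x) (hδ1 : δ ≤ 1) :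
    |Real.log (1 + x) - (x - x ^ 2 / 2 + x ^ 3 / 3)| ≤ x ^ 4 / (4 * δ) := by
  set f : ℝ → ℝ := fun x => Real.log (1 + x) - (x - x ^ 2 / 2 + x ^ 3 / 3) with hf
  have hd : ∀ y, 0 < 1 + y → HasDerivAt f (-(y ^ 3 / (1 + y))) y := by
    intro y hy
    have h1 : HasDerivAt (fun x : ℝ => Real.log (1 + x)) (1 / (1 + y)) y := by
      have := (HasDerivAt.const_add (1 : ℝ) (hasDerivAt_id y)).log hy.ne'
      simpa using this
    have h2 : HasDerivAt (fun x : ℝ => x - x ^ 2 / 2 + x ^ 3 / 3) (1 - y + y ^ 2) y := by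
      have := ((hasDerivAt_id y).sub ((hasDerivAt_pow 2 y).div_const 2)).add
        ((hasDerivAt_pow 3 y).div_const 3)
      refine this.congr_deriv ?_
      norm_num
    refine (h1.sub h2).congr_deriv ?_
    field_simp
    ring
  -- G± = x^4/(4δ) ± f
  have key : ∀ σ : ℝ, (σ = 1 ∨ σ = -1) → ∀ x, δ ≤ 1 + x → 0 ≤ x ^ 4 / (4 * δ) + σ * f x := by
    intro σ hσ x hx
    set G : ℝ → ℝ := fun x => x ^ 4 / (4 * δ) + σ * f x with hG
    have hdG : ∀ y, 0 < 1 + y → HasDerivAt G (y ^ 3 * (1 / δ - σ / (1 + y))) y := by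
      intro y hy
      have h1 := ((hasDerivAt_pow 4 y).div_const (4 * δ)).add ((hd y hy).const_mul σ)
      refine h1.congr_deriv ?_
      have : δ ≠ 0 := hδ.ne'
      field_simp
      push_cast
      ring
    have hpos : ∀ y, δ ≤ 1 + y → 0 ≤ 1 / δ - σ / (1 + y) := by
      intro y hy
      have hy0 : 0 < 1 + y := lt_of_lt_of_le hδ hy
      have h1 : 1 / (1 + y) ≤ 1 / δ := one_div_le_one_div_of_le hδ hy
      have h2 : 0 ≤ 1 / (1 + y) := by positivity
      have h3 : 0 ≤ 1 / δ := by positivity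
      rcases hσ with rfl | rfl
      · linarith
      · have : (-1 : ℝ) / (1 + y) = -(1 / (1 + y)) := by ring
        rw [this]; linarith
    have hG0 : G 0 = 0 := by simp [hG, hf]
    change 0 ≤ G x
    rw [← hG0]
    rcases le_total 0 x with h0 | h0
    · -- monotone on [0, x]
      have hm : MonotoneOn G (Set.Ici 0) := by
        refine monotoneOn_of_deriv_nonneg (convex_Ici 0) ?_ ?_ ?_
        · intro y hy
          have hy' : 0 < 1 + y := by have : (0 : ℝ) ≤ y := hy; linarith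
          exact (hdG y hy').continuousAt.continuousWithinAt
        · intro y hy
          rw [interior_Ici] at hy
          have hy' : 0 < 1 + y := by have : (0 : ℝ) < y := hy; linarith
          exact (hdG y hy').differentiableAt.differentiableWithinAt
        · intro y hy
          rw [interior_Ici] at hy
          have hy2 : (0 : ℝ) < y := hy
          have hy' : 0 < 1 + y := by linarith
          rw [(hdG y hy').deriv]
          exact mul_nonneg (by positivity) (hpos y (by linarith))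
      exact hm (Set.mem_Ici.2 le_rfl) (Set.mem_Ici.2 h0) h0
    · have hm : AntitoneOn G (Set.Icc (δ - 1) 0) := by
        refine antitoneOn_of_deriv_nonpos (convex_Icc _ _) ?_ ?_ ?_
        · intro y hy
          have hy' : 0 < 1 + y := by linarith [hy.1]
          exact (hdG y hy').continuousAt.continuousWithinAt
        · intro y hy
          rw [interior_Icc] at hy
          have hy' : 0 < 1 + y := by linarith [hy.1]
          exact (hdG y hy').differentiableAt.differentiableWithinAt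
        · intro y hy
          rw [interior_Icc] at hy
          have hy' : 0 < 1 + y := by linarith [hy.1]
          rw [(hdG y hy').deriv]
          have h3 : y ^ 3 ≤ 0 := by
            have := hy.2
            have : y ^ 3 = y * y ^ 2 := by ring
            rw [this]
            exact mul_nonpos_of_nonpos_of_nonneg hy.2.le (by positivity)
          exact mul_nonpos_of_nonpos_of_nonneg h3 (hpos y (by linarith [hy.1]))
      exact hm ⟨by linarith, h0⟩ ⟨by linarith, le_rfl⟩ h0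
  have k1 := key 1 (Or.inl rfl) x hx
  have k2 := key (-1) (Or.inr rfl) x hx
  change |f x| ≤ _
  rw [abs_le]
  constructor <;> linarith

/-- matrix Taylor formula for `log (1 + M)` -/
theorem L_taylor {M : Mt N} (hM : M.IsHermitian) :
    cfc (fun x : ℝ => Real.log (1 + x)) M =
      M - ((1 / 2 : ℝ) : ℂ) • (M * M) + ((1 / 3 : ℝ) : ℂ) • (M * M * M) +
        cfc (fun x : ℝ => Real.log (1 + x) - (x - x ^ 2 / 2 + x ^ 3 / 3)) M := by
  have h1 : M = cfc (fun x : ℝ => x) M := (cfc_id_mt hM).symm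
  have h2 : M * M = cfc (fun x : ℝ => x * x) M := by
    rw [← cfc_mul_mt hM, cfc_id_mt hM]
  have h3 : M * M * M = cfc (fun x : ℝ => x * x * x) M := by
    rw [← cfc_mul_mt hM, ← h2, cfc_id_mt hM]
  rw [h3, h2]
  nth_rw 2 [h1]
  rw [cfc_smul_mt hM, cfc_smul_mt hM, cfc_sub_mt hM, cfc_add_mt hM, cfc_add_mt hM]
  congr 1
  ext x
  ring

theorem D_bound {κ : Fin N → ℝ} {k ε : ℝ} (_hk : 0 ≤ k) (hκ : ∀ i, 0 ≤ κ i ∧ κ i ≤ k) :
    opn (dg fun i => Real.sqrt (1 + (κ i * ε) ^ 2) - 1) ≤ k ^ 2 * ε ^ 2 := by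
  refine opn_dg_le (by positivity) fun i => ?_
  have h1 : (κ i * ε) ^ 2 ≤ k ^ 2 * ε ^ 2 := by
    rw [mul_pow]
    exact mul_le_mul_of_nonneg_right (pow_le_pow_left₀ (hκ i).1 (hκ i).2 2) (by positivity)
  have h2 : 0 ≤ (κ i * ε) ^ 2 := by positivity
  have h3 : 1 ≤ Real.sqrt (1 + (κ i * ε) ^ 2) := by
    rw [Real.one_le_sqrt]; linarith
  have h4 : Real.sqrt (1 + (κ i * ε) ^ 2) ≤ 1 + (κ i * ε) ^ 2 := by
    rw [Real.sqrt_le_left (by positivity)]
    nlinarith
  rw [abs_of_nonneg (by linarith)]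
  linarith

theorem D_bound2 {κ : Fin N → ℝ} {k ε : ℝ} (hκ : ∀ i, 0 ≤ κ i ∧ κ i ≤ k) :
    opn (((2 : ℝ) : ℂ) • dg (fun i => Real.sqrt (1 + (κ i * ε) ^ 2) - 1) -
      ((ε ^ 2 : ℝ) : ℂ) • (dg κ * dg κ)) ≤ k ^ 4 * ε ^ 4 := by
  rw [dg_mul, dg_smul, dg_smul, dg_sub]
  refine opn_dg_le (by positivity) fun i => ?_
  have h1 : (κ i * ε) ^ 2 ≤ k ^ 2 * ε ^ 2 := by
    rw [mul_pow]
    exact mul_le_mul_of_nonneg_right (pow_le_pow_left₀ (hκ i).1 (hκ i).2 2) (by positivity)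
  have h2 : 0 ≤ (κ i * ε) ^ 2 := by positivity
  set S := Real.sqrt (1 + (κ i * ε) ^ 2) with hS
  have h3 : 1 ≤ S := by
    rw [hS, Real.one_le_sqrt]; linarith
  have h4 : S ≤ 1 + (κ i * ε) ^ 2 := by
    rw [hS, Real.sqrt_le_left (by positivity)]
    nlinarith
  have h5 : S ^ 2 = 1 + (κ i * ε) ^ 2 := by
    rw [hS, Real.sq_sqrt (by positivity)]
  have e : 2 * (S - 1) - ε ^ 2 * (κ i * κ i) = - (S - 1) ^ 2 := by
    have : ε ^ 2 * (κ i * κ i) = S ^ 2 - 1 := by rw [h5]; ring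
    rw [this]; ring
  rw [e, abs_neg, abs_of_nonneg (by positivity)]
  calc (S - 1) ^ 2 ≤ ((κ i * ε) ^ 2) ^ 2 := pow_le_pow_left₀ (by linarith) (by linarith) 2
    _ ≤ (k ^ 2 * ε ^ 2) ^ 2 := pow_le_pow_left₀ h2 h1 2
    _ = k ^ 4 * ε ^ 4 := by ring

/-- lower spectral bound -/
theorem low_bound {κ : Fin N → ℝ} {k ε : ℝ} (hk : 0 ≤ k) (hκ : ∀ i, 0 ≤ κ i ∧ κ i ≤ k)
    (hε : 0 ≤ ε) (hε1 : ε ≤ 1) {Q : Mt N} (hQ : Btw κ Q) :
    ((sc N 1 + (dg (fun i => Real.sqrt (1 + (κ i * ε) ^ 2) - 1) + ((ε : ℝ) : ℂ) • Q)) -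
      sc N (1 / (1 + 2 * k))).PosSemidef := by
  have e : (sc N 1 + (dg (fun i => Real.sqrt (1 + (κ i * ε) ^ 2) - 1) + ((ε : ℝ) : ℂ) • Q)) -
      sc N (1 / (1 + 2 * k)) =
      dg (fun i => Real.sqrt (1 + (κ i * ε) ^ 2) - κ i * ε - 1 / (1 + 2 * k)) +
        ((ε : ℝ) : ℂ) • (dg κ + Q) := by
    rw [smul_add, dg_smul, sc_eq_dg, sc_eq_dg]
    have : dg (fun i => Real.sqrt (1 + (κ i * ε) ^ 2) - κ i * ε - 1 / (1 + 2 * k)) =
        dg (fun _ : Fin N => (1 : ℝ)) + dg (fun i => Real.sqrt (1 + (κ i * ε) ^ 2) - 1) -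
          dg (fun i => ε * κ i) - dg (fun _ : Fin N => 1 / (1 + 2 * k)) := by
      rw [dg_add, dg_sub, dg_sub]
      congr 1
      ext i
      ring
    rw [this]
    abel
  rw [e]
  refine Matrix.PosSemidef.add (dg_posSemidef fun i => ?_) ?_
  · have hy : 0 ≤ κ i * ε := mul_nonneg (hκ i).1 hε
    have hyk : κ i * ε ≤ k := by
      calc κ i * ε ≤ κ i * 1 := mul_le_mul_of_nonneg_left hε1 (hκ i).1
        _ ≤ k := by rw [mul_one]; exact (hκ i).2
    set y := κ i * ε with hydef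
    set S := Real.sqrt (1 + y ^ 2) with hS
    have h5 : S ^ 2 = 1 + y ^ 2 := by
      rw [hS, Real.sq_sqrt (by positivity)]
    have h6 : 0 ≤ S := Real.sqrt_nonneg _
    have h7 : S ≤ 1 + y := by
      rw [hS, Real.sqrt_le_left (by positivity)]; nlinarith
    have h8 : 0 < S + y := by nlinarith
    have h9 : S - y = 1 / (S + y) := by
      rw [eq_div_iff h8.ne']; nlinarith
    rw [h9]
    have : 1 / (1 + 2 * k) ≤ 1 / (S + y) := one_div_le_one_div_of_le h8 (by linarith)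
    linarith
  · have := hQ.2.1.smul (α := ℝ) hε
    have e2 : ((ε : ℝ) : ℂ) • (dg κ + Q) = ε • (dg κ + Q) := by
      ext i j
      simp [mul_add]
    rw [e2]
    exact this

theorem cubic_id (D q : Mt N) :
    ((D + q) - ((1 / 2 : ℝ) : ℂ) • ((D + q) * (D + q)) +
        ((1 / 3 : ℝ) : ℂ) • ((D + q) * (D + q) * (D + q))) +
      ((D - q) - ((1 / 2 : ℝ) : ℂ) • ((D - q) * (D - q)) +
        ((1 / 3 : ℝ) : ℂ) • ((D - q) * (D - q) * (D - q))) =
    ((2 : ℝ) : ℂ) • D - D * D - q * q +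
      ((2 / 3 : ℝ) : ℂ) • (D * D * D + (D * q * q + q * D * q + q * q * D)) := by
  have h2 : (D + q) * (D + q) + (D - q) * (D - q) = ((2 : ℝ) : ℂ) • (D * D + q * q) := by
    push_cast; rw [two_smul]; noncomm_ring
  have h3 : (D + q) * (D + q) * (D + q) + (D - q) * (D - q) * (D - q) =
      ((2 : ℝ) : ℂ) • (D * D * D + (D * q * q + q * D * q + q * q * D)) := by
    push_cast; rw [two_smul]; noncomm_ring
  have e : ((D + q) - ((1 / 2 : ℝ) : ℂ) • ((D + q) * (D + q)) +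
        ((1 / 3 : ℝ) : ℂ) • ((D + q) * (D + q) * (D + q))) +
      ((D - q) - ((1 / 2 : ℝ) : ℂ) • ((D - q) * (D - q)) +
        ((1 / 3 : ℝ) : ℂ) • ((D - q) * (D - q) * (D - q))) =
      (D + q + (D - q)) -
        ((1 / 2 : ℝ) : ℂ) • ((D + q) * (D + q) + (D - q) * (D - q)) +
        ((1 / 3 : ℝ) : ℂ) • ((D + q) * (D + q) * (D + q) + (D - q) * (D - q) * (D - q)) := by
    rw [smul_add, smul_add]; abel
  rw [e, h2, h3, smul_smul, smul_smul]
  have e1 : D + q + (D - q) = ((2 : ℝ) : ℂ) • D := by push_cast; rw [two_smul]; abel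
  rw [e1]
  have e2 : (((1 / 2 : ℝ) : ℂ) * ((2 : ℝ) : ℂ)) = 1 := by push_cast; norm_num
  have e3 : (((1 / 3 : ℝ) : ℂ) * ((2 : ℝ) : ℂ)) = ((2 / 3 : ℝ) : ℂ) := by push_cast; norm_num
  rw [e2, e3, one_smul]
  abel

end HBLaux

open HBLaux LIBN

theorem hbl : HBL := by
  intro k hk
  set δ : ℝ := 1 / (1 + 2 * k) with hδdef
  have hδ : 0 < δ := by rw [hδdef]; positivity
  have hδ1 : δ ≤ 1 := by
    rw [hδdef, div_le_one (by positivity)]; linarith
  set C : ℝ := k ^ 4 + k ^ 4 + 2 / 3 * (k ^ 6 + 3 * k ^ 4) +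
    2 * ((k ^ 2 + k) ^ 4 / (4 * δ)) with hC
  refine ⟨C, by positivity, ?_⟩
  intro N κ hκ Q hQ t ht
  have ht0 : 0 < t := by linarith
  set S : ℝ := Real.sqrt t with hSdef
  have hS0 : 0 < S := Real.sqrt_pos.2 ht0
  have hS1 : 1 ≤ S := by rw [hSdef, Real.one_le_sqrt]; exact ht
  have hSS : S * S = t := Real.mul_self_sqrt ht0.le
  set ε : ℝ := S⁻¹ with hεdef
  have hε0 : 0 < ε := inv_pos.2 hS0
  have hε1 : ε ≤ 1 := inv_le_one_of_one_le₀ hS1
  have hεt : t * ε ^ 2 = 1 := by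
    rw [hεdef, ← hSS]; field_simp
  set D : Mt N := dg fun i => Real.sqrt (1 + (κ i * ε) ^ 2) - 1 with hD
  set q : Mt N := ((ε : ℝ) : ℂ) • Q with hq
  have hDh : D.IsHermitian := dg_isHermitian _
  have hqh : q.IsHermitian := by
    have := hQ.1
    unfold Matrix.IsHermitian at *
    rw [hq, Matrix.conjTranspose_smul, this]
    simp
  have hKt : Kt κ t = ((S : ℝ) : ℂ) • (sc N 1 + D) := by
    rw [hD, sc_eq_dg, dg_add, dg_smul]
    unfold Kt
    congr 1
    ext i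
    have : κ i ^ 2 + t = t * (1 + (κ i * ε) ^ 2) := by
      rw [mul_add, mul_pow]
      linear_combination (-(κ i ^ 2)) * hεt
    rw [this, Real.sqrt_mul ht0.le, ← hSdef]
    ring
  have hQS : Q = ((S : ℝ) : ℂ) • q := by
    rw [hq, smul_smul, ← Complex.ofReal_mul, hεdef, mul_inv_cancel₀ hS0.ne']
    simp
  -- the two matrices
  have lowp := low_bound hk hκ hε0.le hε1 hQ
  have lowm := low_bound hk hκ hε0.le hε1 (btw_neg hQ)
  rw [← hD, ← hq, ← hδdef] at lowp
  rw [← hD, smul_neg, ← hq, ← hδdef, ← sub_eq_add_neg] at lowm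
  have pdp : (sc N 1 + (D + q)).PosDef := by
    have h1 : (sc N δ).PosDef := by rw [sc_eq_dg]; exact dg_posDef fun _ => hδ
    have := h1.add_posSemidef lowp
    rwa [add_sub_cancel] at this
  have pdm : (sc N 1 + (D - q)).PosDef := by
    have h1 : (sc N δ).PosDef := by rw [sc_eq_dg]; exact dg_posDef fun _ => hδ
    have := h1.add_posSemidef lowm
    rwa [add_sub_cancel] at this
  have eP : Kt κ t + Q = ((S : ℝ) : ℂ) • (sc N 1 + (D + q)) := by
    rw [hKt]; nth_rw 1 [hQS]; rw [← smul_add, add_assoc]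
  have eM : Kt κ t - Q = ((S : ℝ) : ℂ) • (sc N 1 + (D - q)) := by
    rw [hKt]; nth_rw 1 [hQS]; rw [← smul_sub, add_sub_assoc]
  have hpH : (D + q).IsHermitian := hDh.add hqh
  have hmH : (D - q).IsHermitian := hDh.sub hqh
  have hH : Hm κ Q t = cfc (fun x : ℝ => Real.log (1 + x)) (D + q) +
      cfc (fun x : ℝ => Real.log (1 + x)) (D - q) := by
    unfold Hm
    rw [eP, eM, lg_smul pdp hS0, lg_smul pdm hS0]
    have e1 : lg (sc N 1 + (D + q)) = cfc (fun x : ℝ => Real.log (1 + x)) (D + q) :=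
      cfc_comp_sc_add hpH 1 Real.log
    have e2 : lg (sc N 1 + (D - q)) = cfc (fun x : ℝ => Real.log (1 + x)) (D - q) :=
      cfc_comp_sc_add hmH 1 Real.log
    rw [e1, e2]
    have e3 : sc N (Real.log t) = sc N (Real.log S) + sc N (Real.log S) := by
      rw [← sc_add, ← Real.log_mul hS0.ne' hS0.ne', hSS]
    rw [e3]
    abel
  set R : ℝ → ℝ := fun x => Real.log (1 + x) - (x - x ^ 2 / 2 + x ^ 3 / 3) with hR
  have hH2 : Hm κ Q t = ((2 : ℝ) : ℂ) • D - D * D - q * q +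
      ((2 / 3 : ℝ) : ℂ) • (D * D * D + (D * q * q + q * D * q + q * q * D)) +
        (cfc R (D + q) + cfc R (D - q)) := by
    rw [hH, L_taylor hpH, L_taylor hmH, ← cubic_id]
    abel
  -- norms
  have nD : opn D ≤ k ^ 2 * ε ^ 2 := D_bound hk hκ
  have nq : opn q ≤ k * ε := by
    rw [hq, opn_smul, abs_of_pos hε0]
    have := btw_opn_le hQ hk fun i => (hκ i).2
    nlinarith
  have nq0 := opn_nonneg q
  have nD0 := opn_nonneg D
  have hε2 : ε ^ 2 ≤ ε := by nlinarith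
  have nP : opn (D + q) ≤ (k ^ 2 + k) * ε := by
    have := opn_add D q
    nlinarith [sq_nonneg k]
  have nM : opn (D - q) ≤ (k ^ 2 + k) * ε := by
    have := opn_sub D q
    nlinarith [sq_nonneg k]
  have hRb : ∀ M : Mt N, ∀ hM : M.IsHermitian, (sc N 1 + M - sc N δ).PosSemidef →
      opn M ≤ (k ^ 2 + k) * ε → opn (cfc R M) ≤ (k ^ 2 + k) ^ 4 / (4 * δ) * ε ^ 4 := by
    intro M hM hlow hn
    refine opn_cfc_le hM (by positivity) fun i => ?_
    have h1 : δ ≤ 1 + hM.eigenvalues i := by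
      have e : sc N 1 + M - sc N δ = M - sc N (δ - 1) := by rw [sc_sub]; abel
      rw [e] at hlow
      have := le_eig_of_psd hM hlow i
      linarith
    have h2 := log_bound hδ _ h1 hδ1
    have h3 : |hM.eigenvalues i| ≤ (k ^ 2 + k) * ε := (abs_eig_le_opn hM i).trans hn
    have h4 : hM.eigenvalues i ^ 4 ≤ ((k ^ 2 + k) * ε) ^ 4 := by
      have := pow_le_pow_left₀ (abs_nonneg _) h3 4
      rwa [← abs_pow, abs_of_nonneg (by positivity)] at this
    calc |R (hM.eigenvalues i)| ≤ hM.eigenvalues i ^ 4 / (4 * δ) := h2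
      _ ≤ ((k ^ 2 + k) * ε) ^ 4 / (4 * δ) := by gcongr
      _ = _ := by ring
  have nRP := hRb (D + q) hpH lowp nP
  have nRM := hRb (D - q) hmH lowm nM
  have nDD : opn (D * D) ≤ k ^ 4 * ε ^ 4 := by
    calc opn (D * D) ≤ opn D * opn D := opn_mul _ _
      _ ≤ (k ^ 2 * ε ^ 2) * (k ^ 2 * ε ^ 2) := mul_le_mul nD nD nD0 (by positivity)
      _ = _ := by ring
  have nqq : opn (q * q) ≤ k ^ 2 * ε ^ 2 := by
    calc opn (q * q) ≤ opn q * opn q := opn_mul _ _
      _ ≤ (k * ε) * (k * ε) := mul_le_mul nq nq nq0 (by positivity)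
      _ = _ := by ring
  have nDDD : opn (D * D * D) ≤ k ^ 6 * ε ^ 4 := by
    calc opn (D * D * D) ≤ opn (D * D) * opn D := opn_mul _ _
      _ ≤ (k ^ 4 * ε ^ 4) * (k ^ 2 * ε ^ 2) := mul_le_mul nDD nD nD0 (by positivity)
      _ = (k ^ 6 * ε ^ 4) * ε ^ 2 := by ring
      _ ≤ (k ^ 6 * ε ^ 4) * 1 := mul_le_mul_of_nonneg_left (by nlinarith) (by positivity)
      _ = _ := by ring
  have nDqq : opn (D * q * q) ≤ k ^ 4 * ε ^ 4 := by
    calc opn (D * q * q) = opn (D * (q * q)) := by rw [Matrix.mul_assoc]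
      _ ≤ opn D * opn (q * q) := opn_mul _ _
      _ ≤ (k ^ 2 * ε ^ 2) * (k ^ 2 * ε ^ 2) := mul_le_mul nD nqq (opn_nonneg _) (by positivity)
      _ = _ := by ring
  have nqDq : opn (q * D * q) ≤ k ^ 4 * ε ^ 4 := by
    calc opn (q * D * q) ≤ opn (q * D) * opn q := opn_mul _ _
      _ ≤ (opn q * opn D) * opn q := mul_le_mul_of_nonneg_right (opn_mul _ _) nq0
      _ ≤ ((k * ε) * (k ^ 2 * ε ^ 2)) * (k * ε) := by
          refine mul_le_mul (mul_le_mul nq nD nD0 (by positivity)) nq nq0 (by positivity)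
      _ = _ := by ring
  have nqqD : opn (q * q * D) ≤ k ^ 4 * ε ^ 4 := by
    calc opn (q * q * D) ≤ opn (q * q) * opn D := opn_mul _ _
      _ ≤ (k ^ 2 * ε ^ 2) * (k ^ 2 * ε ^ 2) := mul_le_mul nqq nD nD0 (by positivity)
      _ = _ := by ring
  -- the decomposition
  set E : Mt N := (((2 : ℝ) : ℂ) • D - ((ε ^ 2 : ℝ) : ℂ) • (dg κ * dg κ)) - D * D +
      ((2 / 3 : ℝ) : ℂ) • (D * D * D + (D * q * q + q * D * q + q * q * D)) +
        (cfc R (D + q) + cfc R (D - q)) with hE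
  have hfin : ((t : ℝ) : ℂ) • Hm κ Q t - Zm κ Q = ((t : ℝ) : ℂ) • E := by
    have h1 : Zm κ Q = ((t : ℝ) : ℂ) • (((ε ^ 2 : ℝ) : ℂ) • (dg κ * dg κ) - q * q) := by
      rw [smul_sub, smul_smul, ← Complex.ofReal_mul, hεt, hq, Matrix.smul_mul, Matrix.mul_smul,
        smul_smul, smul_smul, ← Complex.ofReal_mul, ← Complex.ofReal_mul]
      have : t * ε * ε = 1 := by rw [← hεt]; ring
      rw [this]
      unfold Zm
      simp
    rw [h1, hH2, ← smul_sub]
    congr 1
    rw [hE]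
    abel
  have nE : opn E ≤ C * ε ^ 4 := by
    have h1 := D_bound2 (ε := ε) hκ
    rw [← hD] at h1
    have a1 := opn_add ((((2 : ℝ) : ℂ) • D - ((ε ^ 2 : ℝ) : ℂ) • (dg κ * dg κ)) - D * D +
      ((2 / 3 : ℝ) : ℂ) • (D * D * D + (D * q * q + q * D * q + q * q * D)))
        (cfc R (D + q) + cfc R (D - q))
    have a2 := opn_add (cfc R (D + q)) (cfc R (D - q))
    have a3 := opn_add ((((2 : ℝ) : ℂ) • D - ((ε ^ 2 : ℝ) : ℂ) • (dg κ * dg κ)) - D * D)
      (((2 / 3 : ℝ) : ℂ) • (D * D * D + (D * q * q + q * D * q + q * q * D)))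
    have a4 := opn_sub (((2 : ℝ) : ℂ) • D - ((ε ^ 2 : ℝ) : ℂ) • (dg κ * dg κ)) (D * D)
    have a5 := opn_smul (2 / 3) (D * D * D + (D * q * q + q * D * q + q * q * D))
    rw [abs_of_pos (by norm_num : (0 : ℝ) < 2 / 3)] at a5
    have a6 := opn_add (D * D * D) (D * q * q + q * D * q + q * q * D)
    have a7 := opn_add (D * q * q + q * D * q) (q * q * D)
    have a8 := opn_add (D * q * q) (q * D * q)
    rw [hE, hC]
    nlinarith
  have hherm : (((t : ℝ) : ℂ) • Hm κ Q t - Zm κ Q).IsHermitian := by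
    have h1 : (Hm κ Q t).IsHermitian := by
      unfold Hm
      exact ((lg_isHermitian _).add (lg_isHermitian _)).sub (sc_isHermitian _)
    have h2 : (Zm κ Q).IsHermitian := by
      unfold Zm
      refine Matrix.IsHermitian.sub ?_ ?_
      · rw [dg_mul]; exact dg_isHermitian _
      · have := hQ.1
        unfold Matrix.IsHermitian at *
        rw [Matrix.conjTranspose_mul, this]
    refine Matrix.IsHermitian.sub ?_ h2
    unfold Matrix.IsHermitian at *
    rw [Matrix.conjTranspose_smul, h1]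
    simp
  refine opLe_of_opn hherm ?_
  rw [hfin, opn_smul, abs_of_pos ht0]
  calc t * opn E ≤ t * (C * ε ^ 4) := mul_le_mul_of_nonneg_left nE ht0.le
    _ = C / t := by
      rw [eq_div_iff ht0.ne']
      have : t * (C * ε ^ 4) * t = C * (t * ε ^ 2) ^ 2 := by ring
      rw [this, hεt]; ring

end Crest.Agent.R332
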