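import Mathlib
import Crest.Agent.R332.Defs
import Crest.Agent.R332.LIBC
import Crest.Agent.R332.LIBF
import Crest.Agent.R332.LIBK

/-!
# R332 HBS: bound of `H_t` for small `t`
-/

set_option autoImplicit false

open MeasureTheory Matrix Filter Topology
open Crest.MathPhysics.LiebThirring
open scoped ComplexOrder

namespace Crest.Agent.R332

namespace HBSaux

variable {N : ℕ}

theorem lg_bound {A : Mt N} (hA : A.IsHermitian) {R t : ℝ} (hR : 1 ≤ R) (ht : 0 < t)
    (h1 : ∀ i, t / R ≤ hA.eigenvalues i) (h2 : ∀ i, hA.eigenvalues i ≤ R) :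
    OpLe (lg A) (|Real.log t| + Real.log R) := by
  refine opLe_cfc hA fun i => ?_
  have h0 : 0 < t / R := by positivity
  have ha := Real.log_le_log h0 (h1 i)
  have hb := Real.log_le_log (lt_of_lt_of_le h0 (h1 i)) (h2 i)
  rw [Real.log_div ht.ne' (by positivity)] at ha
  rw [abs_le]
  constructor
  · have := neg_abs_le (Real.log t)
    linarith
  · have := abs_nonneg (Real.log t)
    linarith

end HBSaux

open HBSaux

theorem hbs : HBS := by
  intro k hk
  set R : ℝ := 2 * Real.sqrt (k ^ 2 + 1) with hR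
  have hs1 : 1 ≤ Real.sqrt (k ^ 2 + 1) := by
    rw [Real.one_le_sqrt]; nlinarith
  have hR1 : 1 ≤ R := by linarith
  have hlR : 0 ≤ Real.log R := Real.log_nonneg hR1
  refine ⟨3 + 2 * Real.log R, by positivity, ?_⟩
  intro N κ hκ Q hQ t ht ht1
  have hk' : ∀ i, κ i ≤ k := fun i => (hκ i).2
  have hst : Real.sqrt (k ^ 2 + t) ≤ Real.sqrt (k ^ 2 + 1) := Real.sqrt_le_sqrt (by linarith)
  have hst0 : 0 < Real.sqrt (k ^ 2 + t) := Real.sqrt_pos.2 (by positivity)
  have hc : t / R ≤ t / (2 * Real.sqrt (k ^ 2 + t)) := by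
    rw [hR]
    exact div_le_div_of_nonneg_left ht.le (by positivity) (by linarith)
  have hP : (Kt κ t + Q).IsHermitian := (Kt_isHermitian κ t).add hQ.1
  have hM : (Kt κ t - Q).IsHermitian := (Kt_isHermitian κ t).sub hQ.1
  have bP : OpLe (lg (Kt κ t + Q)) (|Real.log t| + Real.log R) := by
    refine lg_bound hP hR1 ht (fun i => hc.trans ?_) fun i => ?_
    · exact (sub_sc_psd_iff hP).1 (hQ.lower_add hk' ht) i
    · have := (opLe_iff hP).1 (hQ.opLe_add hk' t hk ht.le) i
      exact (le_abs_self _).trans (this.trans (by rw [hR]; linarith))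
  have bM : OpLe (lg (Kt κ t - Q)) (|Real.log t| + Real.log R) := by
    refine lg_bound hM hR1 ht (fun i => hc.trans ?_) fun i => ?_
    · exact (sub_sc_psd_iff hM).1 (hQ.lower_sub hk' ht) i
    · have := (opLe_iff hM).1 (hQ.opLe_sub hk' t hk ht.le) i
      exact (le_abs_self _).trans (this.trans (by rw [hR]; linarith))
  have bH := (bP.add bM).sub (opLe_sc (N := N) (le_refl |Real.log t|))
  refine OpLe.mono bH ?_
  have := abs_nonneg (Real.log t)
  nlinarith

end Crest.Agent.R332
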