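import Crest.Agent.R332.DLOG

/-! R332 task I1P: the key Cauchy-Schwarz inequality. -/

set_option autoImplicit false

open MeasureTheory Matrix Filter Topology
open Crest.MathPhysics.LiebThirring
open scoped ComplexOrder

namespace Crest.Agent.R332
namespace I1Pa

open DLOGa

variable {N : ℕ}

/-- integrability of the resolvent product -/
theorem integrable_res {A : Mt N} (hA : A.PosDef) (X' Y : Mt N) :
    IntegrableOn (fun u : ℝ => rtr ((A + sc N u)⁻¹ * X' * (A + sc N u)⁻¹ * Y)) (Set.Ioi 0) := by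
  have hh := hA.isHermitian
  open scoped Matrix.Norms.L2Operator in
  obtain ⟨c, hc, hnear⟩ := near hA
  open scoped Matrix.Norms.L2Operator in
  have hct : ∀ i, c ≤ hh.eigenvalues i := hnear _ hh (by simpa using hc)
  have hpos : ∀ i, 0 < hh.eigenvalues i := fun i => hc.trans_le (hct i)
  open scoped Matrix.Norms.L2Operator in
  obtain ⟨K, hK, hKb⟩ := exists_bound Y
  open scoped Matrix.Norms.L2Operator in
  refine Integrable.mono' (integrable_sq hc (K * ‖X'‖)) ?_ ?_
  · apply ContinuousOn.aestronglyMeasurable _ measurableSet_Ioi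
    exact continuous_rtr.comp_continuousOn
      ((((contOn_res hh hpos).mul continuousOn_const).mul (contOn_res hh hpos)).mul
        continuousOn_const)
  · refine (ae_restrict_iff' measurableSet_Ioi).2 (ae_of_all _ fun u hu => ?_)
    have hu' : (0 : ℝ) < u := hu
    open scoped Matrix.Norms.L2Operator in
    have h1 := norm_inv_le hh hc hu' hct
    have h0 : 0 ≤ 1 / (c + u) := by positivity
    refine (hKb _).trans ?_
    rw [mul_assoc K]
    refine mul_le_mul_of_nonneg_left ?_ hK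
    open scoped Matrix.Norms.L2Operator in
    calc ‖(A + sc N u)⁻¹ * X' * (A + sc N u)⁻¹‖
        ≤ ‖(A + sc N u)⁻¹‖ * ‖X'‖ * ‖(A + sc N u)⁻¹‖ :=
          (norm_mul_le _ _).trans (mul_le_mul_of_nonneg_right (norm_mul_le _ _) (norm_nonneg _))
      _ ≤ 1 / (c + u) * ‖X'‖ * (1 / (c + u)) := by gcongr
      _ = ‖X'‖ * (1 / (c + u) * (1 / (c + u))) := by ring

theorem sq_integral {x : ℝ} (hx : 0 < x) :
    IntegrableOn (fun u : ℝ => (x + u)⁻¹ * (x + u)⁻¹) (Set.Ioi 0) ∧
      ∫ u in Set.Ioi (0 : ℝ), (x + u)⁻¹ * (x + u)⁻¹ = x⁻¹ := by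
  have hderiv : ∀ u ∈ Set.Ioi (0 : ℝ), HasDerivAt
      (fun u : ℝ => - (x + u)⁻¹) ((x + u)⁻¹ * (x + u)⁻¹) u := by
    intro u hu
    have hu' : (0 : ℝ) < u := hu
    have hne : x + u ≠ 0 := by positivity
    have h1 : HasDerivAt (fun u : ℝ => (x + u)⁻¹) (-1 / (x + u) ^ 2) u :=
      ((hasDerivAt_id u).const_add x).inv hne
    have h2 : HasDerivAt (fun u : ℝ => -((x + u)⁻¹)) (-(-1 / (x + u) ^ 2)) u := h1.neg
    have e2 : (x + u)⁻¹ * (x + u)⁻¹ = -(-1 / (x + u) ^ 2) := by
      field_simp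
    rw [e2]
    exact h2
  have hcont : ContinuousWithinAt (fun u : ℝ => - (x + u)⁻¹) (Set.Ici 0) 0 := by
    apply ContinuousAt.continuousWithinAt
    apply ContinuousAt.neg
    exact ContinuousAt.inv₀ (by fun_prop) (by simpa using hx.ne')
  have htend : Tendsto (fun u : ℝ => - (x + u)⁻¹) atTop (𝓝 0) := by
    rw [← neg_zero]
    apply Tendsto.neg
    apply Tendsto.inv_tendsto_atTop
    exact tendsto_atTop_add_const_left _ _ tendsto_id
  have hint := integrableOn_Ioi_deriv_of_nonneg hcont hderiv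
    (fun u hu => by
      have hu' : (0 : ℝ) < u := hu
      positivity) htend
  refine ⟨hint, ?_⟩
  rw [integral_Ioi_of_hasDerivAt_of_tendsto hcont hderiv hint htend]
  simp

theorem cfc_sq_integral {A : Mt N} (hA : A.IsHermitian) (hpos : ∀ i, 0 < hA.eigenvalues i)
    (h : ℝ → ℝ) (Y : Mt N) :
    IntegrableOn (fun u : ℝ => rtr (cfc (fun x => h x * ((x + u)⁻¹ * (x + u)⁻¹)) A * Y))
      (Set.Ioi 0) ∧
    ∫ u in Set.Ioi (0 : ℝ), rtr (cfc (fun x => h x * ((x + u)⁻¹ * (x + u)⁻¹)) A * Y) =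
      rtr (cfc (fun x => h x * x⁻¹) A * Y) := by
  set y : Fin N → ℝ := fun i =>
      ((star (hA.eigenvectorUnitary : Mt N) * Y * (hA.eigenvectorUnitary : Mt N)) i i).re with hy
  have e : ∀ u : ℝ, rtr (cfc (fun x => h x * ((x + u)⁻¹ * (x + u)⁻¹)) A * Y) =
      ∑ i, (h (hA.eigenvalues i) * y i) *
        ((hA.eigenvalues i + u)⁻¹ * (hA.eigenvalues i + u)⁻¹) := by
    intro u
    rw [rtr_cfc hA]
    refine Finset.sum_congr rfl fun i _ => ?_
    simp only [hy]
    ring
  simp only [e]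
  refine ⟨integrable_finsetSum _ fun i _ => ((sq_integral (hpos i)).1).const_mul _, ?_⟩
  rw [integral_finsetSum _ fun i _ => ((sq_integral (hpos i)).1).const_mul _, rtr_cfc hA]
  refine Finset.sum_congr rfl fun i _ => ?_
  rw [integral_const_mul, (sq_integral (hpos i)).2]
  simp only [hy]
  ring

/-! ### the pointwise inequality -/

theorem rtr_add' (A B : Mt N) : rtr (A + B) = rtr A + rtr B := by
  unfold rtr; rw [Matrix.trace_add, Complex.add_re]

theorem rtr_sub' (A B : Mt N) : rtr (A - B) = rtr A - rtr B := by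
  unfold rtr; rw [Matrix.trace_sub, Complex.sub_re]

theorem rtr_comm (A B : Mt N) : rtr (A * B) = rtr (B * A) := by
  unfold rtr; rw [Matrix.trace_mul_comm]

theorem rtr_smul' (c : ℝ) (A : Mt N) : rtr (((c : ℝ) : ℂ) • A) = c * rtr A := by
  unfold rtr; rw [Matrix.trace_smul, smul_eq_mul, Complex.re_ofReal_mul]

/-- `tr (S D⁻¹ S D) ≥ tr S²` for diagonal positive `D` -/
theorem rtr_conj_ge {S : Mt N} (hS : S.IsHermitian) (k : Fin N → ℝ) (hk : ∀ i, 0 < k i) :
    rtr (S * S) ≤ rtr (S * dg (fun i => (k i)⁻¹) * S * dg k) := by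
  have hc : ∀ i j, S j i = star (S i j) := fun i j => (hS.apply i j).symm ▸ by simp
  have h1 : rtr (S * S) = ∑ i, ∑ j, ‖S i j‖ ^ 2 := by
    unfold rtr
    simp only [Matrix.trace, Matrix.diag_apply, Matrix.mul_apply]
    rw [Complex.re_sum]
    refine Finset.sum_congr rfl fun i _ => ?_
    rw [Complex.re_sum]
    refine Finset.sum_congr rfl fun j _ => ?_
    rw [hc i j]
    have : S i j * star (S i j) = ((‖S i j‖ ^ 2 : ℝ) : ℂ) := by
      rw [Complex.star_def, Complex.mul_conj, Complex.normSq_eq_norm_sq]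
    rw [this, Complex.ofReal_re]
  have h2 : rtr (S * dg (fun i => (k i)⁻¹) * S * dg k) =
      ∑ i, ∑ j, ‖S i j‖ ^ 2 * (k i / k j) := by
    have hent : ∀ i, (S * dg (fun i => (k i)⁻¹) * S * dg k) i i =
        (∑ j, S i j * (((k j)⁻¹ : ℝ) : ℂ) * S j i) * ((k i : ℝ) : ℂ) := by
      intro i
      unfold dg
      rw [Matrix.mul_diagonal, Matrix.mul_apply]
      congr 1
      refine Finset.sum_congr rfl fun j _ => ?_
      rw [Matrix.mul_diagonal]
    unfold rtr
    simp only [Matrix.trace, Matrix.diag_apply, hent]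
    rw [Complex.re_sum]
    refine Finset.sum_congr rfl fun i _ => ?_
    rw [Finset.sum_mul, Complex.re_sum]
    refine Finset.sum_congr rfl fun j _ => ?_
    rw [hc i j]
    have h3 : S i j * star (S i j) = ((‖S i j‖ ^ 2 : ℝ) : ℂ) := by
      rw [Complex.star_def, Complex.mul_conj, Complex.normSq_eq_norm_sq]
    have h4 : S i j * (((k j)⁻¹ : ℝ) : ℂ) * star (S i j) * ((k i : ℝ) : ℂ) =
        ((‖S i j‖ ^ 2 * (k i / k j) : ℝ) : ℂ) := by
      calc S i j * (((k j)⁻¹ : ℝ) : ℂ) * star (S i j) * ((k i : ℝ) : ℂ)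
          = (S i j * star (S i j)) * ((((k j)⁻¹ : ℝ) : ℂ) * ((k i : ℝ) : ℂ)) := by ring
        _ = _ := by rw [h3]; push_cast; ring
    rw [h4, Complex.ofReal_re]
  rw [h1, h2]
  have hsym : ∀ i j, ‖S i j‖ ^ 2 = ‖S j i‖ ^ 2 := by
    intro i j
    rw [hc i j, norm_star]
  have h5 : ∑ i, ∑ j, ‖S i j‖ ^ 2 * (k i / k j) = ∑ i, ∑ j, ‖S i j‖ ^ 2 * (k j / k i) := by
    rw [Finset.sum_comm]
    refine Finset.sum_congr rfl fun i _ => Finset.sum_congr rfl fun j _ => ?_
    rw [hsym j i]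
  have h6 : ∑ i, ∑ j, ‖S i j‖ ^ 2 * 2 ≤
      ∑ i, ∑ j, ‖S i j‖ ^ 2 * (k i / k j) + ∑ i, ∑ j, ‖S i j‖ ^ 2 * (k j / k i) := by
    rw [← Finset.sum_add_distrib]
    refine Finset.sum_le_sum fun i _ => ?_
    rw [← Finset.sum_add_distrib]
    refine Finset.sum_le_sum fun j _ => ?_
    rw [← mul_add]
    refine mul_le_mul_of_nonneg_left ?_ (by positivity)
    have hi := hk i
    have hj := hk j
    rw [div_add_div _ _ hj.ne' hi.ne', le_div_iff₀ (by positivity)]
    nlinarith [sq_nonneg (k i - k j)]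
  have h7 : ∑ i, ∑ j, ‖S i j‖ ^ 2 * 2 = 2 * ∑ i, ∑ j, ‖S i j‖ ^ 2 := by
    rw [Finset.mul_sum]
    refine Finset.sum_congr rfl fun i _ => ?_
    rw [Finset.mul_sum]
    exact Finset.sum_congr rfl fun j _ => by ring
  rw [h7, ← h5] at h6
  linarith

theorem dg_mul_inv (k : Fin N → ℝ) (hk : ∀ i, 0 < k i) :
    dg k * dg (fun i => (k i)⁻¹) = 1 := by
  unfold dg
  rw [Matrix.diagonal_mul_diagonal, ← Matrix.diagonal_one]
  congr 1
  ext i
  rw [← Complex.ofReal_mul, mul_inv_cancel₀ (hk i).ne']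
  simp

theorem dg_inv_mul (k : Fin N → ℝ) (hk : ∀ i, 0 < k i) :
    dg (fun i => (k i)⁻¹) * dg k = 1 := by
  unfold dg
  rw [Matrix.diagonal_mul_diagonal, ← Matrix.diagonal_one]
  congr 1
  ext i
  rw [← Complex.ofReal_mul, inv_mul_cancel₀ (hk i).ne']
  simp

theorem pointwise {A : Mt N} (hA : A.IsHermitian) (hpos : ∀ i, 0 < hA.eigenvalues i)
    (k : Fin N → ℝ) (hk : ∀ i, 0 < k i) {u : ℝ} (hu : 0 < u) :
    rtr ((A + sc N u)⁻¹ * ((1 / 2 : ℂ) • (dg k)⁻¹) * (A + sc N u)⁻¹ *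
      (dg k * A + A * dg k - A * A)) ≤
    rtr (cfc (fun x => x * ((x + u)⁻¹ * (x + u)⁻¹)) A * 1) -
      1 / 2 * rtr (cfc (fun x => x ^ 2 * ((x + u)⁻¹ * (x + u)⁻¹)) A * (dg k)⁻¹) := by
  have hDi : (dg k)⁻¹ = dg (fun i => (k i)⁻¹) := Matrix.inv_eq_left_inv (dg_inv_mul k hk)
  set D := dg k with hD
  set E := dg (fun i => (k i)⁻¹) with hE
  have hDE : D * E = 1 := dg_mul_inv k hk
  have hED : E * D = 1 := dg_inv_mul k hk
  rw [hDi]
  have hS : (A + sc N u)⁻¹ = cfc (fun x => (x + u)⁻¹) A :=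
    inv_eq hA (fun i => (add_pos (hpos i) hu).ne')
  set S := (A + sc N u)⁻¹ with hSdef
  have hunit : IsUnit (A + sc N u) := isUnit_res hA (fun i => (add_pos (hpos i) hu).ne')
  have hdet : IsUnit (A + sc N u).det := (Matrix.isUnit_iff_isUnit_det _).1 hunit
  have hAS : A * S = 1 - ((u : ℝ) : ℂ) • S := by
    have h1 : (A + sc N u) * S = 1 := Matrix.mul_nonsing_inv _ hdet
    rw [add_mul] at h1
    have h2 : sc N u * S = ((u : ℝ) : ℂ) • S := by
      unfold sc; rw [Matrix.smul_mul, one_mul]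
    rw [h2] at h1
    rw [← h1]; abel
  have hSA : S * A = 1 - ((u : ℝ) : ℂ) • S := by
    have h1 : S * (A + sc N u) = 1 := Matrix.nonsing_inv_mul _ hdet
    rw [mul_add] at h1
    have h2 : S * sc N u = ((u : ℝ) : ℂ) • S := by
      unfold sc; rw [Matrix.mul_smul, mul_one]
    rw [h2] at h1
    rw [← h1]; abel
  have hSh : S.IsHermitian := by
    rw [hS]
    exact (cfc_predicate (fun x : ℝ => (x + u)⁻¹) A : IsSelfAdjoint _)
  -- term 1
  have t1 : rtr (S * E * S * (D * A)) = rtr S - u * rtr (S * E * S * D) := by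
    have e1 : rtr (S * E * S * (D * A)) = rtr (A * S * (E * S * D)) := by
      rw [show S * E * S * (D * A) = (S * E * S * D) * A by simp only [mul_assoc], rtr_comm]
      simp only [mul_assoc]
    rw [e1, hAS, sub_mul, one_mul, rtr_sub', Matrix.smul_mul, rtr_smul']
    have e2 : rtr (E * S * D) = rtr S := by
      rw [rtr_comm, ← mul_assoc, hDE, one_mul]
    rw [e2]
    simp only [mul_assoc]
  have t2 : rtr (S * E * S * (A * D)) = rtr S - u * rtr (S * E * S * D) := by
    have e1 : S * E * S * (A * D) = S * E * (S * A) * D := by simp only [mul_assoc]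
    rw [e1, hSA, mul_sub, mul_one, sub_mul, rtr_sub', Matrix.mul_smul, Matrix.smul_mul, rtr_smul']
    have e2 : S * E * D = S := by rw [mul_assoc, hED, mul_one]
    rw [e2]
  have t3 : rtr (S * E * S * (A * A)) =
      rtr (cfc (fun x => x ^ 2 * ((x + u)⁻¹ * (x + u)⁻¹)) A * E) := by
    have e1 : rtr (S * E * S * (A * A)) = rtr ((A * A) * (S * S) * E) := by
      have hcomm : A * S = S * A := by rw [hAS, hSA]
      rw [show S * E * S * (A * A) = S * (E * (S * (A * A))) by simp only [mul_assoc], rtr_comm,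
        show E * (S * (A * A)) * S = E * ((S * (A * A)) * S) by simp only [mul_assoc], rtr_comm]
      congr 2
      calc S * (A * A) * S = (S * A) * (A * S) := by simp only [mul_assoc]
        _ = (A * S) * (A * S) := by rw [hcomm]
        _ = A * (S * A) * S := by simp only [mul_assoc]
        _ = A * (A * S) * S := by rw [hcomm]
        _ = A * A * (S * S) := by simp only [mul_assoc]
    rw [e1]
    congr 2
    have h1 : A = cfc (fun x : ℝ => x) A := (cfc_id' ℝ A hA.isSelfAdjoint).symm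
    calc A * A * (S * S) = (cfc (fun x : ℝ => x) A * cfc (fun x : ℝ => x) A) *
          (cfc (fun x => (x + u)⁻¹) A * cfc (fun x => (x + u)⁻¹) A) := by
            rw [← hS, ← h1]
      _ = cfc (fun x => x ^ 2 * ((x + u)⁻¹ * (x + u)⁻¹)) A := by
            rw [cfc_mul' hA, cfc_mul' hA, cfc_mul' hA]
            congr 1
            funext x
            ring
  have t4 : rtr (cfc (fun x => x * ((x + u)⁻¹ * (x + u)⁻¹)) A * 1) =
      rtr S - u * rtr (S * S) := by
    rw [mul_one]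
    have h1 : cfc (fun x => x * ((x + u)⁻¹ * (x + u)⁻¹)) A = A * (S * S) := by
      have h2 : A = cfc (fun x : ℝ => x) A := (cfc_id' ℝ A hA.isSelfAdjoint).symm
      calc cfc (fun x => x * ((x + u)⁻¹ * (x + u)⁻¹)) A = cfc (fun x : ℝ => x) A *
          (cfc (fun x => (x + u)⁻¹) A * cfc (fun x => (x + u)⁻¹) A) := by
            rw [cfc_mul' hA, cfc_mul' hA]
        _ = A * (S * S) := by rw [← hS, ← h2]
    rw [h1, ← mul_assoc, hAS, sub_mul, one_mul, rtr_sub', Matrix.smul_mul, rtr_smul']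
  have t5 := rtr_conj_ge hSh k hk
  have e0 : rtr (S * ((1 / 2 : ℂ) • E) * S * (D * A + A * D - A * A)) =
      1 / 2 * (rtr (S * E * S * (D * A)) + rtr (S * E * S * (A * D)) -
        rtr (S * E * S * (A * A))) := by
    have e1 : ((1 / 2 : ℂ)) = (((1 / 2 : ℝ)) : ℂ) := by push_cast; rfl
    rw [e1, Matrix.mul_smul, Matrix.smul_mul, Matrix.smul_mul, rtr_smul', mul_sub, mul_add,
      rtr_sub', rtr_add']
  rw [e0, t1, t2, t3, t4]
  have := mul_le_mul_of_nonneg_left t5 hu.le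
  linarith

theorem half {A : Mt N} (hA : A.PosDef) (k : Fin N → ℝ) (hk : ∀ i, 0 < k i) :
    ∫ u in Set.Ioi (0 : ℝ), rtr ((A + sc N u)⁻¹ * ((1 / 2 : ℂ) • (dg k)⁻¹) * (A + sc N u)⁻¹ *
      (dg k * A + A * dg k - A * A)) ≤ N - 1 / 2 * rtr (A * (dg k)⁻¹) := by
  have hh := hA.isHermitian
  have hpos := hh.posDef_iff_eigenvalues_pos.mp hA
  obtain ⟨i1, e1⟩ := cfc_sq_integral hh hpos (fun x => x) 1
  obtain ⟨i2, e2⟩ := cfc_sq_integral hh hpos (fun x => x ^ 2) (dg k)⁻¹
  have h1 : ∫ u in Set.Ioi (0 : ℝ), rtr ((A + sc N u)⁻¹ * ((1 / 2 : ℂ) • (dg k)⁻¹) *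
      (A + sc N u)⁻¹ * (dg k * A + A * dg k - A * A)) ≤
      ∫ u in Set.Ioi (0 : ℝ), (rtr (cfc (fun x => x * ((x + u)⁻¹ * (x + u)⁻¹)) A * 1) -
      1 / 2 * rtr (cfc (fun x => x ^ 2 * ((x + u)⁻¹ * (x + u)⁻¹)) A * (dg k)⁻¹)) := by
    refine setIntegral_mono_on (integrable_res hA _ _) (i1.sub (i2.const_mul _))
      measurableSet_Ioi (fun u hu => ?_)
    exact pointwise hh hpos k hk hu
  refine h1.trans (le_of_eq ?_)
  rw [integral_sub i1 (i2.const_mul _), integral_const_mul, e1, e2]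
  congr 1
  · have : cfc (fun x : ℝ => x * x⁻¹) A = 1 :=
      cfc_one' hh _ (fun i => mul_inv_cancel₀ (hpos i).ne')
    rw [this, one_mul]
    unfold rtr
    simp
  · congr 3
    have h2 : A = cfc (fun x : ℝ => x) A := (cfc_id' ℝ A hh.isSelfAdjoint).symm
    conv_rhs => rw [h2]
    rw [cfc_form hh, cfc_form hh]
    congr 3
    ext i
    have := (hpos i).ne'
    have e3 : (hh.eigenvalues i) ^ 2 * (hh.eigenvalues i)⁻¹ = hh.eigenvalues i := by
      field_simp
    rw [e3]

end I1Pa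

open I1Pa in
theorem i1p : I1P := by
  intro N κ hκ Q hQ t ht
  obtain ⟨hQh, hp, hm⟩ := hQ
  set k : Fin N → ℝ := fun i => Real.sqrt (κ i ^ 2 + t) with hkdef
  have hk : ∀ i, 0 < k i := fun i => Real.sqrt_pos.2 (by positivity)
  have hkt : Kt κ t = dg k := rfl
  have hklt : ∀ i, κ i < k i := fun i => by
    apply Real.lt_sqrt_of_sq_lt
    linarith
  have hdiff : (dg k - dg κ).PosDef := by
    unfold dg
    rw [Matrix.diagonal_sub, Matrix.posDef_diagonal_iff]
    intro i
    rw [← Complex.ofReal_sub]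
    exact_mod_cast sub_pos.2 (hklt i)
  have hA1 : (dg k + Q).PosDef := by
    have : dg k + Q = (dg k - dg κ) + (dg κ + Q) := by abel
    rw [this]
    exact hdiff.add_posSemidef hp
  have hA2 : (dg k - Q).PosDef := by
    have : dg k - Q = (dg k - dg κ) + (dg κ - Q) := by abel
    rw [this]
    exact hdiff.add_posSemidef hm
  have hkk : dg k * dg k = dg κ * dg κ + sc N t := by
    unfold dg sc
    rw [Matrix.diagonal_mul_diagonal, Matrix.diagonal_mul_diagonal]
    ext i j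
    by_cases h : i = j
    · subst h
      simp only [Matrix.diagonal_apply_eq, Matrix.add_apply, Matrix.smul_apply,
        Matrix.one_apply_eq, smul_eq_mul, mul_one, hkdef]
      rw [← Complex.ofReal_mul, Real.mul_self_sqrt (by positivity)]
      push_cast
      ring
    · simp [h]
  have hZ1 : Zm κ Q + sc N t = dg k * (dg k + Q) + (dg k + Q) * dg k -
      (dg k + Q) * (dg k + Q) := by
    have h1 : dg k * (dg k + Q) + (dg k + Q) * dg k - (dg k + Q) * (dg k + Q) =
        dg k * dg k - Q * Q := by noncomm_ring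
    rw [h1, hkk]
    unfold Zm
    abel
  have hZ2 : Zm κ Q + sc N t = dg k * (dg k - Q) + (dg k - Q) * dg k -
      (dg k - Q) * (dg k - Q) := by
    have h1 : dg k * (dg k - Q) + (dg k - Q) * dg k - (dg k - Q) * (dg k - Q) =
        dg k * dg k - Q * Q := by noncomm_ring
    rw [h1, hkk]
    unfold Zm
    abel
  have b1 := half hA1 k hk
  have b2 := half hA2 k hk
  rw [← hZ1] at b1
  rw [← hZ2] at b2
  rw [hkt]
  have hsum : rtr ((dg k + Q) * (dg k)⁻¹) + rtr ((dg k - Q) * (dg k)⁻¹) = 2 * N := by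
    rw [← rtr_add', ← add_mul]
    have h1 : dg k + Q + (dg k - Q) = (2 : ℂ) • dg k := by
      rw [two_smul]; abel
    have hDi : (dg k)⁻¹ = dg (fun i => (k i)⁻¹) := Matrix.inv_eq_left_inv (dg_inv_mul k hk)
    rw [h1, hDi, Matrix.smul_mul, dg_mul_inv k hk]
    unfold rtr
    rw [Matrix.trace_smul]
    simp
  linarith

end Crest.Agent.R332
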