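import Crest.Agent.R332.Defs
import Crest.Agent.R332.LIBF
import Crest.Agent.R332.LIBC
import Crest.Agent.R332.LIBD

set_option autoImplicit false

open MeasureTheory Matrix Filter Topology
open Crest.MathPhysics.LiebThirring
open scoped ComplexOrder

namespace Crest.Agent.R332

namespace KIN

theorem rtr_conjT {N : ℕ} (A : Mt N) : rtr Aᴴ = rtr A := by
  unfold rtr
  rw [Matrix.trace_conjTranspose]
  simp

theorem rtr_mulcomm {m N : ℕ} (A : Rc m N) (B : Rc N m) : rtr (A * B) = rtr (B * A) := by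
  unfold rtr
  rw [Matrix.trace_mul_comm]

theorem rtradd {N : ℕ} (A B : Mt N) : rtr (A + B) = rtr A + rtr B := by
  unfold rtr
  rw [Matrix.trace_add, Complex.add_re]

theorem rtrsub {N : ℕ} (A B : Mt N) : rtr (A - B) = rtr A - rtr B := by
  unfold rtr
  rw [Matrix.trace_sub, Complex.sub_re]

theorem pointwise {m N : ℕ} (X X' : Rc m N) (Q Q' : Mt N) (hQ : Q.IsHermitian) :
    fro2 (X' + X * Q) = fro2 X' + rtr (Xᴴ * X * (Q * Q - Q')) +
      rtr ((X'ᴴ * X + Xᴴ * X') * Q + Xᴴ * X * Q') := by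
  rw [fro2_add, fro2_eq (X * Q)]
  have h1 : rtr ((X * Q)ᴴ * (X * Q)) = rtr (Xᴴ * X * (Q * Q)) := by
    rw [Matrix.conjTranspose_mul, hQ.eq]
    have : Q * Xᴴ * (X * Q) = Q * (Xᴴ * X * Q) := by simp only [Matrix.mul_assoc]
    rw [this, rtr_mulcomm]
    simp only [Matrix.mul_assoc]
  have h2 : rtr (X'ᴴ * (X * Q)) = rtr (Xᴴ * X' * Q) := by
    rw [← rtr_conjT, Matrix.conjTranspose_mul, Matrix.conjTranspose_mul, hQ.eq,
      Matrix.conjTranspose_conjTranspose]
    have : Q * Xᴴ * X' = Q * (Xᴴ * X') := by simp only [Matrix.mul_assoc]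
    rw [this, rtr_mulcomm]
  rw [h1, Matrix.mul_sub, Matrix.add_mul, rtrsub, rtradd, rtradd]
  have h3 : rtr (X'ᴴ * X * Q) = rtr (Xᴴ * X' * Q) := by
    rw [← h2, Matrix.mul_assoc]
  rw [h2, h3]
  ring

end KIN

theorem kin : KIN := by
  intro m N a b hab X X' Q Q' hX hX' hQ hQ' hQh hXa hXb
  have cX : ContinuousOn X (Set.Icc a b) := contOn_of_deriv hX
  have cQ : ContinuousOn Q (Set.Icc a b) := contOn_of_deriv hQ
  have hXh : ContinuousOn (fun x => (X x)ᴴ) (Set.Icc a b) :=
    (Continuous.matrix_conjTranspose continuous_id).comp_continuousOn cX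
  have hXh' : ContinuousOn (fun x => (X' x)ᴴ) (Set.Icc a b) :=
    (Continuous.matrix_conjTranspose continuous_id).comp_continuousOn hX'
  have cmul : ∀ {p q r : ℕ} {A : ℝ → Rc p q} {B : ℝ → Rc q r}, ContinuousOn A (Set.Icc a b) →
      ContinuousOn B (Set.Icc a b) → ContinuousOn (fun x => A x * B x) (Set.Icc a b) := by
    intro p q r A B hA hB
    have h1 : Continuous (fun z : Rc p q × Rc q r => z.1 * z.2) :=
      Continuous.matrix_mul continuous_fst continuous_snd
    exact h1.comp_continuousOn (hA.prodMk hB)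
  let F' : ℝ → ℝ := fun x =>
    rtr (((X' x)ᴴ * X x + (X x)ᴴ * X' x) * Q x + (X x)ᴴ * X x * Q' x)
  have hF : ∀ x ∈ Set.Icc a b,
      HasDerivWithinAt (fun x => rtr ((X x)ᴴ * X x * Q x)) (F' x) (Set.Icc a b) x := by
    intro x hx
    exact HDW.rtr (HDW.mul (HDW.mul (HDW.conjT (hX x hx)) (hX x hx)) (hQ x hx))
  have cF' : ContinuousOn F' (Set.Icc a b) := by
    refine continuous_rtr.comp_continuousOn ?_
    refine ContinuousOn.add ?_ ?_
    · exact cmul (ContinuousOn.add (cmul hXh' cX) (cmul hXh hX')) cQ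
    · exact cmul (cmul hXh cX) hQ'
  have cA : ContinuousOn (fun x => fro2 (X' x)) (Set.Icc a b) :=
    continuous_fro2'.comp_continuousOn hX'
  have cB : ContinuousOn (fun x => rtr ((X x)ᴴ * X x * (Q x * Q x - Q' x))) (Set.Icc a b) := by
    refine continuous_rtr.comp_continuousOn ?_
    exact cmul (cmul hXh cX) (ContinuousOn.sub (cmul cQ cQ) hQ')
  have hu : Set.uIcc a b = Set.Icc a b := Set.uIcc_of_le hab.le
  have iA : IntervalIntegrable (fun x => fro2 (X' x)) volume a b :=
    ContinuousOn.intervalIntegrable (by rwa [hu])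
  have iB : IntervalIntegrable (fun x => rtr ((X x)ᴴ * X x * (Q x * Q x - Q' x))) volume a b :=
    ContinuousOn.intervalIntegrable (by rwa [hu])
  have iF : IntervalIntegrable F' volume a b :=
    ContinuousOn.intervalIntegrable (by rwa [hu])
  have hFTC : ∫ x in a..b, F' x = 0 := by
    have h1 := intervalIntegral.integral_eq_sub_of_hasDerivAt_of_le hab.le
      (f := fun x => rtr ((X x)ᴴ * X x * Q x)) (f' := F')
      (fun x hx => (hF x hx).continuousWithinAt)
      (fun x hx => (hF x (Set.Ioo_subset_Icc_self hx)).hasDerivAt (Icc_mem_nhds hx.1 hx.2)) iF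
    rw [h1, hXa, hXb]
    simp
  have h1 : ∫ x in a..b, fro2 (X' x + X x * Q x) =
      ∫ x in a..b, ((fro2 (X' x) + rtr ((X x)ᴴ * X x * (Q x * Q x - Q' x))) + F' x) := by
    apply intervalIntegral.integral_congr
    intro x hx
    rw [hu] at hx
    exact KIN.pointwise (X x) (X' x) (Q x) (Q' x) (hQh x hx)
  rw [h1, intervalIntegral.integral_add (iA.add iB) iF, intervalIntegral.integral_add iA iB, hFTC,
    add_zero]

end Crest.Agent.R332
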