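import Crest.Agent.R332.LIBF

/-! The Lieb-Thirring inequality with all slacks. -/

set_option autoImplicit false

open MeasureTheory Matrix Filter Topology
open Crest.MathPhysics.LiebThirring
open scoped ComplexOrder

namespace Crest.Agent.R332

namespace MAINaux

variable {m N : ℕ}

/-- integral of a linear functional of a matrix valued function -/
theorem int_rtr_mul {M : ℝ → Mt N} (hM : ∀ i j, Integrable (fun x => M x i j)) (C E : Mt N)
    (hE : ∀ i j, ∫ x, M x i j = E i j) :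
    Integrable (fun x => rtr (M x * C)) ∧ ∫ x, rtr (M x * C) = rtr (E * C) := by
  have h1 : ∀ i j, Integrable (fun x => M x i j * C j i) := fun i j => (hM i j).mul_const _
  have h2 : Integrable (fun x => ∑ i, ∑ j, M x i j * C j i) :=
    integrable_finsetSum _ fun i _ => integrable_finsetSum _ fun j _ => h1 i j
  have e1 : ∀ x, (M x * C).trace = ∑ i, ∑ j, M x i j * C j i := fun x => by
    simp [Matrix.trace, Matrix.mul_apply]
  have h3 : Integrable (fun x => (M x * C).trace) := by simpa only [e1] using h2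
  refine ⟨?_, ?_⟩
  · have := Complex.reCLM.integrable_comp h3
    exact this
  · have h4 := Complex.reCLM.integral_comp_comm h3
    have h5 : ∫ x, (M x * C).trace = (E * C).trace := by
      simp only [e1]
      rw [integral_finsetSum _ fun i _ => integrable_finsetSum _ fun j _ => h1 i j]
      have : ∀ i, ∫ x, ∑ j, M x i j * C j i = ∑ j, E i j * C j i := by
        intro i
        rw [integral_finsetSum _ fun j _ => h1 i j]
        refine Finset.sum_congr rfl fun j _ => ?_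
        rw [integral_mul_const, hE]
      simp only [this]
      simp [Matrix.trace, Matrix.mul_apply]
    rw [h5] at h4
    exact h4

theorem integrable_of_cont {f : ℝ → ℂ} (hf : Continuous f) {l : ℝ}
    (h0 : ∀ x, l ≤ |x| → f x = 0) : Integrable f := by
  refine hf.integrable_of_hasCompactSupport ?_
  refine HasCompactSupport.of_support_subset_isCompact (isCompact_Icc (a := -l) (b := l)) ?_
  intro x hx
  by_contra hcon
  refine hx (h0 x ?_)
  by_contra h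
  push Not at h
  exact hcon ⟨(abs_lt.1 h).1.le, (abs_lt.1 h).2.le⟩

theorem integrable_of_cont' {f : ℝ → ℝ} (hf : Continuous f) {l : ℝ}
    (h0 : ∀ x, l ≤ |x| → f x = 0) : Integrable f := by
  refine hf.integrable_of_hasCompactSupport ?_
  refine HasCompactSupport.of_support_subset_isCompact (isCompact_Icc (a := -l) (b := l)) ?_
  intro x hx
  by_contra hcon
  refine hx (h0 x ?_)
  by_contra h
  push Not at h
  exact hcon ⟨(abs_lt.1 h).1.le, (abs_lt.1 h).2.le⟩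

theorem integral_of_support {f : ℝ → ℝ} {l : ℝ}
    (h0 : ∀ x, l ≤ |x| → f x = 0) : ∫ x in (-l)..l, f x = ∫ x, f x := by
  refine intervalIntegral.integral_eq_integral_of_support_subset ?_
  intro x hx
  by_contra hcon
  refine hx (h0 x ?_)
  by_contra h
  push Not at h
  exact hcon ⟨(abs_lt.1 h).1, (abs_lt.1 h).2.le⟩

/-- `W X X*` -/
theorem id1 (U : Matrix.unitaryGroup (Fin N) ℂ) {Ω : Mt N} (hΩ : Ω.IsHermitian) (W : Mt m)
    (Φ : Rc m N) :
    rtr (W * ((Φ * Ω * (U : Mt N)) * (Φ * Ω * (U : Mt N))ᴴ)) =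
      rtr ((Φᴴ * W * Φ) * (Ω * Ω)) := by
  have e : W * ((Φ * Ω * (U : Mt N)) * (Φ * Ω * (U : Mt N))ᴴ) =
      (W * Φ) * (Ω * Ω * Φᴴ) := by
    rw [Matrix.conjTranspose_mul, Matrix.conjTranspose_mul, hΩ]
    calc W * (Φ * Ω * (U : Mt N) * ((U : Mt N)ᴴ * (Ω * Φᴴ)))
        = W * (Φ * Ω * ((U : Mt N) * (U : Mt N)ᴴ) * (Ω * Φᴴ)) := by
          simp only [Matrix.mul_assoc]
      _ = _ := by rw [U_mul_star, Matrix.mul_one]; simp only [Matrix.mul_assoc]
  rw [e, rtr_mul_comm (W * Φ)]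
  have e2 : Ω * Ω * Φᴴ * (W * Φ) = (Ω * Ω) * (Φᴴ * W * Φ) := by simp only [Matrix.mul_assoc]
  rw [e2, rtr_mul_comm]

theorem id2 (U : Matrix.unitaryGroup (Fin N) ℂ) {Ω : Mt N} (hΩ : Ω.IsHermitian)
    (Φ : Rc m N) :
    fro2 (Φ * Ω * (U : Mt N)) = rtr ((Φᴴ * Φ) * (Ω * Ω)) := by
  have h := id1 U hΩ (1 : Mt m) Φ
  rw [Matrix.one_mul, Matrix.mul_one] at h
  rw [fro2_eq', h]

theorem id3 (U : Matrix.unitaryGroup (Fin N) ℂ) {Ω : Mt N} (hΩ : Ω.IsHermitian)
    (Φ : Rc m N) (κ : Fin N → ℝ) {K : Mt N} (hK : K = (U : Mt N) * dg κ * (U : Mt N)ᴴ) :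
    rtr ((Φ * Ω * (U : Mt N))ᴴ * (Φ * Ω * (U : Mt N)) * (dg κ * dg κ)) =
      rtr ((Φᴴ * Φ) * (Ω * (K * K) * Ω)) := by
  have e : (Φ * Ω * (U : Mt N))ᴴ * (Φ * Ω * (U : Mt N)) * (dg κ * dg κ) =
      (U : Mt N)ᴴ * (Ω * (Φᴴ * Φ) * Ω * (U : Mt N) * (dg κ * dg κ)) := by
    rw [Matrix.conjTranspose_mul, Matrix.conjTranspose_mul, hΩ]
    simp only [Matrix.mul_assoc]
  have e3 : K * K = (U : Mt N) * (dg κ * dg κ) * (U : Mt N)ᴴ := by
    rw [hK, conj_mul]
  have e2 : Ω * (Φᴴ * Φ) * Ω * (U : Mt N) * (dg κ * dg κ) * (U : Mt N)ᴴ =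
      Ω * ((Φᴴ * Φ) * Ω * (K * K)) := by
    rw [e3]; simp only [Matrix.mul_assoc]
  rw [e, rtr_mul_comm, e2, rtr_mul_comm]
  simp only [Matrix.mul_assoc]

theorem id4 (trx : TRX) {s : ℝ} (hs : 0 < s) (X : Rc m N) :
    rtr (Xᴴ * X * Wm s X) = cY s * (s⁻¹ + 1) * tracePow (X * Xᴴ) (s⁻¹ + 1) := by
  have hP : (Xᴴ * X).PosSemidef := Matrix.posSemidef_conjTranspose_mul_self X
  have hr : 0 < s⁻¹ := inv_pos.2 hs
  unfold Wm
  rw [Matrix.mul_smul, rtr_smul, mul_pw hP hr, tracePow_eq_rtr]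
  have h := (trx m N X).2 (fun x => x ^ (s⁻¹ + 1)) (Real.zero_rpow (by linarith))
  unfold pw
  rw [h, add_comm s⁻¹ 1]

theorem id5 (trx : TRX) {s : ℝ} (hs : 0 < s) (hc : 0 < cY s) (X : Rc m N) :
    tracePow (Wm s X) (1 + s) =
      (cY s * (s⁻¹ + 1)) ^ (1 + s) * tracePow (X * Xᴴ) (s⁻¹ + 1) := by
  have hP : (Xᴴ * X).PosSemidef := Matrix.posSemidef_conjTranspose_mul_self X
  have hr : 0 < s⁻¹ := inv_pos.2 hs
  unfold Wm
  rw [tracePow_smul (pw_posSemidef hP _) (by positivity), tracePow_pw hP]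
  have h := (trx m N X).2 (fun x => x ^ (s⁻¹ + 1)) (Real.zero_rpow (by linarith))
  have e : s⁻¹ * (1 + s) = s⁻¹ + 1 := by field_simp
  rw [e, tracePow_eq_rtr, tracePow_eq_rtr]
  unfold pw
  rw [h]

theorem within {A : ℝ → Rc m N} {A' : Rc m N} {x : ℝ} (h : HasDerivAt A A' x) (S : Set ℝ) :
    HasDerivWithinAt A A' S x :=
  hasDerivWithinAt_iff_entry.2 fun i j => (hasDerivAt_iff_entry.1 h i j).hasDerivWithinAt

theorem continuous_Wm {s : ℝ} (hs : 0 < s) {X : ℝ → Rc m N} (hX : Continuous X) :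
    Continuous fun x => Wm s (X x) := by
  have h1 : Continuous fun x => (X x)ᴴ * X x := (hX.matrix_conjTranspose).matrix_mul hX
  have h2 : Continuous fun x : ℝ => x ^ s⁻¹ :=
    Real.continuous_rpow_const (inv_pos.2 hs).le
  have h3 := cfcc N (fun x : ℝ => x ^ s⁻¹) h2
  have h4 : Continuous fun x => pw ((X x)ᴴ * X x) s⁻¹ :=
    h3.comp_continuous h1 fun x => (Matrix.posSemidef_conjTranspose_mul_self (X x)).1
  unfold Wm
  exact h4.const_smul (((cY s * (s⁻¹ + 1) : ℝ) : ℂ))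

end MAINaux

open MAINaux in
theorem main_ : RED → WGT → CFG → KIN → TRX → CONSTS → YSI → MAIN := by
  intro red wgt cfg kin trx consts ysi s hs0 hs1 m W hWm hWp hWi n φ hφ δ hδ
  obtain ⟨hCc, hcY, hbet, hcs, c1, c2, c3⟩ := consts s hs0 hs1
  have hγ1 : 1 / 2 < s + 1 / 2 := by linarith
  have hγ2 : s + 1 / 2 < 3 / 2 := by linarith
  have hr : 0 < s⁻¹ := inv_pos.2 hs0
  have hWi' : Integrable fun x => tracePow (W x) (s + 1 / 2 + 1 / 2) := by
    have : s + 1 / 2 + 1 / 2 = 1 + s := by ring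
    rw [this]; exact hWi
  obtain ⟨N, κ0, Φ, Φ', l, hT, hneg⟩ := red (s + 1 / 2) hγ1 hγ2 m W hWm hWp hWi' n φ hφ
  obtain ⟨ω, B, hω1, hω2, hω3⟩ := wgt (s + 1 / 2) hγ1 hγ2 N κ0 hT.kpos δ hδ
  obtain ⟨K, U, κ, Q, hK, hKU, hC⟩ := cfg s hs0 hs1 m N Φ Φ' l hT.lpos hT.dΦ hT.cΦ' hT.Φ0
    hT.orth ω B hω1 hω2
  refine ⟨N, κ, _, _, Q, l, hC, ?_⟩
  have hl := hT.lpos
  set Ω : Mt N := ω K with hΩdef
  have hΩ : Ω.IsHermitian := (hω2 K hK.posSemidef).1.1
  set X : ℝ → Rc m N := fun x => Φ x * Ω * (U : Mt N) with hXdef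
  set X' : ℝ → Rc m N := fun x => Φ' x * Ω * (U : Mt N) with hX'def
  have hXd : ∀ x, HasDerivAt X (X' x) x := hC.dX
  have hX0 : ∀ x, l ≤ |x| → X x = 0 ∧ X' x = 0 := hC.X0
  have hcX : Continuous X := cont_of_deriv hXd
  have hcX' : Continuous X' := hC.cX'
  have hcQ : Continuous Q := cont_of_deriv hC.dQ
  have hcΦ : Continuous Φ := cont_of_deriv hT.dΦ
  have hcΦ' : Continuous Φ' := hT.cΦ'
  obtain ⟨i1, i2, i3, -⟩ := ysi s hs0 hs1 m W hWm hWp hWi N X l hcX fun x hx => (hX0 x hx).1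
  set T : ℝ := ∫ x, tracePow (X x * (X x)ᴴ) (s⁻¹ + 1) with hTdef
  -- entries
  have hcent : ∀ i j, Integrable (fun x => ((Φ' x)ᴴ * Φ' x) i j) := fun i j =>
    integrable_of_cont (((hcΦ'.matrix_conjTranspose).matrix_mul hcΦ').matrix_elem i j)
      (l := l) fun x hx => by rw [(hT.Φ0 x hx).2]; simp
  have hcent2 : ∀ i j, Integrable (fun x => ((Φ x)ᴴ * Φ x) i j) := fun i j =>
    integrable_of_cont (((hcΦ.matrix_conjTranspose).matrix_mul hcΦ).matrix_elem i j)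
      (l := l) fun x hx => by rw [(hT.Φ0 x hx).1]; simp
  -- energy identity
  have hE1 : (∫ x, fro2 (X' x)) - ∫ x, rtr (W x * (X x * (X x)ᴴ)) =
      - rtr (dg κ0 * dg κ0 * (Ω * Ω)) := by
    have e1 : ∀ x, rtr (W x * (X x * (X x)ᴴ)) = rtr (((Φ x)ᴴ * W x * Φ x) * (Ω * Ω)) :=
      fun x => id1 U hΩ (W x) (Φ x)
    have e2 : ∀ x, fro2 (X' x) = rtr (((Φ' x)ᴴ * Φ' x) * (Ω * Ω)) :=
      fun x => id2 U hΩ (Φ' x)
    obtain ⟨j1, k1⟩ := int_rtr_mul hcent (Ω * Ω) (Matrix.of fun i j =>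
      ∫ x, ((Φ' x)ᴴ * Φ' x) i j) fun i j => rfl
    obtain ⟨j2, k2⟩ := int_rtr_mul hT.intW (Ω * Ω) (Matrix.of fun i j =>
      ∫ x, ((Φ x)ᴴ * W x * Φ x) i j) fun i j => rfl
    simp only [e1, e2]
    rw [k1, k2, ← rtr_sub, ← Matrix.sub_mul, ← rtr_neg, ← Matrix.neg_mul]
    congr 2
    ext i j
    have h := hT.energy i j
    rw [integral_sub (hcent i j) (hT.intW i j)] at h
    rw [Matrix.sub_apply, Matrix.of_apply, Matrix.of_apply, h, dg_mul]
    unfold dg
    rw [Matrix.neg_apply, Matrix.diagonal_apply]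
    split_ifs
    · push_cast; ring
    · simp
  -- orthonormality
  have hE2 : ∫ x, rtr ((X x)ᴴ * X x * (dg κ * dg κ)) = rtr (Ω * Ω * (K * K)) := by
    have e1 : ∀ x, rtr ((X x)ᴴ * X x * (dg κ * dg κ)) =
        rtr (((Φ x)ᴴ * Φ x) * (Ω * (K * K) * Ω)) := fun x => id3 U hΩ (Φ x) κ hKU
    obtain ⟨j1, k1⟩ := int_rtr_mul hcent2 (Ω * (K * K) * Ω) (1 : Mt N) fun i j => by
      rw [hT.orth i j, Matrix.one_apply]
    simp only [e1]
    rw [k1, Matrix.one_mul, rtr_mul_comm]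
    simp only [Matrix.mul_assoc]
  -- kinetic identity
  set Q' : ℝ → Mt N := fun x => Wm s (X x) - dg κ * dg κ + Q x * Q x with hQ'def
  have hcW : Continuous fun x => Wm s (X x) := continuous_Wm hs0 hcX
  have hcQ' : Continuous Q' := (hcW.sub continuous_const).add (hcQ.mul hcQ)
  have hbl : |(-l)| = l := by rw [abs_neg, abs_of_pos hl]
  have hll : |l| = l := abs_of_pos hl
  have hkin := kin m N (-l) l (by linarith) X X' Q Q'
    (fun x _ => within (hXd x) _) hcX'.continuousOn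
    (fun x _ => within (hC.dQ x) _) hcQ'.continuousOn (fun x _ => (hC.btw x).1)
    (hX0 (-l) hbl.ge).1 (hX0 l hll.ge).1
  have hP : ∀ x, rtr ((X x)ᴴ * X x * (Q x * Q x - Q' x)) =
      rtr ((X x)ᴴ * X x * (dg κ * dg κ)) -
        cY s * (s⁻¹ + 1) * tracePow (X x * (X x)ᴴ) (s⁻¹ + 1) := by
    intro x
    have e : Q x * Q x - Q' x = dg κ * dg κ - Wm s (X x) := by
      rw [hQ'def]; simp only; abel
    rw [e, Matrix.mul_sub, rtr_sub, id4 trx hs0]
  rw [integral_of_support (f := fun x => fro2 (X' x + X x * Q x)) fun x hx => by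
      rw [(hX0 x hx).1, (hX0 x hx).2]; simp [fro2_zero],
    integral_of_support (f := fun x => fro2 (X' x)) fun x hx => by
      rw [(hX0 x hx).2]; simp [fro2_zero],
    integral_of_support (f := fun x => rtr ((X x)ᴴ * X x * (Q x * Q x - Q' x))) fun x hx => by
      rw [(hX0 x hx).1]; simp [rtr_zero]] at hkin
  simp only [hP] at hkin
  have hi4 : Integrable fun x => rtr ((X x)ᴴ * X x * (dg κ * dg κ)) := by
    refine integrable_of_cont' (l := l) ?_ fun x hx => by rw [(hX0 x hx).1]; simp [rtr_zero]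
    exact continuous_rtr.comp
      (((hcX.matrix_conjTranspose).matrix_mul hcX).mul continuous_const)
  rw [integral_sub hi4 (i1.const_mul _), integral_const_mul, hE2, ← hTdef] at hkin
  -- Young slack
  have hYS : YS s W X = Cc s * (∫ x, tracePow (W x) (1 + s)) + cY s * T -
      ∫ x, rtr (W x * (X x * (X x)ᴴ)) := by
    unfold YS YSf
    have h1 := hWi.const_mul (Cc s)
    have h2 := i1.const_mul (cY s)
    have h3 : Integrable fun x => Cc s * tracePow (W x) (1 + s) +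
      cY s * tracePow (X x * (X x)ᴴ) (s⁻¹ + 1) := h1.add h2
    rw [integral_sub h3 i2, integral_add h1 h2, integral_const_mul, integral_const_mul]
  have hKS : KS X X' Q = ∫ x, fro2 (X' x + X x * Q x) := rfl
  have hTS : TS s κ X = (cY s * (s⁻¹ + 1)) ^ (1 + s) * T -
      cs s * bet s * ∑ i, κ i ^ (1 + 2 * s) := by
    unfold TS
    simp only [id5 trx hs0 hcY]
    rw [integral_const_mul]
  have hTS2 : Cc s * TS s κ X = cY s * s⁻¹ * T - ∑ i, κ i ^ (1 + 2 * s) := by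
    rw [hTS, mul_sub, ← mul_assoc, ← c2, ← mul_assoc, c1, one_mul]
  have h2γ : 2 * (s + 1 / 2) = 1 + 2 * s := by ring
  have hW3 := hω3 K hK
  have hKp : tracePow K (2 * (s + 1 / 2)) = ∑ i, κ i ^ (1 + 2 * s) := by
    rw [hKU, tracePow_conj U (dg_isHermitian κ), tracePow_dg, h2γ]
  rw [hKp, Matrix.mul_sub, rtr_sub, rtr_mul_comm _ (dg κ0 * dg κ0)] at hW3
  rw [hneg, hYS, hKS, hkin, hTS2]
  rw [h2γ] at hW3 ⊢
  nlinarith [hE1, hW3]


end Crest.Agent.R332
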