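import Crest.Agent.R332.LIBF

/-! NONST: small potentials cannot move `Q` far away from `K`. -/

set_option autoImplicit false

open MeasureTheory Matrix Filter Topology
open Crest.MathPhysics.LiebThirring
open scoped ComplexOrder

namespace Crest.Agent.R332.NONST

variable {J : ℕ}

theorem young_lin {a δ p : ℝ} (ha : 0 ≤ a) (hδ : 0 < δ) (hp : 1 < p) :
    a ≤ δ + δ ^ (1 - p) * a ^ p := by
  rcases le_or_gt a δ with h | h
  · have : 0 ≤ δ ^ (1 - p) * a ^ p := by positivity
    linarith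
  · have ha0 : 0 < a := hδ.trans h
    have h1 : a ^ (1 - p) ≤ δ ^ (1 - p) :=
      Real.rpow_le_rpow_of_nonpos hδ h.le (by linarith)
    have h2 : a ^ (1 - p) * a ^ p = a := by
      rw [← Real.rpow_add ha0]; simp
    have h3 : 0 ≤ a ^ p := Real.rpow_nonneg ha0.le _
    nlinarith [mul_le_mul_of_nonneg_right h1 h3]

/-- derivative of `fro2 (K - q)` and its lower bound -/
theorem deriv_u {κ : Fin J → ℝ} {k0 : ℝ} (hk : ∀ i, k0 ≤ κ i)
    {q : ℝ → Mt J} {V : Mt J} {x : ℝ}
    (hq : HasDerivAt q (V - dg κ * dg κ + q x * q x) x) (hb : ∀ y, Btw κ (q y)) :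
    ∃ u' : ℝ, HasDerivAt (fun y => fro2 (dg κ - q y)) u' x ∧
      4 * k0 * fro (dg κ - q x) ^ 2 - 2 * fro (dg κ - q x) ^ 3 -
        2 * fro (dg κ - q x) * fro V ≤ u' := by
  set D : ℝ → Mt J := fun y => dg κ - q y with hD
  have hDh : ∀ y, (D y).IsHermitian := fun y => (dg_isHermitian κ).sub (hb y).1
  have hu : (fun y => fro2 (dg κ - q y)) = fun y => rtr (D y * D y) := by
    funext y
    rw [fro2_eq]
    show rtr ((D y)ᴴ * D y) = _
    rw [hDh y]
  set D' : Mt J := 0 - (V - dg κ * dg κ + q x * q x) with hD'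
  have hDd : HasDerivAt D D' x := HD.sub (HD.const _ x) hq
  have hd := HD.rtr (HD.mul hDd hDd)
  have hD'eq : D' = - V + dg κ * D x + D x * dg κ - D x * D x := by
    rw [hD', hD]
    simp only [Matrix.mul_sub, Matrix.sub_mul]
    abel
  refine ⟨_, hu ▸ hd, ?_⟩
  have e1 : rtr (D' * D x + D x * D') =
      -2 * rtr (D x * V) + 4 * rtr (dg κ * (D x * D x)) - 2 * rtr (D x * (D x * D x)) := by
    have a1 : rtr (D' * D x) = rtr (D x * D') := rtr_mul_comm _ _
    rw [rtr_add, a1, hD'eq]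
    simp only [Matrix.mul_add, Matrix.mul_sub, Matrix.mul_neg, rtr_add, rtr_sub, rtr_neg]
    have a2 : rtr (D x * (dg κ * D x)) = rtr (dg κ * (D x * D x)) := by
      rw [rtr_mul_comm, Matrix.mul_assoc]
    have a3 : rtr (D x * (D x * dg κ)) = rtr (dg κ * (D x * D x)) := by
      rw [← Matrix.mul_assoc, rtr_mul_comm]
    rw [a2, a3]
    ring
  rw [e1]
  have f0 : 0 ≤ fro (D x) := fro_nonneg _
  have b1 : rtr (D x * V) ≤ fro (D x) * fro V := (le_abs_self _).trans (abs_rtr_mul_le _ _)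
  have b2 : rtr (D x * (D x * D x)) ≤ fro (D x) ^ 3 := by
    refine ((le_abs_self _).trans (abs_rtr_mul_le _ _)).trans ?_
    have := mul_le_mul_of_nonneg_left (fro_mul_le (D x) (D x)) f0
    calc fro (D x) * fro (D x * D x) ≤ fro (D x) * (fro (D x) * fro (D x)) := this
      _ = fro (D x) ^ 3 := by ring
  have b3 : k0 * fro (D x) ^ 2 ≤ rtr (dg κ * (D x * D x)) := by
    have hpsd : (D x * D x).PosSemidef := by
      have := Matrix.posSemidef_conjTranspose_mul_self (D x)
      rwa [hDh x] at this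
    have hK : (dg κ - sc J k0).PosSemidef := by
      rw [sc_eq_dg, dg_sub]
      exact dg_posSemidef fun i => sub_nonneg.2 (hk i)
    have := rtr_mul_le_mul hK hpsd
    rw [sc_mul, rtr_smul] at this
    rw [sq_fro, fro2_eq, hDh x]
    exact this
  show 4 * k0 * fro (D x) ^ 2 - 2 * fro (D x) ^ 3 - 2 * fro (D x) * fro V ≤ _
  linarith


theorem aux_alg {k0 ε f g v u' : ℝ} (hk0 : 0 < k0) (hε : 0 < ε) (hf : 0 ≤ f) (hv : 0 ≤ v)
    (hfk : f ≤ k0) (hg : 0 < g) (hg2 : g ^ 2 = f ^ 2 + ε ^ 2)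
    (hu : 4 * k0 * f ^ 2 - 2 * f ^ 3 - 2 * f * v ≤ u') :
    k0 * g - (v + k0 * ε) ≤ u' / (2 * g) := by
  have h1 : f ≤ g := by nlinarith [sq_nonneg ε]
  have h2 : ε ≤ g := by nlinarith [sq_nonneg f]
  rw [le_div_iff₀ (by positivity)]
  have h3 : f ^ 3 ≤ k0 * f ^ 2 := by
    have : f ^ 3 = f * f ^ 2 := by ring
    rw [this]
    exact mul_le_mul_of_nonneg_right hfk (sq_nonneg f)
  have h4 : f * v ≤ g * v := mul_le_mul_of_nonneg_right h1 hv
  have h5 : k0 * ε * ε ≤ k0 * ε * g := mul_le_mul_of_nonneg_left h2 (by positivity)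
  have h6 : k0 * g ^ 2 = k0 * f ^ 2 + k0 * ε * ε := by rw [hg2]; ring
  nlinarith

theorem main {κ : Fin J → ℝ} {p k0 : ℝ} (hp : 1 < p) (hk0 : 0 < k0) (hk : ∀ i, k0 ≤ κ i)
    {q V V1 : ℝ → Mt J} {L l : ℝ} (hLl : L ≤ l)
    (hq : ∀ x, HasDerivAt q (V x - dg κ * dg κ + q x * q x) x) (hV : Continuous V)
    (hV1 : Continuous V1) (hb : ∀ x, Btw κ (q x)) (hql : q l = dg κ)
    (h1 : ∫ x in L..l, fro (V1 x) ^ p ≤ (k0 / 8) / (1 + (k0 ^ 2 / 8) ^ (1 - p)))
    (h2 : ∫ x in L..l, fro (V x - V1 x) ≤ (k0 / 8) / (1 + (k0 ^ 2 / 8) ^ (1 - p))) :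
    fro (dg κ - q L) ≤ k0 / 2 := by
  set δ : ℝ := k0 ^ 2 / 8 with hδ
  have hδ0 : 0 < δ := by positivity
  set ε : ℝ := k0 / 32 with hε
  have hε0 : 0 < ε := by positivity
  set A : ℝ := δ ^ (1 - p) with hA
  have hA0 : 0 < A := Real.rpow_pos_of_pos hδ0 _
  set η : ℝ := (k0 / 8) / (1 + A) with hη
  set c : ℝ := (δ + k0 * ε) / k0 with hc
  have hcv : c = k0 / 8 + k0 / 32 := by
    rw [hc, hδ, hε]
    field_simp
  have hck : k0 * c = δ + k0 * ε := by rw [hc]; field_simp
  by_contra hcon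
  push Not at hcon
  set f : ℝ → ℝ := fun x => fro (dg κ - q x) with hf
  have hqc : Continuous q := cont_of_deriv hq
  have hfc : Continuous f := continuous_fro'.comp (continuous_const.sub hqc)
  have hf0 : ∀ x, 0 ≤ f x := fun x => fro_nonneg _
  -- the largest `y1` with `k0 / 2 ≤ f y1`
  have hcomp : IsCompact (Set.Icc L l ∩ f ⁻¹' Set.Ici (k0 / 2)) :=
    isCompact_Icc.inter_right (isClosed_Ici.preimage hfc)
  obtain ⟨y1, hy1, hy1max⟩ := hcomp.exists_isGreatest ⟨L, ⟨le_rfl, hLl⟩, hcon.le⟩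
  have hy1f : k0 / 2 ≤ f y1 := hy1.2
  have hlt : ∀ x, y1 < x → x ≤ l → f x < k0 / 2 := by
    intro x hx hxl
    by_contra hge
    push Not at hge
    exact absurd (hy1max ⟨⟨hy1.1.1.trans hx.le, hxl⟩, hge⟩) (not_le.2 hx)
  choose u' hu' hu'b using fun x => deriv_u hk (hq x) hb
  set g : ℝ → ℝ := fun x => Real.sqrt (fro2 (dg κ - q x) + ε ^ 2) with hg
  have hupos : ∀ x, 0 < fro2 (dg κ - q x) + ε ^ 2 := fun x => by
    have := fro2_nonneg (dg κ - q x)
    positivity
  have hgpos : ∀ x, 0 < g x := fun x => Real.sqrt_pos.2 (hupos x)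
  have hg2 : ∀ x, g x ^ 2 = f x ^ 2 + ε ^ 2 := fun x => by
    simp only [hg, hf]
    rw [Real.sq_sqrt (hupos x).le, sq_fro]
  have hgd : ∀ x, HasDerivAt g (u' x / (2 * g x)) x := fun x =>
    ((hu' x).add_const (ε ^ 2)).sqrt (hupos x).ne'
  set B : ℝ → ℝ := fun x => A * fro (V1 x) ^ p + fro (V x - V1 x) with hB
  have hBc : Continuous B := by
    refine (continuous_const.mul ?_).add (continuous_fro'.comp (hV.sub hV1))
    exact (continuous_fro'.comp hV1).rpow_const fun x => Or.inr (by linarith)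
  have hB0 : ∀ x, 0 ≤ B x := fun x => by
    simp only [hB]
    have := fro_nonneg (V1 x)
    have := fro_nonneg (V x - V1 x)
    positivity
  have hVB : ∀ x, fro (V x) ≤ δ + B x := fun x => by
    have e1 : fro (V x) ≤ fro (V1 x) + fro (V x - V1 x) := by
      have := fro_add_le (V1 x) (V x - V1 x)
      rwa [add_sub_cancel] at this
    have e2 := young_lin (fro_nonneg (V1 x)) hδ0 hp
    simp only [hB]
    linarith
  -- the monotone quantity
  set F : ℝ → ℝ := fun x => - (Real.exp (-k0 * x) * (g x - c)) with hF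
  have hexpd : ∀ x, HasDerivAt (fun y => Real.exp (-k0 * y)) (Real.exp (-k0 * x) * (-k0)) x := by
    intro x
    have : HasDerivAt (fun y : ℝ => -k0 * y) (-k0) x := by
      simpa using (hasDerivAt_id x).const_mul (-k0)
    exact this.exp
  have hFd : ∀ x, HasDerivAt F (- (Real.exp (-k0 * x) * (-k0) * (g x - c) +
      Real.exp (-k0 * x) * (u' x / (2 * g x)))) x := fun x =>
    ((hexpd x).mul ((hgd x).sub_const c)).neg
  have hint : F l - F y1 ≤ ∫ x in y1..l, Real.exp (-k0 * y1) * B x := by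
    refine intervalIntegral.sub_le_integral_of_hasDeriv_right_of_le hy1.1.2
      (fun x _ => (hFd x).continuousAt.continuousWithinAt)
      (fun x _ => (hFd x).hasDerivWithinAt)
      ((continuous_const.mul hBc).integrableOn_Icc) ?_
    intro x hx
    have hfx := hlt x hx.1 hx.2.le
    have key := aux_alg hk0 hε0 (hf0 x) (fro_nonneg (V x)) (by linarith) (hgpos x) (hg2 x)
      (hu'b x)
    have hE : 0 < Real.exp (-k0 * x) := Real.exp_pos _
    have hE2 : Real.exp (-k0 * x) ≤ Real.exp (-k0 * y1) :=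
      Real.exp_le_exp.2 (by nlinarith [hx.1])
    have e3 : k0 * (g x - c) - u' x / (2 * g x) ≤ B x := by
      have := hVB x
      nlinarith
    calc - (Real.exp (-k0 * x) * (-k0) * (g x - c) + Real.exp (-k0 * x) * (u' x / (2 * g x)))
        = Real.exp (-k0 * x) * (k0 * (g x - c) - u' x / (2 * g x)) := by ring
      _ ≤ Real.exp (-k0 * x) * B x := mul_le_mul_of_nonneg_left e3 hE.le
      _ ≤ Real.exp (-k0 * y1) * B x := mul_le_mul_of_nonneg_right hE2 (hB0 x)
  have hBint : ∫ x in y1..l, B x ≤ (1 + A) * η := by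
    have e1 : ∫ x in y1..l, B x ≤ ∫ x in L..l, B x :=
      intervalIntegral.integral_mono_interval hy1.1.1 hy1.1.2 le_rfl
        (Eventually.of_forall hB0) (hBc.intervalIntegrable _ _)
    have e2 : ∫ x in L..l, B x = A * (∫ x in L..l, fro (V1 x) ^ p) +
        ∫ x in L..l, fro (V x - V1 x) := by
      simp only [hB]
      rw [intervalIntegral.integral_add, intervalIntegral.integral_const_mul]
      · refine Continuous.intervalIntegrable (continuous_const.mul ?_) _ _
        exact (continuous_fro'.comp hV1).rpow_const fun x => Or.inr (by linarith)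
      · exact (continuous_fro'.comp (hV.sub hV1)).intervalIntegrable _ _
    rw [e2] at e1
    have := mul_le_mul_of_nonneg_left h1 hA0.le
    linarith
  rw [intervalIntegral.integral_const_mul] at hint
  have hηv : (1 + A) * η = k0 / 8 := by
    rw [hη]; field_simp
  rw [hηv] at hBint
  have hFl : 0 ≤ F l := by
    simp only [hF, hg, hql, sub_self, fro2_zero, zero_add]
    rw [Real.sqrt_sq hε0.le]
    have : ε - c ≤ 0 := by rw [hcv, hε]; linarith
    have hE : 0 < Real.exp (-k0 * l) := Real.exp_pos _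
    nlinarith
  have hE : 0 < Real.exp (-k0 * y1) := Real.exp_pos _
  have h5 : Real.exp (-k0 * y1) * (g y1 - c) ≤ Real.exp (-k0 * y1) * (k0 / 8) := by
    have e1 : F y1 = - (Real.exp (-k0 * y1) * (g y1 - c)) := rfl
    have e2 := mul_le_mul_of_nonneg_left hBint hE.le
    linarith
  have h6 : g y1 - c ≤ k0 / 8 := le_of_mul_le_mul_left h5 hE
  have h7 : f y1 ≤ g y1 := by
    have := hg2 y1
    nlinarith [hf0 y1, hgpos y1, sq_nonneg ε]
  rw [hcv] at h6
  linarith

end Crest.Agent.R332.NONST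

namespace Crest.Agent.R332

theorem nonst : NONST := by
  intro J p hp k0 hk0
  refine ⟨(k0 / 8) / (1 + (k0 ^ 2 / 8) ^ (1 - p)), ?_, ?_⟩
  · have : 0 < (k0 ^ 2 / 8) ^ (1 - p) := Real.rpow_pos_of_pos (by positivity) _
    positivity
  · intro κ hk q V V1 L l hLl hq hV hV1 hb hql h1 h2
    exact NONST.main hp hk0 hk hLl hq hV hV1 hb hql h1 h2

end Crest.Agent.R332
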