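import Crest.Agent.R332.SPEC

/-! Line integral of the calibration gradient. -/

set_option autoImplicit false

open MeasureTheory Matrix Filter Topology
open Crest.MathPhysics.LiebThirring
open scoped ComplexOrder

namespace Crest.Agent.R332

namespace PATHaux

variable {N : ℕ}

noncomputable def eta (z : ℝ) : ℝ := z * Real.log z

theorem scalar_klein {a b : ℝ} (ha : 0 < a) (hb : 0 < b) :
    0 ≤ b * Real.log b - b * Real.log a - b + a := by
  have h := Real.log_le_sub_one_of_pos (x := a / b) (by positivity)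
  rw [Real.log_div ha.ne' hb.ne'] at h
  have h2 : b * (Real.log a - Real.log b) ≤ b * (a / b - 1) := mul_le_mul_of_nonneg_left h hb.le
  have h3 : b * (a / b - 1) = a - b := by field_simp
  nlinarith

theorem klein {A B : Mt N} (hA : A.PosDef) (hB : B.PosDef) :
    rtr ((B - A) * lg A) + rtr (B - A) ≤ rtr (cfc eta B) - rtr (cfc eta A) := by
  obtain ⟨p, hp0, hp1, hp2, hp⟩ := spec N A B hA.1 hB.1
  have e1 : rtr (cfc eta B) =
      ∑ i, ∑ j, p i j * (1 * eta (hB.1.eigenvalues j)) := by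
    rw [← hp (fun _ => 1) eta, cfc_const_mt hA.1, sc_one, Matrix.one_mul]
  have e2 : rtr (cfc eta A) =
      ∑ i, ∑ j, p i j * (eta (hA.1.eigenvalues i) * 1) := by
    rw [← hp eta (fun _ => 1), cfc_const_mt hB.1, sc_one, Matrix.mul_one]
  have e3 : rtr (B * lg A) =
      ∑ i, ∑ j, p i j * (Real.log (hA.1.eigenvalues i) * hB.1.eigenvalues j) := by
    rw [← hp Real.log (fun x => x), cfc_id_mt hB.1, rtr_mul_comm]; rfl
  have e4 : rtr (A * lg A) = rtr (cfc eta A) := by
    have : A * lg A = cfc eta A := by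
      have h := cfc_mul_mt hA.1 (fun x => x) Real.log
      rw [cfc_id_mt hA.1] at h
      exact h
    rw [this]
  have e5 : rtr B = ∑ i, ∑ j, p i j * (1 * hB.1.eigenvalues j) := by
    rw [← hp (fun _ => 1) (fun x => x), cfc_const_mt hA.1, sc_one, Matrix.one_mul,
      cfc_id_mt hB.1]
  have e6 : rtr A = ∑ i, ∑ j, p i j * (hA.1.eigenvalues i * 1) := by
    rw [← hp (fun x => x) (fun _ => 1), cfc_const_mt hB.1, sc_one, Matrix.mul_one,
      cfc_id_mt hA.1]
  rw [Matrix.sub_mul, rtr_sub, rtr_sub, e4, e1, e3, e5, e6]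
  have key : 0 ≤ ∑ i, ∑ j, p i j * (hB.1.eigenvalues j * Real.log (hB.1.eigenvalues j) -
      hB.1.eigenvalues j * Real.log (hA.1.eigenvalues i) - hB.1.eigenvalues j +
        hA.1.eigenvalues i) :=
    Finset.sum_nonneg fun i _ => Finset.sum_nonneg fun j _ =>
      mul_nonneg (hp0 i j) (scalar_klein (hA.eigenvalues_pos i) (hB.eigenvalues_pos j))
  have e7 : ∑ i, ∑ j, p i j * (hB.1.eigenvalues j * Real.log (hB.1.eigenvalues j) -
      hB.1.eigenvalues j * Real.log (hA.1.eigenvalues i) - hB.1.eigenvalues j +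
        hA.1.eigenvalues i) =
      (∑ i, ∑ j, p i j * (1 * eta (hB.1.eigenvalues j))) -
      (∑ i, ∑ j, p i j * (Real.log (hA.1.eigenvalues i) * hB.1.eigenvalues j)) -
      (∑ i, ∑ j, p i j * (1 * hB.1.eigenvalues j)) +
      ∑ i, ∑ j, p i j * (hA.1.eigenvalues i * 1) := by
    simp only [← Finset.sum_add_distrib, ← Finset.sum_sub_distrib]
    refine Finset.sum_congr rfl fun i _ => Finset.sum_congr rfl fun j _ => ?_
    unfold eta
    ring
  linarith

theorem klein_abs {A B : Mt N} (hA : A.PosDef) (hB : B.PosDef) :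
    |rtr (cfc eta B) - rtr (cfc eta A) - (rtr ((B - A) * lg A) + rtr (B - A))| ≤
      |rtr ((B - A) * (lg B - lg A))| := by
  have h1 := klein hA hB
  have h2 := klein hB hA
  rw [abs_of_nonneg (by linarith)]
  refine le_trans ?_ (le_abs_self _)
  have e1 : rtr ((A - B) * lg B) = - rtr ((B - A) * lg B) := by
    rw [← rtr_neg, ← Matrix.neg_mul, neg_sub]
  have e2 : rtr (A - B) = - rtr (B - A) := by
    rw [← rtr_neg, neg_sub]
  have e3 : rtr ((B - A) * (lg B - lg A)) = rtr ((B - A) * lg B) - rtr ((B - A) * lg A) := by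
    rw [Matrix.mul_sub, rtr_sub]
  rw [e1, e2] at h2
  rw [e3]
  linarith

theorem deriv_zero_of_mul {u v : ℝ → ℂ} {u' : ℂ} {s : Set ℝ} {x : ℝ}
    (hu : HasDerivWithinAt u u' s x) (hux : u x = 0) (hv : ContinuousWithinAt v s x)
    (hvx : v x = 0) : HasDerivWithinAt (fun y => u y * v y) 0 s x := by
  rw [hasDerivWithinAt_iff_isLittleO]
  have h1 : (fun y => u y) =O[𝓝[s] x] fun y => y - x := by
    have h := hu.isBigO_sub
    simpa [Function.comp_def, hux] using h
  have h2 : (fun y => v y) =o[𝓝[s] x] fun _ => (1 : ℝ) := by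
    rw [Asymptotics.isLittleO_one_iff]
    have := hv.tendsto
    rwa [hvx] at this
  have h3 := h1.mul_isLittleO h2
  simpa [hux, hvx] using h3

/-- derivative of `tr η(A)` -/
theorem trace_eta_deriv {A : ℝ → Mt N} {A' : Mt N} {s : Set ℝ} {x : ℝ} (hx : x ∈ s)
    (hA : HasDerivWithinAt A A' s x) (hpos : ∀ y ∈ s, (A y).PosDef) :
    HasDerivWithinAt (fun y => rtr (cfc eta (A y))) (rtr (A' * lg (A x)) + rtr A') s x := by
  have hsub : HasDerivWithinAt (fun y => A y - A x) A' s x := by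
    simpa using HDW.sub hA (HDW.const (A x) s x)
  have hg : HasDerivWithinAt (fun y => rtr ((A y - A x) * lg (A x)) + rtr (A y - A x))
      (rtr (A' * lg (A x)) + rtr A') s x :=
    (HDW.rtr (HDW.mul_right (lg (A x)) hsub)).add (HDW.rtr hsub)
  have hcont : ContinuousWithinAt (fun y => lg (A y)) s x := by
    have h1 : ContinuousWithinAt A s x := contWithinAt_of_deriv hA
    exact ((lgc N).continuousWithinAt (hpos x hx)).comp h1 hpos
  have hh : HasDerivWithinAt (fun y => rtr ((A y - A x) * (lg (A y) - lg (A x)))) 0 s x := by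
    have h2 : HasDerivWithinAt (fun y => ((A y - A x) * (lg (A y) - lg (A x))).trace) 0 s x := by
      have h3 : HasDerivWithinAt (fun y => ∑ i, ∑ j, (A y - A x) i j * (lg (A y) - lg (A x)) j i)
          (∑ _i : Fin N, ∑ _j : Fin N, (0 : ℂ)) s x := by
        refine HasDerivWithinAt.fun_sum fun i _ => HasDerivWithinAt.fun_sum fun j _ => ?_
        refine deriv_zero_of_mul (u' := A' i j) ?_ (by simp) ?_ (by simp)
        · exact hasDerivWithinAt_iff_entry.1 hsub i j
        · have h4 : ContinuousWithinAt (fun y => lg (A y) - lg (A x)) s x :=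
            hcont.sub continuousWithinAt_const
          exact ((continuous_apply i).comp (continuous_apply j)).continuousAt.comp_continuousWithinAt h4
      simpa [Matrix.trace, Matrix.mul_apply] using h3
    simpa [rtr] using HDW.re h2
  have hd : HasDerivWithinAt (fun y => rtr (cfc eta (A y)) - rtr (cfc eta (A x)) -
      (rtr ((A y - A x) * lg (A x)) + rtr (A y - A x))) 0 s x := by
    rw [hasDerivWithinAt_iff_isLittleO] at hh ⊢
    simp only [sub_self, Matrix.zero_mul, rtr_zero, add_zero, sub_zero, smul_zero] at hh ⊢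
    refine (Asymptotics.IsBigO.of_bound 1 ?_).trans_isLittleO hh
    filter_upwards [self_mem_nhdsWithin] with y hy
    rw [one_mul, Real.norm_eq_abs, Real.norm_eq_abs]
    exact klein_abs (hpos x hx) (hpos y hy)
  have hsum := (hd.add hg).add_const (rtr (cfc eta (A x)))
  rw [zero_add] at hsum
  refine hsum.congr_of_eventuallyEq ?_ ?_
  · filter_upwards with y
    simp only [Pi.add_apply]
    ring
  · simp only [Pi.add_apply]
    ring

theorem Kt_isHermitian (κ : Fin N → ℝ) (t : ℝ) : (Kt κ t).IsHermitian := dg_isHermitian _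

theorem sqrt_gt {k t : ℝ} (hk : 0 < k) (ht : 0 < t) : k < Real.sqrt (k ^ 2 + t) := by
  rw [Real.lt_sqrt hk.le]
  linarith

theorem Kt_sub_posDef {κ : Fin N → ℝ} (hκ : ∀ i, 0 < κ i) {t : ℝ} (ht : 0 < t) :
    (Kt κ t - dg κ).PosDef := by
  unfold Kt
  rw [dg_sub]
  exact dg_posDef fun i => sub_pos.2 (sqrt_gt (hκ i) ht)

theorem add_posDef {κ : Fin N → ℝ} (hκ : ∀ i, 0 < κ i) {t : ℝ} (ht : 0 < t) {Q : Mt N}
    (hQ : Btw κ Q) : (Kt κ t + Q).PosDef := by
  have h := (Kt_sub_posDef hκ ht).add_posSemidef hQ.2.1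
  have e : Kt κ t - dg κ + (dg κ + Q) = Kt κ t + Q := by abel
  rwa [e] at h

theorem sub_posDef {κ : Fin N → ℝ} (hκ : ∀ i, 0 < κ i) {t : ℝ} (ht : 0 < t) {Q : Mt N}
    (hQ : Btw κ Q) : (Kt κ t - Q).PosDef := by
  have h := (Kt_sub_posDef hκ ht).add_posSemidef hQ.2.2
  have e : Kt κ t - dg κ + (dg κ - Q) = Kt κ t - Q := by abel
  rwa [e] at h

/-- the potential -/
noncomputable def U (κ : Fin N → ℝ) (t : ℝ) (Q : Mt N) : ℝ :=
  rtr (cfc eta (Kt κ t + Q)) - rtr (cfc eta (Kt κ t - Q)) - (2 + Real.log t) * rtr Q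

theorem U_deriv {κ : Fin N → ℝ} (hκ : ∀ i, 0 < κ i) {t : ℝ} (ht : 0 < t) {s : Set ℝ}
    {Q : ℝ → Mt N} {Q' : Mt N} {x : ℝ} (hx : x ∈ s) (hQ : HasDerivWithinAt Q Q' s x)
    (hb : ∀ y ∈ s, Btw κ (Q y)) :
    HasDerivWithinAt (fun y => U κ t (Q y)) (rtr (Hm κ (Q x) t * Q')) s x := by
  have h1 : HasDerivWithinAt (fun y => Kt κ t + Q y) Q' s x := by
    simpa using HDW.add (HDW.const (Kt κ t) s x) hQ
  have h2 : HasDerivWithinAt (fun y => Kt κ t - Q y) (-Q') s x := by
    simpa using HDW.sub (HDW.const (Kt κ t) s x) hQ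
  have d1 := trace_eta_deriv hx h1 fun y hy => add_posDef hκ ht (hb y hy)
  have d2 := trace_eta_deriv hx h2 fun y hy => sub_posDef hκ ht (hb y hy)
  have d3 := (d1.sub d2).sub ((HDW.rtr hQ).const_mul (2 + Real.log t))
  refine d3.congr_deriv ?_
  unfold Hm
  rw [Matrix.sub_mul, Matrix.add_mul, rtr_sub, rtr_add, sc_mul, rtr_smul,
    Matrix.neg_mul, rtr_neg, rtr_neg, rtr_mul_comm Q' (lg (Kt κ t + Q x)),
    rtr_mul_comm Q' (lg (Kt κ t - Q x))]
  ring

theorem scalar_int {k t : ℝ} (hk : 0 < k) (ht : 0 < t) :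
    ∫ q in (-k)..k, Real.log (1 + (k ^ 2 - q ^ 2) / t) =
      2 * (eta (Real.sqrt (k ^ 2 + t) + k) - eta (Real.sqrt (k ^ 2 + t) - k) -
        (2 + Real.log t) * k) := by
  set K := Real.sqrt (k ^ 2 + t) with hK
  have hKk : k < K := sqrt_gt hk ht
  have hK2 : K ^ 2 = k ^ 2 + t := Real.sq_sqrt (by positivity)
  have hder : ∀ q ∈ Set.uIcc (-k) k, HasDerivAt
      (fun q => eta (K + q) - eta (K - q) - (2 + Real.log t) * q)
      (Real.log (1 + (k ^ 2 - q ^ 2) / t)) q := by
    intro q hq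
    rw [Set.uIcc_of_le (by linarith)] at hq
    have p1 : 0 < K + q := by linarith [hq.1]
    have p2 : 0 < K - q := by linarith [hq.2]
    have e1 : HasDerivAt (fun q => eta (K + q)) (Real.log (K + q) + 1) q := by
      have h := Real.hasDerivAt_mul_log p1.ne'
      have h2 : HasDerivAt (fun q => K + q) 1 q := by
        simpa using (hasDerivAt_id q).const_add K
      simpa [eta, Function.comp_def] using h.comp q h2
    have e2 : HasDerivAt (fun q => eta (K - q)) (-(Real.log (K - q) + 1)) q := by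
      have h := Real.hasDerivAt_mul_log p2.ne'
      have h2 : HasDerivAt (fun q => K - q) (-1) q := by
        simpa using (hasDerivAt_id q).const_sub K
      simpa [eta, Function.comp_def] using h.comp q h2
    have e3 : HasDerivAt (fun q => (2 + Real.log t) * q) (2 + Real.log t) q := by
      simpa using (hasDerivAt_id q).const_mul (2 + Real.log t)
    refine ((e1.sub e2).sub e3).congr_deriv ?_
    have e4 : 1 + (k ^ 2 - q ^ 2) / t = (K + q) * (K - q) / t := by
      field_simp
      nlinarith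
    rw [e4, Real.log_div (mul_pos p1 p2).ne' ht.ne', Real.log_mul p1.ne' p2.ne']
    ring
  have hcont : ContinuousOn (fun q => Real.log (1 + (k ^ 2 - q ^ 2) / t)) (Set.uIcc (-k) k) := by
    refine ContinuousOn.log (by fun_prop) fun q hq => ?_
    rw [Set.uIcc_of_le (by linarith)] at hq
    have : 0 ≤ (k ^ 2 - q ^ 2) / t := by
      refine div_nonneg ?_ ht.le
      nlinarith [hq.1, hq.2]
    linarith
  rw [intervalIntegral.integral_eq_sub_of_hasDerivAt hder hcont.intervalIntegrable]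
  have : K + -k = K - k := by ring
  have h3 : K - -k = K + k := by ring
  rw [this, h3]
  ring

theorem U_end (κ : Fin N → ℝ) (t : ℝ) :
    U κ t (dg κ) = ∑ i, (eta (Real.sqrt (κ i ^ 2 + t) + κ i) -
      eta (Real.sqrt (κ i ^ 2 + t) - κ i) - (2 + Real.log t) * κ i) := by
  unfold U Kt
  rw [dg_add, dg_sub, cfc_dg, cfc_dg, rtr_dg, rtr_dg, rtr_dg, Finset.mul_sum,
    ← Finset.sum_sub_distrib, ← Finset.sum_sub_distrib]
  rfl

theorem U_neg (κ : Fin N → ℝ) (t : ℝ) (Q : Mt N) : U κ t (-Q) = - U κ t Q := by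
  unfold U
  rw [sub_neg_eq_add, ← sub_eq_add_neg, rtr_neg]
  ring

end PATHaux

open PATHaux in
theorem path_ : PATH := by
  intro N κ hκ t ht a b hab Q Q' hQ hQ' hb hQa hQb
  have hcQ : ContinuousOn Q (Set.Icc a b) := contOn_of_deriv hQ
  have hd : ∀ x ∈ Set.Icc a b, HasDerivWithinAt (fun y => U κ t (Q y))
      (rtr (Hm κ (Q x) t * Q' x)) (Set.Icc a b) x := fun x hx => U_deriv hκ ht hx (hQ x hx) hb
  have hc1 : ContinuousOn (fun x => lg (Kt κ t + Q x)) (Set.Icc a b) :=
    (lgc N).comp (continuousOn_const.add hcQ) fun x hx => add_posDef hκ ht (hb x hx)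
  have hc2 : ContinuousOn (fun x => lg (Kt κ t - Q x)) (Set.Icc a b) :=
    (lgc N).comp (continuousOn_const.sub hcQ) fun x hx => sub_posDef hκ ht (hb x hx)
  have hc3 : ContinuousOn (fun x => rtr (Hm κ (Q x) t * Q' x)) (Set.Icc a b) := by
    refine continuous_rtr.comp_continuousOn ?_
    have : ContinuousOn (fun x => Hm κ (Q x) t) (Set.Icc a b) :=
      (hc1.add hc2).sub continuousOn_const
    exact this.mul hQ'
  have h1 : ∫ x in a..b, rtr (Hm κ (Q x) t * Q' x) = U κ t (Q b) - U κ t (Q a) := by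
    refine intervalIntegral.integral_eq_sub_of_hasDeriv_right_of_le hab.le
      (fun x hx => (hd x hx).continuousWithinAt) (fun x hx => ?_) ?_
    · have h2 := hd x (Set.Ioo_subset_Icc_self hx)
      exact (h2.hasDerivAt (Icc_mem_nhds hx.1 hx.2)).hasDerivWithinAt
    · refine ContinuousOn.intervalIntegrable ?_
      rwa [Set.uIcc_of_le hab.le]
  rw [h1, hQa, hQb, U_neg, U_end, sub_neg_eq_add, ← two_mul, Finset.mul_sum]
  exact Finset.sum_congr rfl fun i _ => (scalar_int (hκ i) ht).symm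


end Crest.Agent.R332
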