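import Crest.Agent.R332.Defs
import Crest.Agent.R332.LIBK
import Crest.Agent.R332.LIBD
import Crest.Agent.R332.ODE

set_option autoImplicit false

open MeasureTheory Matrix Filter Topology
open Crest.MathPhysics.LiebThirring
open scoped ComplexOrder NNReal

namespace Crest.Agent.R332

namespace POS

/-- solve `ψ' = G ψ` on `[a, x0]` with terminal value -/
theorem back {N : ℕ} {a x0 : ℝ} (hax : a ≤ x0) (G : ℝ → Mt N)
    (hG : ContinuousOn G (Set.Icc a x0)) (v : Fin N → ℂ) :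
    ∃ ψ : ℝ → Fin N → ℂ, ψ x0 = v ∧
      ∀ x ∈ Set.Icc a x0, HasDerivWithinAt ψ (G x *ᵥ ψ x) (Set.Icc a x0) x := by
  -- bound of the entries
  have hGc : ContinuousOn (fun x => ∑ i, ∑ j, ‖G x i j‖) (Set.Icc a x0) := by
    refine continuousOn_finsetSum _ fun i _ => continuousOn_finsetSum _ fun j _ => ?_
    have h1 : Continuous (fun M : Mt N => ‖M i j‖) :=
      continuous_norm.comp ((continuous_apply j).comp (continuous_apply i))
    exact h1.comp_continuousOn hG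
  obtain ⟨M, hM⟩ := isCompact_Icc.exists_bound_of_continuousOn hGc
  have hflip : ∀ t ∈ Set.Icc (0 : ℝ) (x0 - a), x0 - t ∈ Set.Icc a x0 := fun t ht =>
    ⟨by linarith [ht.2], by linarith [ht.1]⟩
  have hbd : ∀ x ∈ Set.Icc a x0, ∀ y : Fin N → ℂ, ‖G x *ᵥ y‖ ≤ |M| * ‖y‖ := by
    intro x hx y
    rw [pi_norm_le_iff_of_nonneg (by positivity)]
    intro i
    have h1 : ‖(G x *ᵥ y) i‖ ≤ ∑ j, ‖G x i j‖ * ‖y j‖ := by
      simp only [Matrix.mulVec, dotProduct]
      refine (norm_sum_le _ _).trans ?_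
      exact Finset.sum_le_sum fun j _ => by rw [norm_mul]
    have h2 : ∑ j, ‖G x i j‖ * ‖y j‖ ≤ (∑ j, ‖G x i j‖) * ‖y‖ := by
      rw [Finset.sum_mul]
      exact Finset.sum_le_sum fun j _ =>
        mul_le_mul_of_nonneg_left (norm_le_pi_norm y j) (norm_nonneg _)
    have h3 : ∑ j, ‖G x i j‖ ≤ ∑ i, ∑ j, ‖G x i j‖ :=
      Finset.single_le_sum (f := fun i => ∑ j, ‖G x i j‖)
        (fun i _ => Finset.sum_nonneg fun j _ => norm_nonneg _) (Finset.mem_univ i)
    have h4 : ∑ i, ∑ j, ‖G x i j‖ ≤ |M| := by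
      have := hM x hx
      rw [Real.norm_eq_abs] at this
      exact (le_abs_self _).trans (this.trans (le_abs_self M))
    exact h1.trans (h2.trans (mul_le_mul_of_nonneg_right (h3.trans h4) (norm_nonneg _)))
  let K : ℝ≥0 := ⟨|M|, abs_nonneg M⟩
  obtain ⟨y, hy0, hy⟩ := ODE3.exists_sol (E := Fin N → ℂ)
    (f := fun t y => -(G (x0 - t) *ᵥ y)) (K := K) (a := 0) (b := x0 - a) (by linarith)
    (fun t ht => by
      refine LipschitzWith.of_dist_le_mul fun u w => ?_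
      rw [dist_eq_norm, dist_eq_norm]
      have : -(G (x0 - t) *ᵥ u) - -(G (x0 - t) *ᵥ w) = G (x0 - t) *ᵥ (w - u) := by
        rw [Matrix.mulVec_sub]; abel
      rw [this]
      have h := hbd (x0 - t) (hflip t ht) (w - u)
      rw [norm_sub_rev u w]
      exact h)
    (fun u => by
      have h1 : Continuous (fun M : Mt N => -(M *ᵥ u)) := by fun_prop
      refine h1.comp_continuousOn (hG.comp (by fun_prop) ?_)
      exact fun t ht => hflip t ht) v
  refine ⟨fun x => y (x0 - x), by simpa using hy0, fun x hx => ?_⟩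
  have hx' : x0 - x ∈ Set.Icc (0 : ℝ) (x0 - a) := ⟨by linarith [hx.2], by linarith [hx.1]⟩
  have h1 := hy (x0 - x) hx'
  have h2 : HasDerivWithinAt (fun x : ℝ => x0 - x) (-1) (Set.Icc a x0) x :=
    (hasDerivWithinAt_id x _).const_sub x0
  have h3 := h1.scomp x h2 (fun z hz => ⟨by linarith [hz.2], by linarith [hz.1]⟩)
  have e : x0 - (x0 - x) = x := by ring
  rw [e] at h3
  have e2 : (-1 : ℝ) • -(G x *ᵥ y (x0 - x)) = G x *ᵥ y (x0 - x) := by
    rw [neg_smul, one_smul, neg_neg]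
  rw [e2] at h3
  exact h3

end POS

theorem pos : POS := by
  intro N a b hab A V G hA hG hGh hAh hV hA0 x0 hx0
  rw [psd_iff_quad (hAh x0 hx0)]
  intro v
  have hsub : Set.Icc a x0 ⊆ Set.Icc a b := Set.Icc_subset_Icc_right hx0.2
  obtain ⟨ψ, hψ0, hψ⟩ := POS.back hx0.1 G (hG.mono hsub) v
  let Ψ : ℝ → Rc N 1 := fun x i _ => ψ x i
  have hΨ : ∀ x ∈ Set.Icc a x0, HasDerivWithinAt Ψ (G x * Ψ x) (Set.Icc a x0) x := by
    intro x hx
    rw [hasDerivWithinAt_iff_entry]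
    intro i j
    have h1 := hasDerivWithinAt_pi.1 (hψ x hx) i
    exact h1
  let F : ℝ → ℝ := fun x => rtr ((Ψ x)ᴴ * A x * Ψ x)
  have hF : ∀ x ∈ Set.Icc a x0,
      HasDerivWithinAt F (rtr ((Ψ x)ᴴ * V x * Ψ x)) (Set.Icc a x0) x := by
    intro x hx
    have h1 := hΨ x hx
    have h2 : HasDerivWithinAt A (V x - (A x * G x + G x * A x)) (Set.Icc a x0) x := by
      rw [hasDerivWithinAt_iff_entry]
      intro i j
      exact (hasDerivWithinAt_iff_entry.1 (hA x (hsub hx)) i j).mono hsub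
    have h3 := HDW.rtr (HDW.mul (HDW.mul (HDW.conjT h1) h2) h1)
    have e : ((G x * Ψ x)ᴴ * A x + (Ψ x)ᴴ * (V x - (A x * G x + G x * A x))) * Ψ x +
        (Ψ x)ᴴ * A x * (G x * Ψ x) = (Ψ x)ᴴ * V x * Ψ x := by
      rw [Matrix.conjTranspose_mul, (hGh x (hsub hx)).eq]
      simp only [Matrix.mul_sub, Matrix.sub_mul, Matrix.mul_add, Matrix.add_mul, Matrix.mul_assoc]
      abel
    rw [e] at h3
    exact h3
  have hquad : ∀ (B : Mt N) (x : ℝ), rtr ((Ψ x)ᴴ * B * Ψ x) = (star (ψ x) ⬝ᵥ (B *ᵥ ψ x)).re := by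
    intro B x
    unfold rtr
    rw [Matrix.trace_fin_one, Matrix.mul_assoc]
    rfl
  have hmono : MonotoneOn F (Set.Icc a x0) := by
    refine monotoneOn_of_hasDerivWithinAt_nonneg (convex_Icc a x0)
      (f' := fun x => rtr ((Ψ x)ᴴ * V x * Ψ x))
      (fun x hx => (hF x hx).continuousWithinAt) (fun x hx => ?_) (fun x hx => ?_)
    · exact (hF x (interior_subset hx)).mono interior_subset
    · rw [hquad]
      exact psd_quad (hV x (hsub (interior_subset hx))) _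
  have h0 : 0 ≤ F a := by
    change 0 ≤ rtr ((Ψ a)ᴴ * A a * Ψ a)
    rw [hquad]
    exact psd_quad hA0 _
  have h1 := hmono (Set.left_mem_Icc.2 hx0.1) (Set.right_mem_Icc.2 hx0.1) hx0.1
  have h2 : F x0 = (star v ⬝ᵥ (A x0 *ᵥ v)).re := by
    change rtr ((Ψ x0)ᴴ * A x0 * Ψ x0) = _
    rw [hquad, hψ0]
  rw [← h2]
  exact h0.trans h1

end Crest.Agent.R332
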