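import Crest.Agent.R332.LIBK

/-! R332 task PWI: the pointwise calibration inequality. -/

set_option autoImplicit false

open MeasureTheory Matrix Filter Topology
open Crest.MathPhysics.LiebThirring
open scoped ComplexOrder

namespace Crest.Agent.R332
namespace PWIa

variable {N : ℕ}

/-- `g (x) = t ((1 + x/t) log (1 + x/t) - x/t)` -/
theorem sig_eq (κ : Fin N → ℝ) (Q : Mt N) {X : Mt N} (hX : X.PosSemidef) {t : ℝ} (ht : 0 < t) :
    sig κ Q X t = rho κ Q t - rtr (Hm κ Q t * X) +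
      ∑ i, t * ((1 + hX.1.eigenvalues i / t) * Real.log (1 + hX.1.eigenvalues i / t) -
        hX.1.eigenvalues i / t) := by
  set L := lg (Kt κ t + Q) + lg (Kt κ t - Q) with hL
  have hH : Hm κ Q t = L - sc N (Real.log t) := rfl
  have hLH : L = Hm κ Q t + sc N (Real.log t) := by rw [hH]; abel
  -- the logarithm of `t + X`
  have h1 : lg (sc N t + X) = cfc (fun x => Real.log (t + x)) X := cfc_comp_sc_add hX.1 t _
  have h2 : sc N t + X = cfc (fun x : ℝ => t + x) X := by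
    have := cfc_comp_sc_add hX.1 t (fun x => x)
    rwa [cfc_id_mt ((sc_isHermitian t).add hX.1)] at this
  have h3 : rtr ((sc N t + X) * lg (sc N t + X)) =
      ∑ i, (t + hX.1.eigenvalues i) * Real.log (t + hX.1.eigenvalues i) := by
    rw [h1]
    conv_lhs => rw [h2]
    rw [cfc_mul_mt hX.1, rtr_cfc hX.1]
  have h4 : rtr X = ∑ i, hX.1.eigenvalues i := by
    have := rtr_cfc hX.1 (fun x => x)
    rwa [cfc_id_mt hX.1] at this
  have h8 : rtr ((sc N t + X) * Hm κ Q t) = t * rtr (Hm κ Q t) + rtr (Hm κ Q t * X) := by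
    rw [add_mul, rtr_add, sc_mul, rtr_smul, rtr_mul_comm X (Hm κ Q t)]
  have h9 : rtr (sc N t + X) = N * t + ∑ i, hX.1.eigenvalues i := by
    rw [rtr_add, rtr_sc, h4]
  have h10 : rtr ((sc N t + X) * sc N (Real.log t)) =
      Real.log t * (N * t + ∑ i, hX.1.eigenvalues i) := by
    rw [mul_sc, rtr_smul, h9]
  have h11 : rtr ((sc N t + X) * (L - lg (sc N t + X))) =
      t * rtr (Hm κ Q t) + rtr (Hm κ Q t * X) +
        Real.log t * (N * t + ∑ i, hX.1.eigenvalues i) -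
        ∑ i, (t + hX.1.eigenvalues i) * Real.log (t + hX.1.eigenvalues i) := by
    rw [mul_sub, rtr_sub, h3, hLH, mul_add, rtr_add ((sc N t + X) * Hm κ Q t), h8, h10]
  unfold sig rho
  rw [← hL, rtr_AB κ Q ht.le, h11, h9]
  have h5 : ∑ i, t * ((1 + hX.1.eigenvalues i / t) * Real.log (1 + hX.1.eigenvalues i / t) -
        hX.1.eigenvalues i / t) = (∑ i, (t + hX.1.eigenvalues i) *
          Real.log (t + hX.1.eigenvalues i)) - Real.log t * (N * t + ∑ i, hX.1.eigenvalues i) -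
          ∑ i, hX.1.eigenvalues i := by
    have h6 : (N : ℝ) * t = ∑ _i : Fin N, t := by simp
    rw [h6, ← Finset.sum_add_distrib, Finset.mul_sum, ← Finset.sum_sub_distrib,
      ← Finset.sum_sub_distrib]
    refine Finset.sum_congr rfl fun i _ => ?_
    have he := hX.eigenvalues_nonneg i
    have hpos : 0 < t + hX.1.eigenvalues i := by linarith
    have h7 : 1 + hX.1.eigenvalues i / t = (t + hX.1.eigenvalues i) / t := by
      field_simp
    rw [h7, Real.log_div hpos.ne' ht.ne']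
    field_simp
  rw [h5]
  ring

end PWIa

open PWIa in
theorem pwi : YINT → GINT → PWI := by
  intro hY hG s hs0 hs1 N κ hκ Q hQ V hV
  obtain ⟨hi1, hi2, hle⟩ := hY s hs0 hs1 N κ hκ Q hQ
  obtain ⟨hIs, hg⟩ := hG s hs0 hs1
  have hth : 0 < th s := by unfold th; positivity
  set X : Mt N := ((th s : ℝ) : ℂ) • V with hXdef
  have hX : X.PosSemidef := by
    have : X = ((th s : ℝ) : ℂ) • V := rfl
    rw [this]
    have h0 : (0 : ℂ) ≤ ((th s : ℝ) : ℂ) := by exact_mod_cast hth.le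
    exact hV.smul h0
  set ξ : Fin N → ℝ := hX.1.eigenvalues with hξ
  have hξ0 : ∀ i, 0 ≤ ξ i := hX.eigenvalues_nonneg
  have hint1 : IntegrableOn (fun t : ℝ => t ^ (s - 1) * rtr (Hm κ Q t * (V - Zm κ Q)))
      (Set.Ioi 0) := hi1 _
  have hsig : ∀ t ∈ Set.Ioi (0 : ℝ), t ^ (s - 1) * sig κ Q X t =
      (t ^ (s - 1) * rho κ Q t - th s * (t ^ (s - 1) * rtr (Hm κ Q t * V))) +
        ∑ i, t ^ (s - 1) * (t * ((1 + ξ i / t) * Real.log (1 + ξ i / t) - ξ i / t)) := by
    intro t ht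
    have hHX : rtr (Hm κ Q t * X) = th s * rtr (Hm κ Q t * V) := by
      have : X = ((th s : ℝ) : ℂ) • V := rfl
      rw [this, Matrix.mul_smul, rtr_smul]
    rw [← Finset.mul_sum]
    have hs' : sig κ Q X t = rho κ Q t - rtr (Hm κ Q t * X) +
      ∑ i, t * ((1 + ξ i / t) * Real.log (1 + ξ i / t) - ξ i / t) := sig_eq κ Q hX ht
    rw [hs', hHX]
    ring
  have hintP : ∀ i, IntegrableOn (fun t : ℝ => t ^ (s - 1) *
      (t * ((1 + ξ i / t) * Real.log (1 + ξ i / t) - ξ i / t))) (Set.Ioi 0) :=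
    fun i => (hg (ξ i) (hξ0 i)).2.1
  have hintS : IntegrableOn (fun t : ℝ => (t ^ (s - 1) * rho κ Q t -
      th s * (t ^ (s - 1) * rtr (Hm κ Q t * V))) +
        ∑ i, t ^ (s - 1) * (t * ((1 + ξ i / t) * Real.log (1 + ξ i / t) - ξ i / t)))
      (Set.Ioi 0) :=
    (hi2.sub ((hi1 V).const_mul _)).add (integrable_finsetSum _ fun i _ => hintP i)
  refine ⟨hint1, hintS.congr_fun (fun t ht => (hsig t ht).symm) measurableSet_Ioi, ?_⟩
  have e1 : ∫ t in Set.Ioi (0 : ℝ), t ^ (s - 1) * rtr (Hm κ Q t * (V - Zm κ Q)) =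
      (∫ t in Set.Ioi (0 : ℝ), t ^ (s - 1) * rtr (Hm κ Q t * V)) -
        ∫ t in Set.Ioi (0 : ℝ), t ^ (s - 1) * rtr (Hm κ Q t * Zm κ Q) := by
    rw [← integral_sub (hi1 V) (hi1 (Zm κ Q))]
    refine setIntegral_congr_fun measurableSet_Ioi fun t _ => ?_
    show t ^ (s - 1) * rtr (Hm κ Q t * (V - Zm κ Q)) = _
    rw [mul_sub (Hm κ Q t), rtr_sub, mul_sub]
  have e2 : ∫ t in Set.Ioi (0 : ℝ), t ^ (s - 1) * sig κ Q X t =
      ((∫ t in Set.Ioi (0 : ℝ), t ^ (s - 1) * rho κ Q t) -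
        th s * ∫ t in Set.Ioi (0 : ℝ), t ^ (s - 1) * rtr (Hm κ Q t * V)) +
        ∑ i, Is s / (1 + s) * ξ i ^ (1 + s) := by
    rw [setIntegral_congr_fun measurableSet_Ioi hsig]
    have hA : IntegrableOn (fun t : ℝ => t ^ (s - 1) * rho κ Q t -
        th s * (t ^ (s - 1) * rtr (Hm κ Q t * V))) (Set.Ioi 0) :=
      hi2.sub ((hi1 V).const_mul _)
    have hB : IntegrableOn (fun t : ℝ => ∑ i, t ^ (s - 1) *
        (t * ((1 + ξ i / t) * Real.log (1 + ξ i / t) - ξ i / t))) (Set.Ioi 0) :=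
      integrable_finsetSum _ fun i _ => hintP i
    rw [integral_add hA hB, integral_sub hi2 ((hi1 V).const_mul _), integral_const_mul,
      integral_finsetSum _ fun i _ => hintP i]
    congr 1
    exact Finset.sum_congr rfl fun i _ => (hg (ξ i) (hξ0 i)).2.2
  rw [e1, e2, ← Finset.mul_sum]
  have e3 : ∑ i, ξ i ^ (1 + s) = th s ^ (1 + s) * tracePow V (1 + s) := by
    rw [← tracePow_smul hV hth.le, tracePow_eq_sum hX.1]
  rw [e3]
  set a := ∫ t in Set.Ioi (0 : ℝ), t ^ (s - 1) * rtr (Hm κ Q t * V)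
  set b := ∫ t in Set.Ioi (0 : ℝ), t ^ (s - 1) * rtr (Hm κ Q t * Zm κ Q)
  set R := ∫ t in Set.Ioi (0 : ℝ), t ^ (s - 1) * rho κ Q t
  have h1s : (1 + s) ≠ 0 := by positivity
  have hths : (1 + s) * th s = s := by unfold th; field_simp
  have key : s * (a - b) + (1 + s) * (R - th s * a + Is s / (1 + s) *
      (th s ^ (1 + s) * tracePow V (1 + s))) =
      ((1 + s) * R - s * b) + (s - (1 + s) * th s) * a +
        Is s * th s ^ (1 + s) * tracePow V (1 + s) := by
    field_simp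
    ring
  rw [key, hths, sub_self, zero_mul, add_zero]
  linarith

end Crest.Agent.R332
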