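import Crest.Agent.R332.LIBC
import Crest.Agent.R332.LIBF

/-! RED: reduction of the energy matrix of a trial family to its negative part. -/

set_option autoImplicit false

open MeasureTheory Matrix Filter Topology
open Crest.MathPhysics.LiebThirring
open scoped ComplexOrder

namespace Crest.Agent.R332

/-- matrix of a family of vectors -/
def red_mat {m n : ℕ} (φ : Fin n → ℝ → Vec m) (x : ℝ) : Rc m n := fun a k => φ k x a

theorem red_inner {m n : ℕ} (φ ψ : Fin n → ℝ → Vec m) (x : ℝ) (k l : Fin n) :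
    inner ℂ (φ k x) (ψ l x) = ((red_mat φ x)ᴴ * red_mat ψ x) k l := by
  rw [PiLp.inner_apply, Matrix.mul_apply]
  refine Finset.sum_congr rfl fun a _ => ?_
  simp [red_mat, mul_comm]

theorem red_innerW {m n : ℕ} (W : Mt m) (φ ψ : Fin n → ℝ → Vec m) (x : ℝ) (k l : Fin n) :
    inner ℂ (φ k x) (Matrix.toEuclideanLin W (ψ l x)) =
      ((red_mat φ x)ᴴ * W * red_mat ψ x) k l := by
  rw [Matrix.mul_assoc]
  rw [PiLp.inner_apply, Matrix.mul_apply]
  refine Finset.sum_congr rfl fun a _ => ?_
  simp [red_mat, Matrix.mul_apply, Matrix.mulVec, dotProduct, mul_comm,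
    Matrix.toLpLin_apply]

/-- entrywise integral of `A * M x * B` -/
theorem red_integral {n n' p q : ℕ} (A : Rc p n) (B : Rc n' q) (M : ℝ → Rc n n')
    (hM : ∀ k l, Integrable fun x => M x k l) (i : Fin p) (j : Fin q) :
    Integrable (fun x => (A * M x * B) i j) ∧
      ∫ x, (A * M x * B) i j = (A * (Matrix.of fun k l => ∫ x, M x k l) * B) i j := by
  have e : ∀ x, (A * M x * B) i j = ∑ l, ∑ k, A i k * M x k l * B l j := by
    intro x
    rw [Matrix.mul_apply]
    refine Finset.sum_congr rfl fun l _ => ?_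
    rw [Matrix.mul_apply, Finset.sum_mul]
  have hint : ∀ l k, Integrable fun x => A i k * M x k l * B l j := fun l k =>
    ((hM k l).const_mul _).mul_const _
  simp only [e]
  refine ⟨integrable_finsetSum _ fun l _ => integrable_finsetSum _ fun k _ => hint l k, ?_⟩
  rw [integral_finsetSum _ fun l _ => integrable_finsetSum _ fun k _ => hint l k]
  rw [Matrix.mul_apply]
  refine Finset.sum_congr rfl fun l _ => ?_
  rw [integral_finsetSum _ fun k _ => hint l k, Matrix.mul_apply, Finset.sum_mul]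
  refine Finset.sum_congr rfl fun k _ => ?_
  rw [integral_mul_const, integral_const_mul]
  rfl

/-- entries of a PSD matrix are bounded by `m + tr W^p` -/
theorem red_entry {m : ℕ} {W : Mt m} (hW : W.PosSemidef) (a b : Fin m) :
    ‖W a b‖ ≤ Real.sqrt (∑ i, hW.1.eigenvalues i ^ 2) := by
  refine (norm_apply_le_fro W a b).trans ?_
  unfold fro
  rw [fro2_herm hW.1]

theorem red_entry' {m : ℕ} {W : Mt m} (hW : W.PosSemidef) {p : ℝ} (hp : 1 ≤ p) (a b : Fin m) :
    ‖W a b‖ ≤ m + tracePow W p := by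
  refine (red_entry hW a b).trans ?_
  have h0 := hW.eigenvalues_nonneg
  have h1 : Real.sqrt (∑ i, hW.1.eigenvalues i ^ 2) ≤ ∑ i, hW.1.eigenvalues i := by
    rw [Real.sqrt_le_left (Finset.sum_nonneg fun i _ => h0 i)]
    exact Finset.sum_sq_le_sq_sum_of_nonneg fun i _ => h0 i
  refine h1.trans ?_
  rw [tracePow_eq_sum hW.1]
  have h2 : ∀ i, hW.1.eigenvalues i ≤ 1 + hW.1.eigenvalues i ^ p := by
    intro i
    rcases le_total (hW.1.eigenvalues i) 1 with h | h
    · have := Real.rpow_nonneg (h0 i) p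
      linarith
    · have := Real.self_le_rpow_of_one_le h hp
      linarith
  calc ∑ i, hW.1.eigenvalues i ≤ ∑ i, (1 + hW.1.eigenvalues i ^ p) :=
        Finset.sum_le_sum fun i _ => h2 i
    _ = _ := by rw [Finset.sum_add_distrib]; simp

/-- integrability of the entries of `Φ* W Φ` -/
theorem red_intW {m n : ℕ} (W : ℝ → Mt m) {p : ℝ} (hp : 1 ≤ p)
    (hWm : ∀ i j, Measurable fun x => W x i j) (hWp : ∀ x, (W x).PosSemidef)
    (hWi : Integrable fun x => tracePow (W x) p) (Φ : ℝ → Rc m n) (l : ℝ)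
    (hΦ : Continuous Φ) (h0 : ∀ x, l ≤ |x| → Φ x = 0) (i j : Fin n) :
    Integrable (fun x => ((Φ x)ᴴ * W x * Φ x) i j) := by
  have hent : ∀ a b, IntegrableOn (fun x => W x a b) (Set.Icc (-l) l) := by
    intro a b
    have hb : IntegrableOn (fun x => (m : ℝ) + tracePow (W x) p) (Set.Icc (-l) l) :=
      (integrableOn_const (by simp)).add hWi.integrableOn
    refine Integrable.mono' hb (hWm a b).aestronglyMeasurable ?_
    exact Filter.Eventually.of_forall fun x => red_entry' (hWp x) hp a b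
  have hcΦ : ∀ a i, Continuous fun x => Φ x a i := fun a i =>
    (continuous_apply i).comp ((continuous_apply a).comp hΦ)
  have e : ∀ x, ((Φ x)ᴴ * W x * Φ x) i j =
      ∑ b, ∑ a, (star (Φ x a i) * Φ x b j) * W x a b := by
    intro x
    rw [Matrix.mul_apply]
    refine Finset.sum_congr rfl fun b _ => ?_
    rw [Matrix.mul_apply, Finset.sum_mul]
    refine Finset.sum_congr rfl fun a _ => ?_
    rw [Matrix.conjTranspose_apply]
    ring
  simp only [e]
  refine integrable_finsetSum _ fun b _ => integrable_finsetSum _ fun a _ => ?_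
  have hc : Continuous fun x => star (Φ x a i) * Φ x b j :=
    (continuous_star.comp (hcΦ a i)).mul (hcΦ b j)
  have h1 : IntegrableOn (fun x => (star (Φ x a i) * Φ x b j) * W x a b) (Set.Icc (-l) l) :=
    IntegrableOn.continuousOn_mul hc.continuousOn (hent a b) isCompact_Icc
  refine (integrableOn_iff_integrable_of_support_subset ?_).1 h1
  intro x hx
  by_contra hcon
  apply hx
  have : l ≤ |x| := by
    by_contra hlt
    apply hcon
    have := abs_lt.1 (not_le.1 hlt)
    exact ⟨this.1.le, this.2.le⟩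
  simp [h0 x this]

theorem red_intD {m n : ℕ} (Φ : ℝ → Rc m n) (l : ℝ)
    (hΦ : Continuous Φ) (h0 : ∀ x, l ≤ |x| → Φ x = 0) (i j : Fin n) :
    Integrable (fun x => ((Φ x)ᴴ * Φ x) i j) := by
  have hcΦ : ∀ a i, Continuous fun x => Φ x a i := fun a i =>
    (continuous_apply i).comp ((continuous_apply a).comp hΦ)
  have e : ∀ x, ((Φ x)ᴴ * Φ x) i j = ∑ b, star (Φ x b i) * Φ x b j := by
    intro x
    rw [Matrix.mul_apply]
    refine Finset.sum_congr rfl fun b _ => ?_
    rw [Matrix.conjTranspose_apply]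
  have hc : Continuous (fun x => ((Φ x)ᴴ * Φ x) i j) := by
    simp only [e]
    exact continuous_finsetSum _ fun b _ => (continuous_star.comp (hcΦ b i)).mul (hcΦ b j)
  refine hc.integrable_of_hasCompactSupport ?_
  refine HasCompactSupport.intro (isCompact_Icc (a := -l) (b := l)) fun x hx => ?_
  have : l ≤ |x| := by
    by_contra hlt
    apply hx
    have := abs_lt.1 (not_le.1 hlt)
    exact ⟨this.1.le, this.2.le⟩
  simp [h0 x this]

theorem red_bound {m n : ℕ} (φ : Fin n → ℝ → Vec m) (hcs : ∀ k, HasCompactSupport (φ k)) :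
    ∃ l : ℝ, 0 < l ∧ ∀ x, l ≤ |x| → ∀ k, x ∉ tsupport (φ k) := by
  have h : ∀ k, ∃ R : ℝ, 0 ≤ R ∧ ∀ x ∈ tsupport (φ k), |x| ≤ R := by
    intro k
    obtain ⟨R, hR⟩ := (hcs k).isCompact.isBounded.exists_norm_le
    exact ⟨max R 0, le_max_right _ _, fun x hx => (hR x hx).trans (le_max_left _ _)⟩
  choose R hR0 hR using h
  refine ⟨∑ k, R k + 1, ?_, fun x hx k hk => ?_⟩
  · have := Finset.sum_nonneg fun k (_ : k ∈ Finset.univ) => hR0 k
    linarith
  · have h1 := hR k x hk
    have h2 : R k ≤ ∑ k, R k := Finset.single_le_sum (fun k _ => hR0 k) (Finset.mem_univ k)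
    linarith

theorem red_deriv {m n : ℕ} (φ : Fin n → ℝ → Vec m) (hd : ∀ k, Differentiable ℝ (φ k)) (x : ℝ) :
    HasDerivAt (red_mat φ) (red_mat (fun k => deriv (φ k)) x) x := by
  rw [hasDerivAt_iff_entry]
  intro a k
  have h := (hd k x).hasDerivAt
  have h2 := ((EuclideanSpace.proj a : Vec m →L[ℂ] ℂ).restrictScalars ℝ).hasFDerivAt
    (x := φ k x) |>.comp_hasDerivAt x h
  exact h2

theorem red_cont {m n : ℕ} (φ : Fin n → ℝ → Vec m) (hd : ∀ k, Continuous (φ k)) :
    Continuous (red_mat φ) := by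
  refine continuous_matrix fun a k => ?_
  exact (EuclideanSpace.proj a : Vec m →L[ℂ] ℂ).continuous.comp (hd k)

theorem red : RED := by
  intro γ hγ1 hγ2 m W hWm hWp hWi n φ hφ
  obtain ⟨hsm, hcs, horth⟩ := hφ
  have hdiff : ∀ k, Differentiable ℝ (φ k) := fun k => (hsm k).differentiable (by simp)
  have hcont : ∀ k, Continuous (φ k) := fun k => (hsm k).continuous
  have hcont' : ∀ k, Continuous (deriv (φ k)) := fun k =>
    (hsm k).continuous_deriv (by simp)
  obtain ⟨l, hl, hl0⟩ := red_bound φ hcs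
  set Φ : ℝ → Rc m n := red_mat φ with hΦdef
  set Φ' : ℝ → Rc m n := red_mat (fun k => deriv (φ k)) with hΦ'def
  have hΦc : Continuous Φ := red_cont φ hcont
  have hΦ'c : Continuous Φ' := red_cont _ hcont'
  have hΦ0 : ∀ x, l ≤ |x| → Φ x = 0 := by
    intro x hx
    ext a k
    have h := image_eq_zero_of_notMem_tsupport (hl0 x hx k)
    simp [hΦdef, red_mat, h]
  have hΦ'0 : ∀ x, l ≤ |x| → Φ' x = 0 := by
    intro x hx
    ext a k
    have h : deriv (φ k) x = 0 := by
      by_contra hne
      exact hl0 x hx k (support_deriv_subset hne)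
    simp [hΦ'def, red_mat, h]
  have hp : 1 ≤ γ + 1 / 2 := by linarith
  have hiW := red_intW W hp hWm hWp hWi Φ l hΦc hΦ0
  have hiD := red_intD Φ l hΦc hΦ0
  have hiD' := red_intD Φ' l hΦ'c hΦ'0
  -- the energy matrix
  have hE : energyMatrix W φ = Matrix.of fun k j =>
      ∫ x, ((Φ' x)ᴴ * Φ' x - (Φ x)ᴴ * W x * Φ x) k j := by
    unfold energyMatrix
    congr 1
    ext k j
    refine integral_congr_ae (Filter.Eventually.of_forall fun x => ?_)
    simp only []
    rw [red_inner (fun k => deriv (φ k)) (fun k => deriv (φ k)) x k j, red_innerW, Matrix.sub_apply]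
  set E := energyMatrix W φ with hEdef
  have hEH : E.IsHermitian := by
    rw [hE]
    ext k j
    rw [Matrix.conjTranspose_apply, Matrix.of_apply, Matrix.of_apply]
    have h1 : star (∫ x, ((Φ' x)ᴴ * Φ' x - (Φ x)ᴴ * W x * Φ x) j k) =
        ∫ x, star (((Φ' x)ᴴ * Φ' x - (Φ x)ᴴ * W x * Φ x) j k) := by
      exact (integral_conj).symm
    rw [h1]
    refine integral_congr_ae (Filter.Eventually.of_forall fun x => ?_)
    simp only []
    rw [← Matrix.conjTranspose_apply]
    congr 1
    rw [Matrix.conjTranspose_sub, Matrix.conjTranspose_mul, Matrix.conjTranspose_mul,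
      Matrix.conjTranspose_mul, Matrix.conjTranspose_conjTranspose,
      Matrix.conjTranspose_conjTranspose, (hWp x).1.eq, Matrix.mul_assoc]
  obtain ⟨U, hU⟩ := exists_diag hEH
  set lam := hEH.eigenvalues with hlam
  set S : Finset (Fin n) := Finset.univ.filter (fun j => lam j < 0) with hS
  let e : Fin S.card ≃ S := S.equivFin.symm
  let g : Fin S.card → Fin n := fun i => (e i : Fin n)
  have hg : Function.Injective g := fun i j h => e.injective (Subtype.ext h)
  have hgneg : ∀ i, lam (g i) < 0 := fun i => (Finset.mem_filter.1 (e i).2).2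
  let P : Rc n S.card := (U : Mt n).submatrix id g
  have hP : ∀ A : Mt n, Pᴴ * A * P = ((U : Mt n)ᴴ * A * (U : Mt n)).submatrix g g := by
    intro A
    ext i j
    simp [P, Matrix.mul_apply]
  have hUE : (U : Mt n)ᴴ * E * (U : Mt n) = dg lam := by
    rw [hU, conj_conj']
  refine ⟨S.card, fun i => Real.sqrt (-lam (g i)), fun x => Φ x * P, fun x => Φ' x * P, l,
    ⟨?_, hl, ?_, ?_, ?_, ?_, ?_, ?_⟩, ?_⟩
  · intro i
    exact Real.sqrt_pos.2 (by linarith [hgneg i])
  · intro x
    exact HD.mul_right P (red_deriv φ hdiff x)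
  · exact hΦ'c.matrix_mul continuous_const
  · intro x hx
    constructor
    · show Φ x * P = 0
      rw [hΦ0 x hx, Matrix.zero_mul]
    · show Φ' x * P = 0
      rw [hΦ'0 x hx, Matrix.zero_mul]
  · intro i j
    have h1 := (red_integral Pᴴ P (fun x => (Φ x)ᴴ * Φ x) hiD i j).2
    have h2 : (Matrix.of fun k j => ∫ x, ((Φ x)ᴴ * Φ x) k j) = (1 : Mt n) := by
      ext k j
      rw [Matrix.of_apply, Matrix.one_apply, ← horth k j]
      refine integral_congr_ae (Filter.Eventually.of_forall fun x => ?_)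
      exact (red_inner φ φ x k j).symm
    rw [h2, hP, Matrix.mul_one, U_star_mul, Matrix.submatrix_apply, Matrix.one_apply] at h1
    calc ∫ x, ((Φ x * P)ᴴ * (Φ x * P)) i j = ∫ x, (Pᴴ * ((Φ x)ᴴ * Φ x) * P) i j := by
          refine integral_congr_ae (Filter.Eventually.of_forall fun x => ?_)
          simp only [Matrix.conjTranspose_mul, Matrix.mul_assoc]
      _ = _ := by
        rw [h1]
        simp only [hg.eq_iff]
  · intro i j
    have h1 := (red_integral Pᴴ P (fun x => (Φ x)ᴴ * W x * Φ x) hiW i j).1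
    refine h1.congr (Filter.Eventually.of_forall fun x => ?_)
    simp only [Matrix.conjTranspose_mul, Matrix.mul_assoc]
  · intro i j
    have h1 := (red_integral Pᴴ P (fun x => (Φ' x)ᴴ * Φ' x - (Φ x)ᴴ * W x * Φ x)
      (fun k j => (hiD' k j).sub (hiW k j)) i j).2
    rw [← hE, hP, hUE, Matrix.submatrix_apply] at h1
    calc ∫ x, (((Φ' x * P)ᴴ * (Φ' x * P)) i j - ((Φ x * P)ᴴ * W x * (Φ x * P)) i j)
        = ∫ x, (Pᴴ * ((Φ' x)ᴴ * Φ' x - (Φ x)ᴴ * W x * Φ x) * P) i j := by
          refine integral_congr_ae (Filter.Eventually.of_forall fun x => ?_)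
          simp only []
          rw [← Matrix.sub_apply]
          congr 1
          simp only [Matrix.conjTranspose_mul, Matrix.mul_assoc, Matrix.mul_sub, Matrix.sub_mul]
      _ = _ := by
        rw [h1]
        unfold dg
        rw [Matrix.diagonal_apply]
        simp only [hg.eq_iff]
        split_ifs with hij
        · rw [← Complex.ofReal_pow, ← Complex.ofReal_neg,
            Real.sq_sqrt (by linarith [hgneg i]), neg_neg]
        · rfl
  · have h1 : negMoment E γ = rtr (cfc (fun t : ℝ => (max (-t) 0) ^ γ) E) := rfl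
    rw [h1, rtr_cfc hEH]
    have h2 : ∀ j, j ∉ S → (max (-lam j) 0) ^ γ = 0 := by
      intro j hj
      have : 0 ≤ lam j := by
        by_contra hcon
        exact hj (Finset.mem_filter.2 ⟨Finset.mem_univ _, not_le.1 hcon⟩)
      rw [max_eq_right (by linarith), Real.zero_rpow (by linarith)]
    rw [← Finset.sum_subset (Finset.subset_univ S) fun j _ hj => h2 j hj]
    rw [← Finset.sum_coe_sort S, ← e.sum_comp]
    refine Finset.sum_congr rfl fun i _ => ?_
    show (max (-lam (g i)) 0) ^ γ = Real.sqrt (-lam (g i)) ^ (2 * γ)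
    have hpos : 0 < -lam (g i) := by linarith [hgneg i]
    rw [max_eq_left hpos.le, Real.rpow_mul (Real.sqrt_nonneg _), Real.rpow_two,
      Real.sq_sqrt hpos.le]

end Crest.Agent.R332
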