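import Mathlib
import Crest.Agent.R332.Defs
import Crest.Agent.R332.LIBC
import Crest.Agent.R332.LIBD
import Crest.Agent.R332.LIBF

/-!
# R332 RIGA: rigidity assembly
-/

set_option autoImplicit false

open MeasureTheory Matrix Filter Topology
open Crest.MathPhysics.LiebThirring
open scoped ComplexOrder

namespace Crest.Agent.R332

namespace RIGaux

variable {m N : ℕ}

/-- columns with index `≥ J` -/
noncomputable def tl (J : ℕ) (A : Rc m N) : Rc m N := fun a j => if J ≤ (j : ℕ) then A a j else 0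

theorem sum_split (F : ℕ → ℂ) (hF : ∀ j, N ≤ j → F j = 0) (J : ℕ) :
    ∑ j ∈ Finset.range N, F j = ∑ j ∈ Finset.range J, F j +
      ∑ j ∈ Finset.range N, (if J ≤ j then F j else 0) := by
  have h1 : ∑ j ∈ Finset.range N, F j = ∑ j ∈ Finset.range N, (if j < J then F j else 0) +
      ∑ j ∈ Finset.range N, (if J ≤ j then F j else 0) := by
    rw [← Finset.sum_add_distrib]
    refine Finset.sum_congr rfl fun j _ => ?_
    by_cases h : j < J
    · simp [h, not_le.2 h]
    · simp [h, not_lt.1 h]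
  have h2 : ∑ j ∈ Finset.range J, F j = ∑ j ∈ Finset.range J, (if j < N then F j else 0) := by
    refine Finset.sum_congr rfl fun j _ => ?_
    by_cases h : j < N
    · simp [h]
    · simp [h, hF j (not_lt.1 h)]
  rw [h1, h2]
  congr 1
  rw [← Finset.sum_filter, ← Finset.sum_filter]
  have e : (Finset.range N).filter (fun j => j < J) = (Finset.range J).filter (fun j => j < N) := by
    ext j
    simp [and_comm]
  rw [e]

theorem gram_split (J : ℕ) (A : Rc m N) :
    A * Aᴴ = cblk J A * (cblk J A)ᴴ + tl J A * (tl J A)ᴴ := by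
  ext a b
  rw [Matrix.add_apply, Matrix.mul_apply, Matrix.mul_apply, Matrix.mul_apply]
  simp only [Matrix.conjTranspose_apply]
  set F : ℕ → ℂ := fun j => if h : j < N then A a ⟨j, h⟩ * star (A b ⟨j, h⟩) else 0 with hF
  have e1 : ∑ j : Fin N, A a j * star (A b j) = ∑ j ∈ Finset.range N, F j := by
    rw [Finset.sum_range]
    refine Finset.sum_congr rfl fun j _ => ?_
    simp [hF, j.2]
  have e2 : ∑ j : Fin J, cblk J A a j * star (cblk J A b j) = ∑ j ∈ Finset.range J, F j := by
    rw [Finset.sum_range]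
    refine Finset.sum_congr rfl fun j _ => ?_
    unfold cblk
    by_cases h : (j : ℕ) < N
    · simp [hF, h]
    · simp [hF, h]
  have e3 : ∑ j : Fin N, tl J A a j * star (tl J A b j) =
      ∑ j ∈ Finset.range N, (if J ≤ j then F j else 0) := by
    rw [Finset.sum_range]
    refine Finset.sum_congr rfl fun j _ => ?_
    unfold tl
    by_cases h : J ≤ (j : ℕ)
    · simp [hF, h]
    · simp [h]
  rw [e1, e2, e3]
  refine sum_split F ?_ J
  intro j hj
  simp [hF, not_lt.2 hj]

theorem rtr_tl (J : ℕ) (A : Rc m N) :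
    rtr (A * Aᴴ) - rtr (cblk J A * (cblk J A)ᴴ) = fro2 (tl J A) := by
  rw [gram_split J A, rtr_add, fro2_eq']
  ring

theorem fro_gram_le (A : Rc m N) : fro (A * Aᴴ) ≤ fro2 A := by
  refine (fro_mul_le A Aᴴ).trans ?_
  rw [fro_conjTranspose, ← sq, sq_fro]

theorem cont_entry {m N : ℕ} {X : ℝ → Rc m N} (h : Continuous X) (a : Fin m) (j : Fin N) :
    Continuous fun y => X y a j :=
  (continuous_apply j).comp ((continuous_apply a).comp h)

theorem cont_cblk {X : ℝ → Rc m N} (h : Continuous X) (J : ℕ) :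
    Continuous fun y => cblk J (X y) := by
  refine continuous_pi fun a => continuous_pi fun j => ?_
  unfold cblk
  by_cases hj : (j : ℕ) < N
  · simp only [hj, dite_true]
    exact cont_entry h a ⟨j, hj⟩
  · simp only [hj, dite_false]
    exact continuous_const

theorem cont_gram {m N : ℕ} {X : ℝ → Rc m N} (h : Continuous X) :
    Continuous fun y => X y * (X y)ᴴ := by
  exact Continuous.matrix_mul h (Continuous.matrix_conjTranspose h)

theorem limit_gram {J : ℕ} {p : ℝ} (hp : 0 < p) (Nn : ℕ → ℕ) (X : ∀ n, ℝ → Rc m (Nn n))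
    (hX : ∀ n, Continuous (X n)) (R : ℝ → Mt m) (xi : ℝ → Rc m J)
    (h1 : ∀ᵐ y, Tendsto (fun n => X n y * (X n y)ᴴ) atTop (𝓝 (R y)))
    (h2 : ∀ y, Tendsto (fun n => cblk J (X n y)) atTop (𝓝 (xi y)))
    (h3 : ∀ L : ℝ, 0 < L → Tendsto (fun n => ∫ y in (-L)..L,
      (rtr (X n y * (X n y)ᴴ) - rtr (cblk J (X n y) * (cblk J (X n y))ᴴ)) ^ p) atTop (𝓝 0)) :
    ∀ᵐ y, R y = xi y * (xi y)ᴴ := by
  -- the limit of the traces
  have hc : ∀ y, Tendsto (fun n => cblk J (X n y) * (cblk J (X n y))ᴴ) atTop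
      (𝓝 (xi y * (xi y)ᴴ)) := by
    intro y
    have hcont : Continuous fun A : Rc m J => A * Aᴴ :=
      Continuous.matrix_mul continuous_id (Continuous.matrix_conjTranspose continuous_id)
    exact (hcont.tendsto (xi y)).comp (h2 y)
  have key : ∀ L : ℝ, 0 < L → ∀ᵐ y ∂(volume.restrict (Set.Ioc (-L) L)),
      Tendsto (fun n => fro2 (tl J (X n y))) atTop (𝓝 0) := by
    intro L hL
    set μ := volume.restrict (Set.Ioc (-L) L) with hμ
    set h : ℕ → ℝ → ℝ := fun n y => fro2 (tl J (X n y)) ^ p with hh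
    have hcontf : ∀ n, Continuous fun y => fro2 (tl J (X n y)) := by
      intro n
      have e : (fun y => fro2 (tl J (X n y))) = fun y =>
          rtr (X n y * (X n y)ᴴ) - rtr (cblk J (X n y) * (cblk J (X n y))ᴴ) := by
        ext y; rw [rtr_tl]
      rw [e]
      exact (continuous_rtr.comp (cont_gram (hX n))).sub
        (continuous_rtr.comp (cont_gram (cont_cblk (hX n) J)))
    have hconth : ∀ n, Continuous (h n) := by
      intro n
      exact (hcontf n).rpow_const fun y => Or.inr hp.le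
    have hnn : ∀ n y, 0 ≤ h n y := fun n y => Real.rpow_nonneg (fro2_nonneg _) _
    have hint : ∀ n, ∫⁻ y, ENNReal.ofReal (h n y) ∂μ = ENNReal.ofReal (∫ y in (-L)..L,
      (rtr (X n y * (X n y)ᴴ) - rtr (cblk J (X n y) * (cblk J (X n y))ᴴ)) ^ p) := by
      intro n
      have e : (fun y => (rtr (X n y * (X n y)ᴴ) -
          rtr (cblk J (X n y) * (cblk J (X n y))ᴴ)) ^ p) = h n := by
        ext y; rw [rtr_tl]
      rw [e, intervalIntegral.integral_of_le (by linarith),
        ofReal_integral_eq_lintegral_ofReal]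
      · exact ((hconth n).integrableOn_Icc (a := -L) (b := L)).mono_set Set.Ioc_subset_Icc_self
      · exact Filter.Eventually.of_forall (hnn n)
    have hlim : Tendsto (fun n => ∫⁻ y, ENNReal.ofReal (h n y) ∂μ) atTop (𝓝 0) := by
      simp only [hint]
      have := (ENNReal.continuous_ofReal.tendsto 0).comp (h3 L hL)
      rwa [ENNReal.ofReal_zero] at this
    have hmeas : ∀ n, Measurable fun y => ENNReal.ofReal (h n y) := fun n =>
      (hconth n).measurable.ennreal_ofReal
    have hF := lintegral_liminf_le (μ := μ) (u := atTop) hmeas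
    rw [hlim.liminf_eq] at hF
    have hF0 : ∫⁻ y, liminf (fun n => ENNReal.ofReal (h n y)) atTop ∂μ = 0 :=
      le_antisymm hF zero_le
    rw [lintegral_eq_zero_iff (Measurable.liminf hmeas)] at hF0
    filter_upwards [hF0, ae_restrict_of_ae h1] with y hy1 hy2
    -- limit of fro2
    have hg : Tendsto (fun n => fro2 (tl J (X n y))) atTop
        (𝓝 (rtr (R y) - rtr (xi y * (xi y)ᴴ))) := by
      have e : (fun n => fro2 (tl J (X n y))) = fun n =>
          rtr (X n y * (X n y)ᴴ) - rtr (cblk J (X n y) * (cblk J (X n y))ᴴ) := by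
        ext n; rw [rtr_tl]
      rw [e]
      exact ((continuous_rtr.tendsto _).comp hy2).sub ((continuous_rtr.tendsto _).comp (hc y))
    set g : ℝ := rtr (R y) - rtr (xi y * (xi y)ᴴ) with hgdef
    have hg0 : 0 ≤ g := ge_of_tendsto' hg fun n => fro2_nonneg _
    have hgp : Tendsto (fun n => ENNReal.ofReal (h n y)) atTop (𝓝 (ENNReal.ofReal (g ^ p))) := by
      refine (ENNReal.continuous_ofReal.tendsto _).comp ?_
      exact hg.rpow_const (Or.inr hp.le)
    have hz : ENNReal.ofReal (g ^ p) = 0 := by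
      rw [← hgp.liminf_eq]
      exact hy1
    rw [ENNReal.ofReal_eq_zero] at hz
    have hgz : g = 0 := by
      rcases hg0.eq_or_lt with h0 | h0
      · exact h0.symm
      · have := Real.rpow_pos_of_pos h0 p
        linarith
    rw [hgz] at hg
    exact hg
  -- all L
  have key2 : ∀ᵐ y, Tendsto (fun n => fro2 (tl J (X n y))) atTop (𝓝 0) := by
    have h4 : ∀ n : ℕ, ∀ᵐ y, y ∈ Set.Ioc (-((n : ℝ) + 1)) ((n : ℝ) + 1) →
        Tendsto (fun n => fro2 (tl J (X n y))) atTop (𝓝 0) := by
      intro n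
      rw [← ae_restrict_iff' measurableSet_Ioc]
      exact key _ (by positivity)
    rw [← ae_all_iff] at h4
    filter_upwards [h4] with y hy
    obtain ⟨n, hn⟩ := exists_nat_gt |y|
    refine hy n ⟨?_, ?_⟩
    · have := neg_abs_le y; linarith
    · have := le_abs_self y; linarith
  filter_upwards [key2, h1] with y hy1 hy2
  have hd : Tendsto (fun n => tl J (X n y) * (tl J (X n y))ᴴ) atTop
      (𝓝 (R y - xi y * (xi y)ᴴ)) := by
    have e : (fun n => tl J (X n y) * (tl J (X n y))ᴴ) = fun n =>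
        X n y * (X n y)ᴴ - cblk J (X n y) * (cblk J (X n y))ᴴ := by
      ext1 n
      rw [gram_split J (X n y)]
      abel
    rw [e]
    exact hy2.sub (hc y)
  have hd0 : Tendsto (fun n => tl J (X n y) * (tl J (X n y))ᴴ) atTop (𝓝 0) := by
    rw [tendsto_iff_fro]
    refine squeeze_zero (fun n => fro_nonneg _) (fun n => ?_) hy1
    rw [sub_zero]
    exact fro_gram_le _
  exact sub_eq_zero.1 (tendsto_nhds_unique hd hd0)

end RIGaux

open RIGaux

theorem rig (hSUBS : SUBS) (hBLK : BLK) (hFIN : FINAL) (hTB : TAILB) (hYSI : YSI)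
    (hTLTC : TLTC) : RIG := by
  intro s hs0 hs1 m W hW hseq
  obtain ⟨CT, hCT, hT⟩ := hTLTC s hs0 hs1 1 one_pos
  choose N κ X X' Q l hc hy hk ht using fun n : ℕ => hseq (1 / ((n : ℝ) + 1)) (by positivity)
  have hto : Tendsto (fun n : ℕ => 1 / ((n : ℝ) + 1)) atTop (𝓝 0) :=
    tendsto_one_div_add_atTop_nhds_zero_nat
  let S0 : CSeq s m W :=
    { N := N, κ := κ, X := X, X' := X', Q := Q, l := l, cfg := hc
      ys := squeeze_zero (fun n => integral_nonneg
        (hYSI s hs0 hs1 m W hW.meas hW.psd hW.int (N n) (X n) (l n) (cont_of_deriv (hc n).dX)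
          (fun x hx => ((hc n).X0 x hx).1)).2.2.2) hy hto
      ks := squeeze_zero (fun n => integral_nonneg fun x => fro2_nonneg _) hk hto
      ts := squeeze_zero (fun n => (hT m (N n) (κ n) (X n) (X' n) (Q n) (l n) (hc n)).1) ht hto }
  obtain ⟨S, k, K, B, hanti, hK, hB, hk0, hkt, hSK, hSB, hkap, hae, htight⟩ :=
    hSUBS s hs0 hs1 m W hW S0
  have blk := hBLK s hs0 hs1 m W hW S k K B hanti hK hB hk0 hkt hSK hSB hkap hae htight
  have gap : ∀ J, (∀ i < J, k J < k i) → J ≤ m := by
    intro J hJ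
    obtain ⟨φ, U, c, ξ, xi, hφ, hxi, hconv, heq⟩ := blk J hJ
    have hpos : ∀ i : Fin J, 0 < k i := fun i => lt_of_le_of_lt (hk0 J) (hJ i i.2)
    exact (hFIN s hs0 hs1 m W hW J (fun i => k i) hpos U c ξ xi hxi heq).1
  have hkm : k m = 0 := by
    by_contra hne
    have hpos : 0 < k m := lt_of_le_of_ne (hk0 m) (Ne.symm hne)
    have hex : ∃ j, k j < k m := (hkt.eventually_lt_const hpos).exists
    classical
    have h1 := Nat.find_spec hex
    have h2 : Nat.find hex ≤ m := by
      refine gap _ fun i hi => ?_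
      have := Nat.find_min hex hi
      exact lt_of_lt_of_le h1 (not_lt.1 this)
    have h3 := hanti h2
    linarith
  have hex0 : ∃ j, k j = 0 := ⟨m, hkm⟩
  classical
  set J := Nat.find hex0 with hJdef
  have hkJ : k J = 0 := Nat.find_spec hex0
  have hJgap : ∀ i < J, k J < k i := by
    intro i hi
    rw [hkJ]
    exact lt_of_le_of_ne (hk0 i) (Ne.symm (Nat.find_min hex0 hi))
  obtain ⟨φ, U, c, ξ, xi, hφ, hxi, hconv, heq⟩ := blk J hJgap
  have hpos : ∀ i : Fin J, 0 < k i := fun i => lt_of_le_of_lt (hk0 J) (hJgap i i.2)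
  refine (hFIN s hs0 hs1 m W hW J (fun i => k i) hpos U c ξ xi hxi heq).2 ?_
  have hsinv : 0 < s⁻¹ := inv_pos.2 hs0
  refine limit_gram hsinv (fun n => S.N (φ n)) (fun n => S.X (φ n))
    (fun n => cont_of_deriv (S.cfg (φ n)).dX) (fun y => RW s (W y)) xi ?_ hconv ?_
  · filter_upwards [hae] with y hy
    exact hy.comp hφ.tendsto_atTop
  · intro L hL
    rw [Metric.tendsto_atTop]
    intro ε hε
    obtain ⟨δ, hδ, hδ2⟩ := hTB s hs0 hs1 m K L (ε / 2) hK hL (half_pos hε)
    have e1 : ∀ᶠ n in atTop, TS s (S.κ (φ n)) (S.X (φ n)) ≤ δ := by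
      have h1 := (S.ts.comp hφ.tendsto_atTop).eventually_lt_const hδ
      filter_upwards [h1] with n hn using hn.le
    have e2 : ∀ᶠ n in atTop, kap (S.κ (φ n)) J ≤ δ := by
      have h0 := (hkap J).comp hφ.tendsto_atTop
      rw [hkJ] at h0
      have h1 := h0.eventually_lt_const hδ
      filter_upwards [h1] with n hn using hn.le
    obtain ⟨n0, hn0⟩ := (e1.and e2).exists_forall_of_atTop
    refine ⟨n0, fun n hn => ?_⟩
    obtain ⟨a1, a2⟩ := hn0 n hn
    have h5 := hδ2 (S.N (φ n)) (S.κ (φ n)) (S.X (φ n)) (S.X' (φ n)) (S.Q (φ n)) (S.l (φ n))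
      (S.cfg (φ n)) (hSK (φ n)) a1 J ?_
    · have h6 : 0 ≤ ∫ x in (-L)..L, (rtr (S.X (φ n) x * (S.X (φ n) x)ᴴ) -
          rtr (cblk J (S.X (φ n) x) * (cblk J (S.X (φ n) x))ᴴ)) ^ (s⁻¹ : ℝ) := by
        refine intervalIntegral.integral_nonneg (by linarith) fun x _ => ?_
        rw [rtr_tl]
        exact Real.rpow_nonneg (fro2_nonneg _) _
      rw [Real.dist_eq, sub_zero, abs_of_nonneg h6]
      linarith
    · intro i hi
      have hJN : J < S.N (φ n) := lt_of_le_of_lt hi i.2
      have h7 : S.κ (φ n) i ≤ S.κ (φ n) ⟨J, hJN⟩ := (S.cfg (φ n)).kanti hi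
      have h8 : kap (S.κ (φ n)) J = S.κ (φ n) ⟨J, hJN⟩ := by
        unfold kap; rw [dif_pos hJN]
      linarith

end Crest.Agent.R332
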