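import Crest.Agent.R332.Defs

set_option autoImplicit false

open MeasureTheory Filter Topology Set
open Crest.MathPhysics.LiebThirring
open scoped ComplexOrder

namespace Crest.Agent.R332

namespace SOLC

/-- `cosh ^ (-2 (1+s))` -/
noncomputable def F (s y : ℝ) : ℝ := (1 / Real.cosh y ^ 2) ^ (1 + s)

theorem deriv_tanh (y : ℝ) : HasDerivAt Real.tanh (1 / Real.cosh y ^ 2) y := by
  have hc : Real.cosh y ≠ 0 := (Real.cosh_pos y).ne'
  have h1 := (Real.hasDerivAt_sinh y).div (Real.hasDerivAt_cosh y) hc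
  have h2 : (fun y => Real.tanh y) = fun y => Real.sinh y / Real.cosh y := by
    funext y; exact Real.tanh_eq_sinh_div_cosh y
  have h3 : Real.cosh y * Real.cosh y - Real.sinh y * Real.sinh y = 1 := by
    have := Real.cosh_sq_sub_sinh_sq y
    nlinarith
  rw [h3] at h1
  have h4 : (Real.tanh : ℝ → ℝ) = fun y => Real.sinh y / Real.cosh y := h2
  rw [h4]
  exact h1

theorem one_sub_tanh (y : ℝ) : 1 - Real.tanh y ^ 2 = 1 / Real.cosh y ^ 2 := by
  have hc : Real.cosh y ≠ 0 := (Real.cosh_pos y).ne'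
  rw [Real.tanh_eq_sinh_div_cosh]
  have := Real.cosh_sq_sub_sinh_sq y
  field_simp
  linarith

theorem F_eq {s : ℝ} (_hs : 0 < s) (y : ℝ) :
    F s y = |1 / Real.cosh y ^ 2| • (1 - Real.tanh y ^ 2) ^ s := by
  have hc : 0 < Real.cosh y := Real.cosh_pos y
  have h0 : 0 < 1 / Real.cosh y ^ 2 := by positivity
  unfold F
  rw [one_sub_tanh, abs_of_pos h0, Real.rpow_add h0, Real.rpow_one, smul_eq_mul]

theorem F_int {s : ℝ} (hs : 0 < s) : Integrable (F s) ∧ ∫ y, F s y = bet s := by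
  have himg : Real.tanh '' univ = Ioo (-1) 1 := Real.tanh_bijOn.image_eq
  have hd : ∀ x ∈ (univ : Set ℝ), HasDerivWithinAt Real.tanh (1 / Real.cosh x ^ 2) univ x :=
    fun x _ => (deriv_tanh x).hasDerivWithinAt
  have hinj : InjOn Real.tanh univ := Real.tanh_injective.injOn
  have hFeq : F s = fun y => |1 / Real.cosh y ^ 2| • (1 - Real.tanh y ^ 2) ^ s :=
    funext fun y => F_eq hs y
  have h1 := integrableOn_image_iff_integrableOn_abs_deriv_smul MeasurableSet.univ hd hinj
    (fun q : ℝ => (1 - q ^ 2) ^ s)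
  have h2 := integral_image_eq_integral_abs_deriv_smul MeasurableSet.univ hd hinj
    (fun q : ℝ => (1 - q ^ 2) ^ s)
  rw [himg] at h1 h2
  have hcont : Continuous (fun q : ℝ => (1 - q ^ 2) ^ s) :=
    Continuous.rpow_const (by fun_prop) (fun x => Or.inr hs.le)
  have hio : IntegrableOn (fun q : ℝ => (1 - q ^ 2) ^ s) (Ioo (-1) 1) :=
    (hcont.continuousOn.integrableOn_compact isCompact_Icc).mono_set Ioo_subset_Icc_self
  refine ⟨?_, ?_⟩
  · rw [hFeq]
    have := h1.1 hio
    rwa [integrableOn_univ] at this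
  · rw [hFeq]
    have h3 : ∫ x in univ, |1 / Real.cosh x ^ 2| • (1 - Real.tanh x ^ 2) ^ s =
        ∫ x, |1 / Real.cosh x ^ 2| • (1 - Real.tanh x ^ 2) ^ s := by
      rw [Measure.restrict_univ]
    rw [← h3, ← h2]
    unfold bet
    rw [intervalIntegral.integral_of_le (by norm_num), integral_Ioc_eq_integral_Ioo]

end SOLC

open SOLC in
theorem solc : CONSTS → SOLC := by
  intro hC s hs0 hs1 a c ha
  obtain ⟨hCc, _, hbet, hcs, hprod, _, _⟩ := hC s hs0 hs1
  rcases ha.eq_or_lt with h0 | ha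
  · subst h0
    have h1 : (fun x => soliton s⁻¹ 0 c x ^ (1 + s)) = fun _ => (0:ℝ) := by
      funext x
      unfold soliton
      rw [show (s⁻¹ + 1) * (0:ℝ) ^ 2 / Real.cosh (s⁻¹ * 0 * (x - c)) ^ 2 = 0 by simp]
      exact Real.zero_rpow (by linarith)
    rw [h1]
    refine ⟨integrable_zero _ _ _, ?_⟩
    rw [integral_zero, mul_zero, Real.zero_rpow (by linarith)]
  · have hr : 0 < s⁻¹ := inv_pos.2 hs0
    have hra : 0 < s⁻¹ * a := by positivity
    set k : ℝ := ((s⁻¹ + 1) * a ^ 2) ^ (1 + s) with hk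
    have h1 : (fun x => soliton s⁻¹ a c x ^ (1 + s)) =
        fun x => k * F s (s⁻¹ * a * (x - c)) := by
      funext x
      unfold soliton F
      rw [hk, ← Real.mul_rpow (by positivity) (by positivity)]
      congr 1
      ring
    obtain ⟨hFi, hFb⟩ := F_int hs0
    have hi1 : Integrable (fun y => F s (s⁻¹ * a * y)) := hFi.comp_mul_left' hra.ne'
    have hi2 : Integrable (fun x => F s (s⁻¹ * a * (x - c))) := hi1.comp_sub_right c
    rw [h1]
    refine ⟨hi2.const_mul k, ?_⟩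
    rw [integral_const_mul, integral_sub_right_eq_self (fun y => F s (s⁻¹ * a * y)) c,
      Measure.integral_comp_mul_left, hFb, smul_eq_mul, abs_of_pos (inv_pos.2 hra)]
    -- constants
    have e1 : k = (s⁻¹ + 1) ^ (1 + s) * a ^ (2 * (1 + s)) := by
      rw [hk, Real.mul_rpow (by positivity) (by positivity), ← Real.rpow_natCast,
        ← Real.rpow_mul ha.le]
      norm_num
    have e2 : (s⁻¹ + 1) ^ (1 + s) * s = cs s := by
      unfold cs
      have h3 : s⁻¹ + 1 = (1 + s) / s := by field_simp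
      rw [h3, Real.div_rpow (by linarith) hs0.le]
      have h4 : s ^ (1 + s) = s * s ^ s := by
        rw [Real.rpow_add hs0, Real.rpow_one]
      rw [h4]
      have h5 : s ^ s ≠ 0 := (Real.rpow_pos_of_pos hs0 s).ne'
      field_simp
    have e3 : a ^ (2 * (1 + s)) = a * a ^ (2 * (s + 1 / 2)) := by
      have : 2 * (1 + s) = 1 + 2 * (s + 1 / 2) := by ring
      rw [this, Real.rpow_add ha, Real.rpow_one]
    have e4 : (s⁻¹ * a)⁻¹ = s * a⁻¹ := by rw [mul_inv, inv_inv]
    rw [e1, e3, e4]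
    calc Cc s * ((s⁻¹ + 1) ^ (1 + s) * (a * a ^ (2 * (s + 1 / 2))) * (s * a⁻¹ * bet s))
        = (Cc s * (((s⁻¹ + 1) ^ (1 + s) * s) * bet s)) * (a * a⁻¹) * a ^ (2 * (s + 1 / 2)) := by
          ring
      _ = a ^ (2 * (s + 1 / 2)) := by
          rw [e2, hprod, mul_inv_cancel₀ ha.ne', one_mul, one_mul]

end Crest.Agent.R332
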