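import Crest.Agent.R332.Defs

/-!
# R332, task SOLT: trial functions for the one-soliton potential
-/

set_option autoImplicit false

open MeasureTheory
open Crest.MathPhysics.LiebThirring
open scoped ContDiff

namespace Crest.Agent.R332.SOLT

noncomputable def psi (s a c x : ℝ) : ℝ := Real.cosh (s⁻¹ * a * (x - c)) ^ (-s)
noncomputable def T (s a c x : ℝ) : ℝ :=
  Real.sinh (s⁻¹ * a * (x - c)) / Real.cosh (s⁻¹ * a * (x - c))

theorem hasDerivAt_arg (s a c x : ℝ) :
    HasDerivAt (fun x : ℝ => s⁻¹ * a * (x - c)) (s⁻¹ * a) x := by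
  simpa using ((hasDerivAt_id x).sub_const c).const_mul (s⁻¹ * a)

theorem hasDerivAt_cosh' (s a c x : ℝ) :
    HasDerivAt (fun x : ℝ => Real.cosh (s⁻¹ * a * (x - c)))
      (Real.sinh (s⁻¹ * a * (x - c)) * (s⁻¹ * a)) x :=
  (Real.hasDerivAt_cosh _).comp x (hasDerivAt_arg s a c x)

theorem hasDerivAt_sinh' (s a c x : ℝ) :
    HasDerivAt (fun x : ℝ => Real.sinh (s⁻¹ * a * (x - c)))
      (Real.cosh (s⁻¹ * a * (x - c)) * (s⁻¹ * a)) x :=
  (Real.hasDerivAt_sinh _).comp x (hasDerivAt_arg s a c x)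

theorem hasDerivAt_psi (s a c x : ℝ) (hs : s ≠ 0) :
    HasDerivAt (psi s a c) (-a * T s a c x * psi s a c x) x := by
  have hc : 0 < Real.cosh (s⁻¹ * a * (x - c)) := Real.cosh_pos _
  have h := (hasDerivAt_cosh' s a c x).rpow_const (p := -s) (Or.inl hc.ne')
  unfold psi T
  convert h using 1
  rw [Real.rpow_sub_one hc.ne']
  field_simp

theorem hasDerivAt_T (s a c x : ℝ) :
    HasDerivAt (T s a c) (s⁻¹ * a / Real.cosh (s⁻¹ * a * (x - c)) ^ 2) x := by
  have hc : 0 < Real.cosh (s⁻¹ * a * (x - c)) := Real.cosh_pos _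
  have h := (hasDerivAt_sinh' s a c x).div (hasDerivAt_cosh' s a c x) hc.ne'
  have h2 : HasDerivAt (T s a c) _ x := h
  refine h2.congr_deriv ?_
  congr 1
  have := Real.cosh_sq (s⁻¹ * a * (x - c))
  have e : Real.cosh (s⁻¹ * a * (x - c)) * (s⁻¹ * a) * Real.cosh (s⁻¹ * a * (x - c)) -
      Real.sinh (s⁻¹ * a * (x - c)) * (Real.sinh (s⁻¹ * a * (x - c)) * (s⁻¹ * a)) =
      (s⁻¹ * a) * (Real.cosh (s⁻¹ * a * (x - c)) ^ 2 - Real.sinh (s⁻¹ * a * (x - c)) ^ 2) := by
    ring
  rw [e, this]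
  ring

theorem T_sq (s a c x : ℝ) :
    T s a c x ^ 2 = 1 - 1 / Real.cosh (s⁻¹ * a * (x - c)) ^ 2 := by
  have hc : 0 < Real.cosh (s⁻¹ * a * (x - c)) := Real.cosh_pos _
  have := Real.cosh_sq (s⁻¹ * a * (x - c))
  unfold T
  rw [div_pow, eq_sub_iff_add_eq, ← add_div, ← this, div_self (by positivity)]

theorem psi_pos (s a c x : ℝ) : 0 < psi s a c x := Real.rpow_pos_of_pos (Real.cosh_pos _) _

theorem psi_le_one (s a c x : ℝ) (hs : 0 ≤ s) : psi s a c x ≤ 1 :=
  Real.rpow_le_one_of_one_le_of_nonpos (Real.one_le_cosh _) (by linarith)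

theorem contDiff_psi (s a c : ℝ) : ContDiff ℝ ∞ (psi s a c) := by
  unfold psi
  apply ContDiff.rpow_const_of_ne
  · exact Real.contDiff_cosh.comp (by fun_prop)
  · intro x
    exact (Real.cosh_pos _).ne'

theorem contDiff_T (s a c : ℝ) : ContDiff ℝ ∞ (T s a c) := by
  unfold T
  apply ContDiff.div
  · exact Real.contDiff_sinh.comp (by fun_prop)
  · exact Real.contDiff_cosh.comp (by fun_prop)
  · intro x
    exact (Real.cosh_pos _).ne'

theorem integrable_of (f g : ℝ → ℝ) (hf : Continuous f) (hg : Continuous g)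
    (hc : HasCompactSupport f) : Integrable (fun x => f x * g x) :=
  (hf.mul hg).integrable_of_hasCompactSupport hc.mul_right

/-- ground state representation -/
theorem energy (s a c : ℝ) (hs : 0 < s) (χ : ℝ → ℝ) (h1 : ContDiff ℝ ∞ χ)
    (h2 : HasCompactSupport χ) :
    Integrable (fun x => (deriv χ x) ^ 2 * psi s a c x ^ 2) ∧
    Integrable (fun x => (χ x * psi s a c x) ^ 2) ∧
    ∫ x, (deriv (fun y => χ y * psi s a c y) x ^ 2 -
      soliton s⁻¹ a c x * (χ x * psi s a c x) ^ 2) =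
      (∫ x, (deriv χ x) ^ 2 * psi s a c x ^ 2) - a ^ 2 * ∫ x, (χ x * psi s a c x) ^ 2 := by
  have cψ := (contDiff_psi s a c).continuous
  have cT := (contDiff_T s a c).continuous
  have cχ := h1.continuous
  have cχ' : Continuous (deriv χ) := h1.continuous_deriv (by simp)
  have hχ' : ∀ x, HasDerivAt χ (deriv χ x) x := fun x =>
    (h1.differentiable (by simp)).differentiableAt.hasDerivAt
  have i1 : Integrable (fun x => (deriv χ x) ^ 2 * psi s a c x ^ 2) := by
    have := integrable_of (deriv χ) (fun x => deriv χ x * psi s a c x ^ 2) cχ'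
      (by fun_prop) h2.deriv
    refine this.congr (Filter.Eventually.of_forall fun x => ?_)
    show deriv χ x * (deriv χ x * psi s a c x ^ 2) = _
    ring
  have i2 : Integrable (fun x => (χ x * psi s a c x) ^ 2) := by
    have := integrable_of χ (fun x => χ x * psi s a c x ^ 2) cχ (by fun_prop) h2
    refine this.congr (Filter.Eventually.of_forall fun x => ?_)
    show χ x * (χ x * psi s a c x ^ 2) = _
    ring
  refine ⟨i1, i2, ?_⟩
  -- the primitive
  set G : ℝ → ℝ := fun x => χ x * (χ x * (-a * T s a c x * psi s a c x ^ 2)) with hG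
  set G' : ℝ → ℝ := fun x =>
    -a * (2 * χ x * deriv χ x * T s a c x * psi s a c x ^ 2 +
      χ x ^ 2 * psi s a c x ^ 2 * (s⁻¹ * a / Real.cosh (s⁻¹ * a * (x - c)) ^ 2 -
        2 * a * T s a c x ^ 2)) with hG'
  have hGd : ∀ x, HasDerivAt G (G' x) x := by
    intro x
    have hψ := hasDerivAt_psi s a c x hs.ne'
    have hT := hasDerivAt_T s a c x
    have h := (hχ' x).mul ((hχ' x).mul (((hT.const_mul (-a)).mul (hψ.pow 2))))
    have h3 : HasDerivAt G _ x := h
    refine h3.congr_deriv ?_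
    simp only [hG', Pi.mul_apply, Pi.pow_apply]
    push_cast
    ring
  have iG : Integrable G := integrable_of χ _ cχ (by fun_prop) h2
  have cc : Continuous fun x : ℝ => s⁻¹ * a / Real.cosh (s⁻¹ * a * (x - c)) ^ 2 := by
    apply Continuous.div continuous_const
    · exact (Real.continuous_cosh.comp (by fun_prop)).pow 2
    · intro x
      exact pow_ne_zero _ (Real.cosh_pos _).ne'
  have iG' : Integrable G' := by
    have := integrable_of χ (fun x => -a * (2 * deriv χ x * T s a c x * psi s a c x ^ 2 +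
      χ x * psi s a c x ^ 2 * (s⁻¹ * a / Real.cosh (s⁻¹ * a * (x - c)) ^ 2 -
        2 * a * T s a c x ^ 2))) cχ (by fun_prop) h2
    refine this.congr (Filter.Eventually.of_forall fun x => ?_)
    simp only [hG']
    ring
  have hzero : ∫ x, G' x = 0 := integral_eq_zero_of_hasDerivAt_of_integrable hGd iG' iG
  have hpt : ∀ x, deriv (fun y => χ y * psi s a c y) x ^ 2 -
      soliton s⁻¹ a c x * (χ x * psi s a c x) ^ 2 =
      ((deriv χ x) ^ 2 * psi s a c x ^ 2 - a ^ 2 * (χ x * psi s a c x) ^ 2) + G' x := by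
    intro x
    have hd : HasDerivAt (fun y => χ y * psi s a c y)
        (deriv χ x * psi s a c x + χ x * (-a * T s a c x * psi s a c x)) x :=
      (hχ' x).mul (hasDerivAt_psi s a c x hs.ne')
    rw [hd.deriv]
    have hT := T_sq s a c x
    set d := 1 / Real.cosh (s⁻¹ * a * (x - c)) ^ 2 with hdd
    have e1 : soliton s⁻¹ a c x = (s⁻¹ + 1) * a ^ 2 * d := by
      rw [soliton, hdd]
      ring
    have e2 : s⁻¹ * a / Real.cosh (s⁻¹ * a * (x - c)) ^ 2 = s⁻¹ * a * d := by
      rw [hdd]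
      ring
    simp only [hG']
    rw [e1, e2]
    have hT' : d = 1 - T s a c x ^ 2 := by linarith
    rw [hT']
    ring
  calc ∫ x, (deriv (fun y => χ y * psi s a c y) x ^ 2 -
      soliton s⁻¹ a c x * (χ x * psi s a c x) ^ 2)
      = ∫ x, (((deriv χ x) ^ 2 * psi s a c x ^ 2 - a ^ 2 * (χ x * psi s a c x) ^ 2) + G' x) :=
        integral_congr_ae (Filter.Eventually.of_forall hpt)
    _ = _ := by
        have i12 : Integrable (fun x => (deriv χ x) ^ 2 * psi s a c x ^ 2 -
            a ^ 2 * (χ x * psi s a c x) ^ 2) := i1.sub (i2.const_mul _)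
        rw [integral_add i12 iG', hzero, add_zero,
          integral_sub i1 (i2.const_mul _), integral_const_mul]

/-- cut-off functions -/
theorem cutoff : ∃ (χ : ℝ → ℝ) (C : ℝ), ContDiff ℝ ∞ χ ∧ (∀ x, 2 ≤ |x| → χ x = 0) ∧
    (∀ x, |x| ≤ 1 → χ x = 1) ∧ (∀ x, |deriv χ x| ≤ C) := by
  let b : ContDiffBump (0 : ℝ) := ⟨1, 2, one_pos, one_lt_two⟩
  have hb : ContDiff ℝ ∞ (b : ℝ → ℝ) := b.contDiff
  have hd : Continuous (deriv (b : ℝ → ℝ)) := hb.continuous_deriv (by simp)
  obtain ⟨C, hC⟩ := (b.hasCompactSupport.deriv).exists_bound_of_continuous hd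
  refine ⟨b, C, hb, ?_, ?_, ?_⟩
  · intro x hx
    apply b.zero_of_le_dist
    simpa [Real.dist_eq] using hx
  · intro x hx
    apply b.one_of_mem_closedBall
    simpa [Real.dist_eq] using hx
  · intro x
    exact hC x

end Crest.Agent.R332.SOLT

namespace Crest.Agent.R332

open SOLT in
theorem solt : SOLT := by
  intro s hs0 hs1 a c ha ε hε
  obtain ⟨χ₀, C, hχ, hχ0, hχ1, hC⟩ := cutoff
  have hC0 : 0 ≤ C := (abs_nonneg _).trans (hC 0)
  -- mass in the unit interval
  set m0 : ℝ := ∫ x in Set.Icc (c - 1) (c + 1), psi s a c x ^ 2 with hm0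
  have cψ := (contDiff_psi s a c).continuous
  have hm0pos : 0 < m0 := by
    rw [hm0, integral_Icc_eq_integral_Ioc, ← intervalIntegral.integral_of_le (by linarith)]
    apply intervalIntegral.intervalIntegral_pos_of_pos
    · exact (cψ.pow 2).intervalIntegrable _ _
    · intro x
      have := psi_pos s a c x
      positivity
    · linarith
  -- the radius
  obtain ⟨R, hR1, hR2⟩ : ∃ R : ℝ, 1 ≤ R ∧ 4 * C ^ 2 / R ≤ ε * m0 := by
    refine ⟨max 1 (4 * C ^ 2 / (ε * m0)), le_max_left _ _, ?_⟩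
    have h0 : 0 < ε * m0 := by positivity
    rw [div_le_iff₀ (lt_of_lt_of_le one_pos (le_max_left _ _))]
    calc 4 * C ^ 2 = ε * m0 * (4 * C ^ 2 / (ε * m0)) := by field_simp
      _ ≤ _ := mul_le_mul_of_nonneg_left (le_max_right _ _) h0.le
  have hR0 : 0 < R := by linarith
  set χ : ℝ → ℝ := fun x => χ₀ ((x - c) / R) with hχdef
  have h1 : ContDiff ℝ ∞ χ := hχ.comp (by fun_prop)
  have hsupp : ∀ x, x ∉ Set.Icc (c - 2 * R) (c + 2 * R) → χ x = 0 := by
    intro x hx
    apply hχ0
    rw [abs_div, abs_of_pos hR0, le_div_iff₀ hR0]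
    by_contra hlt
    push Not at hlt
    apply hx
    rw [abs_lt] at hlt
    exact ⟨by linarith [hlt.1], by linarith [hlt.2]⟩
  have h2 : HasCompactSupport χ := HasCompactSupport.intro isCompact_Icc hsupp
  have hone : ∀ x ∈ Set.Icc (c - 1) (c + 1), χ x = 1 := by
    intro x hx
    apply hχ1
    rw [abs_div, abs_of_pos hR0, div_le_iff₀ hR0]
    have : |x - c| ≤ 1 := abs_le.2 ⟨by linarith [hx.1], by linarith [hx.2]⟩
    linarith
  have hder : ∀ x, |deriv χ x| ≤ C / R := by
    intro x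
    have : HasDerivAt χ (deriv χ₀ ((x - c) / R) * (1 / R)) x := by
      have h3 := ((hχ.differentiable (by simp)).differentiableAt (x := (x - c) / R)).hasDerivAt
      exact h3.comp x (((hasDerivAt_id x).sub_const c).div_const R)
    rw [this.deriv, abs_mul, abs_of_pos (by positivity : (0 : ℝ) < 1 / R), mul_one_div]
    exact div_le_div_of_nonneg_right (hC _) hR0.le
  have hder0 : ∀ x, x ∉ Set.Icc (c - 2 * R) (c + 2 * R) → deriv χ x = 0 := by
    intro x hx
    have : χ =ᶠ[nhds x] fun _ => 0 := by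
      filter_upwards [isClosed_Icc.isOpen_compl.mem_nhds hx] with y hy using hsupp y hy
    rw [this.deriv_eq]
    simp
  obtain ⟨i1, i2, hen⟩ := energy s a c hs0 χ h1 h2
  -- mass
  set n : ℝ := ∫ x, (χ x * psi s a c x) ^ 2 with hn
  have hn0 : m0 ≤ n := by
    rw [hm0, hn]
    calc ∫ x in Set.Icc (c - 1) (c + 1), psi s a c x ^ 2 =
        ∫ x in Set.Icc (c - 1) (c + 1), (χ x * psi s a c x) ^ 2 := by
          apply setIntegral_congr_fun measurableSet_Icc
          intro x hx
          simp only [hone x hx, one_mul]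
      _ ≤ _ := setIntegral_le_integral i2 (Filter.Eventually.of_forall fun x => sq_nonneg _)
  have hnpos : 0 < n := by linarith
  have hkin : ∫ x, (deriv χ x) ^ 2 * psi s a c x ^ 2 ≤ 4 * C ^ 2 / R := by
    calc ∫ x, (deriv χ x) ^ 2 * psi s a c x ^ 2 =
        ∫ x in Set.Icc (c - 2 * R) (c + 2 * R), (deriv χ x) ^ 2 * psi s a c x ^ 2 := by
          rw [setIntegral_eq_integral_of_forall_compl_eq_zero]
          intro x hx
          rw [hder0 x hx]
          ring
      _ ≤ ∫ x in Set.Icc (c - 2 * R) (c + 2 * R), (C / R) ^ 2 := by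
          apply setIntegral_mono_on i1.integrableOn
          · exact integrableOn_const (by simp)
          · exact measurableSet_Icc
          · intro x hx
            have e1 : (deriv χ x) ^ 2 ≤ (C / R) ^ 2 := by
              rw [← sq_abs]
              exact pow_le_pow_left₀ (abs_nonneg _) (hder x) 2
            have e2 : psi s a c x ^ 2 ≤ 1 :=
              pow_le_one₀ (psi_pos s a c x).le (psi_le_one s a c x hs0.le)
            have e3 : 0 ≤ psi s a c x ^ 2 := sq_nonneg _
            nlinarith [sq_nonneg (deriv χ x)]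
      _ = _ := by
          rw [setIntegral_const, Real.volume_real_Icc_of_le (by linarith)]
          simp only [smul_eq_mul]
          field_simp
          ring
  have hnum : ∫ x, (deriv χ x) ^ 2 * psi s a c x ^ 2 ≤ ε * n :=
    hkin.trans (hR2.trans (mul_le_mul_of_nonneg_left hn0 hε.le))
  refine ⟨fun x => (Real.sqrt n)⁻¹ * (χ x * psi s a c x), ?_, ?_, ?_, ?_⟩
  · exact contDiff_const.mul (h1.mul (contDiff_psi s a c))
  · exact (h2.mul_right (f' := psi s a c)).mul_left (f := fun _ => (Real.sqrt n)⁻¹)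
  · have : ∀ x, ((Real.sqrt n)⁻¹ * (χ x * psi s a c x)) ^ 2 = n⁻¹ * (χ x * psi s a c x) ^ 2 := by
      intro x
      rw [mul_pow, inv_pow, Real.sq_sqrt hnpos.le]
    simp_rw [this]
    rw [integral_const_mul, ← hn, inv_mul_cancel₀ hnpos.ne']
  · have hdd : ∀ x, deriv (fun x => (Real.sqrt n)⁻¹ * (χ x * psi s a c x)) x =
        (Real.sqrt n)⁻¹ * deriv (fun x => χ x * psi s a c x) x := by
      intro x
      rw [deriv_const_mul_field]
    have : ∀ x, (deriv (fun x => (Real.sqrt n)⁻¹ * (χ x * psi s a c x)) x ^ 2 -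
        soliton s⁻¹ a c x * ((Real.sqrt n)⁻¹ * (χ x * psi s a c x)) ^ 2) =
        n⁻¹ * (deriv (fun y => χ y * psi s a c y) x ^ 2 -
          soliton s⁻¹ a c x * (χ x * psi s a c x) ^ 2) := by
      intro x
      rw [hdd x, mul_pow, mul_pow, inv_pow, Real.sq_sqrt hnpos.le]
      ring
    simp_rw [this]
    rw [integral_const_mul, hen, mul_sub]
    have e1 : n⁻¹ * (a ^ 2 * n) = a ^ 2 := by field_simp
    have e2 : n⁻¹ * ∫ x, (deriv χ x) ^ 2 * psi s a c x ^ 2 ≤ ε := by
      rw [inv_mul_le_iff₀ hnpos]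
      linarith
    rw [e1]
    linarith

end Crest.Agent.R332
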