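import Crest.Agent.R332.LIBC

/-! Spectral pairing. -/

set_option autoImplicit false

open MeasureTheory Matrix Filter Topology
open Crest.MathPhysics.LiebThirring
open scoped ComplexOrder

namespace Crest.Agent.R332

namespace SPECaux

variable {N : ℕ}

theorem row_sum (W : Mt N) (h : W * Wᴴ = 1) (i : Fin N) : ∑ j, ‖W i j‖ ^ 2 = 1 := by
  have h1 := congrFun (congrFun h i) i
  rw [Matrix.mul_apply, Matrix.one_apply_eq] at h1
  have h2 : ((∑ j, ‖W i j‖ ^ 2 : ℝ) : ℂ) = 1 := by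
    rw [← h1]
    push_cast
    refine Finset.sum_congr rfl fun j _ => ?_
    rw [Matrix.conjTranspose_apply]
    exact (Complex.mul_conj' (W i j)).symm
  exact_mod_cast h2

theorem col_sum (W : Mt N) (h : Wᴴ * W = 1) (j : Fin N) : ∑ i, ‖W i j‖ ^ 2 = 1 := by
  have h1 := congrFun (congrFun h j) j
  rw [Matrix.mul_apply, Matrix.one_apply_eq] at h1
  have h2 : ((∑ i, ‖W i j‖ ^ 2 : ℝ) : ℂ) = 1 := by
    rw [← h1]
    push_cast
    refine Finset.sum_congr rfl fun i _ => ?_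
    rw [Matrix.conjTranspose_apply, mul_comm]
    exact (Complex.mul_conj' (W i j)).symm
  exact_mod_cast h2

theorem rtr_dg_mul (W : Mt N) (a b : Fin N → ℝ) :
    rtr (dg a * (W * dg b * Wᴴ)) = ∑ i, ∑ j, ‖W i j‖ ^ 2 * (a i * b j) := by
  unfold rtr Matrix.trace
  rw [Complex.re_sum]
  refine Finset.sum_congr rfl fun i _ => ?_
  rw [Matrix.diag_apply]
  unfold dg
  rw [Matrix.diagonal_mul, Matrix.mul_apply]
  have : ∀ j, (W * Matrix.diagonal fun i => ((b i : ℝ) : ℂ)) i j * Wᴴ j i =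
      ((‖W i j‖ ^ 2 * b j : ℝ) : ℂ) := by
    intro j
    rw [Matrix.mul_diagonal, Matrix.conjTranspose_apply]
    have h := Complex.mul_conj' (W i j)
    push_cast
    rw [← h]
    show W i j * ↑(b j) * (starRingEnd ℂ) (W i j) = _
    ring
  rw [Finset.sum_congr rfl fun j _ => this j, ← Complex.ofReal_sum, ← Complex.ofReal_mul,
    Complex.ofReal_re, Finset.mul_sum]
  refine Finset.sum_congr rfl fun j _ => ?_
  ring

end SPECaux

open SPECaux in
theorem spec : SPEC := by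
  intro N A B hA hB
  obtain ⟨U, hU⟩ := exists_diag hA
  obtain ⟨V, hV⟩ := exists_diag hB
  set W : Mt N := (U : Mt N)ᴴ * (V : Mt N) with hW
  have hWs : Wᴴ = (V : Mt N)ᴴ * (U : Mt N) := by
    rw [hW, Matrix.conjTranspose_mul, Matrix.conjTranspose_conjTranspose]
  have h1 : W * Wᴴ = 1 := by
    rw [hWs, hW]
    calc (U : Mt N)ᴴ * (V : Mt N) * ((V : Mt N)ᴴ * (U : Mt N))
        = (U : Mt N)ᴴ * ((V : Mt N) * (V : Mt N)ᴴ) * (U : Mt N) := by
          simp only [Matrix.mul_assoc]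
      _ = 1 := by rw [U_mul_star, Matrix.mul_one, U_star_mul]
  have h2 : Wᴴ * W = 1 := by
    rw [hWs, hW]
    calc (V : Mt N)ᴴ * (U : Mt N) * ((U : Mt N)ᴴ * (V : Mt N))
        = (V : Mt N)ᴴ * ((U : Mt N) * (U : Mt N)ᴴ) * (V : Mt N) := by
          simp only [Matrix.mul_assoc]
      _ = 1 := by rw [U_mul_star, Matrix.mul_one, U_star_mul]
  refine ⟨fun i j => ‖W i j‖ ^ 2, fun i j => by positivity, row_sum W h1, col_sum W h2, ?_⟩
  intro f g
  rw [cfc_eq_of_diag U _ hU f, cfc_eq_of_diag V _ hV g, ← rtr_dg_mul W, hWs, hW]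
  have e : (U : Mt N) * dg (fun i => f (hA.eigenvalues i)) * (U : Mt N)ᴴ *
      ((V : Mt N) * dg (fun i => g (hB.eigenvalues i)) * (V : Mt N)ᴴ) =
      (U : Mt N) * (dg (fun i => f (hA.eigenvalues i)) * ((U : Mt N)ᴴ * (V : Mt N) *
        dg (fun i => g (hB.eigenvalues i)) * (V : Mt N)ᴴ)) := by
    simp only [Matrix.mul_assoc]
  rw [e, rtr_mul_comm]
  congr 1
  simp only [Matrix.mul_assoc]

end Crest.Agent.R332
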