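import Crest.Agent.R332.Defs
import Crest.Agent.R332.LIBC
import Crest.Agent.R332.LIBF

/-! Golden–Thompson plus Gibbs. -/

set_option autoImplicit false

open MeasureTheory Matrix Filter Topology
open Crest.MathPhysics.LiebThirring
open scoped ComplexOrder

namespace Crest.Agent.R332
namespace STARaux

variable {N : ℕ}

/-- scalar inequality -/
theorem scalar (h y : ℝ) (hy : 0 < y) :
    y * (h - Real.log y) + y + (Real.exp (h / 2) - Real.sqrt y) ^ 2 ≤ Real.exp h := by
  have e1 : Real.exp h = Real.exp (h / 2) ^ 2 := by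
    rw [← Real.exp_nat_mul]; congr 1; push_cast; ring
  have e2 : y = Real.sqrt y ^ 2 := (Real.sq_sqrt hy.le).symm
  have hb : 0 < Real.sqrt y := Real.sqrt_pos.2 hy
  set b := Real.sqrt y with hbdef
  set a := Real.exp (h / 2) with ha
  have ha0 : 0 < a := Real.exp_pos _
  have e3 : h = 2 * Real.log a := by rw [ha, Real.log_exp]; ring
  have e4 : Real.log y = 2 * Real.log b := by
    rw [e2, Real.log_pow]; push_cast; ring
  have h5 : Real.log a - Real.log b ≤ a / b - 1 := by
    rw [← Real.log_div ha0.ne' hb.ne']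
    exact Real.log_le_sub_one_of_pos (div_pos ha0 hb)
  rw [e1, e4, e2]
  have h6 : b ^ 2 * (h - 2 * Real.log b) ≤ 2 * b ^ 2 * (a / b - 1) := by
    have : h - 2 * Real.log b = 2 * (Real.log a - Real.log b) := by rw [e3]; ring
    rw [this]
    nlinarith [sq_nonneg b, sq_pos_of_pos hb]
  have h7 : 2 * b ^ 2 * (a / b - 1) = 2 * a * b - 2 * b ^ 2 := by
    field_simp
  rw [h7] at h6
  nlinarith

end STARaux

open STARaux in
theorem star_ : GTL → SPEC → STAR := by
  intro hG hS N A B Y hA hB hY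
  have h1 := hG N A B hA hB
  set L : Mt N := lg A + lg B with hL
  have hLh : L.IsHermitian := (lg_isHermitian A).add (lg_isHermitian B)
  obtain ⟨p, hp0, hp1, hp2, hp⟩ := hS N L Y hLh hY.1
  set h : Fin N → ℝ := hLh.eigenvalues
  set y : Fin N → ℝ := hY.1.eigenvalues
  have hy : ∀ j, 0 < y j := hY.eigenvalues_pos
  -- rewrite everything as pairings
  have e1 : rtr (cfc Real.exp L) = ∑ i, ∑ j, p i j * Real.exp (h i) := by
    rw [rtr_cfc hLh]
    refine Finset.sum_congr rfl fun i _ => ?_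
    rw [← Finset.sum_mul, hp1, one_mul]
  have e2 : rtr Y = ∑ i, ∑ j, p i j * y j := by
    have : rtr Y = ∑ j, y j := by
      conv_lhs => rw [← cfc_id_mt hY.1]
      rw [rtr_cfc hY.1]
    rw [this, Finset.sum_comm]
    refine Finset.sum_congr rfl fun j _ => ?_
    rw [← Finset.sum_mul, hp2, one_mul]
  have e3 : rtr (Y * L) = ∑ i, ∑ j, p i j * (h i * y j) := by
    have := hp (fun x => x) (fun x => x)
    rw [cfc_id_mt hLh, cfc_id_mt hY.1] at this
    rw [rtr_mul_comm, this]
  have e4 : rtr (Y * lg Y) = ∑ i, ∑ j, p i j * (y j * Real.log (y j)) := by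
    have h0 : Y * lg Y = cfc (fun x : ℝ => x * Real.log x) Y := by
      have := cfc_mul_mt hY.1 (fun x : ℝ => x) Real.log
      rw [cfc_id_mt hY.1] at this
      exact this
    rw [h0, rtr_cfc hY.1, Finset.sum_comm]
    refine Finset.sum_congr rfl fun j _ => ?_
    rw [← Finset.sum_mul, hp2, one_mul]
  have e5 : fro2 (cfc (fun x => Real.exp (x / 2)) L - cfc Real.sqrt Y) =
      ∑ i, ∑ j, p i j * (Real.exp (h i / 2) - Real.sqrt (y j)) ^ 2 := by
    rw [fro2_sub]
    have ea : fro2 (cfc (fun x => Real.exp (x / 2)) L) =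
        ∑ i, ∑ j, p i j * (Real.exp (h i / 2)) ^ 2 := by
      rw [fro2_eq, (cfc_isHermitian' L _).eq, cfc_mul_mt hLh, rtr_cfc hLh]
      refine Finset.sum_congr rfl fun i _ => ?_
      rw [← Finset.sum_mul, hp1, one_mul]
      exact (sq _).symm
    have eb : fro2 (cfc Real.sqrt Y) = ∑ i, ∑ j, p i j * (Real.sqrt (y j)) ^ 2 := by
      rw [fro2_eq, (cfc_isHermitian' Y _).eq, cfc_mul_mt hY.1, rtr_cfc hY.1, Finset.sum_comm]
      refine Finset.sum_congr rfl fun j _ => ?_
      rw [← Finset.sum_mul, hp2, one_mul]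
      exact (sq _).symm
    have ec : rtr ((cfc (fun x => Real.exp (x / 2)) L)ᴴ * cfc Real.sqrt Y) =
        ∑ i, ∑ j, p i j * (Real.exp (h i / 2) * Real.sqrt (y j)) := by
      rw [(cfc_isHermitian' L _).eq, hp]
    rw [ea, eb, ec]
    rw [Finset.mul_sum, ← Finset.sum_sub_distrib, ← Finset.sum_add_distrib]
    refine Finset.sum_congr rfl fun i _ => ?_
    rw [Finset.mul_sum, ← Finset.sum_sub_distrib, ← Finset.sum_add_distrib]
    refine Finset.sum_congr rfl fun j _ => ?_
    ring
  have key : rtr (Y * (L - lg Y)) + rtr Y +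
      fro2 (cfc (fun x => Real.exp (x / 2)) L - cfc Real.sqrt Y) ≤ rtr (cfc Real.exp L) := by
    rw [Matrix.mul_sub, rtr_sub, e1, e2, e3, e4, e5]
    rw [← Finset.sum_sub_distrib, ← Finset.sum_add_distrib, ← Finset.sum_add_distrib]
    refine Finset.sum_le_sum fun i _ => ?_
    rw [← Finset.sum_sub_distrib, ← Finset.sum_add_distrib, ← Finset.sum_add_distrib]
    refine Finset.sum_le_sum fun j _ => ?_
    have := mul_le_mul_of_nonneg_left (scalar (h i) (y j) (hy j)) (hp0 i j)
    nlinarith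
  linarith

end Crest.Agent.R332
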