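import Crest.Agent.R332.TLTC

/-! Subsequence with convergent eigenvalues and a.e. convergent density. -/

set_option autoImplicit false

open MeasureTheory Matrix Filter Topology
open Crest.MathPhysics.LiebThirring
open scoped ComplexOrder

namespace Crest.Agent.R332
namespace SUBS

variable {N m : ℕ}

/-- subsequence of a configuration sequence -/
noncomputable def sub {s : ℝ} {W : ℝ → Mt m} (S : CSeq s m W) (φ : ℕ → ℕ)
    (hφ : StrictMono φ) : CSeq s m W where
  N n := S.N (φ n)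
  κ n := S.κ (φ n)
  X n := S.X (φ n)
  X' n := S.X' (φ n)
  Q n := S.Q (φ n)
  l n := S.l (φ n)
  cfg n := S.cfg (φ n)
  ys := S.ys.comp hφ.tendsto_atTop
  ks := S.ks.comp hφ.tendsto_atTop
  ts := S.ts.comp hφ.tendsto_atTop

theorem tracePow_le_fro {A : Mt m} (hA : A.PosSemidef) {q : ℝ} (hq : 2 ≤ q) :
    tracePow A q ≤ fro A ^ q := by
  rw [tracePow_eq_sum hA.1]
  have h0 := fro2_herm hA.1
  have hn := fro_nonneg A
  have h1 : ∀ i, hA.1.eigenvalues i ≤ fro A := by
    intro i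
    refine Real.le_sqrt_of_sq_le ?_
    rw [h0]
    exact Finset.single_le_sum (f := fun i => hA.1.eigenvalues i ^ 2)
      (fun i _ => sq_nonneg _) (Finset.mem_univ i)
  have h2 : ∀ i, hA.1.eigenvalues i ^ q ≤ hA.1.eigenvalues i ^ 2 * fro A ^ (q - 2) := by
    intro i
    have h3 := hA.eigenvalues_nonneg i
    have h4 : hA.1.eigenvalues i ^ q =
        hA.1.eigenvalues i ^ (2 : ℝ) * hA.1.eigenvalues i ^ (q - 2) := by
      rw [← Real.rpow_add_of_nonneg h3 (by norm_num) (by linarith)]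
      congr 1; ring
    rw [h4, Real.rpow_two]
    exact mul_le_mul_of_nonneg_left (Real.rpow_le_rpow h3 (h1 i) (by linarith)) (sq_nonneg _)
  have h5 : fro A ^ q = fro2 A * fro A ^ (q - 2) := by
    rw [← sq_fro, ← Real.rpow_two, ← Real.rpow_add_of_nonneg hn (by norm_num) (by linarith)]
    congr 1; ring
  rw [h5, h0, Finset.sum_mul]
  exact Finset.sum_le_sum fun i _ => h2 i

theorem add_rpow_le {a b q : ℝ} (ha : 0 ≤ a) (hb : 0 ≤ b) (hq : 0 ≤ q) :
    (a + b) ^ q ≤ 2 ^ q * (a ^ q + b ^ q) := by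
  have ha' := Real.rpow_nonneg ha q
  have hb' := Real.rpow_nonneg hb q
  have h2 : (0:ℝ) ≤ 2 ^ q := by positivity
  rcases le_total a b with h | h
  · calc (a + b) ^ q ≤ (2 * b) ^ q := Real.rpow_le_rpow (by linarith) (by linarith) hq
      _ = 2 ^ q * b ^ q := Real.mul_rpow (by norm_num) hb
      _ ≤ _ := by gcongr; linarith
  · calc (a + b) ^ q ≤ (2 * a) ^ q := Real.rpow_le_rpow (by linarith) (by linarith) hq
      _ = 2 ^ q * a ^ q := Real.mul_rpow (by norm_num) ha
      _ ≤ _ := by gcongr; linarith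

theorem tp_Wm (hTR : TRX) {s : ℝ} (hs : 0 < s) (hc : 0 ≤ cY s * (s⁻¹ + 1)) (X : Rc m N) :
    tracePow (Wm s X) (1 + s) =
      (cY s * (s⁻¹ + 1)) ^ (1 + s) * tracePow (X * Xᴴ) (s⁻¹ + 1) := by
  unfold Wm
  rw [tracePow_smul (pw_posSemidef (TLTC.gram_psd X) _) hc, tracePow_pw (TLTC.gram_psd X)]
  have e : s⁻¹ * (1 + s) = s⁻¹ + 1 := by field_simp
  rw [e]
  congr 1
  exact ((hTR m N X).2 (fun t => t ^ (s⁻¹ + 1)) (Real.zero_rpow (by positivity))).symm

theorem outer_psd (X : Rc m N) : (X * Xᴴ).PosSemidef := Matrix.posSemidef_self_mul_conjTranspose X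

theorem kap_nonneg {κ : Fin N → ℝ} (h : ∀ i, 0 < κ i) (i : ℕ) : 0 ≤ kap κ i := by
  unfold kap; split_ifs with hi
  · exact (h _).le
  · exact le_rfl

theorem kap_antitone {κ : Fin N → ℝ} (h : ∀ i, 0 < κ i) (ha : Antitone κ) :
    Antitone (kap κ) := by
  intro i j hij
  unfold kap
  split_ifs with h1 h2 h2
  · exact ha (by simpa using hij)
  · omega
  · exact (h _).le
  · exact le_rfl

/-- decay of the eigenvalues -/
theorem kap_le {κ : Fin N → ℝ} (h : ∀ i, 0 < κ i) (ha : Antitone κ) {p B : ℝ} (hp : 0 < p)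
    (hB : ∑ i, κ i ^ p ≤ B) (i : ℕ) : kap κ i ≤ (B / (i + 1)) ^ p⁻¹ := by
  have hB0 : 0 ≤ B := le_trans (Finset.sum_nonneg fun i _ => Real.rpow_nonneg (h i).le p) hB
  unfold kap
  split_ifs with hi
  · have h1 : ((i : ℝ) + 1) * κ ⟨i, hi⟩ ^ p ≤ B := by
      refine le_trans ?_ hB
      have h2 : ∑ j ∈ Finset.univ.filter (fun j : Fin N => (j : ℕ) ≤ i), κ ⟨i, hi⟩ ^ p ≤
          ∑ j, κ j ^ p := by
        refine le_trans (Finset.sum_le_sum (g := fun j => κ j ^ p) fun j hj => ?_)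
          (Finset.sum_le_sum_of_subset_of_nonneg (Finset.filter_subset _ _)
            fun j _ _ => Real.rpow_nonneg (h j).le p)
        rw [Finset.mem_filter] at hj
        exact Real.rpow_le_rpow (h _).le (ha (Fin.le_def.2 hj.2)) hp.le
      rw [Finset.sum_const, nsmul_eq_mul] at h2
      have h3 : (Finset.univ.filter (fun j : Fin N => (j : ℕ) ≤ i)).card = i + 1 := by
        have h4 : Finset.univ.filter (fun j : Fin N => (j : ℕ) ≤ i) = Finset.Iic ⟨i, hi⟩ := by
          ext j; simp [Fin.le_def]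
        rw [h4, Fin.card_Iic]
      rw [h3] at h2
      push_cast at h2
      exact h2
    have h5 : κ ⟨i, hi⟩ ^ p ≤ B / (i + 1) := by
      rw [le_div_iff₀ (by positivity)]; linarith
    calc κ ⟨i, hi⟩ = (κ ⟨i, hi⟩ ^ p) ^ p⁻¹ := by
          rw [← Real.rpow_mul (h _).le, mul_inv_cancel₀ hp.ne', Real.rpow_one]
      _ ≤ _ := Real.rpow_le_rpow (Real.rpow_nonneg (h _).le p) h5 (by positivity)
  · positivity

theorem tendsto_decay {B p : ℝ} (hp : 0 < p) :
    Tendsto (fun i : ℕ => (B / ((i : ℝ) + 1)) ^ p⁻¹) atTop (𝓝 0) := by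
  have h1 : Tendsto (fun i : ℕ => B / ((i : ℝ) + 1)) atTop (𝓝 0) := by
    refine Tendsto.const_div_atTop ?_ B
    exact tendsto_atTop_add_const_right _ _ tendsto_natCast_atTop_atTop
  have h2 := h1.rpow_const (p := p⁻¹) (Or.inr (by positivity))
  rwa [Real.zero_rpow (by positivity)] at h2

/-- tail of an integrable function -/
theorem tail_small {f : ℝ → ℝ} (hf : Integrable f) {ε : ℝ} (hε : 0 < ε) :
    ∃ L : ℝ, 0 < L ∧ ∀ L', L ≤ L' → (∀ x, 0 ≤ f x) → ∫ x in {x : ℝ | L' < |x|}, f x ≤ ε := by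
  have hm : ∀ L : ℝ, MeasurableSet {x : ℝ | L < |x|} := fun L =>
    (isOpen_lt continuous_const continuous_abs).measurableSet
  have h1 := tendsto_setIntegral_of_antitone (μ := volume) (f := f)
    (s := fun n : ℕ => {x : ℝ | (n : ℝ) < |x|}) (fun n => hm n)
    (fun i j hij x hx => by
      have hx' : (j : ℝ) < |x| := hx
      have hij' : (i : ℝ) ≤ j := Nat.cast_le.2 hij
      show (i : ℝ) < |x|
      linarith) ⟨0, hf.integrableOn⟩
  have h2 : (⋂ n : ℕ, {x : ℝ | (n : ℝ) < |x|}) = ∅ := by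
    ext x
    simp only [Set.mem_iInter, Set.mem_ofPred_eq, Set.mem_empty_iff_false, iff_false, not_forall,
      not_lt]
    exact exists_nat_ge |x|
  rw [h2] at h1
  simp only [Measure.restrict_empty, integral_zero_measure] at h1
  obtain ⟨n, hn⟩ := (h1.eventually (gt_mem_nhds hε)).exists
  refine ⟨n + 1, by positivity, fun L' hL' h0 => le_trans ?_ hn.le⟩
  refine setIntegral_mono_set hf.integrableOn (ae_of_all _ h0) ?_
  refine LE.le.eventuallyLE ?_
  intro x hx
  have h3 : L' < |x| := hx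
  show (n : ℝ) < |x|
  linarith


end SUBS

open SUBS in
theorem subs : YCV → TLTC → TRX → CONSTS → YSI → SUBS := by
  intro hYCV hTLTC hTR hCO hYSI s hs hs1 m W hW S
  obtain ⟨hCc, hcY, hbet, hcs, -, -, -⟩ := hCO s hs hs1
  obtain ⟨c', hc', hY⟩ := hYCV s hs hs1 m
  obtain ⟨C0, _, hT⟩ := hTLTC s hs hs1 1 one_pos
  set q : ℝ := s⁻¹ + 1 with hq
  have hsi : 1 < s⁻¹ := (one_lt_inv₀ hs).2 hs1
  have hq2 : 2 ≤ q := by rw [hq]; linarith
  have hq0 : 0 ≤ q := by linarith
  have hcq : 0 ≤ cY s * (s⁻¹ + 1) := by positivity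
  set A0 : ℝ := (cY s * (s⁻¹ + 1)) ^ (1 + s) with hA0
  have hA0n : 0 ≤ A0 := Real.rpow_nonneg hcq _
  -- continuity etc.
  have hXc : ∀ n, Continuous (S.X n) := fun n => cont_of_deriv (S.cfg n).dX
  have hX0 : ∀ n x, S.l n ≤ |x| → S.X n x = 0 := fun n x hx => ((S.cfg n).X0 x hx).1
  -- the density
  have hg := fun n => hY W hW.meas hW.psd hW.int (S.N n) (S.X n) (S.l n) (hXc n) (hX0 n)
  set g : ℕ → ℝ → ℝ := fun n x => fro (S.X n x * (S.X n x)ᴴ - RW s (W x)) ^ q with hgdef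
  have hgi : ∀ n, Integrable (g n) := fun n => (hg n).1
  have hgn : ∀ n x, 0 ≤ g n x := fun n x => Real.rpow_nonneg (fro_nonneg _) _
  have hgle : ∀ n, c' * (∫ x, g n x) ≤ YS s W (S.X n) := fun n => (hg n).2
  -- the limit density
  set h : ℝ → ℝ := fun x => fro (RW s (W x)) ^ q with hhdef
  have hhi : Integrable h := by
    have h1 := (hY W hW.meas hW.psd hW.int 0 (fun _ => 0) 1 continuous_const
      (fun _ _ => rfl)).1
    refine h1.congr (ae_of_all _ fun x => ?_)
    show fro ((0 : Rc m 0) * (0 : Rc m 0)ᴴ - RW s (W x)) ^ (s⁻¹ + 1) = _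
    rw [Matrix.zero_mul, zero_sub, fro_neg]
  have hhn : ∀ x, 0 ≤ h x := fun x => Real.rpow_nonneg (fro_nonneg _) _
  have hyb : ∀ n, Integrable (fun x => tracePow (S.X n x * (S.X n x)ᴴ) q) := fun n =>
    (hYSI s hs hs1 m W hW.meas hW.psd hW.int (S.N n) (S.X n) (S.l n) (hXc n) (hX0 n)).1
  have hpt : ∀ n x, tracePow (S.X n x * (S.X n x)ᴴ) q ≤ 2 ^ q * (g n x + h x) := by
    intro n x
    refine (tracePow_le_fro (outer_psd _) hq2).trans ?_
    have h1 : fro (S.X n x * (S.X n x)ᴴ) ≤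
        fro (S.X n x * (S.X n x)ᴴ - RW s (W x)) + fro (RW s (W x)) := by
      have h2 := fro_add_le (S.X n x * (S.X n x)ᴴ - RW s (W x)) (RW s (W x))
      rwa [sub_add_cancel] at h2
    exact (Real.rpow_le_rpow (fro_nonneg _) h1 hq0).trans
      (add_rpow_le (fro_nonneg _) (fro_nonneg _) hq0)
  have htn : ∀ n x, 0 ≤ tracePow (S.X n x * (S.X n x)ᴴ) q := fun n x =>
    tracePow_nonneg (outer_psd _) _
  -- bounds
  obtain ⟨Y0, hY0⟩ := S.ys.bddAbove_range
  have hY0' : ∀ n, YS s W (S.X n) ≤ Y0 := fun n => hY0 ⟨n, rfl⟩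
  set I0 : ℝ := ∫ x, h x with hI0
  have hI0n : 0 ≤ I0 := integral_nonneg hhn
  have hint : ∀ n, ∫ x, tracePow (S.X n x * (S.X n x)ᴴ) q ≤
      2 ^ q * (YS s W (S.X n) / c' + I0) := by
    intro n
    calc ∫ x, tracePow (S.X n x * (S.X n x)ᴴ) q ≤ ∫ x, 2 ^ q * (g n x + h x) :=
          integral_mono (hyb n) (((hgi n).add hhi).const_mul _) (hpt n)
      _ = 2 ^ q * ((∫ x, g n x) + I0) := by
          rw [integral_const_mul, integral_add (hgi n) hhi]
      _ ≤ _ := by
          gcongr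
          rw [le_div_iff₀ hc']; linarith [hgle n]
  have hYn : ∀ n, 0 ≤ YS s W (S.X n) := fun n =>
    le_trans (mul_nonneg hc'.le (integral_nonneg (hgn n))) (hgle n)
  have hY0n : 0 ≤ Y0 := (hYn 0).trans (hY0' 0)
  set B : ℝ := 2 ^ q * (Y0 / c' + I0) with hB
  have hBn : 0 ≤ B := by positivity
  have hB1 : ∀ n, ∫ x, tracePow (S.X n x * (S.X n x)ᴴ) q ≤ B := by
    intro n
    refine (hint n).trans ?_
    rw [hB]
    have := hY0' n
    gcongr
  -- eigenvalue bound
  have hTSn : ∀ n, 0 ≤ TS s (S.κ n) (S.X n) := fun n => (hT m _ _ _ _ _ _ (S.cfg n)).1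
  have hWm : ∀ n, ∫ x, tracePow (Wm s (S.X n x)) (1 + s) =
      A0 * ∫ x, tracePow (S.X n x * (S.X n x)ᴴ) q := by
    intro n
    rw [← integral_const_mul]
    congr 1
    ext x
    exact tp_Wm hTR hs hcq _
  set B' : ℝ := A0 * B / (cs s * bet s) with hB'
  have hcb : 0 < cs s * bet s := mul_pos hcs hbet
  have hB'n : 0 ≤ B' := by positivity
  have hκB : ∀ n, ∑ i, S.κ n i ^ (1 + 2 * s) ≤ B' := by
    intro n
    rw [hB', le_div_iff₀ hcb]
    have h1 := hTSn n
    unfold TS at h1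
    rw [hWm n] at h1
    have h2 : A0 * ∫ x, tracePow (S.X n x * (S.X n x)ᴴ) q ≤ A0 * B := by
      gcongr
      exact hB1 n
    linarith
  have hp : 0 < 1 + 2 * s := by linarith
  have hkap : ∀ n i, kap (S.κ n) i ≤ (B' / (i + 1)) ^ (1 + 2 * s)⁻¹ := fun n i =>
    kap_le (S.cfg n).kpos (S.cfg n).kanti hp (hκB n) i
  set K0 : ℝ := B' ^ (1 + 2 * s)⁻¹ with hK0
  have hK0n : 0 ≤ K0 := by positivity
  have hkap2 : ∀ n i, kap (S.κ n) i ≤ K0 := by
    intro n i
    refine (hkap n i).trans ?_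
    rw [hK0]
    refine Real.rpow_le_rpow (by positivity) ?_ (by positivity)
    exact div_le_self hB'n (by linarith [(Nat.cast_nonneg i : (0:ℝ) ≤ i)])
  have hκK : ∀ n i, S.κ n i ≤ K0 := by
    intro n i
    have h1 := hkap2 n i
    unfold kap at h1
    rw [dif_pos i.2] at h1
    exact h1
  -- first subsequence: eigenvalues
  obtain ⟨k, -, φ, hφ, hk⟩ := (isCompact_univ_pi fun _ : ℕ =>
    (isCompact_Icc : IsCompact (Set.Icc (0 : ℝ) K0))).tendsto_subseq
    (x := fun n => kap (S.κ n)) fun n => by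
      rw [Set.mem_univ_pi]
      exact fun i => ⟨kap_nonneg (S.cfg n).kpos i, hkap2 n i⟩
  have hk' : ∀ i, Tendsto (fun n => kap (S.κ (φ n)) i) atTop (𝓝 (k i)) := fun i =>
    ((tendsto_pi_nhds.1 hk) i)
  -- second subsequence: a.e. convergence
  have hgt : Tendsto (fun n => ∫ x, g n x) atTop (𝓝 0) := by
    refine squeeze_zero (fun n => integral_nonneg (hgn n))
      (fun n => show _ ≤ YS s W (S.X n) / c' by
        rw [le_div_iff₀ hc']; linarith [hgle n]) ?_
    have := S.ys.div_const c'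
    rwa [zero_div] at this
  have hgt' : Tendsto (fun n => eLpNorm (g (φ n) - fun _ => (0 : ℝ)) 1 volume) atTop (𝓝 0) := by
    have h1 : ∀ n, eLpNorm (g (φ n) - fun _ => (0 : ℝ)) 1 volume =
        ENNReal.ofReal (∫ x, g (φ n) x) := by
      intro n
      rw [eLpNorm_one_eq_lintegral_enorm, ofReal_integral_eq_lintegral_ofReal (hgi _)
        (ae_of_all _ (hgn _))]
      refine lintegral_congr fun x => ?_
      rw [Pi.sub_apply, sub_zero, Real.enorm_of_nonneg (hgn _ _)]
    simp only [h1]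
    have h2 := (ENNReal.continuous_ofReal.tendsto 0).comp (hgt.comp hφ.tendsto_atTop)
    rw [ENNReal.ofReal_zero] at h2
    exact h2
  have hmeas := tendstoInMeasure_of_tendsto_eLpNorm (μ := volume) (f := fun n => g (φ n))
    (g := fun _ => (0 : ℝ)) (p := 1) one_ne_zero (fun n => (hgi _).aestronglyMeasurable)
    aestronglyMeasurable_const hgt'
  obtain ⟨ψ, hψ, hae⟩ := hmeas.exists_seq_tendsto_ae
  have hφψ : StrictMono (φ ∘ ψ) := hφ.comp hψ
  refine ⟨sub S (φ ∘ ψ) hφψ, k, K0 + 1, B + 1, ?_, by positivity, by positivity, ?_, ?_, ?_,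
    ?_, ?_, ?_, ?_⟩
  · intro i j hij
    exact le_of_tendsto_of_tendsto' (hk' j) (hk' i) fun n =>
      kap_antitone (S.cfg _).kpos (S.cfg _).kanti hij
  · intro i
    exact ge_of_tendsto' (hk' i) fun n => kap_nonneg (S.cfg _).kpos i
  · refine squeeze_zero (fun i => ge_of_tendsto' (hk' i) fun n => kap_nonneg (S.cfg _).kpos i)
      (fun i => le_of_tendsto' (hk' i) fun n => hkap (φ n) i) (tendsto_decay hp)
  · intro n i
    exact (hκK _ i).trans (by linarith)
  · intro n
    exact (hB1 _).trans (by linarith)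
  · intro i
    exact (hk' i).comp hψ.tendsto_atTop
  · filter_upwards [hae] with x hx
    rw [tendsto_iff_fro]
    have h1 : Tendsto (fun n => (g (φ (ψ n)) x) ^ q⁻¹) atTop (𝓝 (0 ^ q⁻¹)) :=
      hx.rpow_const (Or.inr (by positivity))
    rw [Real.zero_rpow (by positivity)] at h1
    refine h1.congr fun n => ?_
    show (fro (S.X (φ (ψ n)) x * (S.X (φ (ψ n)) x)ᴴ - RW s (W x)) ^ q) ^ q⁻¹ = _
    rw [← Real.rpow_mul (fro_nonneg _), mul_inv_cancel₀ (by linarith), Real.rpow_one]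
    rfl
  · intro η hη
    -- tightness
    have hC : 0 < A0 * 2 ^ q + 1 := by positivity
    set δ : ℝ := η / (2 * (A0 * 2 ^ q + 1)) with hδ
    have hδ0 : 0 < δ := by positivity
    obtain ⟨n0, hn0⟩ := eventually_atTop.1 (hgt.eventually (gt_mem_nhds hδ0))
    obtain ⟨L1, hL1, hL1'⟩ := tail_small hhi hδ0
    have hex : ∃ L2 : ℝ, 0 < L2 ∧ ∀ n < n0, S.l n ≤ L2 := by
      refine ⟨(∑ n ∈ Finset.range n0, S.l n) + 1, ?_, fun n hn => ?_⟩
      · have : 0 ≤ ∑ n ∈ Finset.range n0, S.l n :=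
          Finset.sum_nonneg fun n _ => (S.cfg n).lpos.le
        linarith
      · have := Finset.single_le_sum (f := S.l) (fun n _ => (S.cfg n).lpos.le)
          (Finset.mem_range.2 hn)
        linarith
    obtain ⟨L2, hL2, hL2'⟩ := hex
    refine ⟨max L1 L2, lt_max_of_lt_left hL1, ?_⟩
    have key : ∀ n, ∫ x in {x : ℝ | max L1 L2 < |x|}, tracePow (Wm s (S.X n x)) (1 + s) ≤ η := by
      intro n
      have hms : MeasurableSet {x : ℝ | max L1 L2 < |x|} :=
        (isOpen_lt continuous_const continuous_abs).measurableSet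
      rcases lt_or_ge n n0 with hn | hn
      · have h1 : ∫ x in {x : ℝ | max L1 L2 < |x|}, tracePow (Wm s (S.X n x)) (1 + s) = 0 := by
          rw [setIntegral_congr_fun hms (g := fun _ => (0 : ℝ))]
          · simp
          · intro x hx
            have h2 : S.l n ≤ |x| :=
              (hL2' n hn).trans ((le_max_right L1 L2).trans (le_of_lt hx))
            show tracePow (Wm s (S.X n x)) (1 + s) = 0
            rw [hX0 n x h2, TLTC.Wm_zero hs, TLTC.tracePow_zero_mt (by linarith)]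
        rw [h1]; exact hη.le
      · have h1 : ∫ x in {x : ℝ | max L1 L2 < |x|}, tracePow (Wm s (S.X n x)) (1 + s) ≤
            ∫ x in {x : ℝ | max L1 L2 < |x|}, A0 * 2 ^ q * (g n x + h x) := by
          refine setIntegral_mono_on ?_ (((hgi n).add hhi).const_mul _).integrableOn hms ?_
          · have h2 : Integrable fun x => tracePow (Wm s (S.X n x)) (1 + s) := by
              refine ((hyb n).const_mul A0).congr (ae_of_all _ fun x => ?_)
              exact (tp_Wm hTR hs hcq _).symm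
            exact h2.integrableOn
          · intro x _
            rw [tp_Wm hTR hs hcq, mul_assoc]
            exact mul_le_mul_of_nonneg_left (hpt n x) hA0n
        have h3 : ∫ x in {x : ℝ | max L1 L2 < |x|}, A0 * 2 ^ q * (g n x + h x) =
            A0 * 2 ^ q * ((∫ x in {x : ℝ | max L1 L2 < |x|}, g n x) +
              ∫ x in {x : ℝ | max L1 L2 < |x|}, h x) := by
          rw [integral_const_mul, integral_add (hgi n).integrableOn hhi.integrableOn]
        have h4 : ∫ x in {x : ℝ | max L1 L2 < |x|}, g n x ≤ δ :=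
          (setIntegral_le_integral (hgi n) (ae_of_all _ (hgn n))).trans (hn0 n hn).le
        have h5 : ∫ x in {x : ℝ | max L1 L2 < |x|}, h x ≤ δ := hL1' _ (le_max_left _ _) hhn
        rw [h3] at h1
        have h6 : A0 * 2 ^ q * ((∫ x in {x : ℝ | max L1 L2 < |x|}, g n x) +
              ∫ x in {x : ℝ | max L1 L2 < |x|}, h x) ≤ A0 * 2 ^ q * (δ + δ) := by
          have : 0 ≤ A0 * 2 ^ q := by positivity
          gcongr
        have h7 : A0 * 2 ^ q * (δ + δ) ≤ η := by
          have h8 : (A0 * 2 ^ q + 1) * (δ + δ) = η := by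
            rw [hδ]; field_simp; ring
          nlinarith
        linarith
    exact fun n => key (φ (ψ n))

end Crest.Agent.R332
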