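import Crest.Agent.R332.Defs
import Crest.Agent.R332.LIBC

set_option autoImplicit false

open MeasureTheory Matrix Filter Topology Set
open Crest.MathPhysics.LiebThirring
open scoped ComplexOrder

namespace Crest.Agent.R332

namespace SUFF

theorem step1 (hSOLT : SOLT) {s : ℝ} (hs0 : 0 < s) (hs1 : s < 1) {a : ℝ} (c : ℝ) (ha : 0 ≤ a)
    {ε : ℝ} (hε : 0 < ε) :
    ∃ f : ℝ → ℝ, ContDiff ℝ (⊤ : ℕ∞) f ∧ HasCompactSupport f ∧ ∫ x, f x ^ 2 = 1 ∧
      a ^ (2 * (s + 1 / 2)) - ε ≤
        (max (-(∫ x, (deriv f x ^ 2 - soliton s⁻¹ a c x * f x ^ 2))) 0) ^ (s + 1 / 2) := by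
  rcases ha.eq_or_lt with h0 | ha
  · subst h0
    obtain ⟨f, h1, h2, h3, _⟩ := hSOLT s hs0 hs1 1 0 one_pos 1 one_pos
    refine ⟨f, h1, h2, h3, ?_⟩
    have h4 : (0:ℝ) ^ (2 * (s + 1 / 2)) = 0 := Real.zero_rpow (by linarith)
    have h5 : 0 ≤ (max (-(∫ x, (deriv f x ^ 2 - soliton s⁻¹ 0 c x * f x ^ 2))) 0) ^ (s + 1 / 2) :=
      Real.rpow_nonneg (le_max_right _ _) _
    rw [h4]
    linarith
  · have hg : Continuous (fun t : ℝ => (max (a ^ 2 - t) 0) ^ (s + 1 / 2)) :=
      Continuous.rpow_const (by fun_prop) (fun x => Or.inr (by linarith))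
    have hg0 : (max (a ^ 2 - 0) 0) ^ (s + 1 / 2) = a ^ (2 * (s + 1 / 2)) := by
      rw [sub_zero, max_eq_left (by positivity), ← Real.rpow_natCast, ← Real.rpow_mul ha.le]
      norm_num
    have h1 : ∀ᶠ t in 𝓝 (0:ℝ), a ^ (2 * (s + 1 / 2)) - ε <
        (max (a ^ 2 - t) 0) ^ (s + 1 / 2) := by
      have h2 := hg.tendsto 0
      rw [hg0] at h2
      exact h2.eventually (lt_mem_nhds (by linarith))
    obtain ⟨δ, hδ, h3⟩ := Metric.eventually_nhds_iff.1 h1
    have h4 := h3 (y := δ / 2) (by rw [Real.dist_eq, sub_zero, abs_of_pos (by positivity)]; linarith)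
    obtain ⟨f, hf1, hf2, hf3, hf4⟩ := hSOLT s hs0 hs1 a c ha (δ / 2) (by positivity)
    refine ⟨f, hf1, hf2, hf3, h4.le.trans ?_⟩
    refine Real.rpow_le_rpow (le_max_right _ _) ?_ (by linarith)
    exact max_le_max (by linarith) le_rfl

end SUFF

open SUFF in
theorem suff : SOLC → SOLT → SUFF := by
  rintro hSOLC hSOLT s hs0 hs1 m W ⟨U, a, c, ha, hW⟩ ε hε
  have hm : (0:ℝ) < m + 1 := by positivity
  choose f hf1 hf2 hf3 hf4 using fun i => step1 hSOLT hs0 hs1 (c i) (ha i)
    (ε := ε / (m + 1)) (by positivity)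
  set w : Fin m → ℝ → ℝ := fun i x => soliton s⁻¹ (a i) (c i) x with hw
  set u : Fin m → Vec m := fun k => WithLp.toLp 2 (fun i => (U : Mt m) i k) with hu
  set E : Fin m → ℝ := fun k => ∫ x, (deriv (f k) x ^ 2 - w k x * f k x ^ 2) with hE
  have huu : ∀ k l, inner ℂ (u k) (u l) = if k = l then (1:ℂ) else 0 := by
    intro k l
    have h1 := congrFun (congrFun (U_star_mul U) k) l
    rw [Matrix.mul_apply, Matrix.one_apply] at h1
    rw [← h1, EuclideanSpace.inner_eq_star_dotProduct]
    simp only [hu, dotProduct, Pi.star_apply, Matrix.conjTranspose_apply]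
    exact Finset.sum_congr rfl fun i _ => mul_comm _ _
  have hWu : ∀ x, W x = (U : Mt m) * Matrix.diagonal (fun i => ((w i x : ℝ) : ℂ)) *
      star (U : Mt m) → ∀ l, Matrix.toEuclideanLin (W x) (u l) = ((w l x : ℝ) : ℂ) • u l := by
    intro x hx l
    rw [hx, Matrix.toLpLin_apply]
    have h2 : star (U : Mt m) *ᵥ (u l).ofLp = Pi.single l 1 := by
      funext i
      have h1 := congrFun (congrFun (U_star_mul U) i) l
      rw [Matrix.mul_apply, Matrix.one_apply] at h1
      rw [Pi.single_apply, ← h1]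
      rfl
    rw [← Matrix.mulVec_mulVec, ← Matrix.mulVec_mulVec, h2, Matrix.diagonal_mulVec_single, mul_one]
    apply PiLp.ext
    intro i
    rw [Matrix.mulVec_single]
    simp [hu, Matrix.col, mul_comm]
  have hder : ∀ k x, deriv (fun y => ((f k y : ℝ) : ℂ) • u k) x =
      ((deriv (f k) x : ℝ) : ℂ) • u k := by
    intro k x
    have h1 : HasDerivAt (f k) (deriv (f k) x) x :=
      ((hf1 k).differentiable (by simp)).differentiableAt.hasDerivAt
    exact (h1.ofReal_comp.smul_const (u k)).deriv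
  refine ⟨m, fun k x => ((f k x : ℝ) : ℂ) • u k, ⟨?_, ?_, ?_⟩, ?_⟩
  · intro k
    have h1 : ContDiff ℝ (⊤ : ℕ∞) (fun x => ((f k x : ℝ) : ℂ)) :=
      Complex.ofRealCLM.contDiff.comp (hf1 k)
    exact h1.smul contDiff_const
  · intro k
    have h1 : HasCompactSupport (fun x => ((f k x : ℝ) : ℂ)) :=
      (hf2 k).comp_left (g := fun y : ℝ => (y : ℂ)) (by simp)
    exact h1.smul_right
  · intro k l
    have h1 : (fun x => inner ℂ (((f k x : ℝ) : ℂ) • u k) (((f l x : ℝ) : ℂ) • u l)) =
        fun x => ((if k = l then f k x ^ 2 else 0 : ℝ) : ℂ) := by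
      funext x
      rw [inner_smul_left, inner_smul_right, huu, Complex.conj_ofReal]
      split_ifs with h
      · subst h; push_cast; ring
      · simp
    rw [h1, integral_complex_ofReal]
    split_ifs with h
    · rw [hf3 k]; simp
    · simp
  · -- energy matrix
    have hEn : energyMatrix W (fun k x => ((f k x : ℝ) : ℂ) • u k) = dg E := by
      ext k l
      unfold energyMatrix
      rw [Matrix.of_apply]
      have h1 : ∀ᵐ x, (inner ℂ (deriv (fun y => ((f k y : ℝ) : ℂ) • u k) x)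
          (deriv (fun y => ((f l y : ℝ) : ℂ) • u l) x) -
          inner ℂ (((f k x : ℝ) : ℂ) • u k)
            (Matrix.toEuclideanLin (W x) (((f l x : ℝ) : ℂ) • u l))) =
          ((if k = l then deriv (f k) x ^ 2 - w k x * f k x ^ 2 else 0 : ℝ) : ℂ) := by
        filter_upwards [hW] with x hx
        rw [hder, hder, map_smul, hWu x hx l, inner_smul_left, inner_smul_right, inner_smul_left,
          inner_smul_right, inner_smul_right, huu, Complex.conj_ofReal, Complex.conj_ofReal]
        split_ifs with h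
        · subst h; push_cast; ring
        · simp
      rw [integral_congr_ae h1, integral_complex_ofReal]
      unfold dg
      rw [Matrix.diagonal_apply]
      split_ifs with h
      · rfl
      · simp
    rw [hEn]
    have hneg : negMoment (dg E) (s + 1 / 2) = ∑ k, (max (-(E k)) 0) ^ (s + 1 / 2) := by
      unfold negMoment
      rw [cfc_dg]
      exact rtr_dg _
    have hint : Cc s * (∫ x, tracePow (W x) (1 + s)) = ∑ i, a i ^ (2 * (s + 1 / 2)) := by
      have h1 : ∀ᵐ x, tracePow (W x) (1 + s) = ∑ i, w i x ^ (1 + s) := by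
        filter_upwards [hW] with x hx
        rw [hx]
        have h2 := tracePow_conj U (dg_isHermitian (fun i => w i x)) (1 + s)
        rw [tracePow_dg] at h2
        exact h2
      rw [integral_congr_ae h1, integral_finsetSum _
        (fun i _ => (hSOLC s hs0 hs1 (a i) (c i) (ha i)).1), Finset.mul_sum]
      exact Finset.sum_congr rfl fun i _ => (hSOLC s hs0 hs1 (a i) (c i) (ha i)).2
    rw [hneg, hint]
    have h3 : ∑ i, (a i ^ (2 * (s + 1 / 2)) - ε / (m + 1)) ≤
        ∑ k, (max (-(E k)) 0) ^ (s + 1 / 2) := Finset.sum_le_sum fun i _ => hf4 i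
    rw [Finset.sum_sub_distrib, Finset.sum_const, Finset.card_univ, Fintype.card_fin,
      nsmul_eq_mul] at h3
    have h4 : (m:ℝ) * (ε / (m + 1)) < ε := by
      rw [← mul_div_assoc, div_lt_iff₀ hm]
      nlinarith
    linarith

end Crest.Agent.R332
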