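import Crest.Agent.R332.SIGB

/-! TAILB: the tail of the density is small. -/

set_option autoImplicit false

open MeasureTheory Matrix Filter Topology
open Crest.MathPhysics.LiebThirring
open scoped ComplexOrder

namespace Crest.Agent.R332.TAILB

open Crest.Agent.R332.SIGB

variable {m N K : ℕ}

theorem rpow_tangent {r x y : ℝ} (hr : 1 ≤ r) (hx : 0 ≤ x) (hy : 0 < y) :
    r * y ^ (r - 1) * x - (r - 1) * y ^ r ≤ x ^ r := by
  have h := one_add_mul_self_le_rpow_one_add (s := x / y - 1) (by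
    have : 0 ≤ x / y := by positivity
    linarith) hr
  have h1 : 1 + (x / y - 1) = x / y := by ring
  rw [h1, Real.div_rpow hx hy.le] at h
  have hyr : 0 < y ^ r := Real.rpow_pos_of_pos hy r
  have h2 := mul_le_mul_of_nonneg_right h hyr.le
  rw [div_mul_cancel₀ _ hyr.ne'] at h2
  have h3 : y ^ (r - 1) = y ^ r / y := by
    rw [Real.rpow_sub hy, Real.rpow_one]
  rw [h3]
  have h4 : r * (y ^ r / y) * x - (r - 1) * y ^ r = (1 + r * (x / y - 1)) * y ^ r := by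
    field_simp
    ring
  linarith

theorem jensen {P : Mt N} (hP : P.PosSemidef) {r : ℝ} (hr : 1 ≤ r) (v : Rc N 1)
    (hv : fro2 v = 1) : qf P v ^ r ≤ qf (pw P r) v := by
  have hy := qf_nonneg hP v
  rcases hy.eq_or_lt with h0 | h0
  · rw [← h0, Real.zero_rpow (by linarith)]
    exact qf_nonneg (pw_posSemidef hP r) v
  · set y := qf P v with hyd
    have h1 : (pw P r - ((((r * y ^ (r - 1) : ℝ) : ℂ)) • P - sc N ((r - 1) * y ^ r))).PosSemidef := by
      have e : pw P r - ((((r * y ^ (r - 1) : ℝ) : ℂ)) • P - sc N ((r - 1) * y ^ r)) =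
          cfc (fun x => x ^ r - (r * y ^ (r - 1) * x - (r - 1) * y ^ r)) P := by
        rw [← cfc_sub_mt hP.1 (fun x => x ^ r) (fun x => r * y ^ (r - 1) * x - (r - 1) * y ^ r),
          ← cfc_sub_mt hP.1 (fun x => r * y ^ (r - 1) * x) (fun _ => (r - 1) * y ^ r),
          cfc_const_mt hP.1, ← cfc_smul_mt hP.1 _ (fun x => x), cfc_id_mt hP.1]
        rfl
      rw [e]
      refine cfc_posSemidef hP.1 fun i => ?_
      have := rpow_tangent hr (hP.eigenvalues_nonneg i) h0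
      linarith
    have h2 := qf_mono h1 v
    rw [qf_sub, qf_smul, qf_sc, hv, ← hyd] at h2
    have h3 : r * y ^ (r - 1) * y - (r - 1) * y ^ r * 1 = y ^ r := by
      have h3 : y ^ (r - 1) = y ^ r / y := by
        rw [Real.rpow_sub h0, Real.rpow_one]
      rw [h3]
      field_simp
      ring
    linarith

/-- pointwise bound -/
theorem qf_Xi_le (hST : STAR) {k C : ℝ}
    (hE : ∀ (N : ℕ) (κ : Fin N → ℝ), (∀ i, 0 ≤ κ i ∧ κ i ≤ k) → ∀ Q : Mt N, Btw κ Q →
      ∀ t : ℝ, 1 ≤ t →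
      OpLe (cfc Real.exp (lg (Kt κ t + Q) + lg (Kt κ t - Q)) - sc N t - Zm κ Q) (C / t))
    (s : ℝ) (hc : 0 ≤ cY s) {κ : Fin N → ℝ} (hκ : ∀ i, 0 ≤ κ i ∧ κ i ≤ k) {Q : Mt N}
    (hQ : Btw κ Q) (X : Rc m N) {t : ℝ} (ht : 1 ≤ t)
    (v : Rc N 1) (hv : fro2 v = 1) {δ : ℝ} (hδ : ∀ i, v i 0 ≠ 0 → κ i ≤ δ) {η : ℝ}
    (hη : 0 < η) :
    qf (Xi s X) v ≤ (1 + η) * (t + δ ^ 2 + C / t) - t + (1 + η⁻¹) * sig κ Q (Xi s X) t := by
  have ht0 : 0 < t := by linarith
  have hY := (Y_posDef (m := m) s hc X ht0).posSemidef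
  have h1 : t + qf (Xi s X) v = fro2 (Sm (sc N t + Xi s X) * v) := by
    rw [← qf_herm_mul (Sm_herm _), Sm_mul hY, qf_add, qf_sc, hv, mul_one]
  have h2 : Sm (sc N t + Xi s X) * v = Em κ Q t * v +
      (-((Em κ Q t - Sm (sc N t + Xi s X)) * v)) := by
    rw [Matrix.sub_mul]; abel
  have h3 := fro2_add_le (Em κ Q t * v) (-((Em κ Q t - Sm (sc N t + Xi s X)) * v)) hη
  rw [← h2, fro2_neg] at h3
  have h4 : fro2 ((Em κ Q t - Sm (sc N t + Xi s X)) * v) ≤ sig κ Q (Xi s X) t := by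
    refine le_trans ?_ (fro2_le_sig hST s hc hQ X ht0)
    have h5 := fro_mul_le (Em κ Q t - Sm (sc N t + Xi s X)) v
    have h6 : fro v = 1 := by unfold fro; rw [hv, Real.sqrt_one]
    rw [h6, mul_one] at h5
    rw [← sq_fro, ← sq_fro (Em κ Q t - Sm (sc N t + Xi s X))]
    exact pow_le_pow_left₀ (fro_nonneg _) h5 2
  have h5 : fro2 (Em κ Q t * v) ≤ t + δ ^ 2 + C / t := by
    rw [← qf_herm_mul (Em_herm κ Q t), Em_mul]
    have h6 := qf_mono (hE N κ hκ Q hQ t ht).1 v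
    rw [qf_sub, qf_sub, qf_sc, qf_sc, hv] at h6
    have h7 : qf (Zm κ Q) v ≤ δ ^ 2 := by
      unfold Zm
      rw [qf_sub, qf_herm_mul hQ.1, dg_mul, qf_dg]
      have h8 : ∑ i, κ i * κ i * ‖v i 0‖ ^ 2 ≤ ∑ i, δ ^ 2 * ‖v i 0‖ ^ 2 := by
        refine Finset.sum_le_sum fun i _ => ?_
        by_cases hvi : v i 0 = 0
        · simp [hvi]
        · have h9 := hδ i hvi
          have h10 := (hκ i).1
          have : κ i * κ i ≤ δ ^ 2 := by nlinarith
          exact mul_le_mul_of_nonneg_right this (by positivity)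
      rw [← Finset.mul_sum, ← fro2_col, hv, mul_one] at h8
      have h9 := fro2_nonneg (Q * v)
      linarith
    have h8 : cfc Real.exp (lg (Kt κ t + Q) + lg (Kt κ t - Q)) = cfc Real.exp (Lm κ Q t) := rfl
    rw [h8] at h6
    linarith
  have h6 := mul_le_mul_of_nonneg_left h5 (by linarith : (0 : ℝ) ≤ 1 + η)
  have h7 := mul_le_mul_of_nonneg_left h4 (by positivity : (0 : ℝ) ≤ 1 + η⁻¹)
  linarith

theorem sum_blk (J : ℕ) (f : Fin N → ℝ) :
    ∑ j : Fin J, (if h : (j : ℕ) < N then f ⟨j, h⟩ else 0) =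
      ∑ i : Fin N, if (i : ℕ) < J then f i else 0 := by
  have h1 : ∑ j : Fin J, (if h : (j : ℕ) < N then f ⟨j, h⟩ else 0) =
      ∑ j ∈ Finset.range J, (if h : j < N then f ⟨j, h⟩ else 0) :=
    Fin.sum_univ_eq_sum_range (fun j => if h : j < N then f ⟨j, h⟩ else 0) J
  have h2 : ∑ i : Fin N, (if (i : ℕ) < J then f i else 0) =
      ∑ j ∈ Finset.range N, (if j < J then (if h : j < N then f ⟨j, h⟩ else 0) else 0) := by
    rw [← Fin.sum_univ_eq_sum_range
      (fun j => if j < J then (if h : j < N then f ⟨j, h⟩ else 0) else 0) N]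
    refine Finset.sum_congr rfl fun i _ => ?_
    simp
  rw [h1, h2, ← Finset.sum_filter]
  have h3 : ∑ j ∈ Finset.range J, (if h : j < N then f ⟨j, h⟩ else 0) =
      ∑ j ∈ Finset.range J with j < N, (if h : j < N then f ⟨j, h⟩ else 0) := by
    rw [Finset.sum_filter]
    refine Finset.sum_congr rfl fun j _ => ?_
    by_cases h : j < N <;> simp [h]
  rw [h3]
  refine Finset.sum_congr ?_ fun _ _ => rfl
  ext j
  simp only [Finset.mem_filter, Finset.mem_range]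
  tauto

/-- the tail mass of row `a` -/
noncomputable def tau (J : ℕ) (X : Rc m N) (a : Fin m) : ℝ :=
  ∑ i : Fin N, if (i : ℕ) < J then 0 else ‖X a i‖ ^ 2

theorem tail_eq (J : ℕ) (X : Rc m N) :
    rtr (X * Xᴴ) - rtr (cblk J X * (cblk J X)ᴴ) = ∑ a, tau J X a := by
  rw [← fro2_eq', ← fro2_eq']
  unfold fro2 tau cblk
  rw [← Finset.sum_sub_distrib]
  refine Finset.sum_congr rfl fun a _ => ?_
  have h1 : ∑ j : Fin J, ‖if h : (j : ℕ) < N then X a ⟨j, h⟩ else 0‖ ^ 2 =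
      ∑ j : Fin J, (if h : (j : ℕ) < N then ‖X a ⟨j, h⟩‖ ^ 2 else 0) := by
    refine Finset.sum_congr rfl fun j _ => ?_
    by_cases h : (j : ℕ) < N <;> simp [h]
  rw [h1, sum_blk J (fun i => ‖X a i‖ ^ 2), ← Finset.sum_sub_distrib]
  refine Finset.sum_congr rfl fun i _ => ?_
  by_cases h : (i : ℕ) < J <;> simp [h]

theorem tau_nonneg (J : ℕ) (X : Rc m N) (a : Fin m) : 0 ≤ tau J X a := by
  unfold tau
  refine Finset.sum_nonneg fun i _ => ?_
  split_ifs
  · exact le_rfl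
  · positivity

/-- a good test vector -/
theorem exists_vec (J : ℕ) (X : Rc m N) (a : Fin m) (h : 0 < tau J X a) :
    ∃ v : Rc N 1, fro2 v = 1 ∧ (∀ i : Fin N, v i 0 ≠ 0 → J ≤ (i : ℕ)) ∧
      tau J X a ≤ qf (Xᴴ * X) v := by
  set τ := tau J X a with hτ
  let u : Rc N 1 := fun i _ => if (i : ℕ) < J then 0 else star (X a i)
  have hu : fro2 u = τ := by
    rw [fro2_col, hτ]
    unfold tau
    refine Finset.sum_congr rfl fun i _ => ?_
    by_cases hi : (i : ℕ) < J <;> simp [u, hi]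
  have hXu : (X * u) a 0 = ((τ : ℝ) : ℂ) := by
    rw [Matrix.mul_apply, hτ]
    unfold tau
    push_cast
    refine Finset.sum_congr rfl fun i _ => ?_
    by_cases hi : (i : ℕ) < J
    · simp [u, hi]
    · simp only [u, hi, if_false]
      rw [Complex.star_def, Complex.mul_conj, Complex.normSq_eq_norm_sq]
  have h2 : τ ^ 2 ≤ fro2 (X * u) := by
    have h3 := norm_apply_le_fro (X * u) a 0
    rw [hXu, Complex.norm_real, Real.norm_of_nonneg h.le] at h3
    rw [← sq_fro]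
    exact pow_le_pow_left₀ h.le h3 2
  refine ⟨((((Real.sqrt τ)⁻¹ : ℝ) : ℝ) : ℂ) • u, ?_, ?_, ?_⟩
  · rw [fro2_smul, hu, Complex.norm_real, Real.norm_of_nonneg (by positivity), inv_pow,
      Real.sq_sqrt h.le, inv_mul_cancel₀ h.ne']
  · intro i hi
    by_contra hlt
    push Not at hlt
    apply hi
    simp [u, hlt]
  · rw [qf_self_mul, Matrix.mul_smul, fro2_smul, Complex.norm_real,
      Real.norm_of_nonneg (by positivity), inv_pow, Real.sq_sqrt h.le]
    rw [inv_mul_eq_div, le_div_iff₀ h]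
    nlinarith

theorem tail_pow_le (hST : STAR) {k C : ℝ} (hC : 0 ≤ C)
    (hE : ∀ (N : ℕ) (κ : Fin N → ℝ), (∀ i, 0 ≤ κ i ∧ κ i ≤ k) → ∀ Q : Mt N, Btw κ Q →
      ∀ t : ℝ, 1 ≤ t →
      OpLe (cfc Real.exp (lg (Kt κ t + Q) + lg (Kt κ t - Q)) - sc N t - Zm κ Q) (C / t))
    (s : ℝ) (hs : 0 < s) (hs1 : s < 1) (hc : 0 < cY s) {κ : Fin N → ℝ}
    (hκ : ∀ i, 0 ≤ κ i ∧ κ i ≤ k) {Q : Mt N}
    (hQ : Btw κ Q) (X : Rc m N) {t : ℝ} (ht : 1 ≤ t)
    {δ : ℝ} {J : ℕ} (hδ : ∀ i : Fin N, J ≤ (i : ℕ) → κ i ≤ δ) {η : ℝ}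
    (hη : 0 < η) :
    (rtr (X * Xᴴ) - rtr (cblk J X * (cblk J X)ᴴ)) ^ (s⁻¹ : ℝ) ≤
      (m : ℝ) ^ (s⁻¹ : ℝ) * (cY s)⁻¹ *
        ((1 + η) * (t + δ ^ 2 + C / t) - t + (1 + η⁻¹) * sig κ Q (Xi s X) t) := by
  have hr : (1 : ℝ) < s⁻¹ := (one_lt_inv₀ hs).2 hs1
  have ht0 : 0 < t := by linarith
  rw [tail_eq]
  have hsig : 0 ≤ sig κ Q (Xi s X) t := le_trans (fro2_nonneg _) (fro2_le_sig hST s hc.le hQ X ht0)
  have hR : 0 ≤ (1 + η) * (t + δ ^ 2 + C / t) - t + (1 + η⁻¹) * sig κ Q (Xi s X) t := by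
    have h1 : 0 ≤ (1 + η⁻¹) * sig κ Q (Xi s X) t := by positivity
    have h2 : 0 ≤ C / t := by positivity
    have h3 : 0 ≤ η * (t + δ ^ 2 + C / t) := by positivity
    have h4 : 0 ≤ δ ^ 2 := by positivity
    linarith
  have hsum : 0 ≤ ∑ a, tau J X a := Finset.sum_nonneg fun a _ => tau_nonneg J X a
  rcases hsum.eq_or_lt with h0 | h0
  · rw [← h0, Real.zero_rpow (by linarith)]
    positivity
  · have hm : 0 < m := by
      rcases Nat.eq_zero_or_pos m with hm | hm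
      · subst hm
        simp at h0
      · exact hm
    have hmr : (0 : ℝ) < m := by exact_mod_cast hm
    have : Nonempty (Fin m) := ⟨⟨0, hm⟩⟩
    obtain ⟨a, _, ha⟩ := Finset.exists_le_of_sum_le (s := Finset.univ)
      (f := fun _ : Fin m => (∑ a, tau J X a) / m) (g := fun a => tau J X a)
      Finset.univ_nonempty (by
        rw [Finset.sum_const, Finset.card_univ, Fintype.card_fin, nsmul_eq_mul,
          mul_div_cancel₀ _ hmr.ne'])
    have ha0 : 0 < tau J X a := lt_of_lt_of_le (by positivity) ha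
    obtain ⟨v, hv1, hv2, hv3⟩ := exists_vec J X a ha0
    have h1 : ∑ a, tau J X a ≤ m * qf (Xᴴ * X) v := by
      have := (div_le_iff₀ hmr).1 (ha.trans hv3)
      linarith
    have h2 := Real.rpow_le_rpow h0.le h1 (by linarith : (0 : ℝ) ≤ s⁻¹)
    rw [Real.mul_rpow hmr.le (qf_nonneg (Matrix.posSemidef_conjTranspose_mul_self X) v)] at h2
    have h3 := jensen (Matrix.posSemidef_conjTranspose_mul_self X) hr.le v hv1
    have h4 := qf_Xi_le hST hE s hc.le hκ hQ X ht v hv1 (fun i hi => hδ i (hv2 i hi)) hη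
    have h5 : qf (Xi s X) v = cY s * qf (pw (Xᴴ * X) s⁻¹) v := by
      unfold Xi; rw [qf_smul]
    have h6 : qf (pw (Xᴴ * X) s⁻¹) v ≤ (cY s)⁻¹ *
        ((1 + η) * (t + δ ^ 2 + C / t) - t + (1 + η⁻¹) * sig κ Q (Xi s X) t) := by
      rw [h5] at h4
      rw [inv_mul_eq_div, le_div_iff₀ hc]
      linarith
    have hmp : (0 : ℝ) ≤ (m : ℝ) ^ (s⁻¹ : ℝ) := by positivity
    calc (∑ a, tau J X a) ^ (s⁻¹ : ℝ) ≤ (m : ℝ) ^ (s⁻¹ : ℝ) * qf (Xᴴ * X) v ^ (s⁻¹ : ℝ) := h2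
      _ ≤ (m : ℝ) ^ (s⁻¹ : ℝ) * ((cY s)⁻¹ *
        ((1 + η) * (t + δ ^ 2 + C / t) - t + (1 + η⁻¹) * sig κ Q (Xi s X) t)) :=
          mul_le_mul_of_nonneg_left (h3.trans h6) hmp
      _ = _ := by ring

theorem cont_cblk (J : ℕ) {X : ℝ → Rc m N} (hX : Continuous X) :
    Continuous fun x => cblk J (X x) := by
  refine continuous_pi fun a => continuous_pi fun j => ?_
  unfold cblk
  by_cases h : (j : ℕ) < N
  · simp only [h, dif_pos]
    exact (continuous_apply _).comp ((continuous_apply a).comp hX)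
  · simp only [h, dif_neg, not_false_eq_true]
    exact continuous_const

theorem cont_tail (J : ℕ) {X : ℝ → Rc m N} (hX : Continuous X) :
    Continuous fun x => rtr (X x * (X x)ᴴ) - rtr (cblk J (X x) * (cblk J (X x))ᴴ) := by
  refine Continuous.sub ?_ ?_
  · exact continuous_rtr.comp (hX.matrix_mul hX.matrix_conjTranspose)
  · have h := cont_cblk J hX
    exact continuous_rtr.comp (h.matrix_mul h.matrix_conjTranspose)

theorem exists_small (b e : ℝ) (hb : 0 ≤ b) (he : 0 < e) : ∃ η : ℝ, 0 < η ∧ η ≤ 1 ∧ b * η ≤ e := by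
  refine ⟨min 1 (e / (b + 1)), by positivity, min_le_left _ _, ?_⟩
  calc b * min 1 (e / (b + 1)) ≤ b * (e / (b + 1)) :=
        mul_le_mul_of_nonneg_left (min_le_right _ _) hb
    _ ≤ e := by
        rw [mul_div_assoc', div_le_iff₀ (by linarith)]
        nlinarith

end Crest.Agent.R332.TAILB

namespace Crest.Agent.R332

open SIGB TAILB in
theorem tailb (hTC : TLTC) (hST : STAR) (hHE : HBE) (hCO : CONSTS) : TAILB := by
  intro s hs hs1 m k L ε hk hL hε
  obtain ⟨-, hcY, -⟩ := hCO s hs hs1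
  obtain ⟨C, hC, hE⟩ := hHE k hk.le
  set M : ℝ := (m : ℝ) ^ (s⁻¹ : ℝ) * (cY s)⁻¹ with hM
  have hM0 : 0 ≤ M := by positivity
  -- choose T
  set T : ℝ := 1 + 4 * (4 * L * M * C) / ε with hT
  have hTa : 0 ≤ 4 * (4 * L * M * C) / ε := by positivity
  have hT1 : 1 ≤ T := by linarith
  have hT0 : 0 < T := by linarith
  have hTb : 4 * L * M * (C / T) ≤ ε / 4 := by
    rw [← mul_div_assoc, div_le_iff₀ hT0, hT]
    have : ε / 4 * (1 + 4 * (4 * L * M * C) / ε) = ε / 4 + 4 * L * M * C := by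
      field_simp
    rw [this]; linarith
  obtain ⟨CT, hCT, hTL⟩ := hTC s hs hs1 T hT0
  obtain ⟨η, hη, hη1, hη2⟩ := exists_small (2 * L * M * (2 * T)) (ε / 4) (by positivity)
    (by positivity)
  obtain ⟨δ, hδ, hδ1, hδ2⟩ := exists_small (4 * L * M + M * (1 + η⁻¹) * CT) (ε / 4)
    (by positivity) (by positivity)
  refine ⟨δ, hδ, ?_⟩
  intro N κ X X' Q l hcfg hκ hTS J hJ
  obtain ⟨hTS0, t, ht, hsc, hs0, hsn, hsi⟩ := hTL m N κ X X' Q l hcfg
  have ht1 : 1 ≤ t := hT1.trans ht.1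
  have ht0 : 0 < t := by linarith
  have hXc : Continuous X := cont_of_deriv hcfg.dX
  have hpt : ∀ x, (rtr (X x * (X x)ᴴ) - rtr (cblk J (X x) * (cblk J (X x))ᴴ)) ^ (s⁻¹ : ℝ) ≤
      M * ((1 + η) * (t + δ ^ 2 + C / t) - t + (1 + η⁻¹) * sig κ (Q x) (Xi s (X x)) t) :=
    fun x => tail_pow_le hST hC hE s hs hs1 hcY (fun i => ⟨(hcfg.kpos i).le, hκ i⟩)
      (hcfg.btw x) (X x) ht1 hJ hη
  have hr0 : (0 : ℝ) ≤ s⁻¹ := by positivity
  have h1 : ∫ x in (-L)..L, (rtr (X x * (X x)ᴴ) -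
        rtr (cblk J (X x) * (cblk J (X x))ᴴ)) ^ (s⁻¹ : ℝ) ≤
      ∫ x in (-L)..L, M * ((1 + η) * (t + δ ^ 2 + C / t) - t +
        (1 + η⁻¹) * sig κ (Q x) (Xi s (X x)) t) := by
    refine intervalIntegral.integral_mono_on (by linarith) ?_ ?_ fun x _ => hpt x
    · exact ((cont_tail J hXc).rpow_const fun x => Or.inr hr0).intervalIntegrable _ _
    · exact (continuous_const.mul (continuous_const.add
        (continuous_const.mul hsc))).intervalIntegrable _ _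
  have h2 : ∫ x in (-L)..L, M * ((1 + η) * (t + δ ^ 2 + C / t) - t +
        (1 + η⁻¹) * sig κ (Q x) (Xi s (X x)) t) =
      M * (2 * L * ((1 + η) * (t + δ ^ 2 + C / t) - t) +
        (1 + η⁻¹) * ∫ x in (-L)..L, sig κ (Q x) (Xi s (X x)) t) := by
    have hi1 : IntervalIntegrable (fun _ : ℝ => (1 + η) * (t + δ ^ 2 + C / t) - t) volume
        (-L) L := continuous_const.intervalIntegrable _ _
    have hi2 : IntervalIntegrable (fun x : ℝ => (1 + η⁻¹) * sig κ (Q x) (Xi s (X x)) t) volume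
        (-L) L := (continuous_const.mul hsc).intervalIntegrable _ _
    rw [intervalIntegral.integral_const_mul, intervalIntegral.integral_add hi1 hi2,
      intervalIntegral.integral_const, intervalIntegral.integral_const_mul, smul_eq_mul]
    ring
  have h3 : ∫ x in (-L)..L, sig κ (Q x) (Xi s (X x)) t ≤ CT * δ :=
    (sig_interval hL hsc hs0 hsn).trans (hsi.trans (mul_le_mul_of_nonneg_left hTS hCT))
  refine h1.trans (h2.le.trans ?_)
  have hCt : C / t ≤ C / T := div_le_div_of_nonneg_left hC hT0 ht.1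
  have hCt0 : 0 ≤ C / t := by positivity
  have hδδ : δ ^ 2 ≤ δ := by nlinarith
  have h4 : (1 + η) * (t + δ ^ 2 + C / t) - t ≤ η * (2 * T) + 2 * δ + 2 * (C / T) := by
    have h5 : η * t ≤ η * (2 * T) := mul_le_mul_of_nonneg_left ht.2 hη.le
    have h6 : (1 + η) * (δ ^ 2 + C / t) ≤ 2 * (δ ^ 2 + C / t) :=
      mul_le_mul_of_nonneg_right (by linarith) (by positivity)
    linarith
  have h5 : M * (2 * L * ((1 + η) * (t + δ ^ 2 + C / t) - t) +
        (1 + η⁻¹) * ∫ x in (-L)..L, sig κ (Q x) (Xi s (X x)) t) ≤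
      M * (2 * L * (η * (2 * T) + 2 * δ + 2 * (C / T)) + (1 + η⁻¹) * (CT * δ)) := by
    refine mul_le_mul_of_nonneg_left (add_le_add ?_ ?_) hM0
    · exact mul_le_mul_of_nonneg_left h4 (by positivity)
    · exact mul_le_mul_of_nonneg_left h3 (by positivity)
  refine h5.trans ?_
  have h6 : M * (2 * L * (η * (2 * T) + 2 * δ + 2 * (C / T)) + (1 + η⁻¹) * (CT * δ)) =
      2 * L * M * (2 * T) * η + (4 * L * M + M * (1 + η⁻¹) * CT) * δ + 4 * L * M * (C / T) := by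
    ring
  rw [h6]
  linarith

end Crest.Agent.R332
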