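import Crest.Agent.R332.Defs

/-! scalar Tonelli -/

set_option autoImplicit false

open MeasureTheory Filter Topology Set

namespace Crest.Agent.R332

theorem tint (hg : GINT) : TINT := by
  intro s h0 h1 k hk
  obtain ⟨-, hG⟩ := hg s h0 h1
  let f : ℝ × ℝ → ℝ := fun z => z.1 ^ (s - 1) * Real.log (1 + (k ^ 2 - z.2 ^ 2) / z.1)
  let μ : Measure ℝ := volume.restrict (Ioi 0)
  let ν : Measure ℝ := volume.restrict (Ioc (-k) k)
  have hfm : Measurable f := by
    refine Measurable.mul ?_ ?_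
    · exact measurable_fst.pow_const _
    · refine Real.measurable_log.comp ?_
      exact measurable_const.add
        ((measurable_const.sub (measurable_snd.pow_const 2)).div measurable_fst)
  have hq : ∀ q ∈ Ioc (-k) k, 0 ≤ k ^ 2 - q ^ 2 := by
    intro q hq
    nlinarith [hq.1, hq.2]
  have hnn : ∀ q ∈ Ioc (-k) k, ∀ t ∈ Ioi (0 : ℝ), 0 ≤ f (t, q) := by
    intro q hq' t ht
    have ht0 : (0 : ℝ) < t := ht
    have h2 : 0 ≤ (k ^ 2 - q ^ 2) / t := div_nonneg (hq q hq') ht0.le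
    have h3 := Real.log_nonneg (by linarith : 1 ≤ 1 + (k ^ 2 - q ^ 2) / t)
    have h4 : 0 < t ^ (s - 1) := Real.rpow_pos_of_pos ht0 _
    exact mul_nonneg h4.le h3
  have hcont : Continuous fun q : ℝ => Is s * (k ^ 2 - q ^ 2) ^ s :=
    continuous_const.mul ((continuous_const.sub (continuous_pow 2)).rpow_const
      fun _ => Or.inr h0.le)
  have hint : Integrable f (μ.prod ν) := by
    rw [integrable_prod_iff' hfm.aestronglyMeasurable]
    constructor
    · refine (ae_restrict_iff' measurableSet_Ioc).2 (Eventually.of_forall fun q hq' => ?_)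
      exact ((hG _ (hq q hq')).1).1
    · have h5 : IntegrableOn (fun q : ℝ => Is s * (k ^ 2 - q ^ 2) ^ s) (Ioc (-k) k) :=
        (hcont.integrableOn_Icc (a := -k) (b := k)).mono_set Ioc_subset_Icc_self
      refine IntegrableOn.congr_fun h5 (fun q hq' => ?_) measurableSet_Ioc
      change _ = ∫ t in Ioi (0 : ℝ), ‖f (t, q)‖
      rw [← ((hG _ (hq q hq')).1).2]
      refine setIntegral_congr_fun measurableSet_Ioi fun t ht => ?_
      change _ = ‖f (t, q)‖
      rw [Real.norm_of_nonneg (hnn q hq' t ht)]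
  have hk' : -k ≤ k := by linarith
  have heq : ∀ t : ℝ, t ^ (s - 1) * ∫ q in (-k)..k, Real.log (1 + (k ^ 2 - q ^ 2) / t)
      = ∫ q, f (t, q) ∂ν := by
    intro t
    rw [intervalIntegral.integral_of_le hk', ← integral_const_mul]
  simp only [heq]
  refine ⟨hint.integral_prod_left, ?_⟩
  have hswap : ∫ t in Ioi (0 : ℝ), ∫ q, f (t, q) ∂ν = ∫ q, ∫ t, f (t, q) ∂μ ∂ν :=
    integral_integral_swap (f := fun t q => f (t, q)) hint
  rw [hswap]
  have h6 : ∫ q, ∫ t, f (t, q) ∂μ ∂ν = ∫ q in (-k)..k, Is s * (k ^ 2 - q ^ 2) ^ s := by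
    rw [intervalIntegral.integral_of_le hk']
    refine setIntegral_congr_fun measurableSet_Ioc fun q hq' => ?_
    exact ((hG _ (hq q hq')).1).2
  rw [h6, intervalIntegral.integral_const_mul]
  have h7 := intervalIntegral.integral_comp_mul_left (a := -1) (b := 1)
    (fun q : ℝ => (k ^ 2 - q ^ 2) ^ s) hk.ne'
  have h8 : ∫ x in (-1 : ℝ)..1, (k ^ 2 - (k * x) ^ 2) ^ s = k ^ (2 * s) * bet s := by
    unfold bet
    rw [← intervalIntegral.integral_const_mul]
    refine intervalIntegral.integral_congr fun x hx => ?_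
    rw [uIcc_of_le (by norm_num)] at hx
    have h9 : 0 ≤ 1 - x ^ 2 := by nlinarith [hx.1, hx.2]
    have h10 : k ^ 2 - (k * x) ^ 2 = k ^ 2 * (1 - x ^ 2) := by ring
    change (k ^ 2 - (k * x) ^ 2) ^ s = k ^ (2 * s) * (1 - x ^ 2) ^ s
    rw [h10, Real.mul_rpow (by positivity) h9, Real.rpow_mul hk.le, Real.rpow_two]
  rw [h8, smul_eq_mul, mul_one, mul_neg, mul_one] at h7
  have h11 : ∫ q in (-k)..k, (k ^ 2 - q ^ 2) ^ s = k * (k ^ (2 * s) * bet s) := by
    rw [h7]; field_simp
  rw [h11, add_comm 1 (2 * s), Real.rpow_add_one hk.ne']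
  ring

end Crest.Agent.R332
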