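import Crest.Agent.R332.LIBF

/-! Fubini assembly of the twisted Lieb-Thirring inequality. -/

set_option autoImplicit false

open MeasureTheory Matrix Filter Topology
open Crest.MathPhysics.LiebThirring
open scoped ComplexOrder

namespace Crest.Agent.R332
namespace TLT

variable {N : ℕ}

theorem herm_of_opLe {A : Mt N} {c : ℝ} (h : OpLe A c) : A.IsHermitian := by
  have h1 := (sc_isHermitian (N := N) c).sub h.1.1
  have h2 : sc N c - (sc N c - A) = A := by abel
  rwa [h2] at h1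

theorem fro_le_of_opLe {A : Mt N} {c : ℝ} (hc : 0 ≤ c) (h : OpLe A c) :
    fro A ≤ Real.sqrt N * c := by
  have hA := herm_of_opLe h
  have h1 := rtr_mul_nonneg h.1 h.2
  have h2 : (sc N c - A) * (sc N c + A) = sc N (c * c) - A * A := by
    rw [Matrix.sub_mul, Matrix.mul_add, Matrix.mul_add, sc_mul_sc, sc_comm c A]
    abel
  rw [h2, rtr_sub, rtr_sc] at h1
  have h3 : fro2 A = rtr (A * A) := by
    rw [fro2_eq, hA]
  unfold fro
  rw [h3]
  have h4 : Real.sqrt N * c = Real.sqrt (N * (c * c)) := by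
    rw [Real.sqrt_mul (by positivity), Real.sqrt_mul_self hc]
  rw [h4]
  exact Real.sqrt_le_sqrt (by linarith)

theorem kt_sub_posDef (κ : Fin N → ℝ) {t : ℝ} (ht : 0 < t) :
    (Kt κ t - dg κ).PosDef := by
  unfold Kt
  rw [dg_sub]
  refine dg_posDef fun i => ?_
  rw [sub_pos]
  refine Real.lt_sqrt_of_sq_lt ?_
  linarith

theorem posDef_add {κ : Fin N → ℝ} {Q : Mt N} (hQ : Btw κ Q) {t : ℝ}
    (ht : 0 < t) : (Kt κ t + Q).PosDef := by
  have h := (kt_sub_posDef κ ht).add_posSemidef hQ.2.1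
  have e : Kt κ t - dg κ + (dg κ + Q) = Kt κ t + Q := by abel
  rwa [e] at h

theorem posDef_sub {κ : Fin N → ℝ} {Q : Mt N} (hQ : Btw κ Q) {t : ℝ}
    (ht : 0 < t) : (Kt κ t - Q).PosDef := by
  have h := (kt_sub_posDef κ ht).add_posSemidef hQ.2.2
  have e : Kt κ t - dg κ + (dg κ - Q) = Kt κ t - Q := by abel
  rwa [e] at h

theorem sc_posDef {t : ℝ} (ht : 0 < t) : (sc N t).PosDef := by
  rw [sc_eq_dg]; exact dg_posDef fun _ => ht

theorem smul_psd {c : ℝ} (hc : 0 ≤ c) {V : Mt N} (hV : V.PosSemidef) :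
    (((c : ℝ) : ℂ) • V).PosSemidef := by
  refine hV.smul ?_
  exact_mod_cast hc

theorem sig_nonneg (hS : STAR) {κ : Fin N → ℝ} {Q : Mt N} (hQ : Btw κ Q)
    {t : ℝ} (ht : 0 < t) {X : Mt N} (hX : X.PosSemidef) : 0 ≤ sig κ Q X t := by
  have h := hS N (Kt κ t + Q) (Kt κ t - Q) (sc N t + X) (posDef_add hQ ht)
    (posDef_sub hQ ht) ((sc_posDef ht).add_posSemidef hX)
  unfold sig
  have h1 := fro2_nonneg (cfc (fun x => Real.exp (x / 2)) (lg (Kt κ t + Q) + lg (Kt κ t - Q)) -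
    cfc Real.sqrt (sc N t + X))
  have h2 := fro2_nonneg (cfc Real.sqrt (Kt κ t + Q) * cfc Real.sqrt (Kt κ t - Q) -
    cfc Real.sqrt (Kt κ t - Q) * cfc Real.sqrt (Kt κ t + Q))
  linarith

theorem continuous_dg {X : Type*} [TopologicalSpace X] {f : X → Fin N → ℝ}
    (hf : Continuous f) : Continuous fun x => dg (f x) := by
  unfold dg
  refine Continuous.matrix_diagonal ?_
  refine continuous_pi fun i => ?_
  exact Complex.continuous_ofReal.comp ((continuous_apply i).comp hf)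

theorem continuous_Kt (κ : Fin N → ℝ) : Continuous (Kt κ) := by
  unfold Kt
  refine continuous_dg ?_
  refine continuous_pi fun i => ?_
  exact Real.continuous_sqrt.comp (continuous_const.add continuous_id)

theorem continuous_sc : Continuous (sc N) := by
  unfold sc
  exact (Complex.continuous_ofReal).smul continuous_const

section cont
variable {κ : Fin N → ℝ} {a b : ℝ} {Q V : ℝ → Mt N}

theorem contQ (hQc : ContinuousOn Q (Set.Icc a b)) :
    ContinuousOn (fun p : ℝ × ℝ => Q p.1) (Set.Icc a b ×ˢ Set.Ioi 0) :=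
  hQc.comp continuousOn_fst fun p hp => hp.1

theorem contKt : ContinuousOn (fun p : ℝ × ℝ => Kt κ p.2) (Set.Icc a b ×ˢ Set.Ioi 0) :=
  ((continuous_Kt κ).comp continuous_snd).continuousOn

theorem contA (hQc : ContinuousOn Q (Set.Icc a b)) :
    ContinuousOn (fun p : ℝ × ℝ => Kt κ p.2 + Q p.1) (Set.Icc a b ×ˢ Set.Ioi 0) :=
  contKt.add (contQ hQc)

theorem contB (hQc : ContinuousOn Q (Set.Icc a b)) :
    ContinuousOn (fun p : ℝ × ℝ => Kt κ p.2 - Q p.1) (Set.Icc a b ×ˢ Set.Ioi 0) :=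
  contKt.sub (contQ hQc)

theorem contLA (hL : LGC) (hQc : ContinuousOn Q (Set.Icc a b))
    (hQ : ∀ x ∈ Set.Icc a b, Btw κ (Q x)) :
    ContinuousOn (fun p : ℝ × ℝ => lg (Kt κ p.2 + Q p.1)) (Set.Icc a b ×ˢ Set.Ioi 0) :=
  (hL N).comp (contA hQc) fun p hp => posDef_add (hQ p.1 hp.1) hp.2

theorem contLB (hL : LGC) (hQc : ContinuousOn Q (Set.Icc a b))
    (hQ : ∀ x ∈ Set.Icc a b, Btw κ (Q x)) :
    ContinuousOn (fun p : ℝ × ℝ => lg (Kt κ p.2 - Q p.1)) (Set.Icc a b ×ˢ Set.Ioi 0) :=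
  (hL N).comp (contB hQc) fun p hp => posDef_sub (hQ p.1 hp.1) hp.2

theorem contHm (hL : LGC) (hQc : ContinuousOn Q (Set.Icc a b))
    (hQ : ∀ x ∈ Set.Icc a b, Btw κ (Q x)) :
    ContinuousOn (fun p : ℝ × ℝ => Hm κ (Q p.1) p.2) (Set.Icc a b ×ˢ Set.Ioi 0) := by
  unfold Hm
  refine ((contLA hL hQc hQ).add (contLB hL hQc hQ)).sub ?_
  refine continuous_sc.comp_continuousOn ?_
  exact Real.continuousOn_log.comp continuousOn_snd fun _ hp => ne_of_gt hp.2

theorem contSig (hL : LGC) (hQc : ContinuousOn Q (Set.Icc a b))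
    (hQ : ∀ x ∈ Set.Icc a b, Btw κ (Q x)) (hVc : ContinuousOn V (Set.Icc a b))
    (hV : ∀ x ∈ Set.Icc a b, (V x).PosSemidef) {c : ℝ} (hc : 0 ≤ c) :
    ContinuousOn (fun p : ℝ × ℝ => sig κ (Q p.1) (((c : ℝ) : ℂ) • V p.1) p.2)
      (Set.Icc a b ×ˢ Set.Ioi 0) := by
  have hX : ContinuousOn (fun p : ℝ × ℝ => sc N p.2 + ((c : ℝ) : ℂ) • V p.1)
      (Set.Icc a b ×ˢ Set.Ioi 0) := by
    refine (continuous_sc.comp continuous_snd).continuousOn.add ?_
    exact (contQ hVc).const_smul ((c : ℝ) : ℂ)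
  have hLX : ContinuousOn (fun p : ℝ × ℝ => lg (sc N p.2 + ((c : ℝ) : ℂ) • V p.1))
      (Set.Icc a b ×ˢ Set.Ioi 0) :=
    (hL N).comp hX fun p hp => (sc_posDef hp.2).add_posSemidef (smul_psd hc (hV p.1 hp.1))
  unfold sig
  refine ((continuous_rtr.comp_continuousOn ?_).sub (continuous_rtr.comp_continuousOn hX)).sub
    (continuous_rtr.comp_continuousOn ?_)
  · exact (contA hQc).mul (contB hQc)
  · exact hX.mul (((contLA hL hQc hQ).add (contLB hL hQc hQ)).sub hLX)

end cont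

/-- the dominating function -/
noncomputable def gdom (s : ℝ) (t : ℝ) : ℝ := if t ≤ 1 then t ^ (s / 2 - 1) else t ^ (s - 2)

theorem gdom_int {s : ℝ} (hs : 0 < s) (hs1 : s < 1) : IntegrableOn (gdom s) (Set.Ioi 0) := by
  have h1 : IntegrableOn (gdom s) (Set.Ioc 0 1) := by
    have h := (intervalIntegral.intervalIntegrable_rpow' (a := 0) (b := 1)
      (r := s / 2 - 1) (by linarith)).1
    refine h.congr_fun (fun t ht => ?_) measurableSet_Ioc
    show t ^ (s / 2 - 1) = gdom s t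
    unfold gdom; rw [if_pos ht.2]
  have h2 : IntegrableOn (gdom s) (Set.Ioi 1) := by
    have h := integrableOn_Ioi_rpow_of_lt (a := s - 2) (c := 1) (by linarith) one_pos
    refine h.congr_fun (fun t ht => ?_) measurableSet_Ioi
    show t ^ (s - 2) = gdom s t
    unfold gdom; rw [if_neg (not_le.2 ht)]
  have h3 : Set.Ioi (0 : ℝ) = Set.Ioc 0 1 ∪ Set.Ioi 1 := (Set.Ioc_union_Ioi_eq_Ioi zero_le_one).symm
  rw [h3]
  exact h1.union h2

theorem gdom_nonneg (s : ℝ) {t : ℝ} (ht : 0 < t) : 0 ≤ gdom s t := by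
  unfold gdom
  split_ifs <;> exact Real.rpow_nonneg ht.le _

theorem log_bound {s t : ℝ} (hs : 0 < s) (ht : 0 < t) (ht1 : t ≤ 1) :
    t ^ (s - 1) * (1 + |Real.log t|) ≤ (1 + 2 / s) * t ^ (s / 2 - 1) := by
  have h1 := Real.abs_log_mul_self_rpow_lt t (s / 2) ht ht1 (by positivity)
  rw [abs_mul, abs_of_nonneg (Real.rpow_nonneg ht.le (s / 2))] at h1
  have h2 : t ^ (s - 1) = t ^ (s / 2 - 1) * t ^ (s / 2) := by
    rw [← Real.rpow_add ht]; congr 1; ring
  have h3 : t ^ (s / 2) ≤ 1 := Real.rpow_le_one ht.le ht1 (by positivity)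
  have h4 : 0 < t ^ (s / 2 - 1) := Real.rpow_pos_of_pos ht _
  have h5 : (1 : ℝ) / (s / 2) = 2 / s := by field_simp
  rw [h5] at h1
  rw [h2]
  have h6 : t ^ (s / 2) * (1 + |Real.log t|) ≤ 1 + 2 / s := by nlinarith
  calc t ^ (s / 2 - 1) * t ^ (s / 2) * (1 + |Real.log t|)
      = t ^ (s / 2 - 1) * (t ^ (s / 2) * (1 + |Real.log t|)) := by ring
    _ ≤ t ^ (s / 2 - 1) * (1 + 2 / s) := by gcongr
    _ = _ := by ring


theorem fro_Hm_small (hB : HBS) (κ : Fin N → ℝ) (hκ : ∀ i, 0 < κ i) :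
    ∃ C : ℝ, 0 ≤ C ∧ ∀ Q : Mt N, Btw κ Q → ∀ t : ℝ, 0 < t → t ≤ 1 →
      fro (Hm κ Q t) ≤ C * (1 + |Real.log t|) := by
  have hk : 0 ≤ ∑ i, κ i := Finset.sum_nonneg fun i _ => (hκ i).le
  obtain ⟨C, hC, h⟩ := hB (∑ i, κ i) hk
  refine ⟨Real.sqrt N * C, by positivity, fun Q hQ t ht ht1 => ?_⟩
  have h1 := h N κ (fun i => ⟨(hκ i).le, Finset.single_le_sum (fun j _ => (hκ j).le)
    (Finset.mem_univ i)⟩) Q hQ t ht ht1
  have h2 := fro_le_of_opLe (by positivity) h1
  linarith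

theorem fro_Hm_large (hB : HBL) (κ : Fin N → ℝ) (hκ : ∀ i, 0 < κ i) :
    ∃ C : ℝ, 0 ≤ C ∧ ∀ Q : Mt N, Btw κ Q → ∀ t : ℝ, 1 ≤ t →
      fro (Hm κ Q t) ≤ (C + fro (Zm κ Q)) / t := by
  have hk : 0 ≤ ∑ i, κ i := Finset.sum_nonneg fun i _ => (hκ i).le
  obtain ⟨C, hC, h⟩ := hB (∑ i, κ i) hk
  refine ⟨Real.sqrt N * C, by positivity, fun Q hQ t ht1 => ?_⟩
  have ht : 0 < t := by linarith
  have h1 := h N κ (fun i => ⟨(hκ i).le, Finset.single_le_sum (fun j _ => (hκ j).le)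
    (Finset.mem_univ i)⟩) Q hQ t ht1
  have h2 := fro_le_of_opLe (by positivity) h1
  have h3 : fro (((t : ℝ) : ℂ) • Hm κ Q t) ≤
      fro (((t : ℝ) : ℂ) • Hm κ Q t - Zm κ Q) + fro (Zm κ Q) := by
    have h4 := fro_add_le (((t : ℝ) : ℂ) • Hm κ Q t - Zm κ Q) (Zm κ Q)
    rwa [sub_add_cancel] at h4
  rw [fro_smul, Complex.norm_real, Real.norm_of_nonneg ht.le] at h3
  rw [le_div_iff₀ ht]
  have h5 : C / t ≤ C := div_le_self hC ht1
  have h6 : Real.sqrt N * (C / t) ≤ Real.sqrt N * C := by gcongr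
  linarith

section main
variable {κ : Fin N → ℝ} {a b : ℝ} {Q V : ℝ → Mt N}

theorem bound_F {s : ℝ} (hs : 0 < s) (hBL : HBL) (hBS : HBS) (hκ : ∀ i, 0 < κ i)
    (hQc : ContinuousOn Q (Set.Icc a b)) (hQ : ∀ x ∈ Set.Icc a b, Btw κ (Q x))
    (hVc : ContinuousOn V (Set.Icc a b)) :
    ∃ M : ℝ, 0 ≤ M ∧ ∀ x ∈ Set.Icc a b, ∀ t : ℝ, 0 < t →
      |t ^ (s - 1) * rtr (Hm κ (Q x) t * (V x - Zm κ (Q x)))| ≤ M * gdom s t := by
  obtain ⟨C2, hC2, h2⟩ := fro_Hm_small hBS κ hκ
  obtain ⟨C1, hC1, h1⟩ := fro_Hm_large hBL κ hκ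
  have hZc : ContinuousOn (fun x => Zm κ (Q x)) (Set.Icc a b) := by
    unfold Zm
    exact continuousOn_const.sub (hQc.mul hQc)
  obtain ⟨m1, hm1⟩ := isCompact_Icc.exists_bound_of_continuousOn
    (continuous_fro'.comp_continuousOn hZc)
  obtain ⟨m2, hm2⟩ := isCompact_Icc.exists_bound_of_continuousOn
    (continuous_fro'.comp_continuousOn (hVc.sub hZc))
  have hm1' : ∀ x ∈ Set.Icc a b, fro (Zm κ (Q x)) ≤ |m1| := fun x hx =>
    ((le_abs_self _).trans (hm1 x hx)).trans (le_abs_self _)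
  have hm2' : ∀ x ∈ Set.Icc a b, fro (V x - Zm κ (Q x)) ≤ |m2| := fun x hx =>
    ((le_abs_self _).trans (hm2 x hx)).trans (le_abs_self _)
  refine ⟨(C1 + |m1|) * |m2| + C2 * |m2| * (1 + 2 / s), by positivity, fun x hx t ht => ?_⟩
  rw [abs_mul, abs_of_nonneg (Real.rpow_nonneg ht.le _)]
  have h3 := abs_rtr_mul_le (Hm κ (Q x) t) (V x - Zm κ (Q x))
  have h3' : |rtr (Hm κ (Q x) t * (V x - Zm κ (Q x)))| ≤ fro (Hm κ (Q x) t) * |m2| :=
    h3.trans (mul_le_mul_of_nonneg_left (hm2' x hx) (fro_nonneg _))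
  have hg := gdom_nonneg s ht
  have hp : 0 ≤ t ^ (s - 1) := Real.rpow_nonneg ht.le _
  rcases le_or_gt t 1 with ht1 | ht1
  · have h4 := h2 (Q x) (hQ x hx) t ht ht1
    have h5 := log_bound hs ht ht1
    have h6 : gdom s t = t ^ (s / 2 - 1) := by unfold gdom; rw [if_pos ht1]
    rw [← h6] at h5
    have h7 : t ^ (s - 1) * (fro (Hm κ (Q x) t) * |m2|) ≤
        C2 * |m2| * (t ^ (s - 1) * (1 + |Real.log t|)) := by
      have : fro (Hm κ (Q x) t) * |m2| ≤ C2 * (1 + |Real.log t|) * |m2| := by gcongr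
      calc _ ≤ t ^ (s - 1) * (C2 * (1 + |Real.log t|) * |m2|) := by gcongr
        _ = _ := by ring
    have h8 : C2 * |m2| * (t ^ (s - 1) * (1 + |Real.log t|)) ≤
        C2 * |m2| * ((1 + 2 / s) * gdom s t) := by gcongr
    have h9 : t ^ (s - 1) * |rtr (Hm κ (Q x) t * (V x - Zm κ (Q x)))| ≤
        t ^ (s - 1) * (fro (Hm κ (Q x) t) * |m2|) := by gcongr
    have h10 : 0 ≤ (C1 + |m1|) * |m2| * gdom s t := by positivity
    nlinarith
  · have h4 := h1 (Q x) (hQ x hx) t ht1.le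
    have h6 : gdom s t = t ^ (s - 2) := by unfold gdom; rw [if_neg (not_le.2 ht1)]
    have h5 : t ^ (s - 1) / t = gdom s t := by
      rw [h6, ← Real.rpow_sub_one ht.ne']; congr 1; ring
    have h7 : fro (Hm κ (Q x) t) ≤ (C1 + |m1|) / t := by
      refine h4.trans ?_
      gcongr
      exact hm1' x hx
    have h9 : t ^ (s - 1) * |rtr (Hm κ (Q x) t * (V x - Zm κ (Q x)))| ≤
        t ^ (s - 1) * ((C1 + |m1|) / t * |m2|) := by
      refine mul_le_mul_of_nonneg_left (h3'.trans ?_) hp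
      gcongr
    have h8 : t ^ (s - 1) * ((C1 + |m1|) / t * |m2|) = (C1 + |m1|) * |m2| * gdom s t := by
      rw [← h5]; ring
    have h10 : 0 ≤ C2 * |m2| * (1 + 2 / s) * gdom s t := by positivity
    rw [h8] at h9
    linarith

theorem cont_F {s : ℝ} (hL : LGC) (hQc : ContinuousOn Q (Set.Icc a b))
    (hQ : ∀ x ∈ Set.Icc a b, Btw κ (Q x)) (hVc : ContinuousOn V (Set.Icc a b)) :
    ContinuousOn (fun p : ℝ × ℝ => p.2 ^ (s - 1) *
      rtr (Hm κ (Q p.1) p.2 * (V p.1 - Zm κ (Q p.1)))) (Set.Icc a b ×ˢ Set.Ioi 0) := by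
  refine ContinuousOn.mul ?_ (continuous_rtr.comp_continuousOn ?_)
  · exact continuousOn_snd.rpow_const fun p hp => Or.inl (ne_of_gt hp.2)
  · refine (contHm hL hQc hQ).mul ((contQ hVc).sub ?_)
    unfold Zm
    exact continuousOn_const.sub ((contQ hQc).mul (contQ hQc))

theorem int_F {s : ℝ} (hs : 0 < s) (hs1 : s < 1) (hL : LGC) (hBL : HBL) (hBS : HBS)
    (hκ : ∀ i, 0 < κ i)
    (hQc : ContinuousOn Q (Set.Icc a b)) (hQ : ∀ x ∈ Set.Icc a b, Btw κ (Q x))
    (hVc : ContinuousOn V (Set.Icc a b)) :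
    Integrable (Function.uncurry fun x t : ℝ => t ^ (s - 1) *
      rtr (Hm κ (Q x) t * (V x - Zm κ (Q x))))
      ((volume.restrict (Set.Ioc a b)).prod (volume.restrict (Set.Ioi 0))) := by
  obtain ⟨M, hM, hb⟩ := bound_F hs hBL hBS hκ hQc hQ hVc
  have hdom : Integrable (fun p : ℝ × ℝ => M * gdom s p.2)
      ((volume.restrict (Set.Ioc a b)).prod (volume.restrict (Set.Ioi 0))) := by
    have h1 : Integrable (fun _ : ℝ => M) (volume.restrict (Set.Ioc a b)) :=
      integrable_const M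
    exact h1.mul_prod (gdom_int hs hs1)
  refine hdom.mono' ?_ ?_
  · rw [Measure.prod_restrict]
    refine ContinuousOn.aestronglyMeasurable ?_ (measurableSet_Ioc.prod measurableSet_Ioi)
    refine (cont_F (s := s) hL hQc hQ hVc).mono ?_
    exact Set.prod_mono Set.Ioc_subset_Icc_self subset_rfl
  · rw [Measure.prod_restrict]
    refine (ae_restrict_iff' (measurableSet_Ioc.prod measurableSet_Ioi)).2 (ae_of_all _ ?_)
    intro p hp
    exact hb p.1 (Set.Ioc_subset_Icc_self hp.1) p.2 hp.2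

end main


theorem cs_th {s : ℝ} (hs : 0 < s) : th s ^ (1 + s) * cs s = s := by
  unfold th cs
  rw [Real.div_rpow hs.le (by linarith)]
  have h1 : 0 < (1 + s) ^ (1 + s) := Real.rpow_pos_of_pos (by linarith) _
  have h2 : 0 < s ^ s := Real.rpow_pos_of_pos hs _
  rw [Real.rpow_add hs 1 s, Real.rpow_one]
  field_simp

end TLT

open TLT in
theorem tlt : PWI → PATH → TINT → GINT → LGC → CFCC → HBL → HBS → STAR → TLT := by
  intro hPWI hPATH hTINT hGINT hL hCF hBL hBS hSTAR s hs hs1 T hT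
  have hIs : 0 < Is s := (hGINT s hs hs1).1
  have hth : 0 < th s := by unfold th; positivity
  have hthp : 0 < th s ^ (1 + s) := Real.rpow_pos_of_pos hth _
  have hTp : 0 < T * (2 * T) ^ (s - 1) := by positivity
  refine ⟨Is s * th s ^ (1 + s) / ((1 + s) * (T * (2 * T) ^ (s - 1))), by positivity, ?_⟩
  intro N κ hκ a b hab Q V hd hVc hV hQ hQa hQb
  have hQc : ContinuousOn Q (Set.Icc a b) := contOn_of_deriv hd
  have hZc : ContinuousOn (fun x => V x - dg κ * dg κ + Q x * Q x) (Set.Icc a b) :=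
    (hVc.sub continuousOn_const).add (hQc.mul hQc)
  have hQ' : ∀ x, V x - dg κ * dg κ + Q x * Q x = V x - Zm κ (Q x) := by
    intro x; unfold Zm; abel
  set F : ℝ → ℝ → ℝ := fun x t => t ^ (s - 1) * rtr (Hm κ (Q x) t * (V x - Zm κ (Q x)))
    with hF
  set G : ℝ → ℝ → ℝ := fun x t => t ^ (s - 1) * sig κ (Q x) (((th s : ℝ) : ℂ) • V x) t with hG
  have hFint := int_F hs hs1 hL hBL hBS hκ hQc hQ hVc
  set J : ℝ → ℝ := fun x => ∫ t in Set.Ioi (0 : ℝ), F x t with hJ
  have hJint : IntegrableOn J (Set.Ioc a b) := hFint.integral_prod_left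
  -- tracePow continuous
  have hTc : ContinuousOn (fun x => tracePow (V x) (1 + s)) (Set.Icc a b) := by
    refine continuous_rtr.comp_continuousOn ?_
    refine (hCF N (fun x => x ^ (1 + s)) (Real.continuous_rpow_const (by linarith))).comp hVc ?_
    intro x hx
    exact (hV x hx).1
  have hTint : IntegrableOn (fun x => tracePow (V x) (1 + s)) (Set.Ioc a b) :=
    (hTc.integrableOn_compact isCompact_Icc).mono_set Set.Ioc_subset_Icc_self
  -- value of the integral of J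
  have hJval : ∫ x in a..b, J x = Is s * bet s * ∑ i, κ i ^ (1 + 2 * s) := by
    rw [intervalIntegral.integral_of_le hab.le]
    have h1 : ∫ x in Set.Ioc a b, J x =
        ∫ t in Set.Ioi (0 : ℝ), ∫ x in Set.Ioc a b, F x t := integral_integral_swap hFint
    rw [h1]
    have h2 : ∀ t ∈ Set.Ioi (0 : ℝ), ∫ x in Set.Ioc a b, F x t =
        ∑ i, t ^ (s - 1) *
          ∫ q in (-(κ i))..(κ i), Real.log (1 + (κ i ^ 2 - q ^ 2) / t) := by
      intro t ht
      rw [← Finset.mul_sum, ← hPATH N κ hκ t ht a b hab Q _ hd hZc hQ hQa hQb,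
        intervalIntegral.integral_of_le hab.le, ← integral_const_mul]
      refine setIntegral_congr_fun measurableSet_Ioc fun x _ => ?_
      simp only [hF, hQ']
    rw [setIntegral_congr_fun measurableSet_Ioi h2]
    rw [integral_finsetSum _ fun i _ => (hTINT s hs hs1 (κ i) (hκ i)).1, Finset.mul_sum]
    refine Finset.sum_congr rfl fun i _ => ?_
    rw [(hTINT s hs hs1 (κ i) (hκ i)).2]
  -- the pointwise inequality
  have hpw : ∀ x ∈ Set.Icc a b, IntegrableOn (G x) (Set.Ioi 0) ∧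
      s * J x + (1 + s) * (∫ t in Set.Ioi (0 : ℝ), G x t) ≤
        Is s * th s ^ (1 + s) * tracePow (V x) (1 + s) := fun x hx =>
    (hPWI s hs hs1 N κ hκ (Q x) (hQ x hx) (V x) (hV x hx)).2
  have hsn : ∀ x ∈ Set.Icc a b, ∀ t, 0 < t → 0 ≤ sig κ (Q x) (((th s : ℝ) : ℂ) • V x) t :=
    fun x hx t ht => sig_nonneg hSTAR (hQ x hx) ht (smul_psd hth.le (hV x hx))
  have hGn : ∀ x ∈ Set.Icc a b, ∀ t, 0 < t → 0 ≤ G x t :=
    fun x hx t ht => mul_nonneg (Real.rpow_nonneg ht.le _) (hsn x hx t ht)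
  set R : ℝ → ℝ := fun x => Is s * th s ^ (1 + s) * tracePow (V x) (1 + s) - s * J x with hR
  have hRint : IntegrableOn R (Set.Ioc a b) := (hTint.const_mul _).sub (hJint.const_mul _)
  set D : ℝ := (∫ x in a..b, tracePow (V x) (1 + s)) - cs s * bet s * ∑ i, κ i ^ (1 + 2 * s)
    with hD
  have hRval : ∫ x in a..b, R x = Is s * th s ^ (1 + s) * D := by
    rw [intervalIntegral.integral_sub, intervalIntegral.integral_const_mul,
      intervalIntegral.integral_const_mul, hJval]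
    · rw [hD]
      have h := cs_th hs
      have h2 : s * (Is s * bet s * ∑ i, κ i ^ (1 + 2 * s)) =
        Is s * th s ^ (1 + s) * (cs s * bet s * ∑ i, κ i ^ (1 + 2 * s)) := by
        calc _ = (th s ^ (1 + s) * cs s) * (Is s * bet s * ∑ i, κ i ^ (1 + 2 * s)) := by rw [h]
          _ = _ := by ring
      rw [h2]; ring
    · rw [intervalIntegrable_iff_integrableOn_Ioc_of_le hab.le]
      exact hTint.const_mul _
    · rw [intervalIntegrable_iff_integrableOn_Ioc_of_le hab.le]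
      exact hJint.const_mul _
  have hRn : ∀ x ∈ Set.Icc a b, 0 ≤ R x := by
    intro x hx
    have h1 := (hpw x hx).2
    have h2 : 0 ≤ ∫ t in Set.Ioi (0 : ℝ), G x t :=
      setIntegral_nonneg measurableSet_Ioi fun t ht => hGn x hx t ht
    have h3 : 0 ≤ (1 + s) * ∫ t in Set.Ioi (0 : ℝ), G x t := mul_nonneg (by linarith) h2
    simp only [hR]; linarith
  have hDn : 0 ≤ D := by
    have h1 : 0 ≤ ∫ x in a..b, R x :=
      intervalIntegral.integral_nonneg hab.le fun x hx => hRn x hx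
    rw [hRval] at h1
    have h2 : 0 < Is s * th s ^ (1 + s) := by positivity
    exact nonneg_of_mul_nonneg_right h1 h2
  have hsc := contSig (κ := κ) hL hQc hQ hVc hV hth.le
  refine ⟨by rw [hD] at hDn; linarith, ?_⟩
  -- integrability of G on the compact rectangle
  have hGc : ContinuousOn (fun p : ℝ × ℝ => G p.1 p.2) (Set.Icc a b ×ˢ Set.Ioi 0) := by
    refine ContinuousOn.mul ?_ hsc
    exact continuousOn_snd.rpow_const fun p hp => Or.inl (ne_of_gt hp.2)
  have hGint : Integrable (Function.uncurry G)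
      ((volume.restrict (Set.Ioc a b)).prod (volume.restrict (Set.Ioc T (2 * T)))) := by
    rw [Measure.prod_restrict]
    have h1 : IntegrableOn (Function.uncurry G) (Set.Icc a b ×ˢ Set.Icc T (2 * T))
        (volume.prod volume) := by
      refine ContinuousOn.integrableOn_compact (isCompact_Icc.prod isCompact_Icc) ?_
      refine hGc.mono (Set.prod_mono subset_rfl fun t ht => ?_)
      exact lt_of_lt_of_le hT ht.1
    exact h1.mono_set (Set.prod_mono Set.Ioc_subset_Icc_self Set.Ioc_subset_Icc_self)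
  by_contra hcon
  push Not at hcon
  set C : ℝ := Is s * th s ^ (1 + s) / ((1 + s) * (T * (2 * T) ^ (s - 1))) with hC
  set f : ℝ → ℝ := fun t => ∫ x in a..b, sig κ (Q x) (((th s : ℝ) : ℂ) • V x) t with hf
  have hf1 : ∀ t ∈ Set.Icc T (2 * T), C * D < f t := by
    intro t ht
    refine hcon t ht ?_
    have h1 : ContinuousOn (fun x : ℝ => (x, t)) (Set.Icc a b) := by fun_prop
    have h2 : Set.MapsTo (fun x : ℝ => (x, t)) (Set.Icc a b) (Set.Icc a b ×ˢ Set.Ioi 0) :=
      fun x hx => ⟨hx, lt_of_lt_of_le hT ht.1⟩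
    have h3 := ContinuousOn.comp hsc h1 h2
    exact h3
  have hswap : ∫ x in Set.Ioc a b, ∫ t in Set.Ioc T (2 * T), G x t =
      ∫ t in Set.Ioc T (2 * T), t ^ (s - 1) * f t := by
    rw [integral_integral_swap hGint]
    refine setIntegral_congr_fun measurableSet_Ioc fun t _ => ?_
    simp only [hf, hG]
    rw [intervalIntegral.integral_of_le hab.le, integral_const_mul]
  have hfint : IntegrableOn (fun t => t ^ (s - 1) * f t) (Set.Ioc T (2 * T)) := by
    have h1 : IntegrableOn (fun t => ∫ x in Set.Ioc a b, G x t) (Set.Ioc T (2 * T)) :=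
      hGint.integral_prod_right
    refine h1.congr_fun (fun t _ => ?_) measurableSet_Ioc
    simp only [hf, hG]
    rw [intervalIntegral.integral_of_le hab.le, integral_const_mul]
  have hup : ∫ x in Set.Ioc a b, ∫ t in Set.Ioc T (2 * T), G x t ≤
      Is s * th s ^ (1 + s) * D / (1 + s) := by
    rw [le_div_iff₀ (by linarith), ← hRval, intervalIntegral.integral_of_le hab.le, mul_comm,
      ← integral_const_mul]
    refine setIntegral_mono_on (hGint.integral_prod_left.const_mul _) hRint measurableSet_Ioc ?_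
    intro x hx
    have hx' := Set.Ioc_subset_Icc_self hx
    have h1 := (hpw x hx').2
    have h2 : ∫ t in Set.Ioc T (2 * T), G x t ≤ ∫ t in Set.Ioi (0 : ℝ), G x t := by
      refine setIntegral_mono_set (hpw x hx').1 ?_ ?_
      · refine (ae_restrict_iff' measurableSet_Ioi).2 (ae_of_all _ fun t ht => hGn x hx' t ht)
      · exact HasSubset.Subset.eventuallyLE fun t ht => lt_trans hT ht.1
    have h3 : (1 + s) * ∫ t in Set.Ioc T (2 * T), G x t ≤
        (1 + s) * ∫ t in Set.Ioi (0 : ℝ), G x t :=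
      mul_le_mul_of_nonneg_left h2 (by linarith)
    simp only [hR]
    linarith
  have hCD : 0 ≤ C * D := mul_nonneg (by positivity) hDn
  have hpos : 0 < ∫ t in T..(2 * T), (t ^ (s - 1) * f t - (2 * T) ^ (s - 1) * (C * D)) := by
    refine intervalIntegral.intervalIntegral_pos_of_pos_on ?_ ?_ (by linarith)
    · rw [intervalIntegrable_iff_integrableOn_Ioc_of_le (by linarith)]
      exact hfint.sub (integrableOn_const (by simp))
    · intro t ht
      have ht0 : 0 < t := lt_trans hT ht.1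
      have h1 := hf1 t ⟨ht.1.le, ht.2.le⟩
      have h2 : (2 * T) ^ (s - 1) ≤ t ^ (s - 1) :=
        Real.rpow_le_rpow_of_nonpos ht0 ht.2.le (by linarith)
      have h3 : 0 < t ^ (s - 1) := Real.rpow_pos_of_pos ht0 _
      have h4 : (2 * T) ^ (s - 1) * (C * D) ≤ t ^ (s - 1) * (C * D) := by gcongr
      have h5 : t ^ (s - 1) * (C * D) < t ^ (s - 1) * f t := by gcongr
      linarith
  rw [intervalIntegral.integral_sub
    ((intervalIntegrable_iff_integrableOn_Ioc_of_le (by linarith)).2 hfint)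
    intervalIntegrable_const,
    intervalIntegral.integral_of_le (by linarith : T ≤ 2 * T), ← hswap,
    intervalIntegral.integral_const] at hpos
  have h6 : (2 * T - T) • ((2 * T) ^ (s - 1) * (C * D)) = Is s * th s ^ (1 + s) * D / (1 + s) := by
    rw [hC, smul_eq_mul]
    have : (0:ℝ) < (2 * T) ^ (s - 1) := by positivity
    field_simp
    ring
  rw [h6] at hpos
  linarith

end Crest.Agent.R332
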