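import Crest.Agent.R332.TLT

/-! The twisted Lieb-Thirring inequality for configurations. -/

set_option autoImplicit false

open MeasureTheory Matrix Filter Topology
open Crest.MathPhysics.LiebThirring
open scoped ComplexOrder

namespace Crest.Agent.R332
namespace TLTC

variable {N m : ℕ}

theorem cont_gram {X : ℝ → Rc m N} (hX : Continuous X) : Continuous fun x => (X x)ᴴ * X x :=
  hX.matrix_conjTranspose.matrix_mul hX

theorem gram_psd (X : Rc m N) : (Xᴴ * X).PosSemidef := Matrix.posSemidef_conjTranspose_mul_self X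

theorem Wm_psd {s : ℝ} (h : 0 ≤ cY s * (s⁻¹ + 1)) (X : Rc m N) : (Wm s X).PosSemidef :=
  TLT.smul_psd h (pw_posSemidef (gram_psd X) _)

theorem Xi_psd {s : ℝ} (h : 0 ≤ cY s) (X : Rc m N) : (Xi s X).PosSemidef :=
  TLT.smul_psd h (pw_posSemidef (gram_psd X) _)

theorem cont_pw (hC : CFCC) {p : ℝ} (hp : 0 ≤ p) {A : ℝ → Mt N} (hA : Continuous A)
    (hh : ∀ x, (A x).IsHermitian) : Continuous fun x => pw (A x) p := by
  rw [← continuousOn_univ]
  exact (hC N (fun x => x ^ p) (Real.continuous_rpow_const hp)).comp hA.continuousOn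
    fun x _ => hh x

theorem cont_Wm (hC : CFCC) {s : ℝ} (hs : 0 < s) {X : ℝ → Rc m N} (hX : Continuous X) :
    Continuous fun x => Wm s (X x) := by
  unfold Wm
  exact (cont_pw hC (by positivity) (cont_gram hX) fun x => (gram_psd _).1).const_smul
    ((cY s * (s⁻¹ + 1) : ℝ) : ℂ)

theorem Wm_zero {s : ℝ} (hs : 0 < s) : Wm s (0 : Rc m N) = 0 := by
  unfold Wm
  rw [Matrix.mul_zero, pw_zero_mt (by positivity), smul_zero]

theorem Xi_zero {s : ℝ} (hs : 0 < s) : Xi s (0 : Rc m N) = 0 := by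
  unfold Xi
  rw [Matrix.mul_zero, pw_zero_mt (by positivity), smul_zero]

theorem th_Wm {s : ℝ} (h : th s * (cY s * (s⁻¹ + 1)) = cY s) (X : Rc m N) :
    ((th s : ℝ) : ℂ) • Wm s X = Xi s X := by
  unfold Wm Xi
  rw [smul_smul, ← Complex.ofReal_mul, h]

theorem sig_dg {κ : Fin N → ℝ} (ε : ℝ) (hε : ε * ε = 1) {t : ℝ} (ht : 0 < t) :
    sig κ (dg fun i => ε * κ i) 0 t = 0 := by
  have h0 : ∀ i, (Real.sqrt (κ i ^ 2 + t) + ε * κ i) * (Real.sqrt (κ i ^ 2 + t) - ε * κ i) =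
      t := by
    intro i
    have h1 : Real.sqrt (κ i ^ 2 + t) * Real.sqrt (κ i ^ 2 + t) = κ i ^ 2 + t :=
      Real.mul_self_sqrt (by positivity)
    have h2 : (ε * κ i) * (ε * κ i) = κ i ^ 2 := by
      calc _ = (ε * ε) * κ i ^ 2 := by ring
        _ = _ := by rw [hε, one_mul]
    linear_combination h1 - h2
  have h3 : ∀ i, Real.log (Real.sqrt (κ i ^ 2 + t) + ε * κ i) +
      Real.log (Real.sqrt (κ i ^ 2 + t) - ε * κ i) = Real.log t := by
    intro i
    rw [← Real.log_mul, h0 i]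
    · intro h; have := h0 i; rw [h, zero_mul] at this; linarith
    · intro h; have := h0 i; rw [h, mul_zero] at this; linarith
  unfold sig Kt lg
  rw [dg_add, dg_sub, cfc_dg, cfc_dg, add_zero, sc_eq_dg, cfc_dg, dg_mul, dg_add, dg_sub,
    dg_mul, rtr_dg, rtr_dg, rtr_dg]
  simp only [Function.comp_apply, h0, h3]
  simp

theorem sig_out {κ : Fin N → ℝ} {X : ℝ → Rc m N} {Q : ℝ → Mt N} {l s : ℝ} (hs : 0 < s)
    (hX : ∀ x, l ≤ |x| → X x = 0) (hm : ∀ x, x ≤ -l → Q x = - dg κ)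
    (hp : ∀ x, l ≤ x → Q x = dg κ) {t : ℝ} (ht : 0 < t) (x : ℝ) (hx : l ≤ |x|) :
    sig κ (Q x) (Xi s (X x)) t = 0 := by
  rw [hX x hx, Xi_zero hs]
  rcases le_abs.1 hx with h | h
  · rw [hp x h]
    have h1 := sig_dg (κ := κ) 1 (by norm_num) ht
    simpa using h1
  · rw [hm x (by linarith), dg_neg]
    have h1 := sig_dg (κ := κ) (-1) (by norm_num) ht
    simpa using h1

theorem integral_eq_interval {f : ℝ → ℝ} {l : ℝ} (hl : 0 < l) (h : ∀ x, l ≤ |x| → f x = 0) :
    ∫ x, f x = ∫ x in (-l)..l, f x := by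
  rw [intervalIntegral.integral_of_le (by linarith)]
  refine (setIntegral_eq_integral_of_forall_compl_eq_zero fun x hx => h x ?_).symm
  rw [Set.mem_Ioc, not_and_or, not_lt, not_le] at hx
  rcases hx with hx | hx
  · exact le_abs.2 (Or.inr (by linarith))
  · exact le_abs.2 (Or.inl hx.le)

theorem tracePow_zero_mt {p : ℝ} (hp : 0 < p) : tracePow (0 : Mt N) p = 0 := by
  rw [tracePow_eq_rtr, pw_zero_mt hp, rtr_zero]

end TLTC

open TLTC in
theorem tltc : TLT → STAR → CONSTS → CFCC → LGC → TLTC := by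
  intro hT hSTAR hCO hCF hLG s hs hs1 T hT0
  obtain ⟨C, hC, h⟩ := hT s hs hs1 T hT0
  refine ⟨C, hC, ?_⟩
  intro m N κ X X' Q l cfg
  obtain ⟨-, hcY, -, -, -, -, hth⟩ := hCO s hs hs1
  have hW0 : 0 ≤ cY s * (s⁻¹ + 1) := by positivity
  have hth0 : 0 ≤ th s := by unfold th; positivity
  have hXc : Continuous X := cont_of_deriv cfg.dX
  have hQc : Continuous Q := cont_of_deriv cfg.dQ
  have hl := cfg.lpos
  have hVc : Continuous fun x => Wm s (X x) := cont_Wm hCF hs hXc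
  have hX0 : ∀ x, l ≤ |x| → X x = 0 := fun x hx => (cfg.X0 x hx).1
  obtain ⟨h1, t, ht, h2, h3⟩ := h N κ cfg.kpos (-l) l (by linarith) Q (fun x => Wm s (X x))
    (fun x _ => hasDerivWithinAt_iff_entry.2 fun i j =>
      (hasDerivAt_iff_entry.1 (cfg.dQ x) i j).hasDerivWithinAt) hVc.continuousOn (fun x _ => Wm_psd hW0 _)
    (fun x _ => cfg.btw x) (cfg.Qm _ le_rfl) (cfg.Qp _ le_rfl)
  have ht0 : 0 < t := lt_of_lt_of_le hT0 ht.1
  have hTS : TS s κ X = (∫ x in (-l)..l, tracePow (Wm s (X x)) (1 + s)) -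
      cs s * bet s * ∑ i, κ i ^ (1 + 2 * s) := by
    unfold TS
    rw [integral_eq_interval hl fun x hx => by
      rw [hX0 x hx, Wm_zero hs, tracePow_zero_mt (by linarith)]]
  have hsig : ∀ x, sig κ (Q x) (((th s : ℝ) : ℂ) • Wm s (X x)) t =
      sig κ (Q x) (Xi s (X x)) t := fun x => by rw [th_Wm hth]
  have hout := fun x hx => sig_out (κ := κ) hs hX0 cfg.Qm cfg.Qp ht0 x hx
  refine ⟨by rw [hTS]; linarith, t, ht, ?_, hout, ?_, ?_⟩
  · have h4 : Continuous fun x => sig κ (Q x) (((th s : ℝ) : ℂ) • Wm s (X x)) t := by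
      rw [continuous_iff_continuousAt]
      intro x0
      have h5 := TLT.contSig (κ := κ) (a := x0 - 1) (b := x0 + 1) hLG hQc.continuousOn
        (fun x _ => cfg.btw x) hVc.continuousOn (fun x _ => Wm_psd hW0 _) hth0
      have h6 : ContinuousOn (fun x : ℝ => (x, t)) (Set.Icc (x0 - 1) (x0 + 1)) := by fun_prop
      have h7 : Set.MapsTo (fun x : ℝ => (x, t)) (Set.Icc (x0 - 1) (x0 + 1))
          (Set.Icc (x0 - 1) (x0 + 1) ×ˢ Set.Ioi 0) := fun x hx => ⟨hx, ht0⟩
      have h8 := ContinuousOn.comp h5 h6 h7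
      exact h8.continuousAt (Icc_mem_nhds (by linarith) (by linarith))
    simpa only [hsig] using h4
  · intro x
    exact TLT.sig_nonneg hSTAR (cfg.btw x) ht0 (Xi_psd hcY.le _)
  · rw [integral_eq_interval hl hout, hTS]
    simpa only [hsig] using h3

end Crest.Agent.R332
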