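import Crest.Agent.R332.LIBC

/-! TRX: functional calculus of `X X*` versus `X* X`. -/

set_option autoImplicit false

open MeasureTheory Matrix Filter Topology
open Crest.MathPhysics.LiebThirring
open scoped ComplexOrder

namespace Crest.Agent.R332

theorem trx_pow {m N : ℕ} (X : Rc m N) (n : ℕ) :
    X * (Xᴴ * X) ^ n = (X * Xᴴ) ^ n * X := by
  induction n with
  | zero => simp
  | succ n ih =>
    rw [pow_succ', pow_succ, ← Matrix.mul_assoc, ← Matrix.mul_assoc]
    rw [Matrix.mul_assoc (X * Xᴴ), ih, ← Matrix.mul_assoc, ← pow_succ', pow_succ]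

theorem trx_poly {m N : ℕ} (X : Rc m N) (q : Polynomial ℝ) :
    X * Polynomial.aeval (Xᴴ * X) q = Polynomial.aeval (X * Xᴴ) q * X := by
  induction q using Polynomial.induction_on' with
  | add p q hp hq =>
    rw [map_add, map_add, Matrix.mul_add, Matrix.add_mul, hp, hq]
  | monomial n a =>
    rw [Polynomial.aeval_monomial, Polynomial.aeval_monomial, ← Algebra.smul_def,
      ← Algebra.smul_def, Matrix.mul_smul, Matrix.smul_mul, trx_pow]

theorem trx_isH1 {m N : ℕ} (X : Rc m N) : (Xᴴ * X).IsHermitian :=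
  Matrix.isHermitian_conjTranspose_mul_self X
theorem trx_isH2 {m N : ℕ} (X : Rc m N) : (X * Xᴴ).IsHermitian :=
  Matrix.isHermitian_mul_conjTranspose_self X

/-- simultaneous polynomial representation of the functional calculus -/
theorem exists_poly_cfc {m N : ℕ} {A : Mt m} {B : Mt N} (hA : A.IsHermitian)
    (hB : B.IsHermitian) (f : ℝ → ℝ) (S : Finset ℝ) : ∃ q : Polynomial ℝ,
      cfc f A = Polynomial.aeval A q ∧ cfc f B = Polynomial.aeval B q ∧
        ∀ x ∈ S, q.eval x = f x := by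
  classical
  set T : Finset ℝ := Finset.univ.image hA.eigenvalues ∪ Finset.univ.image hB.eigenvalues ∪ S
    with hT
  set q : Polynomial ℝ := Lagrange.interpolate T id f with hq
  have key : ∀ x ∈ T, q.eval x = f x := by
    intro x hx
    have := Lagrange.eval_interpolate_at_node (s := T) (v := id) f
      (Function.injective_id.injOn) (i := x) hx
    exact this
  refine ⟨q, ?_, ?_, ?_⟩
  · rw [← cfc_polynomial q A hA]
    refine cfc_congr_eig hA fun i => (key _ ?_).symm
    exact Finset.mem_union_left _ (Finset.mem_union_left _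
      (Finset.mem_image_of_mem _ (Finset.mem_univ i)))
  · rw [← cfc_polynomial q B hB]
    refine cfc_congr_eig hB fun i => (key _ ?_).symm
    exact Finset.mem_union_left _ (Finset.mem_union_right _
      (Finset.mem_image_of_mem _ (Finset.mem_univ i)))
  · exact fun x hx => key x (Finset.mem_union_right _ hx)

theorem trx_left {m N : ℕ} (X : Rc m N) (f : ℝ → ℝ) :
    X * cfc f (Xᴴ * X) = cfc f (X * Xᴴ) * X := by
  obtain ⟨q, h1, h2, -⟩ := exists_poly_cfc (trx_isH2 X) (trx_isH1 X) f ∅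
  rw [h1, h2, trx_poly]

theorem trx_trace {m N : ℕ} (X : Rc m N) (f : ℝ → ℝ) (hf : f 0 = 0) :
    rtr (cfc f (X * Xᴴ)) = rtr (cfc f (Xᴴ * X)) := by
  obtain ⟨q, h1, h2, h3⟩ := exists_poly_cfc (trx_isH2 X) (trx_isH1 X) f {0}
  have h0 : q.eval 0 = 0 := by rw [h3 0 (by simp), hf]
  obtain ⟨r, hr⟩ : Polynomial.X ∣ q := by
    rw [Polynomial.X_dvd_iff, Polynomial.coeff_zero_eq_eval_zero, h0]
  rw [h1, h2, hr, map_mul, map_mul, Polynomial.aeval_X, Polynomial.aeval_X]
  calc rtr (X * Xᴴ * Polynomial.aeval (X * Xᴴ) r)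
      = rtr (Polynomial.aeval (X * Xᴴ) r * X * Xᴴ) := by
        rw [rtr_mul_comm, Matrix.mul_assoc (Polynomial.aeval (X * Xᴴ) r)]
    _ = rtr (X * Polynomial.aeval (Xᴴ * X) r * Xᴴ) := by rw [trx_poly]
    _ = rtr (Xᴴ * (X * Polynomial.aeval (Xᴴ * X) r)) := by rw [rtr_mul_comm]
    _ = _ := by rw [Matrix.mul_assoc]

theorem trx : TRX := fun _ _ X => ⟨trx_left X, trx_trace X⟩

end Crest.Agent.R332
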