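import Crest.Agent.R332.LIBF

/-! WGT: the weights. -/

set_option autoImplicit false

open MeasureTheory Matrix Filter Topology
open Crest.MathPhysics.LiebThirring
open scoped ComplexOrder

namespace Crest.Agent.R332.WGT

variable {N : ℕ}

theorem sq_rpow {x : ℝ} (hx : 0 ≤ x) (p : ℝ) : (x ^ 2) ^ p = x ^ (2 * p) := by
  rw [← Real.rpow_natCast, ← Real.rpow_mul hx]; norm_num

/-- concave tangent -/
theorem tan_concave {γ x y : ℝ} (h0 : 0 ≤ γ) (h1 : γ ≤ 1) (hx : 0 < x) (hy : 0 ≤ y) :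
    y ^ (2 * γ) ≤ x ^ (2 * γ) + γ * x ^ (2 * γ - 2) * (y ^ 2 - x ^ 2) := by
  have hx2 : 0 < x ^ 2 := by positivity
  have h := _root_.rpow_one_add_le_one_add_mul_self (s := y ^ 2 / x ^ 2 - 1) (p := γ)
    (by have : 0 ≤ y ^ 2 / x ^ 2 := by positivity
        linarith) h0 h1
  rw [show 1 + (y ^ 2 / x ^ 2 - 1) = y ^ 2 / x ^ 2 by ring,
    Real.div_rpow (by positivity) (by positivity), sq_rpow hy, sq_rpow hx.le,
    div_le_iff₀ (Real.rpow_pos_of_pos hx _)] at h
  refine h.trans (le_of_eq ?_)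
  have : x ^ (2 * γ) = x ^ (2 * γ - 2) * x ^ 2 := by
    rw [← Real.rpow_natCast x 2, ← Real.rpow_add hx]; norm_num
  rw [this]
  field_simp

/-- convex tangent -/
theorem tan_convex {γ x y : ℝ} (h1 : 1 ≤ γ) (hx : 0 < x) (hy : 0 ≤ y) :
    x ^ (2 * γ) + γ * x ^ (2 * γ - 2) * (y ^ 2 - x ^ 2) ≤ y ^ (2 * γ) := by
  have hx2 : 0 < x ^ 2 := by positivity
  have h := one_add_mul_self_le_rpow_one_add (s := y ^ 2 / x ^ 2 - 1) (p := γ)
    (by have : 0 ≤ y ^ 2 / x ^ 2 := by positivity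
        linarith) h1
  rw [show 1 + (y ^ 2 / x ^ 2 - 1) = y ^ 2 / x ^ 2 by ring,
    Real.div_rpow (by positivity) (by positivity), sq_rpow hy, sq_rpow hx.le,
    le_div_iff₀ (Real.rpow_pos_of_pos hx _)] at h
  refine le_trans (le_of_eq ?_) h
  have : x ^ (2 * γ) = x ^ (2 * γ - 2) * x ^ 2 := by
    rw [← Real.rpow_natCast x 2, ← Real.rpow_add hx]; norm_num
  rw [this]
  field_simp

/-- regularised concave tangent -/
theorem tan_reg {γ d x y : ℝ} (h0 : 0 ≤ γ) (h1 : γ ≤ 1) (hd : 0 < d) (hx : 0 ≤ x) (hy : 0 ≤ y) :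
    y ^ (2 * γ) - d ^ (2 * γ) ≤ γ * max x d ^ (2 * γ - 2) * (y ^ 2 - x ^ 2) + x ^ (2 * γ) := by
  have hdp : 0 ≤ d ^ (2 * γ) := Real.rpow_nonneg hd.le _
  rcases le_or_gt d x with h | h
  · rw [max_eq_left h]
    have := tan_concave h0 h1 (hd.trans_le h) hy
    linarith
  · rw [max_eq_right h.le]
    have h2 := tan_concave h0 h1 hd hy
    have h3 : 0 ≤ x ^ (2 * γ) := Real.rpow_nonneg hx _
    have h4 : 0 ≤ γ * d ^ (2 * γ - 2) * (d ^ 2 - x ^ 2) := by
      have : 0 ≤ d ^ 2 - x ^ 2 := by nlinarith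
      have := Real.rpow_nonneg hd.le (2 * γ - 2)
      positivity
    nlinarith

theorem one_eq_cfc {B : Mt N} (hB : B.IsHermitian) : cfc (fun _ : ℝ => (1 : ℝ)) B = 1 := by
  rw [cfc_const_mt hB, sc_one]

theorem sq_eq_cfc {B : Mt N} (hB : B.IsHermitian) : cfc (fun x : ℝ => x ^ 2) B = B * B := by
  have := cfc_mul_mt hB (fun x => x) (fun x => x)
  rw [cfc_id_mt hB] at this
  rw [this]
  congr 1
  funext x
  ring

/-- the abstract double-sum inequality -/
theorem pair_ineq (hS : SPEC) {A B : Mt N} (hA : A.IsHermitian) (hB : B.IsHermitian)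
    (f1 f2 g1 g2 : ℝ → ℝ) (F G : ℝ → ℝ) (η : ℝ)
    (h : ∀ i j, G (hB.eigenvalues j) - η ≤ f1 (hA.eigenvalues i) * g1 (hB.eigenvalues j) -
      f2 (hA.eigenvalues i) * g2 (hB.eigenvalues j) + F (hA.eigenvalues i)) :
    rtr (cfc G B) - N * η ≤ rtr (cfc f1 A * cfc g1 B) - rtr (cfc f2 A * cfc g2 B) +
      rtr (cfc F A) := by
  obtain ⟨p, hp0, hp1, hp2, hp⟩ := hS N A B hA hB
  have e1 : rtr (cfc G B) = ∑ i, ∑ j, p i j * (1 * G (hB.eigenvalues j)) := by
    rw [← hp (fun _ => 1) G, one_eq_cfc hA, Matrix.one_mul]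
  have e2 : rtr (cfc F A) = ∑ i, ∑ j, p i j * (F (hA.eigenvalues i) * 1) := by
    rw [← hp F (fun _ => 1), one_eq_cfc hB, Matrix.mul_one]
  have e3 : (N : ℝ) * η = ∑ i, ∑ j, p i j * η := by
    simp only [← Finset.sum_mul, hp1]
    simp
  rw [e1, e2, e3, hp f1 g1, hp f2 g2]
  simp only [← Finset.sum_sub_distrib, ← Finset.sum_add_distrib]
  refine Finset.sum_le_sum fun i _ => Finset.sum_le_sum fun j _ => ?_
  have := mul_le_mul_of_nonneg_left (h i j) (hp0 i j)
  linarith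

theorem eig_dg_pos {κ : Fin N → ℝ} (hκ : ∀ i, 0 < κ i) (j : Fin N) :
    0 < (dg_isHermitian κ).eigenvalues j := (dg_posDef hκ).eigenvalues_pos j

theorem rtr_cfc_dg (κ : Fin N → ℝ) (G : ℝ → ℝ) : rtr (cfc G (dg κ)) = ∑ i, G (κ i) := by
  rw [cfc_dg, rtr_dg]; rfl

theorem case_convex (hS : SPEC) {γ : ℝ} (hγ : 1 ≤ γ) (κ : Fin N → ℝ) (hκ : ∀ i, 0 < κ i) :
    ∃ (ω : Mt N → Mt N) (B : ℝ),
    ContinuousOn ω {K | K.PosSemidef} ∧
    (∀ K : Mt N, K.PosSemidef → (ω K).PosDef ∧ (sc N B - ω K * ω K).PosSemidef) ∧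
    ∀ K : Mt N, K.PosDef → (∑ i, κ i ^ (2 * γ)) ≤
      rtr (ω K * ω K * (dg κ * dg κ - K * K)) + tracePow K (2 * γ) := by
  set w : ℝ → ℝ := fun x => Real.sqrt (γ * x ^ (2 * γ - 2)) with hw
  have hwpos : ∀ i, 0 < w (κ i) := fun i => by
    refine Real.sqrt_pos.2 ?_
    have := Real.rpow_pos_of_pos (hκ i) (2 * γ - 2)
    positivity
  have hww : ∀ x, 0 < x → w x * w x = γ * x ^ (2 * γ - 2) := fun x hx =>
    Real.mul_self_sqrt (by have := Real.rpow_nonneg hx.le (2 * γ - 2); positivity)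
  refine ⟨fun _ => dg (fun i => w (κ i)), ∑ i, w (κ i) * w (κ i), continuousOn_const, ?_, ?_⟩
  · intro K _
    refine ⟨dg_posDef hwpos, ?_⟩
    rw [dg_mul, sc_eq_dg, dg_sub]
    refine dg_posSemidef fun i => sub_nonneg.2 ?_
    exact Finset.single_le_sum (f := fun i => w (κ i) * w (κ i))
      (fun j _ => mul_self_nonneg _) (Finset.mem_univ i)
  · intro K hK
    have hKh := hK.isHermitian
    have hd := dg_isHermitian κ
    have h := pair_ineq hS hKh hd (fun _ => 1) (fun x => x ^ 2)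
      (fun x => γ * x ^ (2 * γ - 2) * x ^ 2) (fun x => γ * x ^ (2 * γ - 2))
      (fun x => x ^ (2 * γ)) (fun x => x ^ (2 * γ)) 0 ?_
    · rw [one_eq_cfc hKh, Matrix.one_mul, sq_eq_cfc hKh, rtr_cfc_dg] at h
      have e1 : rtr (dg (fun i => w (κ i)) * dg (fun i => w (κ i)) * (dg κ * dg κ - K * K)) =
          rtr (cfc (fun x => γ * x ^ (2 * γ - 2) * x ^ 2) (dg κ)) -
            rtr (K * K * cfc (fun x => γ * x ^ (2 * γ - 2)) (dg κ)) := by
        rw [dg_mul, Matrix.mul_sub, rtr_sub, rtr_mul_comm (K * K), cfc_dg, cfc_dg, dg_mul, dg_mul]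
        congr 3
        · congr 1
          funext i
          simp only [Function.comp]
          rw [hww _ (hκ i)]
          ring
        · congr 1
          funext i
          simp only [Function.comp]
          rw [hww _ (hκ i)]
      show _ ≤ rtr (dg (fun i => w (κ i)) * dg (fun i => w (κ i)) * (dg κ * dg κ - K * K)) + _
      rw [e1, tracePow_eq_rtr]
      unfold pw
      linarith
    · intro i j
      have h1 := eig_dg_pos hκ j
      have h2 := hK.posSemidef.eigenvalues_nonneg i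
      have := tan_convex hγ h1 h2
      linarith

theorem case_concave (hS : SPEC) (hC : CFCC) {γ : ℝ} (h0 : 0 < γ) (hγ : γ ≤ 1) (κ : Fin N → ℝ)
    (hκ : ∀ i, 0 < κ i) {δ : ℝ} (hδ : 0 < δ) : ∃ (ω : Mt N → Mt N) (B : ℝ),
    ContinuousOn ω {K | K.PosSemidef} ∧
    (∀ K : Mt N, K.PosSemidef → (ω K).PosDef ∧ (sc N B - ω K * ω K).PosSemidef) ∧
    ∀ K : Mt N, K.PosDef → (∑ i, κ i ^ (2 * γ)) - δ ≤
      rtr (ω K * ω K * (dg κ * dg κ - K * K)) + tracePow K (2 * γ) := by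
  set η : ℝ := δ / (N + 1) with hη
  have hη0 : 0 < η := by positivity
  set d : ℝ := η ^ (1 / (2 * γ)) with hd
  have hd0 : 0 < d := Real.rpow_pos_of_pos hη0 _
  have hdη : d ^ (2 * γ) = η := by
    rw [hd, ← Real.rpow_mul hη0.le]
    have : 1 / (2 * γ) * (2 * γ) = 1 := by field_simp
    rw [this, Real.rpow_one]
  set w : ℝ → ℝ := fun x => Real.sqrt (γ * max x d ^ (2 * γ - 2)) with hw
  have hmax : ∀ x, 0 < max x d := fun x => lt_max_of_lt_right hd0
  have hpos : ∀ x, 0 < γ * max x d ^ (2 * γ - 2) := fun x => by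
    have := Real.rpow_pos_of_pos (hmax x) (2 * γ - 2)
    positivity
  have hwpos : ∀ x, 0 < w x := fun x => Real.sqrt_pos.2 (hpos x)
  have hww : ∀ x, w x * w x = γ * max x d ^ (2 * γ - 2) := fun x => Real.mul_self_sqrt (hpos x).le
  have hwc : Continuous w := by
    refine Continuous.sqrt (continuous_const.mul ?_)
    exact (continuous_id.max continuous_const).rpow_const fun x => Or.inl (hmax x).ne'
  refine ⟨fun K => cfc w K, γ * d ^ (2 * γ - 2), ?_, ?_, ?_⟩
  · exact (hC N w hwc).mono fun K hK => hK.isHermitian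
  · intro K hK
    have hKh := hK.isHermitian
    refine ⟨cfc_posDef hKh fun x => hwpos _, ?_⟩
    show (sc N (γ * d ^ (2 * γ - 2)) - cfc w K * cfc w K).PosSemidef
    rw [cfc_mul_mt hKh, ← cfc_const_mt hKh, cfc_sub_mt hKh]
    refine cfc_posSemidef hKh fun i => ?_
    rw [hww, sub_nonneg]
    refine mul_le_mul_of_nonneg_left ?_ h0.le
    exact Real.rpow_le_rpow_of_nonpos hd0 (le_max_right _ _) (by linarith)
  · intro K hK
    have hKh := hK.isHermitian
    have hdh := dg_isHermitian κ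
    have h := pair_ineq hS hKh hdh (fun x => w x * w x) (fun x => w x * w x * x ^ 2)
      (fun x => x ^ 2) (fun _ => 1)
      (fun x => x ^ (2 * γ)) (fun x => x ^ (2 * γ)) η ?_
    · rw [one_eq_cfc hdh, Matrix.mul_one, sq_eq_cfc hdh, rtr_cfc_dg] at h
      have e1 : rtr (cfc w K * cfc w K * (dg κ * dg κ - K * K)) =
          rtr (cfc (fun x => w x * w x) K * (dg κ * dg κ)) -
            rtr (cfc (fun x => w x * w x * x ^ 2) K) := by
        rw [cfc_mul_mt hKh, Matrix.mul_sub, rtr_sub, ← sq_eq_cfc hKh,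
          cfc_mul_mt hKh (fun x => w x * w x) (fun x => x ^ 2)]
      show _ ≤ rtr (cfc w K * cfc w K * (dg κ * dg κ - K * K)) + _
      rw [e1, tracePow_eq_rtr]
      unfold pw
      have e2 : (N : ℝ) * η ≤ δ := by
        rw [hη, mul_div_assoc', div_le_iff₀ (by positivity)]
        nlinarith
      linarith
    · intro i j
      have h1 := (eig_dg_pos hκ j).le
      have h2 := hK.posSemidef.eigenvalues_nonneg i
      have := tan_reg h0.le hγ hd0 h2 h1
      rw [hdη] at this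
      simp only [hww]
      linarith

end Crest.Agent.R332.WGT

namespace Crest.Agent.R332

theorem wgt : SPEC → CFCC → WGT := by
  intro hS hC γ h1 h2 N κ hκ δ hδ
  rcases le_or_gt 1 γ with h | h
  · obtain ⟨ω, B, a, b, c⟩ := WGT.case_convex hS h κ hκ
    refine ⟨ω, B, a, b, fun K hK => ?_⟩
    have := c K hK
    linarith
  · exact WGT.case_concave hS hC (by linarith) h.le κ hκ hδ

end Crest.Agent.R332
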