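import Crest.Agent.R332.TAILB
import Crest.Agent.R332.LIBK

/-! XIZ: `Ξ ≈ K² - Q²` on the top block. -/

set_option autoImplicit false

open MeasureTheory Matrix Filter Topology
open Crest.MathPhysics.LiebThirring
open scoped ComplexOrder

namespace Crest.Agent.R332.XIZ

open Crest.Agent.R332.SIGB Crest.Agent.R332.TAILB

variable {m N K : ℕ}

theorem blk_add (J : ℕ) (A B : Mt N) : blk J (A + B) = blk J A + blk J B := by
  ext i j
  simp only [blk, Matrix.add_apply]
  split_ifs <;> simp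

theorem blk_neg (J : ℕ) (A : Mt N) : blk J (-A) = - blk J A := by
  ext i j
  simp only [blk, Matrix.neg_apply]
  split_ifs <;> simp

theorem blk_sub (J : ℕ) (A B : Mt N) : blk J (A - B) = blk J A - blk J B := by
  rw [sub_eq_add_neg, blk_add, blk_neg, ← sub_eq_add_neg]

theorem blk_mul (J : ℕ) (A : Rc m N) (B : Rc m N) :
    blk J (Aᴴ * B) = (cblk J A)ᴴ * cblk J B := by
  ext i j
  rw [Matrix.mul_apply]
  simp only [blk, Matrix.conjTranspose_apply, cblk]
  by_cases hi : (i : ℕ) < N <;> by_cases hj : (j : ℕ) < N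
  · rw [dif_pos ⟨hi, hj⟩, Matrix.mul_apply]
    refine Finset.sum_congr rfl fun a _ => ?_
    rw [dif_pos hi, dif_pos hj, Matrix.conjTranspose_apply]
  · rw [dif_neg (fun h => hj h.2)]
    simp [hj]
  · rw [dif_neg (fun h => hi h.1)]
    simp [hi]
  · rw [dif_neg (fun h => hi h.1)]
    simp [hi]

theorem fro2_cblk (J : ℕ) (X : Rc m N) : fro2 (cblk J X) ≤ fro2 X := by
  have h := tail_eq J X
  rw [← fro2_eq', ← fro2_eq'] at h
  have h2 : 0 ≤ ∑ a, tau J X a := Finset.sum_nonneg fun a _ => tau_nonneg J X a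
  linarith

theorem fro_cblk (J : ℕ) (X : Rc m N) : fro (cblk J X) ≤ fro X :=
  Real.sqrt_le_sqrt (fro2_cblk J X)

theorem fro2_cblk_eq (J : ℕ) (X : Rc m N) : fro2 (cblk J X) = rtr (blk J (Xᴴ * X)) := by
  rw [fro2_eq, blk_mul]

theorem rtr_blk (J : ℕ) (A : Mt N) :
    rtr (blk J A) = ∑ j : Fin J, (if h : (j : ℕ) < N then (A ⟨j, h⟩ ⟨j, h⟩).re else 0) := by
  unfold rtr
  rw [Matrix.trace, Complex.re_sum]
  refine Finset.sum_congr rfl fun j _ => ?_
  rw [Matrix.diag_apply]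
  simp only [blk]
  by_cases h : (j : ℕ) < N
  · simp [h]
  · simp [h]

theorem rtr_blk_le_rtr (J : ℕ) {A : Mt N} (hA : A.PosSemidef) : rtr (blk J A) ≤ rtr A := by
  rw [rtr_blk, sum_blk J (fun i => (A i i).re)]
  unfold rtr
  rw [Matrix.trace, Complex.re_sum]
  refine Finset.sum_le_sum fun i _ => ?_
  rw [Matrix.diag_apply]
  split_ifs
  · exact le_rfl
  · exact (Complex.nonneg_iff.1 hA.diag_nonneg).1

theorem rtr_blk_le (J : ℕ) {A : Mt N} {c : ℝ} (hc : 0 ≤ c) (hA : (sc N c - A).PosSemidef) :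
    rtr (blk J A) ≤ J * c := by
  rw [rtr_blk]
  have h : ∀ j : Fin J, (if h : (j : ℕ) < N then (A ⟨j, h⟩ ⟨j, h⟩).re else 0) ≤ c := by
    intro j
    split_ifs with h
    · have h1 := (Complex.nonneg_iff.1 (hA.diag_nonneg (i := ⟨j, h⟩))).1
      rw [Matrix.sub_apply, Complex.sub_re] at h1
      have h2 : (sc N c ⟨j, h⟩ ⟨j, h⟩).re = c := by
        simp [sc]
      linarith
    · exact hc
  refine (Finset.sum_le_sum fun j _ => h j).trans ?_
  rw [Finset.sum_const, Finset.card_univ, Fintype.card_fin, nsmul_eq_mul]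

theorem fro_blk_le {J : ℕ} {A : Mt N} {c : ℝ} (hc : 0 ≤ c) (h : ∀ i j, ‖A i j‖ ≤ c) :
    fro (blk J A) ≤ J * c := by
  have h1 : ∀ i j, ‖(blk J A) i j‖ ≤ c := by
    intro i j
    simp only [blk]
    split_ifs with hh
    · exact h _ _
    · simpa using hc
  have h2 := fro2_le_of_entry h1
  unfold fro
  refine Real.sqrt_le_iff.2 ⟨by positivity, h2.trans (le_of_eq ?_)⟩
  ring

/-- pointwise estimate -/
theorem fro_blk_XiZ (hST : STAR) {k C : ℝ} (hC : 0 ≤ C)
    (hE : ∀ (N : ℕ) (κ : Fin N → ℝ), (∀ i, 0 ≤ κ i ∧ κ i ≤ k) → ∀ Q : Mt N, Btw κ Q →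
      ∀ t : ℝ, 1 ≤ t →
      OpLe (cfc Real.exp (lg (Kt κ t + Q) + lg (Kt κ t - Q)) - sc N t - Zm κ Q) (C / t))
    (s : ℝ) (hc : 0 ≤ cY s) {κ : Fin N → ℝ} (hκ : ∀ i, 0 ≤ κ i ∧ κ i ≤ k) {Q : Mt N}
    (hQ : Btw κ Q) (X : Rc m N) {t : ℝ} (ht : 1 ≤ t) (J : ℕ) {η : ℝ} (hη : 0 < η) :
    fro (blk J (Xi s X - Zm κ Q)) ≤
      η * (J * t + rtr (Xi s X) + J * (t + k ^ 2 + C / t)) +
        (2 * η)⁻¹ * sig κ Q (Xi s X) t + J * (C / t) := by
  have ht0 : 0 < t := by linarith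
  have hY := (Y_posDef (m := m) s hc X ht0).posSemidef
  set E := Em κ Q t with hEd
  set S := Sm (sc N t + Xi s X) with hSd
  have hEh : Eᴴ = E := Em_herm κ Q t
  have hSh : Sᴴ = S := Sm_herm _
  have hCt : 0 ≤ C / t := by positivity
  have hR := hE N κ hκ Q hQ t ht
  have hEE : E * E = cfc Real.exp (lg (Kt κ t + Q) + lg (Kt κ t - Q)) := Em_mul κ Q t
  rw [← hEE] at hR
  have hSS : S * S = sc N t + Xi s X := Sm_mul hY
  have hD : (E - S)ᴴ = E - S := by rw [Matrix.conjTranspose_sub, hEh, hSh]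
  have e1 : Xi s X - Zm κ Q = -((E - S)ᴴ * S + Eᴴ * (E - S)) + (E * E - sc N t - Zm κ Q) := by
    rw [hD, hEh, Matrix.sub_mul, Matrix.mul_sub, hSS]
    abel
  have h1 : fro (blk J (Xi s X - Zm κ Q)) ≤ fro (E - S) * fro (cblk J S) +
      fro (cblk J E) * fro (E - S) + J * (C / t) := by
    rw [e1, blk_add, blk_neg, blk_add, blk_mul, blk_mul]
    refine (fro_add_le _ _).trans (add_le_add ?_ (fro_blk_le hCt hR.entry))
    rw [fro_neg]
    refine (fro_add_le _ _).trans (add_le_add ?_ ?_)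
    · refine (fro_mul_le _ _).trans ?_
      rw [fro_conjTranspose]
      exact mul_le_mul_of_nonneg_right (fro_cblk _ _) (fro_nonneg _)
    · refine (fro_mul_le _ _).trans ?_
      rw [fro_conjTranspose]
      exact mul_le_mul_of_nonneg_left (fro_cblk _ _) (fro_nonneg _)
  have h2 : fro2 (cblk J S) ≤ J * t + rtr (Xi s X) := by
    rw [fro2_cblk_eq, hSh, hSS, blk_add, rtr_add]
    refine add_le_add (rtr_blk_le J ht0.le ?_) (rtr_blk_le_rtr J (Xi_psd s hc X))
    rw [sub_self]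
    exact Matrix.PosSemidef.zero
  have h3 : fro2 (cblk J E) ≤ J * (t + k ^ 2 + C / t) := by
    rw [fro2_cblk_eq, hEh]
    refine rtr_blk_le J (by positivity) ?_
    have h4 := hR.1
    have h5 := (Btw.opLe_Zm hQ (fun i => (hκ i).2)).1
    have h6 := h4.add h5
    have e2 : sc N (C / t) - (E * E - sc N t - Zm κ Q) + (sc N (k ^ 2) - Zm κ Q) =
        sc N (t + k ^ 2 + C / t) - E * E := by
      rw [sc_add, sc_add]
      abel
    rwa [e2] at h6
  have h4 : fro2 (E - S) ≤ sig κ Q (Xi s X) t := fro2_le_sig hST s hc hQ X ht0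
  have h5 : ∀ a b : ℝ, a * b ≤ η * b ^ 2 + (4 * η)⁻¹ * a ^ 2 := by
    intro a b
    have h6 : 0 ≤ (4 * η)⁻¹ * (a - 2 * η * b) ^ 2 := by positivity
    have h7 : (4 * η)⁻¹ * (a - 2 * η * b) ^ 2 = η * b ^ 2 + (4 * η)⁻¹ * a ^ 2 - a * b := by
      field_simp
      ring
    linarith
  have h6 := h5 (fro (E - S)) (fro (cblk J S))
  have h7 := h5 (fro (E - S)) (fro (cblk J E))
  rw [sq_fro, sq_fro] at h6 h7
  have h8 := mul_le_mul_of_nonneg_left h2 hη.le
  have h9 := mul_le_mul_of_nonneg_left h3 hη.le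
  have h10 : (4 * η)⁻¹ * fro2 (E - S) + (4 * η)⁻¹ * fro2 (E - S) ≤
      (2 * η)⁻¹ * sig κ Q (Xi s X) t := by
    have : (4 * η)⁻¹ * fro2 (E - S) + (4 * η)⁻¹ * fro2 (E - S) = (2 * η)⁻¹ * fro2 (E - S) := by
      field_simp
      ring
    rw [this]
    exact mul_le_mul_of_nonneg_left h4 (by positivity)
  have h11 : fro (cblk J E) * fro (E - S) = fro (E - S) * fro (cblk J E) := mul_comm _ _
  rw [h11] at h1
  linarith

theorem rtr_Xi_le (hTR : TRX) (s : ℝ) (hs : 0 < s) (hc : 0 ≤ cY s) (X : Rc m N) :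
    rtr (Xi s X) ≤ cY s * (m + tracePow (X * Xᴴ) (s⁻¹ + 1)) := by
  unfold Xi
  rw [rtr_smul]
  refine mul_le_mul_of_nonneg_left ?_ hc
  have h1 := (hTR m N X).2 (fun x => x ^ s⁻¹) (Real.zero_rpow (by positivity))
  unfold pw
  rw [← h1, tracePow_eq_sum (Matrix.isHermitian_mul_conjTranspose_self X),
    rtr_cfc (Matrix.isHermitian_mul_conjTranspose_self X)]
  have h2 : (m : ℝ) = ∑ i : Fin m, (1 : ℝ) := by simp
  rw [h2, ← Finset.sum_add_distrib]
  refine Finset.sum_le_sum fun i _ => ?_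
  have h3 := (Matrix.posSemidef_self_mul_conjTranspose X).eigenvalues_nonneg i
  set x := (Matrix.isHermitian_mul_conjTranspose_self X).eigenvalues i with hx
  have hr : (0 : ℝ) < s⁻¹ := by positivity
  rcases le_total x 1 with h | h
  · have : x ^ s⁻¹ ≤ 1 := Real.rpow_le_one h3 h hr.le
    have h5 : 0 ≤ x ^ (s⁻¹ + 1) := Real.rpow_nonneg h3 _
    linarith
  · have : x ^ s⁻¹ ≤ x ^ (s⁻¹ + 1) := Real.rpow_le_rpow_of_exponent_le h (by linarith)
    linarith

theorem cont_cfc {X : ℝ → Mt N} (hX : Continuous X) (hh : ∀ x, (X x).IsHermitian) {f : ℝ → ℝ}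
    (hf : Continuous f) : Continuous fun x => cfc f (X x) :=
  (cfcc N f hf).comp_continuous hX hh

theorem cont_rpow {p : ℝ} (hp : 0 ≤ p) : Continuous fun x : ℝ => x ^ p :=
  Real.continuous_rpow_const hp

theorem cont_tracePow {X : ℝ → Rc m N} (hX : Continuous X) {p : ℝ} (hp : 0 ≤ p) :
    Continuous fun x => tracePow (X x * (X x)ᴴ) p := by
  have h := cont_cfc (hX.matrix_mul hX.matrix_conjTranspose)
    (fun x => Matrix.isHermitian_mul_conjTranspose_self (X x)) (cont_rpow hp)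
  exact continuous_rtr.comp h

theorem cont_Xi {X : ℝ → Rc m N} (hX : Continuous X) {s : ℝ} (hs : 0 < s) :
    Continuous fun x => Xi s (X x) := by
  unfold Xi pw
  have h := cont_cfc (hX.matrix_conjTranspose.matrix_mul hX)
    (fun x => Matrix.isHermitian_conjTranspose_mul_self (X x))
    (cont_rpow (p := s⁻¹) (by positivity))
  exact h.const_smul (((cY s : ℝ) : ℂ))

theorem cont_blk (J : ℕ) {A : ℝ → Mt N} (hA : Continuous A) :
    Continuous fun x => blk J (A x) := by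
  refine continuous_pi fun a => continuous_pi fun j => ?_
  unfold blk
  by_cases h : (a : ℕ) < N ∧ (j : ℕ) < N
  · simp only [h, dif_pos, and_self]
    exact (continuous_apply _).comp ((continuous_apply _).comp hA)
  · simp only [h, dif_neg, not_false_eq_true]
    exact continuous_const

end Crest.Agent.R332.XIZ

namespace Crest.Agent.R332

open SIGB TAILB XIZ in
theorem xiz (hTC : TLTC) (hST : STAR) (hHE : HBE) (hCO : CONSTS) (hTR : TRX) : XIZ := by
  intro s hs hs1 m J k B L ε hk hB hL hε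
  obtain ⟨-, hcY, -⟩ := hCO s hs hs1
  obtain ⟨C, hC, hE⟩ := hHE k hk.le
  set T : ℝ := 1 + 4 * (2 * L * J * C) / ε with hT
  have hTa : 0 ≤ 4 * (2 * L * J * C) / ε := by positivity
  have hT1 : 1 ≤ T := by linarith
  have hT0 : 0 < T := by linarith
  have hTb : 2 * L * J * (C / T) ≤ ε / 4 := by
    rw [← mul_div_assoc, div_le_iff₀ hT0, hT]
    have : ε / 4 * (1 + 4 * (2 * L * J * C) / ε) = ε / 4 + 2 * L * J * C := by
      field_simp
    rw [this]; linarith
  obtain ⟨CT, hCT, hTL⟩ := hTC s hs hs1 T hT0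
  obtain ⟨η, hη, hη1, hη2⟩ := exists_small
    (2 * L * (J * (2 * T) + J * (2 * T + k ^ 2 + C)) + 2 * L * (cY s * m) + cY s * B)
    (ε / 4) (by positivity) (by positivity)
  obtain ⟨δ, hδ, hδ1, hδ2⟩ := exists_small ((2 * η)⁻¹ * CT) (ε / 4)
    (by positivity) (by positivity)
  refine ⟨δ, hδ, ?_⟩
  intro N κ X X' Q l hcfg hκ hTS hBB
  obtain ⟨hTS0, t, ht, hsc, hs0, hsn, hsi⟩ := hTL m N κ X X' Q l hcfg
  have ht1 : 1 ≤ t := hT1.trans ht.1
  have ht0 : 0 < t := by linarith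
  have hXc : Continuous X := cont_of_deriv hcfg.dX
  have hQc : Continuous Q := cont_of_deriv hcfg.dQ
  have hCt : C / t ≤ C / T := div_le_div_of_nonneg_left hC hT0 ht.1
  have hCtC : C / t ≤ C := div_le_self hC ht1
  have hCt0 : 0 ≤ C / t := by positivity
  have hJ0 : (0 : ℝ) ≤ J := by positivity
  have hp0 : (0 : ℝ) ≤ s⁻¹ + 1 := by positivity
  -- pointwise bound
  have hpt : ∀ x, fro (blk J (Xi s (X x) - Zm κ (Q x))) ≤
      (η * (J * (2 * T) + J * (2 * T + k ^ 2 + C) + cY s * m) + J * (C / T)) +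
        η * cY s * tracePow (X x * (X x)ᴴ) (s⁻¹ + 1) +
        (2 * η)⁻¹ * sig κ (Q x) (Xi s (X x)) t := by
    intro x
    have h1 := fro_blk_XiZ hST hC hE s hcY.le (fun i => ⟨(hcfg.kpos i).le, hκ i⟩)
      (hcfg.btw x) (X x) ht1 J hη
    have h2 := rtr_Xi_le hTR s hs hcY.le (X x)
    have h3 : (J : ℝ) * t ≤ J * (2 * T) := mul_le_mul_of_nonneg_left ht.2 hJ0
    have h4 : (J : ℝ) * (t + k ^ 2 + C / t) ≤ J * (2 * T + k ^ 2 + C) :=
      mul_le_mul_of_nonneg_left (by linarith [ht.2]) hJ0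
    have h5 : η * (J * t + rtr (Xi s (X x)) + J * (t + k ^ 2 + C / t)) ≤
        η * (J * (2 * T) + cY s * (m + tracePow (X x * (X x)ᴴ) (s⁻¹ + 1)) +
          J * (2 * T + k ^ 2 + C)) :=
      mul_le_mul_of_nonneg_left (by linarith) hη.le
    have h6 : (J : ℝ) * (C / t) ≤ J * (C / T) := mul_le_mul_of_nonneg_left hCt hJ0
    linarith
  have htp : Continuous fun x => tracePow (X x * (X x)ᴴ) (s⁻¹ + 1) := cont_tracePow hXc hp0
  have hlhs : Continuous fun x => fro (blk J (Xi s (X x) - Zm κ (Q x))) := by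
    refine continuous_fro'.comp (cont_blk J ?_)
    refine (cont_Xi hXc hs).sub ?_
    unfold Zm
    exact continuous_const.sub (hQc.matrix_mul hQc)
  have hi1 : IntervalIntegrable (fun _ : ℝ => (η * (J * (2 * T) + J * (2 * T + k ^ 2 + C) +
      cY s * m) + J * (C / T) : ℝ)) volume (-L) L := continuous_const.intervalIntegrable _ _
  have hi2 : IntervalIntegrable (fun x : ℝ => η * cY s * tracePow (X x * (X x)ᴴ) (s⁻¹ + 1))
      volume (-L) L := (continuous_const.mul htp).intervalIntegrable _ _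
  have hi3 : IntervalIntegrable (fun x : ℝ => (2 * η)⁻¹ * sig κ (Q x) (Xi s (X x)) t) volume
      (-L) L := (continuous_const.mul hsc).intervalIntegrable _ _
  have h1 := intervalIntegral.integral_mono_on (by linarith : -L ≤ L)
    (hlhs.intervalIntegrable (-L) L) ((hi1.add hi2).add hi3) (fun x _ => hpt x)
  have h2 : ∫ x in (-L)..L, sig κ (Q x) (Xi s (X x)) t ≤ CT * δ :=
    (sig_interval hL hsc hs0 hsn).trans (hsi.trans (mul_le_mul_of_nonneg_left hTS hCT))
  have h3 : ∫ x in (-L)..L, tracePow (X x * (X x)ᴴ) (s⁻¹ + 1) ≤ B := by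
    refine (sig_interval (l := l) hL htp ?_ ?_).trans hBB
    · intro x hx
      rw [(hcfg.X0 x hx).1, Matrix.zero_mul, tracePow_eq_rtr, pw_zero_mt (by positivity), rtr_zero]
    · intro x
      exact tracePow_nonneg (Matrix.posSemidef_self_mul_conjTranspose _) _
  rw [intervalIntegral.integral_add (hi1.add hi2) hi3, intervalIntegral.integral_add hi1 hi2,
    intervalIntegral.integral_const, intervalIntegral.integral_const_mul,
    intervalIntegral.integral_const_mul, smul_eq_mul] at h1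
  refine h1.trans ?_
  have h4 : η * cY s * (∫ x in (-L)..L, tracePow (X x * (X x)ᴴ) (s⁻¹ + 1)) ≤ η * cY s * B :=
    mul_le_mul_of_nonneg_left h3 (by positivity)
  have h5 : (2 * η)⁻¹ * (∫ x in (-L)..L, sig κ (Q x) (Xi s (X x)) t) ≤ (2 * η)⁻¹ * (CT * δ) :=
    mul_le_mul_of_nonneg_left h2 (by positivity)
  have h6 : (L - -L) * (η * (J * (2 * T) + J * (2 * T + k ^ 2 + C) + cY s * m) + J * (C / T)) +
      η * cY s * B + (2 * η)⁻¹ * (CT * δ) =
      (2 * L * (J * (2 * T) + J * (2 * T + k ^ 2 + C)) + 2 * L * (cY s * m) + cY s * B) * η +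
        (2 * η)⁻¹ * CT * δ + 2 * L * J * (C / T) := by
    ring
  linarith

end Crest.Agent.R332
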