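import Crest.Agent.R332.Defs

set_option autoImplicit false

open MeasureTheory Matrix Filter Topology
open scoped ComplexOrder Matrix.Norms.Frobenius

namespace Crest.Agent.R332
namespace QL

/-! ### Frobenius norm -/

theorem fro2_nonneg {m N : ℕ} (A : Rc m N) : 0 ≤ fro2 A :=
  Finset.sum_nonneg fun _ _ => Finset.sum_nonneg fun _ _ => by positivity

theorem norm_eq_fro {m N : ℕ} (A : Rc m N) : ‖A‖ = fro A := by
  rw [Matrix.frobenius_norm_def]
  unfold fro fro2
  rw [Real.sqrt_eq_rpow]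
  simp

theorem fro2_eq_norm {m N : ℕ} (A : Rc m N) : fro2 A = ‖A‖ ^ 2 := by
  rw [norm_eq_fro]; unfold fro; rw [Real.sq_sqrt (fro2_nonneg A)]

theorem fro2_eq_tr {N : ℕ} (A : Mt N) : fro2 A = rtr (A * Aᴴ) := by
  unfold fro2 rtr
  rw [Matrix.trace, Complex.re_sum]
  refine Finset.sum_congr rfl fun i _ => ?_
  rw [Matrix.diag_apply, Matrix.mul_apply, Complex.re_sum]
  refine Finset.sum_congr rfl fun j _ => ?_
  rw [Matrix.conjTranspose_apply, Complex.star_def, Complex.mul_conj, Complex.ofReal_re,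
    Complex.normSq_eq_norm_sq]

theorem fro2_conj {N : ℕ} (U : Matrix.unitaryGroup (Fin N) ℂ) (A : Mt N) :
    fro2 ((U : Mt N) * A * (U : Mt N)ᴴ) = fro2 A := by
  have hU : (U : Mt N)ᴴ * (U : Mt N) = 1 := by
    have := Matrix.UnitaryGroup.star_mul_self U
    rwa [Matrix.star_eq_conjTranspose] at this
  rw [fro2_eq_tr, fro2_eq_tr]
  unfold rtr
  have : (U : Mt N) * A * (U : Mt N)ᴴ * ((U : Mt N) * A * (U : Mt N)ᴴ)ᴴ =
      (U : Mt N) * (A * Aᴴ) * (U : Mt N)ᴴ := by
    rw [Matrix.conjTranspose_mul, Matrix.conjTranspose_mul, Matrix.conjTranspose_conjTranspose]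
    calc _ = (U : Mt N) * A * ((U : Mt N)ᴴ * (U : Mt N)) * Aᴴ * (U : Mt N)ᴴ := by
          simp only [Matrix.mul_assoc]
      _ = _ := by rw [hU]; simp only [Matrix.mul_assoc, Matrix.mul_one, Matrix.one_mul]
  rw [this, Matrix.mul_assoc, Matrix.trace_mul_comm, Matrix.mul_assoc, hU, Matrix.mul_one]

theorem norm_conj {N : ℕ} (U : Matrix.unitaryGroup (Fin N) ℂ) (A : Mt N) :
    ‖(U : Mt N) * A * (U : Mt N)ᴴ‖ = ‖A‖ := by
  rw [norm_eq_fro, norm_eq_fro]; unfold fro; rw [fro2_conj]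

theorem fro2_dg {N : ℕ} (κ : Fin N → ℝ) : fro2 (dg κ) = ∑ i, κ i ^ 2 := by
  unfold fro2 dg
  refine Finset.sum_congr rfl fun i _ => ?_
  rw [Finset.sum_eq_single i]
  · simp
  · intro j _ hj
    rw [Matrix.diagonal_apply_ne _ (Ne.symm hj)]; simp
  · simp

theorem norm_entry_le {m N : ℕ} (A : Rc m N) (i : Fin m) (j : Fin N) : ‖A i j‖ ≤ ‖A‖ := by
  rw [norm_eq_fro]
  unfold fro
  refine Real.le_sqrt_of_sq_le ?_
  unfold fro2
  calc ‖A i j‖ ^ 2 ≤ ∑ j, ‖A i j‖ ^ 2 :=
        Finset.single_le_sum (f := fun j => ‖A i j‖ ^ 2) (fun _ _ => by positivity)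
          (Finset.mem_univ j)
    _ ≤ _ := Finset.single_le_sum (f := fun i => ∑ j, ‖A i j‖ ^ 2)
          (fun _ _ => Finset.sum_nonneg fun _ _ => by positivity) (Finset.mem_univ i)

theorem dg_herm {N : ℕ} (κ : Fin N → ℝ) : (dg κ)ᴴ = dg κ := by
  unfold dg
  rw [Matrix.diagonal_conjTranspose]
  congr 1
  funext i
  simp

/-! ### PSD facts -/

theorem spec_gen {n : Type*} [Fintype n] [DecidableEq n] (A : Matrix n n ℂ) (hA : A.IsHermitian) :
    ∃ (W : Matrix n n ℂ) (d : n → ℝ), Wᴴ * W = 1 ∧ W * Wᴴ = 1 ∧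
      A = W * Matrix.diagonal (fun i => ((d i : ℝ) : ℂ)) * Wᴴ := by
  refine ⟨(hA.eigenvectorUnitary : Matrix n n ℂ), hA.eigenvalues, ?_, ?_, ?_⟩
  · have := Matrix.UnitaryGroup.star_mul_self hA.eigenvectorUnitary
    rwa [Matrix.star_eq_conjTranspose] at this
  · have := (Matrix.mem_unitaryGroup_iff).1 hA.eigenvectorUnitary.2
    rwa [Matrix.star_eq_conjTranspose] at this
  · have := hA.spectral_theorem
    rw [Unitary.conjStarAlgAut_apply, Matrix.star_eq_conjTranspose] at this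
    exact this

theorem rtr_mul_nonneg {N : ℕ} {A B : Mt N} (hA : A.PosSemidef) (hB : B.PosSemidef) :
    0 ≤ rtr (A * B) := by
  obtain ⟨W, d, h1, h2, h3⟩ := spec_gen A hA.1
  have hd : ∀ i, 0 ≤ d i := by
    intro i
    have h4 : (Wᴴ * A * W).PosSemidef := hA.conjTranspose_mul_mul_same W
    have h5 : Wᴴ * A * W = Matrix.diagonal (fun i => ((d i : ℝ) : ℂ)) := by
      calc Wᴴ * A * W = (Wᴴ * W) * Matrix.diagonal (fun i => ((d i : ℝ) : ℂ)) * (Wᴴ * W) := by
            nth_rewrite 1 [h3]; simp only [Matrix.mul_assoc]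
        _ = _ := by rw [h1]; simp
    rw [h5] at h4
    have := h4.diag_nonneg (i := i)
    rw [Matrix.diagonal_apply_eq] at this
    exact_mod_cast this
  have h6 : (Wᴴ * B * W).PosSemidef := hB.conjTranspose_mul_mul_same W
  have h7 : Matrix.trace (A * B) =
      Matrix.trace (Matrix.diagonal (fun i => ((d i : ℝ) : ℂ)) * (Wᴴ * B * W)) := by
    nth_rewrite 1 [h3]
    calc _ = Matrix.trace (W * (Matrix.diagonal (fun i => ((d i : ℝ) : ℂ)) * Wᴴ * B)) := by
          simp only [Matrix.mul_assoc]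
      _ = _ := by rw [Matrix.trace_mul_comm]; simp only [Matrix.mul_assoc]
  unfold rtr
  rw [h7, Matrix.trace, Complex.re_sum]
  refine Finset.sum_nonneg fun i _ => ?_
  rw [Matrix.diag_apply, Matrix.diagonal_mul, Complex.re_ofReal_mul]
  have h8 := h6.diag_nonneg (i := i)
  exact mul_nonneg (hd i) (Complex.nonneg_iff.1 h8).1

theorem btw_fro2_le {N : ℕ} {κ : Fin N → ℝ} {Q : Mt N} (h : Btw κ Q) :
    fro2 Q ≤ ∑ i, κ i ^ 2 := by
  have h1 := rtr_mul_nonneg h.2.2 h.2.1
  have h2 : rtr ((dg κ - Q) * (dg κ + Q)) = fro2 (dg κ) - fro2 Q := by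
    rw [fro2_eq_tr, fro2_eq_tr, dg_herm, h.1.eq]
    unfold rtr
    rw [sub_mul, mul_add, mul_add, Matrix.trace_sub, Matrix.trace_add, Matrix.trace_add,
      Matrix.trace_mul_comm Q (dg κ)]
    simp only [Complex.sub_re, Complex.add_re]
    ring
  rw [h2, fro2_dg] at h1
  linarith

theorem btw_norm_le {N : ℕ} {κ : Fin N → ℝ} {Q : Mt N} (h : Btw κ Q) {M : ℝ} (hM : 0 ≤ M)
    (hs : ∑ i, κ i ^ 2 ≤ M ^ 2) : ‖Q‖ ≤ M := by
  have h1 := btw_fro2_le h
  rw [fro2_eq_norm] at h1
  exact abs_le_of_sq_le_sq' (by linarith) hM |>.2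

/-! ### block diagonalisation -/

theorem diagU {J : ℕ} (k : Fin J → ℝ) (q : Mt J) (hq : q.IsHermitian)
    (hc : dg k * q = q * dg k) :
    ∃ (U : Matrix.unitaryGroup (Fin J) ℂ) (b : Fin J → ℝ),
      (U : Mt J) * dg k = dg k * (U : Mt J) ∧ q = (U : Mt J) * dg b * (U : Mt J)ᴴ := by
  classical
  have hz : ∀ i j, k i ≠ k j → q i j = 0 := by
    intro i j hij
    have h1 := congrFun (congrFun hc i) j
    unfold dg at h1
    rw [Matrix.diagonal_mul, Matrix.mul_diagonal] at h1
    have h2 : (((k i : ℝ) : ℂ) - ((k j : ℝ) : ℂ)) * q i j = 0 := by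
      rw [sub_mul, h1]; ring
    rcases mul_eq_zero.1 h2 with h3 | h3
    · exfalso
      apply hij
      have := sub_eq_zero.1 h3
      exact_mod_cast this
    · exact h3
  have hB : ∀ c : ℝ, (q.submatrix (fun i : {i : Fin J // k i = c} => (i : Fin J))
      (fun i : {i : Fin J // k i = c} => (i : Fin J))).IsHermitian := fun c => hq.submatrix _
  choose W e hW1 hW2 hW3 using fun c : ℝ => spec_gen _ (hB c)
  let U : Mt J := fun i j => if h : k i = k j then W (k j) ⟨i, h⟩ ⟨j, rfl⟩ else 0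
  let b : Fin J → ℝ := fun j => e (k j) ⟨j, rfl⟩
  have hUz : ∀ i j, k i ≠ k j → U i j = 0 := fun i j h => dif_neg h
  have hUe : ∀ i j (h : k i = k j), U i j = W (k j) ⟨i, h⟩ ⟨j, rfl⟩ := fun i j h => dif_pos h
  have hsum : ∀ (c : ℝ) (f : Fin J → ℂ), (∀ i, k i ≠ c → f i = 0) →
      ∑ i, f i = ∑ i : {i : Fin J // k i = c}, f i := by
    intro c f hf
    rw [← Fintype.sum_subtype_add_sum_subtype (fun i => k i = c) f]
    rw [Finset.sum_eq_zero (s := (Finset.univ : Finset {i : Fin J // ¬ k i = c}))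
      (fun i _ => hf i i.2), add_zero]
  have hUU : Uᴴ * U = 1 := by
    ext j j'
    rw [Matrix.mul_apply]
    have h1 : ∀ i, k i ≠ k j' → Uᴴ j i * U i j' = 0 := fun i hi => by rw [hUz i j' hi, mul_zero]
    rw [hsum (k j') _ h1]
    by_cases hjj : k j = k j'
    · have h2 : ∀ i : {i : Fin J // k i = k j'}, Uᴴ j i * U i j' =
          (W (k j'))ᴴ ⟨j, hjj⟩ i * W (k j') i ⟨j', rfl⟩ := by
        intro i
        rw [Matrix.conjTranspose_apply, Matrix.conjTranspose_apply, hUe i j' i.2,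
          hUe i j (i.2.trans hjj.symm)]
        have h3 : ∀ (c : ℝ) (hc : k j = c) (x : {i : Fin J // k i = c}),
            W (k j) ⟨x, x.2.trans hc.symm⟩ ⟨j, rfl⟩ = W c x ⟨j, hc⟩ := by
          intro c hc x; subst hc; rfl
        rw [h3 (k j') hjj i]
      rw [Finset.sum_congr rfl fun i _ => h2 i, ← Matrix.mul_apply, hW1]
      by_cases hj : j = j'
      · subst hj; simp
      · rw [Matrix.one_apply_ne hj, Matrix.one_apply_ne]
        intro h; exact hj (congrArg Subtype.val h)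
    · have h2 : ∀ i : {i : Fin J // k i = k j'}, Uᴴ j i * U i j' = 0 := by
        intro i
        rw [Matrix.conjTranspose_apply, hUz i j (fun h => hjj (h.symm.trans i.2)), star_zero,
          zero_mul]
      rw [Finset.sum_eq_zero fun i _ => h2 i, Matrix.one_apply_ne]
      intro h; exact hjj (congrArg k h)
  have hUmem : U ∈ Matrix.unitaryGroup (Fin J) ℂ := by
    rw [Matrix.mem_unitaryGroup_iff', Matrix.star_eq_conjTranspose]; exact hUU
  have hUU' : U * Uᴴ = 1 := by
    have := (Matrix.mem_unitaryGroup_iff).1 hUmem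
    rwa [Matrix.star_eq_conjTranspose] at this
  have hqU : q * U = U * dg b := by
    ext i j
    unfold dg
    rw [Matrix.mul_apply, Matrix.mul_diagonal]
    have h1 : ∀ l, k l ≠ k j → q i l * U l j = 0 := fun l hl => by rw [hUz l j hl, mul_zero]
    rw [hsum (k j) _ h1]
    by_cases hij : k i = k j
    · have h2 : ∀ l : {i : Fin J // k i = k j}, q i l * U l j =
          (q.submatrix (fun i : {i : Fin J // k i = k j} => (i : Fin J))
            (fun i : {i : Fin J // k i = k j} => (i : Fin J))) ⟨i, hij⟩ l *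
            W (k j) l ⟨j, rfl⟩ := by
        intro l
        rw [hUe l j l.2]; rfl
      rw [Finset.sum_congr rfl fun l _ => h2 l, ← Matrix.mul_apply, hUe i j hij]
      have h3 : (q.submatrix (fun i : {i : Fin J // k i = k j} => (i : Fin J))
            (fun i : {i : Fin J // k i = k j} => (i : Fin J))) * W (k j) =
            W (k j) * Matrix.diagonal (fun i => ((e (k j) i : ℝ) : ℂ)) := by
        rw [hW3 (k j), Matrix.mul_assoc, hW1, Matrix.mul_one]
      rw [h3, Matrix.mul_diagonal]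
    · rw [hUz i j hij, zero_mul]
      refine Finset.sum_eq_zero fun l _ => ?_
      rw [hz i l (fun h => hij (h.trans l.2)), zero_mul]
  refine ⟨⟨U, hUmem⟩, b, ?_, ?_⟩
  · show U * dg k = dg k * U
    ext i j
    unfold dg
    rw [Matrix.mul_diagonal, Matrix.diagonal_mul]
    by_cases hij : k i = k j
    · rw [hij, mul_comm]
    · rw [hUz i j hij]; ring
  · show q = U * dg b * Uᴴ
    rw [← hqU, Matrix.mul_assoc, hUU', Matrix.mul_one]


theorem btw_diag {J : ℕ} {k b : Fin J → ℝ} (U : Matrix.unitaryGroup (Fin J) ℂ)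
    (hU : (U : Mt J) * dg k = dg k * (U : Mt J))
    (h : Btw k ((U : Mt J) * dg b * (U : Mt J)ᴴ)) (i : Fin J) : -(k i) ≤ b i ∧ b i ≤ k i := by
  have h1 : (U : Mt J)ᴴ * (U : Mt J) = 1 := by
    have := Matrix.UnitaryGroup.star_mul_self U
    rwa [Matrix.star_eq_conjTranspose] at this
  have hk : (U : Mt J)ᴴ * dg k * (U : Mt J) = dg k := by
    rw [Matrix.mul_assoc, ← hU, ← Matrix.mul_assoc, h1, Matrix.one_mul]
  have hb : (U : Mt J)ᴴ * ((U : Mt J) * dg b * (U : Mt J)ᴴ) * (U : Mt J) = dg b := by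
    calc _ = ((U : Mt J)ᴴ * (U : Mt J)) * dg b * ((U : Mt J)ᴴ * (U : Mt J)) := by
          simp only [Matrix.mul_assoc]
      _ = dg b := by rw [h1]; simp
  have h2 : (dg k + dg b).PosSemidef := by
    have := h.2.1.conjTranspose_mul_mul_same (U : Mt J)
    rwa [Matrix.mul_add, Matrix.add_mul, hk, hb] at this
  have h3 : (dg k - dg b).PosSemidef := by
    have := h.2.2.conjTranspose_mul_mul_same (U : Mt J)
    rwa [Matrix.mul_sub, Matrix.sub_mul, hk, hb] at this
  have h4 := h2.diag_nonneg (i := i)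
  have h5 := h3.diag_nonneg (i := i)
  unfold dg at h4 h5
  rw [Matrix.add_apply, Matrix.diagonal_apply_eq, Matrix.diagonal_apply_eq] at h4
  rw [Matrix.sub_apply, Matrix.diagonal_apply_eq, Matrix.diagonal_apply_eq] at h5
  have h6 : (0 : ℝ) ≤ k i + b i := by exact_mod_cast h4
  have h7 : (0 : ℝ) ≤ k i - b i := by exact_mod_cast h5
  constructor <;> linarith

theorem hasDerivAt_tanh (x : ℝ) : HasDerivAt Real.tanh (1 - Real.tanh x ^ 2) x := by
  have h1 : HasDerivAt (fun y => Real.sinh y / Real.cosh y)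
      ((Real.cosh x * Real.cosh x - Real.sinh x * Real.sinh x) / Real.cosh x ^ 2) x :=
    (Real.hasDerivAt_sinh x).div (Real.hasDerivAt_cosh x) (Real.cosh_pos x).ne'
  have h2 : (fun y => Real.sinh y / Real.cosh y) = Real.tanh := by
    funext y; rw [Real.tanh_eq_sinh_div_cosh]
  rw [h2] at h1
  convert h1 using 1
  rw [Real.tanh_eq_sinh_div_cosh]
  have := (Real.cosh_pos x).ne'
  field_simp

theorem scalar (r k b x0 : ℝ) (hr : 0 < r) (hk : 0 < k) (h1 : -k ≤ b) (h2 : b ≤ k) :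
    ∃ θ : ℝ → ℝ, (∀ x, HasDerivAt θ (r * (k ^ 2 - θ x ^ 2)) x) ∧ θ x0 = b ∧
      (∀ x, θ x ^ 2 ≤ k ^ 2) ∧
      ((∃ c, ∀ x, θ x = k * Real.tanh (r * k * (x - c))) ∨ (∀ x, θ x = k) ∨
        (∀ x, θ x = -k)) := by
  rcases eq_or_lt_of_le h1 with h | h1
  · refine ⟨fun _ => -k, fun x => ?_, h, fun x => by simp, Or.inr (Or.inr fun _ => rfl)⟩
    have h3 : r * (k ^ 2 - (-k) ^ 2) = 0 := by ring
    show HasDerivAt (fun _ => -k) (r * (k ^ 2 - (-k) ^ 2)) x
    rw [h3]
    exact hasDerivAt_const x (-k)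
  rcases eq_or_lt_of_le h2 with h | h2
  · refine ⟨fun _ => k, fun x => ?_, h.symm, fun x => le_rfl, Or.inr (Or.inl fun _ => rfl)⟩
    have h3 : r * (k ^ 2 - k ^ 2) = 0 := by ring
    show HasDerivAt (fun _ => k) (r * (k ^ 2 - k ^ 2)) x
    rw [h3]
    exact hasDerivAt_const x k
  have hmem : b / k ∈ Set.Ioo (-1 : ℝ) 1 := by
    constructor
    · rw [lt_div_iff₀ hk]; linarith
    · rw [div_lt_iff₀ hk]; linarith
  set c := x0 - Real.artanh (b / k) / (r * k) with hc
  refine ⟨fun x => k * Real.tanh (r * k * (x - c)), fun x => ?_, ?_, fun x => ?_,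
    Or.inl ⟨c, fun _ => rfl⟩⟩
  · have h3 : HasDerivAt (fun x => r * k * (x - c)) (r * k) x := by
      have := ((hasDerivAt_id x).sub_const c).const_mul (r * k)
      simpa using this
    have h4 := ((hasDerivAt_tanh (r * k * (x - c))).comp x h3).const_mul k
    have h5 : r * (k ^ 2 - (k * Real.tanh (r * k * (x - c))) ^ 2) =
        k * ((1 - Real.tanh (r * k * (x - c)) ^ 2) * (r * k)) := by ring
    show HasDerivAt (fun x => k * Real.tanh (r * k * (x - c)))
      (r * (k ^ 2 - (k * Real.tanh (r * k * (x - c))) ^ 2)) x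
    rw [h5]
    exact h4
  · have h5 : r * k * (x0 - c) = Real.artanh (b / k) := by
      rw [hc]
      have : r * k ≠ 0 := (mul_pos hr hk).ne'
      field_simp
      ring
    simp only [h5, Real.tanh_artanh hmem]
    field_simp
  · have h6 := Real.neg_one_lt_tanh (r * k * (x - c))
    have h7 := Real.tanh_lt_one (r * k * (x - c))
    have h8 : Real.tanh (r * k * (x - c)) ^ 2 ≤ 1 := by nlinarith
    simp only [mul_pow]
    nlinarith [sq_nonneg k]

/-! ### Gronwall with an `L¹` error -/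

section gron
variable {E : Type*} [NormedAddCommGroup E] [NormedSpace ℝ E] [CompleteSpace E]

theorem gron {D G e : ℝ → E} {C δ x1 x2 : ℝ} (h12 : x1 ≤ x2) (hC : 0 < C) (hδ : 0 ≤ δ)
    (hD : ∀ x, HasDerivAt D (G x + e x) x) (he : Continuous e)
    (hG : ∀ x ∈ Set.Icc x1 x2, ‖G x‖ ≤ C * ‖D x‖ + δ) (h0 : ‖D x1‖ ≤ δ)
    (hint : ∫ x in x1..x2, ‖e x‖ ≤ δ) :
    ‖D x2‖ ≤ δ * (Real.exp (C * (x2 - x1)) + (C + 1) / C * (Real.exp (C * (x2 - x1)) - 1) + 1) := by
  set I : ℝ → E := fun x => ∫ y in x1..x, e y with hI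
  have hI' : ∀ x, HasDerivAt I (e x) x := fun x =>
    intervalIntegral.integral_hasDerivAt_right (he.intervalIntegrable _ _)
      he.aestronglyMeasurable.stronglyMeasurableAtFilter he.continuousAt
  have hIn : ∀ x ∈ Set.Icc x1 x2, ‖I x‖ ≤ δ := by
    intro x hx
    calc ‖I x‖ ≤ ∫ y in x1..x, ‖e y‖ := intervalIntegral.norm_integral_le_integral_norm hx.1
      _ ≤ ∫ y in x1..x2, ‖e y‖ := by
          rw [← intervalIntegral.integral_add_adjacent_intervals (a := x1) (b := x) (c := x2)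
            (he.norm.intervalIntegrable _ _) (he.norm.intervalIntegrable _ _)]
          have : 0 ≤ ∫ y in x..x2, ‖e y‖ :=
            intervalIntegral.integral_nonneg hx.2 fun _ _ => norm_nonneg _
          linarith
      _ ≤ δ := hint
  have hF : ∀ x, HasDerivAt (fun x => D x - I x) (G x) x := by
    intro x
    have := (hD x).fun_sub (hI' x)
    rwa [add_sub_cancel_right] at this
  have hcont : ContinuousOn (fun x => D x - I x) (Set.Icc x1 x2) := fun x _ =>
    (hF x).continuousAt.continuousWithinAt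
  have hI0 : I x1 = 0 := by simp [hI]
  have key := norm_le_gronwallBound_of_norm_deriv_right_le (f := fun x => D x - I x) (f' := G)
    (δ := δ) (K := C) (ε := (C + 1) * δ) hcont (fun x _ => (hF x).hasDerivWithinAt)
    (by simpa [hI0] using h0) (fun x hx => by
      have hx' : x ∈ Set.Icc x1 x2 := Set.Ico_subset_Icc_self hx
      have h1 := hG x hx'
      have h2 := hIn x hx'
      have h3 : ‖D x‖ ≤ ‖D x - I x‖ + ‖I x‖ := by
        have := norm_add_le (D x - I x) (I x)
        rwa [sub_add_cancel] at this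
      nlinarith) x2 ⟨h12, le_rfl⟩
  have h4 : ‖D x2‖ ≤ ‖D x2 - I x2‖ + ‖I x2‖ := by
    have := norm_add_le (D x2 - I x2) (I x2)
    rwa [sub_add_cancel] at this
  have h5 := hIn x2 ⟨h12, le_rfl⟩
  have h6 : gronwallBound δ C ((C + 1) * δ) (x2 - x1) =
      δ * (Real.exp (C * (x2 - x1)) + (C + 1) / C * (Real.exp (C * (x2 - x1)) - 1)) := by
    unfold gronwallBound
    rw [if_neg hC.ne']
    ring
  rw [h6] at key
  linarith

end gron

/-! ### limits of PSD matrices -/

theorem psd_lim {N : ℕ} {A : ℕ → Mt N} {B : Mt N} (h : ∀ n, (A n).PosSemidef)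
    (hl : Tendsto A atTop (𝓝 B)) : B.PosSemidef := by
  have hH : B.IsHermitian := by
    have h1 : Tendsto (fun n => (A n)ᴴ) atTop (𝓝 Bᴴ) :=
      (continuous_id.matrix_conjTranspose.tendsto B).comp hl
    have h2 : (fun n => (A n)ᴴ) = A := by funext n; exact (h n).1.eq
    rw [h2] at h1
    exact tendsto_nhds_unique h1 hl
  refine Matrix.PosSemidef.of_dotProduct_mulVec_nonneg hH fun x => ?_
  have h1 : Tendsto (fun n => star x ⬝ᵥ (A n *ᵥ x)) atTop (𝓝 (star x ⬝ᵥ (B *ᵥ x))) := by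
    have : Continuous fun A : Mt N => star x ⬝ᵥ (A *ᵥ x) := by fun_prop
    exact (this.tendsto B).comp hl
  exact ge_of_tendsto h1 (Eventually.of_forall fun n => (h n).dotProduct_mulVec_nonneg x)

theorem dg_tendsto {N : ℕ} {κ : ℕ → Fin N → ℝ} {k : Fin N → ℝ}
    (h : ∀ i, Tendsto (fun n => κ n i) atTop (𝓝 (k i))) :
    Tendsto (fun n => dg (κ n)) atTop (𝓝 (dg k)) := by
  have h1 : Continuous fun κ : Fin N → ℝ => dg κ := by
    unfold dg
    fun_prop
  exact (h1.tendsto k).comp (tendsto_pi_nhds.2 h)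

theorem dg_hasDerivAt {N : ℕ} {θ θ' : Fin N → ℝ → ℝ} {x : ℝ}
    (h : ∀ i, HasDerivAt (θ i) (θ' i x) x) :
    HasDerivAt (fun x => dg fun i => θ i x) (dg fun i => θ' i x) x := by
  have h1 : ∀ f : Fin N → ℝ, dg f = ∑ i, f i • (Matrix.single i i (1 : ℂ) : Mt N) := by
    intro f
    ext a b
    rw [Matrix.sum_apply]
    simp only [Matrix.smul_apply, dg]
    by_cases hab : a = b
    · subst hab
      rw [Finset.sum_eq_single a]
      · simp
      · intro c _ hc
        rw [Matrix.single_apply, if_neg (by simp [hc]), smul_zero]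
      · simp
    · rw [Matrix.diagonal_apply_ne _ hab, Finset.sum_eq_zero]
      intro c _
      rw [Matrix.single_apply, if_neg, smul_zero]
      rintro ⟨h2, h3⟩
      exact hab (h2.symm.trans h3)
  have h2 : HasDerivAt (fun x => ∑ i, θ i x • (Matrix.single i i (1 : ℂ) : Mt N))
      (∑ i, θ' i x • (Matrix.single i i (1 : ℂ) : Mt N)) x :=
    HasDerivAt.fun_sum fun i _ => (h i).smul_const _
  have h3 : (fun x => dg fun i => θ i x) =
      fun x => ∑ i, θ i x • (Matrix.single i i (1 : ℂ) : Mt N) := by funext x; exact h1 _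
  rw [h3, h1]
  exact h2

section gron2
variable {E : Type*} [NormedAddCommGroup E] [NormedSpace ℝ E] [CompleteSpace E]

/-- two sided version, started at a point of `[0,1]` -/
theorem gron2 {D G e : ℝ → E} {C δ x0 x : ℝ} (hx0 : x0 ∈ Set.Icc (0 : ℝ) 1) (hC : 0 < C)
    (hδ : 0 ≤ δ)
    (hD : ∀ x, HasDerivAt D (G x + e x) x) (he : Continuous e)
    (hG : ∀ x, ‖G x‖ ≤ C * ‖D x‖ + δ) (h0 : ‖D x0‖ ≤ δ)
    (hint : ∫ y in (-(|x| + 1))..(|x| + 1), ‖e y‖ ≤ δ) :
    ‖D x‖ ≤ δ * (Real.exp (C * (|x| + 1)) + (C + 1) / C * (Real.exp (C * (|x| + 1)) - 1) + 1) := by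
  have hmono : ∀ d, d ≤ |x| + 1 →
      δ * (Real.exp (C * d) + (C + 1) / C * (Real.exp (C * d) - 1) + 1) ≤
      δ * (Real.exp (C * (|x| + 1)) + (C + 1) / C * (Real.exp (C * (|x| + 1)) - 1) + 1) := by
    intro d hd
    have h1 : Real.exp (C * d) ≤ Real.exp (C * (|x| + 1)) :=
      Real.exp_le_exp.2 (mul_le_mul_of_nonneg_left hd hC.le)
    refine mul_le_mul_of_nonneg_left ?_ hδ
    have h2 : 0 ≤ (C + 1) / C := by positivity
    nlinarith
  have hsub : ∀ a b, a ≤ b → -(|x| + 1) ≤ a → b ≤ |x| + 1 →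
      ∫ y in a..b, ‖e y‖ ≤ ∫ y in (-(|x| + 1))..(|x| + 1), ‖e y‖ := by
    intro a b hab ha hb
    refine intervalIntegral.integral_mono_interval ha hab hb ?_ (he.norm.intervalIntegrable _ _)
    exact Eventually.of_forall fun _ => norm_nonneg _
  have hxa := abs_nonneg x
  have hx1 := le_abs_self x
  have hx2 := neg_abs_le x
  rcases le_total x0 x with h | h
  · refine (gron (x1 := x0) (x2 := x) h hC hδ hD he (fun y _ => hG y) h0
      ((hsub x0 x h (by linarith [hx0.1]) (by linarith)).trans hint)).trans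
      (hmono _ (by linarith [hx0.1]))
  · have hD' : ∀ y, HasDerivAt (fun y => D (-y)) (-(G (-y)) + -(e (-y))) y := by
      intro y
      have h1 := (hD (-y)).scomp y (hasDerivAt_neg y)
      simp only [neg_smul, one_smul, neg_add] at h1
      exact h1
    have h1 := gron (D := fun y => D (-y)) (G := fun y => -(G (-y))) (e := fun y => -(e (-y)))
      (x1 := -x0) (x2 := -x) (by linarith) hC hδ hD'
      (he.comp continuous_neg).neg (fun y _ => by rw [norm_neg]; exact hG (-y))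
      (by simpa using h0)
      (by
        simp only [norm_neg]
        rw [intervalIntegral.integral_comp_neg (fun y => ‖e y‖), neg_neg, neg_neg]
        exact (hsub x x0 h (by linarith) (by linarith [hx0.2])).trans hint)
    rw [neg_neg] at h1
    exact h1.trans (hmono _ (by linarith [hx0.2]))

end gron2

theorem main (r : ℝ) (hr : 0 < r) (J : ℕ) (k : Fin J → ℝ) (hk : ∀ i, 0 < k i)
    (κ : ℕ → Fin J → ℝ) (q V : ℕ → ℝ → Mt J)
    (hκ : ∀ i, Tendsto (fun n => κ n i) atTop (𝓝 (k i)))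
    (hq : ∀ n x, HasDerivAt (q n) (V n x - dg (κ n) * dg (κ n) + q n x * q n x) x)
    (hV : ∀ n, Continuous (V n)) (hB : ∀ n x, Btw (κ n) (q n x))
    (hE : ∀ L : ℝ, 0 < L → Tendsto (fun n => ∫ x in (-L)..L, fro (V n x -
      ((r + 1 : ℝ) : ℂ) • (dg (κ n) * dg (κ n) - q n x * q n x))) atTop (𝓝 0))
    (hC : Tendsto (fun n => ∫ x in (0 : ℝ)..1, fro2 (dg (κ n) * q n x - q n x * dg (κ n)))
      atTop (𝓝 0))
    (hL : ∃ L ε : ℝ, 0 < L ∧ 0 < ε ∧ (∀ i, ε < k i) ∧
      ∀ᶠ n in atTop, fro (dg (κ n) - q n L) ≤ ε ∧ fro (dg (κ n) + q n (-L)) ≤ ε) :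
    ∃ (φ : ℕ → ℕ) (U : Matrix.unitaryGroup (Fin J) ℂ) (c : Fin J → ℝ), StrictMono φ ∧
      (U : Mt J) * dg k = dg k * (U : Mt J) ∧
      ∀ x, Tendsto (fun n => q (φ n) x) atTop
        (𝓝 ((U : Mt J) * dg (fun i => k i * Real.tanh (r * k i * (x - c i))) * (U : Mt J)ᴴ)) := by
  have hKt := dg_tendsto hκ
  have : FiniteDimensional ℝ (Mt J) := by infer_instance
  have : ProperSpace (Mt J) := FiniteDimensional.proper ℝ (Mt J)
  have : CompleteSpace (Mt J) := FiniteDimensional.complete ℝ (Mt J)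
  -- bound
  have hS : Tendsto (fun n => ∑ i, κ n i ^ 2) atTop (𝓝 (∑ i, k i ^ 2)) :=
    tendsto_finsetSum _ fun i _ => (hκ i).pow 2
  obtain ⟨S, hSb⟩ := hS.bddAbove_range
  have hSn : ∀ n, ∑ i, κ n i ^ 2 ≤ S := fun n => hSb ⟨n, rfl⟩
  have hS0 : 0 ≤ S := (Finset.sum_nonneg fun i _ => sq_nonneg (κ 0 i)).trans (hSn 0)
  have hSk : ∑ i, k i ^ 2 ≤ S := le_of_tendsto' hS hSn
  set M : ℝ := S + 1 with hMdef
  have hM : 0 < M := by linarith
  have hSM : S ≤ M ^ 2 := by nlinarith
  have hqM : ∀ n x, ‖q n x‖ ≤ M := fun n x =>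
    btw_norm_le (hB n x) hM.le ((hSn n).trans hSM)
  have hqc : ∀ n, Continuous (q n) := fun n =>
    continuous_iff_continuousAt.2 fun x => (hq n x).continuousAt
  -- base points
  have hfc : ∀ n, Continuous fun x => fro2 (dg (κ n) * q n x - q n x * dg (κ n)) := by
    intro n
    simp only [fro2_eq_norm]
    exact ((continuous_const.mul (hqc n)).sub ((hqc n).mul continuous_const)).norm.pow 2
  have hex : ∀ n, ∃ x ∈ Set.Icc (0 : ℝ) 1, fro2 (dg (κ n) * q n x - q n x * dg (κ n)) ≤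
      ∫ x in (0 : ℝ)..1, fro2 (dg (κ n) * q n x - q n x * dg (κ n)) := by
    intro n
    obtain ⟨x, hx, hmin⟩ := (isCompact_Icc (a := (0 : ℝ)) (b := 1)).exists_isMinOn
      ⟨0, by simp⟩ (hfc n).continuousOn
    refine ⟨x, hx, ?_⟩
    have h1 : ∫ _ in (0 : ℝ)..1, fro2 (dg (κ n) * q n x - q n x * dg (κ n)) ≤
        ∫ x in (0 : ℝ)..1, fro2 (dg (κ n) * q n x - q n x * dg (κ n)) :=
      intervalIntegral.integral_mono_on zero_le_one (by simp)
        ((hfc n).intervalIntegrable _ _) fun y hy => hmin hy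
    simpa using h1
  choose xn hxn hxv using hex
  obtain ⟨p0, hp0, φ, hφ, hφl⟩ := ((isCompact_Icc (a := (0 : ℝ)) (b := 1)).prod
    (isCompact_closedBall (0 : Mt J) M)).tendsto_subseq (x := fun n => (xn n, q n (xn n)))
    (fun n => ⟨hxn n, by simpa using hqM n (xn n)⟩)
  obtain ⟨x0, q0⟩ := p0
  have hx0l : Tendsto (fun n => xn (φ n)) atTop (𝓝 x0) := (Prod.tendsto_iff _ _).1 hφl |>.1
  have hq0l : Tendsto (fun n => q (φ n) (xn (φ n))) atTop (𝓝 q0) :=
    (Prod.tendsto_iff _ _).1 hφl |>.2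
  have hφt := hφ.tendsto_atTop
  have hKφ := hKt.comp hφt
  have hcomm : dg k * q0 = q0 * dg k := by
    have h1 : Tendsto (fun n => fro2 (dg (κ (φ n)) * q (φ n) (xn (φ n)) -
        q (φ n) (xn (φ n)) * dg (κ (φ n)))) atTop (𝓝 (fro2 (dg k * q0 - q0 * dg k))) := by
      simp only [fro2_eq_norm]
      exact (((hKφ.mul hq0l).sub (hq0l.mul hKφ)).norm).pow 2
    have h2 : Tendsto (fun n => fro2 (dg (κ (φ n)) * q (φ n) (xn (φ n)) -
        q (φ n) (xn (φ n)) * dg (κ (φ n)))) atTop (𝓝 0) :=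
      squeeze_zero (fun n => fro2_nonneg _) (fun n => hxv (φ n)) (hC.comp hφt)
    have h3 := tendsto_nhds_unique h1 h2
    rw [fro2_eq_norm] at h3
    have h4 : ‖dg k * q0 - q0 * dg k‖ = 0 := by
      exact pow_eq_zero_iff (two_ne_zero) |>.1 h3
    exact sub_eq_zero.1 (norm_eq_zero.1 h4)
  have hbtw0 : Btw k q0 := by
    refine ⟨?_, psd_lim (fun n => (hB (φ n) (xn (φ n))).2.1) (hKφ.add hq0l),
      psd_lim (fun n => (hB (φ n) (xn (φ n))).2.2) (hKφ.sub hq0l)⟩
    have h1 : Tendsto (fun n => (q (φ n) (xn (φ n)))ᴴ) atTop (𝓝 q0ᴴ) :=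
      (continuous_id.matrix_conjTranspose.tendsto q0).comp hq0l
    have h2 : (fun n => (q (φ n) (xn (φ n)))ᴴ) = fun n => q (φ n) (xn (φ n)) := by
      funext n; exact (hB (φ n) (xn (φ n))).1.eq
    rw [h2] at h1
    exact tendsto_nhds_unique h1 hq0l
  obtain ⟨U, b, hUk, hUb⟩ := diagU k q0 hbtw0.1 hcomm
  have hbb := fun i => btw_diag U hUk (hUb ▸ hbtw0) i
  choose θ hθ hθ0 hθk hθt using fun i => scalar r (k i) (b i) x0 hr (hk i) (hbb i).1 (hbb i).2
  have hUU : (U : Mt J)ᴴ * (U : Mt J) = 1 := by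
    have := Matrix.UnitaryGroup.star_mul_self U
    rwa [Matrix.star_eq_conjTranspose] at this
  have hUU' : (U : Mt J) * (U : Mt J)ᴴ = 1 := by
    have := (Matrix.mem_unitaryGroup_iff).1 U.2
    rwa [Matrix.star_eq_conjTranspose] at this
  set Θ : ℝ → Mt J := fun x => (U : Mt J) * dg (fun i => θ i x) * (U : Mt J)ᴴ with hΘ
  have hΘd : ∀ x, HasDerivAt Θ ((r : ℝ) • (dg k * dg k - Θ x * Θ x)) x := by
    intro x
    have h1 := ((dg_hasDerivAt (θ := θ) (θ' := fun i x => r * (k i ^ 2 - θ i x ^ 2))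
      (x := x) fun i => hθ i x).const_mul (U : Mt J)).mul_const ((U : Mt J)ᴴ)
    have h2 : (U : Mt J) * dg (fun i => r * (k i ^ 2 - θ i x ^ 2)) * (U : Mt J)ᴴ =
        (r : ℝ) • (dg k * dg k - Θ x * Θ x) := by
      have h3 : dg (fun i => r * (k i ^ 2 - θ i x ^ 2)) =
          (r : ℝ) • (dg k * dg k - dg (fun i => θ i x) * dg (fun i => θ i x)) := by
        unfold dg
        rw [Matrix.diagonal_mul_diagonal, Matrix.diagonal_mul_diagonal,
          Matrix.diagonal_sub, ← Matrix.diagonal_smul]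
        congr 1
        funext i
        simp only [Pi.smul_apply, Complex.real_smul]
        push_cast
        ring
      rw [h3, Matrix.mul_smul, Matrix.smul_mul, Matrix.mul_sub, Matrix.sub_mul]
      congr 2
      · rw [← Matrix.mul_assoc, hUk, Matrix.mul_assoc, Matrix.mul_assoc, ← Matrix.mul_assoc _ _ ((U : Mt J)ᴴ),
          hUk, Matrix.mul_assoc, hUU', Matrix.mul_one]
      · rw [hΘ]
        calc _ = (U : Mt J) * dg (fun i => θ i x) * 1 * dg (fun i => θ i x) * (U : Mt J)ᴴ := by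
              simp only [Matrix.mul_assoc, Matrix.one_mul]
          _ = _ := by rw [← hUU]; simp only [Matrix.mul_assoc]
    rw [h2] at h1
    exact h1
  have hΘM : ∀ x, ‖Θ x‖ ≤ M := by
    intro x
    rw [hΘ]
    simp only []
    rw [norm_conj]
    have h1 : fro2 (dg fun i => θ i x) ≤ M ^ 2 := by
      rw [fro2_dg]
      exact ((Finset.sum_le_sum fun i _ => hθk i x).trans hSk).trans hSM
    rw [fro2_eq_norm] at h1
    exact (abs_le_of_sq_le_sq' h1 hM.le).2
  have hΘ0 : Θ x0 = q0 := by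
    rw [hΘ, hUb]
    simp only [hθ0]
  have hΘc : Continuous Θ := continuous_iff_continuousAt.2 fun x => (hΘd x).continuousAt
  -- error
  set e : ℕ → ℝ → Mt J := fun n x => V n x -
      ((r + 1 : ℝ) : ℂ) • (dg (κ n) * dg (κ n) - q n x * q n x) with he
  have hec : ∀ n, Continuous (e n) := by
    intro n
    have h1 : Continuous fun x => dg (κ n) * dg (κ n) - q n x * q n x :=
      continuous_const.sub ((hqc n).mul (hqc n))
    have h2 : Continuous fun x => ((r + 1 : ℝ) : ℂ) • (dg (κ n) * dg (κ n) - q n x * q n x) :=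
      h1.const_smul ((r + 1 : ℝ) : ℂ)
    exact (hV n).sub h2
  set δ : ℕ → ℝ → ℝ := fun n x => ‖q n (xn n) - Θ (xn n)‖ +
    r * ‖dg (κ n) * dg (κ n) - dg k * dg k‖ +
      ∫ y in (-(|x| + 1))..(|x| + 1), ‖e n y‖ with hδdef
  have hint0 : ∀ n x, 0 ≤ ∫ y in (-(|x| + 1))..(|x| + 1), ‖e n y‖ := by
    intro n x
    refine intervalIntegral.integral_nonneg ?_ fun _ _ => norm_nonneg _
    have := abs_nonneg x
    linarith
  have hδ0 : ∀ n x, 0 ≤ δ n x := by
    intro n x
    have := hint0 n x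
    simp only [hδdef]
    positivity
  have hkey : ∀ n x, ‖q n x - Θ x‖ ≤ δ n x *
      (Real.exp ((2 * r * M) * (|x| + 1)) + ((2 * r * M) + 1) / (2 * r * M) *
        (Real.exp ((2 * r * M) * (|x| + 1)) - 1) + 1) := by
    intro n x
    have h1 := norm_nonneg (q n (xn n) - Θ (xn n))
    have h2 := norm_nonneg (dg (κ n) * dg (κ n) - dg k * dg k)
    have h3 := hint0 n x
    refine gron2 (D := fun x => q n x - Θ x) (G := fun x =>
      (r : ℝ) • (dg (κ n) * dg (κ n) - dg k * dg k) -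
        (r : ℝ) • (q n x * (q n x - Θ x) + (q n x - Θ x) * Θ x)) (e := e n) (hxn n)
      (by positivity) (hδ0 n x) ?_ (hec n) ?_ ?_ ?_
    · intro y
      have h4 := (hq n y).fun_sub (hΘd y)
      have h5 : (V n y - dg (κ n) * dg (κ n) + q n y * q n y -
          (r : ℝ) • (dg k * dg k - Θ y * Θ y)) =
          (r : ℝ) • (dg (κ n) * dg (κ n) - dg k * dg k) -
          (r : ℝ) • (q n y * (q n y - Θ y) + (q n y - Θ y) * Θ y) + e n y := by
        simp only [he]
        have h6 : ((r + 1 : ℝ) : ℂ) • (dg (κ n) * dg (κ n) - q n y * q n y) =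
            (r : ℝ) • (dg (κ n) * dg (κ n) - q n y * q n y) +
              (dg (κ n) * dg (κ n) - q n y * q n y) := by
          have : ((r + 1 : ℝ) : ℂ) • (dg (κ n) * dg (κ n) - q n y * q n y) =
              (r + 1 : ℝ) • (dg (κ n) * dg (κ n) - q n y * q n y) := by
            ext a b
            simp only [Matrix.smul_apply, smul_eq_mul, Complex.real_smul]
          rw [this, add_smul, one_smul]
        rw [h6, mul_sub, sub_mul]
        simp only [smul_sub, smul_add]
        abel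
      rw [h5] at h4
      exact h4
    · intro y
      calc _ ≤ ‖(r : ℝ) • (dg (κ n) * dg (κ n) - dg k * dg k)‖ +
            ‖(r : ℝ) • (q n y * (q n y - Θ y) + (q n y - Θ y) * Θ y)‖ := norm_sub_le _ _
        _ ≤ r * ‖dg (κ n) * dg (κ n) - dg k * dg k‖ +
            r * (M * ‖q n y - Θ y‖ + ‖q n y - Θ y‖ * M) := by
          rw [norm_smul, norm_smul, Real.norm_of_nonneg hr.le]
          have h7 : ‖q n y * (q n y - Θ y) + (q n y - Θ y) * Θ y‖ ≤
              M * ‖q n y - Θ y‖ + ‖q n y - Θ y‖ * M := by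
            refine (norm_add_le _ _).trans (add_le_add ?_ ?_)
            · exact (norm_mul_le _ _).trans
                (mul_le_mul_of_nonneg_right (hqM n y) (norm_nonneg _))
            · exact (norm_mul_le _ _).trans
                (mul_le_mul_of_nonneg_left (hΘM y) (norm_nonneg _))
          exact add_le_add le_rfl (mul_le_mul_of_nonneg_left h7 hr.le)
        _ ≤ _ := by
          simp only [hδdef]
          nlinarith
    · simp only [hδdef]
      nlinarith
    · simp only [hδdef]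
      nlinarith
  have hδl : ∀ x, Tendsto (fun n => δ (φ n) x) atTop (𝓝 0) := by
    intro x
    have h1 : Tendsto (fun n => ‖q (φ n) (xn (φ n)) - Θ (xn (φ n))‖) atTop (𝓝 0) := by
      have := (hq0l.sub ((hΘc.tendsto x0).comp hx0l)).norm
      rw [hΘ0, sub_self, norm_zero] at this
      exact this
    have h2 : Tendsto (fun n => r * ‖dg (κ (φ n)) * dg (κ (φ n)) - dg k * dg k‖) atTop
        (𝓝 0) := by
      have := ((hKφ.mul hKφ).sub (tendsto_const_nhds (x := dg k * dg k))).norm.const_mul r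
      rw [sub_self, norm_zero, mul_zero] at this
      exact this
    have h3 : Tendsto (fun n => ∫ y in (-(|x| + 1))..(|x| + 1), ‖e (φ n) y‖) atTop (𝓝 0) := by
      have := (hE (|x| + 1) (by positivity)).comp hφt
      simp only [norm_eq_fro]
      exact this
    have := (h1.add h2).add h3
    rw [add_zero, add_zero] at this
    exact this
  have hlim : ∀ x, Tendsto (fun n => q (φ n) x) atTop (𝓝 (Θ x)) := by
    intro x
    refine tendsto_iff_norm_sub_tendsto_zero.2 ?_
    refine squeeze_zero (fun n => norm_nonneg _) (fun n => hkey (φ n) x) ?_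
    have := (hδl x).mul_const (Real.exp ((2 * r * M) * (|x| + 1)) +
      ((2 * r * M) + 1) / (2 * r * M) * (Real.exp ((2 * r * M) * (|x| + 1)) - 1) + 1)
    rwa [zero_mul] at this
  -- non stationarity
  obtain ⟨L, ε, hL0, hε, hεk, hev⟩ := hL
  have hkU : dg k = (U : Mt J) * dg k * (U : Mt J)ᴴ := by
    rw [hUk, Matrix.mul_assoc, hUU', Matrix.mul_one]
  have hdiff : ∀ f : Fin J → ℝ, ∀ i, |f i| ≤ ‖(U : Mt J) * dg f * (U : Mt J)ᴴ‖ := by
    intro f i
    rw [norm_conj]
    have := norm_entry_le (dg f) i i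
    unfold dg at this ⊢
    rw [Matrix.diagonal_apply_eq, Complex.norm_real, Real.norm_eq_abs] at this
    exact this
  have hp : ‖dg k - Θ L‖ ≤ ε := by
    have h1 := (hKφ.sub (hlim L)).norm
    refine le_of_tendsto h1 ?_
    filter_upwards [hφt.eventually hev] with n hn
    rw [Function.comp_apply, norm_eq_fro]
    exact hn.1
  have hm : ‖dg k + Θ (-L)‖ ≤ ε := by
    have h1 := (hKφ.add (hlim (-L))).norm
    refine le_of_tendsto h1 ?_
    filter_upwards [hφt.eventually hev] with n hn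
    rw [Function.comp_apply, norm_eq_fro]
    exact hn.2
  have hc : ∀ i, ∃ c, ∀ x, θ i x = k i * Real.tanh (r * k i * (x - c)) := by
    intro i
    rcases hθt i with h | h | h
    · exact h
    · exfalso
      have h1 : dg k + Θ (-L) = (U : Mt J) * dg (fun j => k j + θ j (-L)) * (U : Mt J)ᴴ := by
        have h2 : dg (fun j => k j + θ j (-L)) = dg k + dg (fun j => θ j (-L)) := by
          unfold dg
          rw [Matrix.diagonal_add]
          congr 1
          funext j
          push_cast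
          rfl
        rw [h2, Matrix.mul_add, Matrix.add_mul, ← hkU]
      rw [h1] at hm
      have h3 := (hdiff (fun j => k j + θ j (-L)) i).trans hm
      simp only [h] at h3
      have h4 := le_abs_self (k i + k i)
      have h5 := hεk i
      have h6 := hk i
      linarith
    · exfalso
      have h1 : dg k - Θ L = (U : Mt J) * dg (fun j => k j - θ j L) * (U : Mt J)ᴴ := by
        have h2 : dg (fun j => k j - θ j L) = dg k - dg (fun j => θ j L) := by
          unfold dg
          rw [Matrix.diagonal_sub]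
          congr 1
          funext j
          push_cast
          rfl
        rw [h2, Matrix.mul_sub, Matrix.sub_mul, ← hkU]
      rw [h1] at hp
      have h3 := (hdiff (fun j => k j - θ j L) i).trans hp
      simp only [h] at h3
      have h4 := le_abs_self (k i - -k i)
      have h5 := hεk i
      have h6 := hk i
      linarith
  choose c hcc using hc
  refine ⟨φ, U, c, hφ, hUk, fun x => ?_⟩
  have h1 := hlim x
  simp only [hΘ, hcc] at h1
  exact h1

end QL

theorem qlim : QLIM := by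
  intro r hr J k hk κ q V hκ hq hV hB hE hC hL
  exact QL.main r hr J k hk κ q V hκ hq hV hB hE hC hL

end Crest.Agent.R332
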