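import Crest.Agent.R332.Defs
import Crest.Agent.R332.QLIM

set_option autoImplicit false

open MeasureTheory Matrix Filter Topology
open scoped ComplexOrder Matrix.Norms.Frobenius

namespace Crest.Agent.R332
namespace XL

open QL

section gron3
variable {E : Type*} [NormedAddCommGroup E] [NormedSpace ℝ E] [CompleteSpace E]

/-- two sided Gronwall on `[-L, L]` -/
theorem gron3 {D G e : ℝ → E} {C δ x0 x L : ℝ} (hx0 : |x0| ≤ L) (hx : |x| ≤ L) (hC : 0 < C)
    (hδ : 0 ≤ δ)
    (hD : ∀ x, HasDerivAt D (G x + e x) x) (he : Continuous e)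
    (hG : ∀ x, ‖G x‖ ≤ C * ‖D x‖ + δ) (h0 : ‖D x0‖ ≤ δ)
    (hint : ∫ y in (-L)..L, ‖e y‖ ≤ δ) :
    ‖D x‖ ≤ δ * (Real.exp (C * (2 * L)) + (C + 1) / C * (Real.exp (C * (2 * L)) - 1) + 1) := by
  have hmono : ∀ d, d ≤ 2 * L →
      δ * (Real.exp (C * d) + (C + 1) / C * (Real.exp (C * d) - 1) + 1) ≤
      δ * (Real.exp (C * (2 * L)) + (C + 1) / C * (Real.exp (C * (2 * L)) - 1) + 1) := by
    intro d hd
    have h1 : Real.exp (C * d) ≤ Real.exp (C * (2 * L)) :=
      Real.exp_le_exp.2 (mul_le_mul_of_nonneg_left hd hC.le)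
    refine mul_le_mul_of_nonneg_left ?_ hδ
    have h2 : 0 ≤ (C + 1) / C := by positivity
    nlinarith
  have hsub : ∀ a b, a ≤ b → -L ≤ a → b ≤ L →
      ∫ y in a..b, ‖e y‖ ≤ ∫ y in (-L)..L, ‖e y‖ := by
    intro a b hab ha hb
    refine intervalIntegral.integral_mono_interval ha hab hb ?_ (he.norm.intervalIntegrable _ _)
    exact Eventually.of_forall fun _ => norm_nonneg _
  obtain ⟨ha1, ha2⟩ := abs_le.1 hx0
  obtain ⟨hb1, hb2⟩ := abs_le.1 hx
  rcases le_total x0 x with h | h
  · refine (gron (x1 := x0) (x2 := x) h hC hδ hD he (fun y _ => hG y) h0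
      ((hsub x0 x h (by linarith) (by linarith)).trans hint)).trans
      (hmono _ (by linarith))
  · have hD' : ∀ y, HasDerivAt (fun y => D (-y)) (-(G (-y)) + -(e (-y))) y := by
      intro y
      have h1 := (hD (-y)).scomp y (hasDerivAt_neg y)
      simp only [neg_smul, one_smul, neg_add] at h1
      exact h1
    have h1 := gron (D := fun y => D (-y)) (G := fun y => -(G (-y))) (e := fun y => -(e (-y)))
      (x1 := -x0) (x2 := -x) (by linarith) hC hδ hD'
      (he.comp continuous_neg).neg (fun y _ => by rw [norm_neg]; exact hG (-y))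
      (by simpa using h0)
      (by
        simp only [norm_neg]
        rw [intervalIntegral.integral_comp_neg (fun y => ‖e y‖), neg_neg, neg_neg]
        exact (hsub x x0 h (by linarith) (by linarith)).trans hint)
    rw [neg_neg] at h1
    exact h1.trans (hmono _ (by linarith))

end gron3

theorem dg_eq_sum {N : ℕ} (f : Fin N → ℝ) :
    dg f = ∑ i, f i • (Matrix.single i i (1 : ℂ) : Mt N) := by
  ext a b
  rw [Matrix.sum_apply]
  simp only [Matrix.smul_apply, dg]
  by_cases hab : a = b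
  · subst hab
    rw [Finset.sum_eq_single a]
    · simp
    · intro c _ hc
      rw [Matrix.single_apply, if_neg (by simp [hc]), smul_zero]
    · simp
  · rw [Matrix.diagonal_apply_ne _ hab, Finset.sum_eq_zero]
    intro c _
    rw [Matrix.single_apply, if_neg, smul_zero]
    rintro ⟨h2, h3⟩
    exact hab (h2.symm.trans h3)

theorem sand_eq {m N : ℕ} (ξ : Rc m N) (B : Mt N) (f : Fin N → ℝ) :
    ξ * dg f * B = ∑ i, f i • (ξ * (Matrix.single i i (1 : ℂ) : Mt N) * B) := by
  rw [dg_eq_sum, Matrix.mul_sum, Matrix.sum_mul]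
  refine Finset.sum_congr rfl fun i _ => ?_
  rw [Matrix.mul_smul, Matrix.smul_mul]

theorem sand_hasDerivAt {m N : ℕ} (ξ : Rc m N) (B : Mt N) {θ θ' : Fin N → ℝ → ℝ} {x : ℝ}
    (h : ∀ i, HasDerivAt (θ i) (θ' i x) x) :
    HasDerivAt (fun x => ξ * dg (fun i => θ i x) * B) (ξ * dg (fun i => θ' i x) * B) x := by
  have h2 : HasDerivAt (fun x => ∑ i, θ i x • (ξ * (Matrix.single i i (1 : ℂ) : Mt N) * B))
      (∑ i, θ' i x • (ξ * (Matrix.single i i (1 : ℂ) : Mt N) * B)) x :=
    HasDerivAt.fun_sum fun i _ => (h i).smul_const _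
  have h3 : (fun x => ξ * dg (fun i => θ i x) * B) =
      fun x => ∑ i, θ i x • (ξ * (Matrix.single i i (1 : ℂ) : Mt N) * B) := by
    funext x; exact sand_eq _ _ _
  rw [h3, sand_eq]
  exact h2

theorem scal (s k c y : ℝ) (hs : 0 < s) :
    HasDerivAt (fun y => Real.cosh (s⁻¹ * k * (y - c)) ^ (-s))
      (-(k * Real.tanh (s⁻¹ * k * (y - c))) * Real.cosh (s⁻¹ * k * (y - c)) ^ (-s)) y := by
  have h3 : HasDerivAt (fun x => s⁻¹ * k * (x - c)) (s⁻¹ * k) y := by
    have := ((hasDerivAt_id y).sub_const c).const_mul (s⁻¹ * k)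
    simpa using this
  have h4 : HasDerivAt (fun y => Real.cosh (s⁻¹ * k * (y - c)))
      (Real.sinh (s⁻¹ * k * (y - c)) * (s⁻¹ * k)) y :=
    (Real.hasDerivAt_cosh _).comp y h3
  have hp := Real.cosh_pos (s⁻¹ * k * (y - c))
  have h5 := h4.rpow_const (p := -s) (Or.inl hp.ne')
  have h6 : Real.sinh (s⁻¹ * k * (y - c)) * (s⁻¹ * k) * (-s) *
      Real.cosh (s⁻¹ * k * (y - c)) ^ (-s - 1) =
      -(k * Real.tanh (s⁻¹ * k * (y - c))) * Real.cosh (s⁻¹ * k * (y - c)) ^ (-s) := by
    rw [Real.rpow_sub_one hp.ne', Real.tanh_eq_sinh_div_cosh]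
    field_simp
  rw [h6] at h5
  exact h5

theorem main (s : ℝ) (hs : 0 < s) (m J : ℕ) (k : Fin J → ℝ)
    (U : Matrix.unitaryGroup (Fin J) ℂ) (c : Fin J → ℝ) (q : ℕ → ℝ → Mt J)
    (x x' : ℕ → ℝ → Rc m J)
    (hx : ∀ n y, HasDerivAt (x n) (x' n y) y) (hx' : ∀ n, Continuous (x' n))
    (hqc : ∀ n, Continuous (q n)) (hqB : ∃ B : ℝ, ∀ n y, fro (q n y) ≤ B)
    (hql : ∀ y, Tendsto (fun n => q n y) atTop
        (𝓝 ((U : Mt J) * dg (fun i => k i * Real.tanh (s⁻¹ * k i * (y - c i))) *
          (U : Mt J)ᴴ)))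
    (hE : ∀ L : ℝ, 0 < L → Tendsto (fun n => ∫ y in (-L)..L, fro (x' n y + x n y * q n y))
      atTop (𝓝 0))
    (hb : ∃ x0 B : ℝ, ∀ n, fro (x n x0) ≤ B) :
    ∃ (φ : ℕ → ℕ) (ξ : Rc m J), StrictMono φ ∧
      ∀ y, Tendsto (fun n => x (φ n) y) atTop
        (𝓝 (ξ * dg (fun i => Real.cosh (s⁻¹ * k i * (y - c i)) ^ (-s)) * (U : Mt J)ᴴ)) := by
  have : FiniteDimensional ℝ (Mt J) := by infer_instance
  have : FiniteDimensional ℝ (Rc m J) := by infer_instance
  have : ProperSpace (Rc m J) := FiniteDimensional.proper ℝ (Rc m J)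
  have : CompleteSpace (Rc m J) := FiniteDimensional.complete ℝ (Rc m J)
  have : CompleteSpace (Mt J) := FiniteDimensional.complete ℝ (Mt J)
  obtain ⟨B0, hqB0⟩ := hqB
  obtain ⟨x0, Bx, hbx⟩ := hb
  set B : ℝ := |B0| + 1 with hBdef
  have hB : 0 < B := by positivity
  have hqB : ∀ n y, ‖q n y‖ ≤ B := by
    intro n y
    rw [norm_eq_fro]
    exact (hqB0 n y).trans ((le_abs_self _).trans (by linarith))
  have hUU : (U : Mt J)ᴴ * (U : Mt J) = 1 := by
    have := Matrix.UnitaryGroup.star_mul_self U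
    rwa [Matrix.star_eq_conjTranspose] at this
  have hUU' : (U : Mt J) * (U : Mt J)ᴴ = 1 := by
    have := (Matrix.mem_unitaryGroup_iff).1 U.2
    rwa [Matrix.star_eq_conjTranspose] at this
  set Q : ℝ → Mt J := fun y => (U : Mt J) *
    dg (fun i => k i * Real.tanh (s⁻¹ * k i * (y - c i))) * (U : Mt J)ᴴ with hQ
  have hQc : Continuous Q := by
    refine continuous_iff_continuousAt.2 fun y => ?_
    have h1 : ∀ i, HasDerivAt (fun y => k i * Real.tanh (s⁻¹ * k i * (y - c i)))
        ((fun i y => k i * ((1 - Real.tanh (s⁻¹ * k i * (y - c i)) ^ 2) * (s⁻¹ * k i))) i y) y := by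
      intro i
      have h3 : HasDerivAt (fun x => s⁻¹ * k i * (x - c i)) (s⁻¹ * k i) y := by
        have := ((hasDerivAt_id y).sub_const (c i)).const_mul (s⁻¹ * k i)
        simpa using this
      exact ((hasDerivAt_tanh (s⁻¹ * k i * (y - c i))).comp y h3).const_mul (k i)
    exact (sand_hasDerivAt (θ := fun i y => k i * Real.tanh (s⁻¹ * k i * (y - c i)))
      (θ' := fun i y => k i * ((1 - Real.tanh (s⁻¹ * k i * (y - c i)) ^ 2) * (s⁻¹ * k i)))
      (U : Mt J) ((U : Mt J)ᴴ) h1).continuousAt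
  have hQB : ∀ y, ‖Q y‖ ≤ B := fun y => le_of_tendsto' (hql y).norm fun n => hqB n y
  -- subsequence
  obtain ⟨xs, hxs, φ, hφ, hφl⟩ := (isCompact_closedBall (0 : Rc m J) |Bx|).tendsto_subseq
    (x := fun n => x n x0) (fun n => by
      rw [mem_closedBall_zero_iff, norm_eq_fro]
      exact (hbx n).trans (le_abs_self _))
  have hφt := hφ.tendsto_atTop
  set ξ : Rc m J := xs * (U : Mt J) *
    dg (fun i => Real.cosh (s⁻¹ * k i * (x0 - c i)) ^ s) with hξ
  set X : ℝ → Rc m J := fun y =>
    ξ * dg (fun i => Real.cosh (s⁻¹ * k i * (y - c i)) ^ (-s)) * (U : Mt J)ᴴ with hX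
  have hX0 : X x0 = xs := by
    have h1 : dg (fun i => Real.cosh (s⁻¹ * k i * (x0 - c i)) ^ s) *
        dg (fun i => Real.cosh (s⁻¹ * k i * (x0 - c i)) ^ (-s)) = (1 : Mt J) := by
      unfold dg
      rw [Matrix.diagonal_mul_diagonal, ← Matrix.diagonal_one]
      congr 1
      funext i
      rw [← Complex.ofReal_mul, ← Real.rpow_add (Real.cosh_pos _), add_neg_cancel,
        Real.rpow_zero, Complex.ofReal_one]
    simp only [hX, hξ]
    rw [Matrix.mul_assoc (xs * (U : Mt J)), h1, Matrix.mul_one, Matrix.mul_assoc, hUU',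
      Matrix.mul_one]
  have hXd : ∀ y, HasDerivAt X (-(X y * Q y)) y := by
    intro y
    have h1 := sand_hasDerivAt (θ := fun i y => Real.cosh (s⁻¹ * k i * (y - c i)) ^ (-s))
      (θ' := fun i y => -(k i * Real.tanh (s⁻¹ * k i * (y - c i))) *
        Real.cosh (s⁻¹ * k i * (y - c i)) ^ (-s)) ξ ((U : Mt J)ᴴ) (x := y)
      (fun i => scal s (k i) (c i) y hs)
    have h2 : ξ * dg (fun i => -(k i * Real.tanh (s⁻¹ * k i * (y - c i))) *
        Real.cosh (s⁻¹ * k i * (y - c i)) ^ (-s)) * (U : Mt J)ᴴ = -(X y * Q y) := by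
      simp only [hX, hQ]
      have h3 : dg (fun i => -(k i * Real.tanh (s⁻¹ * k i * (y - c i))) *
          Real.cosh (s⁻¹ * k i * (y - c i)) ^ (-s)) =
          -(dg (fun i => Real.cosh (s⁻¹ * k i * (y - c i)) ^ (-s)) *
            dg (fun i => k i * Real.tanh (s⁻¹ * k i * (y - c i)))) := by
        unfold dg
        rw [Matrix.diagonal_mul_diagonal, Matrix.diagonal_neg]
        congr 1
        funext i
        push_cast
        ring
      rw [h3, Matrix.mul_neg, Matrix.neg_mul]
      congr 1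
      have h4 : ∀ (A C : Mt J), ξ * (A * C) * (U : Mt J)ᴴ =
          ξ * A * (U : Mt J)ᴴ * ((U : Mt J) * C * (U : Mt J)ᴴ) := by
        intro A C
        have h5 : ξ * A * (U : Mt J)ᴴ * ((U : Mt J) * C * (U : Mt J)ᴴ) =
            ξ * A * ((U : Mt J)ᴴ * (U : Mt J)) * C * (U : Mt J)ᴴ := by
          simp only [Matrix.mul_assoc]
        rw [h5, hUU, Matrix.mul_one, Matrix.mul_assoc ξ A C]
      exact h4 _ _
    rw [h2] at h1
    exact h1
  have hXc : Continuous X := continuous_iff_continuousAt.2 fun y => (hXd y).continuousAt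
  refine ⟨φ, ξ, hφ, fun y => ?_⟩
  change Tendsto (fun n => x (φ n) y) atTop (𝓝 (X y))
  set L : ℝ := |x0| + |y| + 1 with hL
  have ha1 := abs_nonneg x0
  have ha2 := abs_nonneg y
  have hL0 : 0 < L := by positivity
  obtain ⟨MX, hMX⟩ := (isCompact_Icc (a := -L) (b := L)).exists_bound_of_continuousOn
    hXc.continuousOn
  have hMX0 : 0 ≤ MX := (norm_nonneg _).trans (hMX 0 ⟨by linarith, by linarith⟩)
  have hxc : ∀ n, Continuous (x n) := fun n =>
    continuous_iff_continuousAt.2 fun y => (hx n y).continuousAt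
  set e : ℕ → ℝ → Rc m J := fun n y =>
    (x' n y + x n y * q n y) - X y * (q n y - Q y) with he
  have hmulc : ∀ (f : ℝ → Rc m J) (g : ℝ → Mt J), Continuous f → Continuous g →
      Continuous fun y => f y * g y := fun f g hf hg => hf.matrix_mul hg
  have he1 : ∀ n, Continuous fun y => x' n y + x n y * q n y := fun n =>
    (hx' n).add (hmulc _ _ (hxc n) (hqc n))
  have hec : ∀ n, Continuous (e n) := fun n =>
    (he1 n).sub (hmulc _ _ hXc ((hqc n).sub hQc))
  -- convergence of the error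
  have hqQ : Tendsto (fun n => ∫ y in (-L)..L, ‖q n y - Q y‖) atTop (𝓝 0) := by
    have h1 : Tendsto (fun n => ∫ y in (-L)..L, ‖q n y - Q y‖) atTop
        (𝓝 (∫ y in (-L)..L, (0 : ℝ))) := by
      refine intervalIntegral.tendsto_integral_filter_of_dominated_convergence
        (fun _ => B + B) ?_ ?_ ?_ ?_
      · exact Eventually.of_forall fun n => ((hqc n).sub hQc).norm.aestronglyMeasurable
      · refine Eventually.of_forall fun n => Eventually.of_forall fun y _ => ?_
        rw [norm_norm]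
        exact (norm_sub_le _ _).trans (add_le_add (hqB n y) (hQB y))
      · simp
      · refine Eventually.of_forall fun y _ => ?_
        have := ((hql y).sub (tendsto_const_nhds (x := Q y))).norm
        rw [sub_self, norm_zero] at this
        exact this
    simpa using h1
  have heI : Tendsto (fun n => ∫ y in (-L)..L, ‖e n y‖) atTop (𝓝 0) := by
    have h1 : ∀ n, ∫ y in (-L)..L, ‖e n y‖ ≤
        (∫ y in (-L)..L, fro (x' n y + x n y * q n y)) +
          MX * ∫ y in (-L)..L, ‖q n y - Q y‖ := by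
      intro n
      rw [← intervalIntegral.integral_const_mul, ← intervalIntegral.integral_add]
      · refine intervalIntegral.integral_mono_on (by linarith)
          ((hec n).norm.intervalIntegrable _ _) ?_ ?_
        · refine Continuous.intervalIntegrable ?_ _ _
          simp only [← norm_eq_fro]
          exact (he1 n).norm.add (continuous_const.mul ((hqc n).sub hQc).norm)
        · intro z hz
          rw [← norm_eq_fro]
          refine (norm_sub_le _ _).trans (add_le_add le_rfl ?_)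
          exact (Matrix.frobenius_norm_mul _ _).trans
            (mul_le_mul_of_nonneg_right (hMX z hz) (norm_nonneg _))
      · refine Continuous.intervalIntegrable ?_ _ _
        simp only [← norm_eq_fro]
        exact (he1 n).norm
      · exact (continuous_const.mul ((hqc n).sub hQc).norm).intervalIntegrable _ _
    refine squeeze_zero (fun n => ?_) h1 ?_
    · exact intervalIntegral.integral_nonneg (by linarith) fun _ _ => norm_nonneg _
    · have := (hE L hL0).add (hqQ.const_mul MX)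
      rw [mul_zero, add_zero] at this
      exact this
  set δ : ℕ → ℝ := fun n => ‖x n x0 - X x0‖ + ∫ y in (-L)..L, ‖e n y‖ with hδ
  have hI0 : ∀ n, 0 ≤ ∫ y in (-L)..L, ‖e n y‖ := fun n =>
    intervalIntegral.integral_nonneg (by linarith) fun _ _ => norm_nonneg _
  have hδ0 : ∀ n, 0 ≤ δ n := fun n => add_nonneg (norm_nonneg _) (hI0 n)
  have hkey : ∀ n, ‖x n y - X y‖ ≤ δ n *
      (Real.exp (B * (2 * L)) + (B + 1) / B * (Real.exp (B * (2 * L)) - 1) + 1) := by
    intro n
    refine gron3 (D := fun y => x n y - X y) (G := fun y => -((x n y - X y) * q n y))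
      (e := e n) (x0 := x0) (L := L) (by linarith) (by linarith) hB (hδ0 n) ?_ (hec n) ?_ ?_ ?_
    · intro z
      have h4 := (hx n z).fun_sub (hXd z)
      have h5 : x' n z - -(X z * Q z) = -((x n z - X z) * q n z) + e n z := by
        simp only [he]
        rw [Matrix.sub_mul, Matrix.mul_sub]
        abel
      rw [h5] at h4
      exact h4
    · intro z
      rw [norm_neg]
      have h6 : ‖(x n z - X z) * q n z‖ ≤ B * ‖x n z - X z‖ := by
        refine (Matrix.frobenius_norm_mul _ _).trans ?_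
        rw [mul_comm]
        exact mul_le_mul_of_nonneg_right (hqB n z) (norm_nonneg _)
      exact h6.trans (le_add_of_nonneg_right (hδ0 n))
    · exact le_add_of_nonneg_right (hI0 n)
    · exact le_add_of_nonneg_left (norm_nonneg _)
  refine tendsto_iff_norm_sub_tendsto_zero.2 ?_
  refine squeeze_zero (fun n => norm_nonneg _) (fun n => hkey (φ n)) ?_
  have h7 : Tendsto (fun n => δ (φ n)) atTop (𝓝 0) := by
    have h8 : Tendsto (fun n => ‖x (φ n) x0 - X x0‖) atTop (𝓝 0) := by
      have := (hφl.sub (tendsto_const_nhds (x := xs))).norm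
      rw [sub_self, norm_zero, ← hX0] at this
      exact this
    have := h8.add (heI.comp hφt)
    rw [add_zero] at this
    exact this
  have h9 := h7.mul_const
    (Real.exp (B * (2 * L)) + (B + 1) / B * (Real.exp (B * (2 * L)) - 1) + 1)
  rwa [zero_mul] at h9

end XL

theorem xlim : XLIM := by
  intro s hs _ m J k _ U c q x x' hx hx' hqc hqB hql hE hb
  exact XL.main s hs m J k U c q x x' hx hx' hqc hqB hql hE hb

end Crest.Agent.R332
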