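import Crest.Agent.R332.LIBF

/-! Convergence in the Young slack. -/

set_option autoImplicit false

open MeasureTheory Matrix Filter Topology
open Crest.MathPhysics.LiebThirring
open scoped ComplexOrder

namespace Crest.Agent.R332

namespace YCVaux

variable {m N : ℕ}

theorem meas_cfc {f : ℝ → ℝ} (hf : Continuous f) {W : ℝ → Mt m}
    (hWm : ∀ i j, Measurable fun x => W x i j) (hH : ∀ x, (W x).IsHermitian) (i j : Fin m) :
    Measurable fun x => (cfc f (W x)) i j := by
  let S : Mt m → Mt m := fun A => (1 / 2 : ℂ) • (A + Aᴴ)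
  have hS : Continuous S :=
    (continuous_id.add (continuous_id.matrix_conjTranspose)).const_smul (1 / 2 : ℂ)
  have hSH : ∀ A, (S A).IsHermitian := by
    intro A
    show (S A)ᴴ = S A
    simp only [S, Matrix.conjTranspose_smul, Matrix.conjTranspose_add,
      Matrix.conjTranspose_conjTranspose]
    rw [add_comm]
    congr 1
    simp
  have hSW : ∀ x, S (W x) = W x := by
    intro x
    simp only [S]
    rw [hH x, ← two_smul ℂ (W x), smul_smul]
    norm_num
  have hc : Continuous fun A : Mt m => cfc f (S A) := (cfcc m f hf).comp_continuous hS hSH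
  have hc2 : Continuous fun A : Fin m → Fin m → ℂ => (cfc f (S (Matrix.of A))) i j :=
    (hc.matrix_elem i j)
  have hm : Measurable fun x => (fun a b => W x a b : Fin m → Fin m → ℂ) :=
    measurable_pi_iff.2 fun a => measurable_pi_iff.2 fun b => hWm a b
  have h := hc2.measurable.comp hm
  have e : (fun x => (cfc f (W x)) i j) =
      (fun A : Fin m → Fin m → ℂ => (cfc f (S (Matrix.of A))) i j) ∘
        fun x => (fun a b => W x a b : Fin m → Fin m → ℂ) := by
    funext x
    show (cfc f (W x)) i j = (cfc f (S (W x))) i j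
    rw [hSW]
  rw [e]; exact h

theorem meas_fro {A : ℝ → Rc m N} (h : ∀ i j, Measurable fun x => A x i j) :
    Measurable fun x => fro (A x) := by
  unfold fro fro2
  exact (Finset.measurable_fun_sum _ fun i _ => Finset.measurable_fun_sum _ fun j _ =>
    ((h i j).norm.pow_const 2)).sqrt

end YCVaux

open YCVaux in
theorem ycv : YOUNGM → YSI → CFCC → YCV := by
  intro youngm ysi _ s hs0 hs1 m
  obtain ⟨c', hc', hy⟩ := youngm s hs0 hs1 m
  refine ⟨c', hc', ?_⟩
  intro W hWm hWp hWi N X l hX hX0
  obtain ⟨i1, i2, i3, -⟩ := ysi s hs0 hs1 m W hWm hWp hWi N X l hX hX0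
  have hpt : ∀ x, c' * fro (X x * (X x)ᴴ - RW s (W x)) ^ (s⁻¹ + 1) ≤ YSf s W X x := by
    intro x
    have h := hy (W x) (X x * (X x)ᴴ) (hWp x) (Matrix.posSemidef_self_mul_conjTranspose _)
    unfold YSf
    linarith
  have hρ : Continuous fun w : ℝ => (w / (cY s * (s⁻¹ + 1))) ^ s :=
    (Real.continuous_rpow_const hs0.le).comp (continuous_id.div_const _)
  have hm1 : ∀ i j, Measurable fun x => (X x * (X x)ᴴ - RW s (W x)) i j := by
    intro i j
    have h1 : Measurable fun x => (X x * (X x)ᴴ) i j :=
      (((hX.matrix_mul hX.matrix_conjTranspose).matrix_elem i j)).measurable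
    have h2 : Measurable fun x => (RW s (W x)) i j :=
      meas_cfc hρ hWm (fun x => (hWp x).1) i j
    exact h1.sub h2
  have hm2 : Measurable fun x => fro (X x * (X x)ᴴ - RW s (W x)) ^ (s⁻¹ + 1) :=
    (meas_fro hm1).pow_const _
  have hi : Integrable (fun x => fro (X x * (X x)ᴴ - RW s (W x)) ^ (s⁻¹ + 1)) := by
    refine (i3.div_const c').mono' hm2.aestronglyMeasurable ?_
    filter_upwards with x
    rw [Real.norm_eq_abs, abs_of_nonneg (Real.rpow_nonneg (fro_nonneg _) _), le_div_iff₀ hc',
      mul_comm]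
    exact hpt x
  refine ⟨hi, ?_⟩
  unfold YS
  rw [← integral_const_mul]
  exact integral_mono (hi.const_mul c') i3 hpt

end Crest.Agent.R332
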