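import Crest.Agent.R332.LIBK
import Crest.Agent.R332.LIBD

/-! R332 task YDER. -/

set_option autoImplicit false

open MeasureTheory Matrix Filter Topology
open Crest.MathPhysics.LiebThirring
open scoped ComplexOrder

namespace Crest.Agent.R332

theorem yder : DLOG → I1P → YDER := by
  intro hdlog hi1p N κ hκ Q hQ t ht
  have h0 : ∀ i, 0 ≤ κ i := fun i => (hκ i).le
  have hQh := hQ.1
  have hP1 : (Kt κ t + Q).PosDef := hQ.posDef_add h0 ht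
  have hP2 : (Kt κ t - Q).PosDef := hQ.posDef_sub h0 ht
  have hK : HasDerivAt (fun τ => Kt κ τ) ((1 / 2 : ℂ) • (Kt κ t)⁻¹) t := hasDerivAt_Kt κ ht
  have hd1 : HasDerivAt (fun τ => Kt κ τ + Q) ((1 / 2 : ℂ) • (Kt κ t)⁻¹) t := by
    have := HD.add hK (HD.const Q t)
    rwa [add_zero] at this
  have hd2 : HasDerivAt (fun τ => Kt κ τ - Q) ((1 / 2 : ℂ) • (Kt κ t)⁻¹) t := by
    have := HD.sub hK (HD.const Q t)
    rwa [sub_zero] at this
  have D1 := hdlog N (fun τ => Kt κ τ + Q) _ t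
    (fun τ => (Kt_isHermitian κ τ).add hQh) hP1 hd1
  have D2 := hdlog N (fun τ => Kt κ τ - Q) _ t
    (fun τ => (Kt_isHermitian κ τ).sub hQh) hP2 hd2
  set G1 : Mt N → ℝ := fun Y => ∫ u in Set.Ioi (0 : ℝ), rtr ((Kt κ t + Q + sc N u)⁻¹ *
    ((1 / 2 : ℂ) • (Kt κ t)⁻¹) * (Kt κ t + Q + sc N u)⁻¹ * Y) with hG1
  set G2 : Mt N → ℝ := fun Y => ∫ u in Set.Ioi (0 : ℝ), rtr ((Kt κ t - Q + sc N u)⁻¹ *
    ((1 / 2 : ℂ) • (Kt κ t)⁻¹) * (Kt κ t - Q + sc N u)⁻¹ * Y) with hG2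
  -- derivative of `rtr (H Y)`
  have hH : ∀ Y : Mt N, HasDerivAt (fun τ => rtr (Hm κ Q τ * Y))
      (G1 Y + G2 Y - t⁻¹ * rtr Y) t := by
    intro Y
    have e : (fun τ => rtr (Hm κ Q τ * Y)) = fun τ => rtr (lg (Kt κ τ + Q) * Y) +
        rtr (lg (Kt κ τ - Q) * Y) - Real.log τ * rtr Y := by
      funext τ
      unfold Hm
      rw [sub_mul, add_mul, rtr_sub, rtr_add, sc_mul, rtr_smul]
    rw [e]
    exact ((D1 Y).2.add (D2 Y).2).sub ((Real.hasDerivAt_log ht.ne').mul_const _)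
  have hsplit : ∀ τ, rtr (Hm κ Q τ * (Zm κ Q + sc N τ)) =
      rtr (Hm κ Q τ * Zm κ Q) + τ * rtr (Hm κ Q τ * 1) := by
    intro τ
    rw [mul_add, rtr_add, mul_sc, rtr_smul, mul_one]
  have hy : HasDerivAt (fun τ => rtr (Hm κ Q τ * (Zm κ Q + sc N τ)))
      ((G1 (Zm κ Q) + G2 (Zm κ Q) - t⁻¹ * rtr (Zm κ Q)) +
        (1 * rtr (Hm κ Q t * 1) + t * (G1 1 + G2 1 - t⁻¹ * rtr (1 : Mt N)))) t := by
    have e : (fun τ => rtr (Hm κ Q τ * (Zm κ Q + sc N τ))) = fun τ =>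
        rtr (Hm κ Q τ * Zm κ Q) + τ * rtr (Hm κ Q τ * 1) := funext hsplit
    rw [e]
    exact (hH (Zm κ Q)).add ((hasDerivAt_id t).mul (hH 1))
  refine ⟨_, hy, ?_⟩
  -- linearity of `G`
  have hlin1 : G1 (Zm κ Q + sc N t) = G1 (Zm κ Q) + t * G1 1 := by
    simp only [hG1]
    rw [← integral_const_mul, ← integral_add (D1 (Zm κ Q)).1 ((D1 1).1.const_mul t)]
    refine integral_congr_ae (ae_of_all _ fun u => ?_)
    show rtr _ = rtr _ + t * rtr _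
    rw [mul_add, rtr_add, mul_sc, rtr_smul, mul_one]
  have hlin2 : G2 (Zm κ Q + sc N t) = G2 (Zm κ Q) + t * G2 1 := by
    simp only [hG2]
    rw [← integral_const_mul, ← integral_add (D2 (Zm κ Q)).1 ((D2 1).1.const_mul t)]
    refine integral_congr_ae (ae_of_all _ fun u => ?_)
    show rtr _ = rtr _ + t * rtr _
    rw [mul_add, rtr_add, mul_sc, rtr_smul, mul_one]
  have hI : G1 (Zm κ Q + sc N t) + G2 (Zm κ Q + sc N t) ≤ N := hi1p N κ hκ Q hQ t ht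
  rw [hlin1, hlin2] at hI
  unfold rho
  rw [mul_one, rtr_one]
  have htt : t * t⁻¹ = 1 := mul_inv_cancel₀ ht.ne'
  have key : t * (G1 (Zm κ Q) + G2 (Zm κ Q) - t⁻¹ * rtr (Zm κ Q) +
      (1 * rtr (Hm κ Q t) + t * (G1 1 + G2 1 - t⁻¹ * (N : ℝ)))) =
      t * ((G1 (Zm κ Q) + t * G1 1 + (G2 (Zm κ Q) + t * G2 1)) - N) - rtr (Zm κ Q) +
        t * rtr (Hm κ Q t) := by
    field_simp
    ring
  rw [key]
  nlinarith [mul_nonneg ht.le (sub_nonneg.2 hI)]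

end Crest.Agent.R332
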