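import Crest.Agent.R332.LIBF

/-! YINT: integrability in `t` and the integrated inequality. -/

set_option autoImplicit false

open MeasureTheory Matrix Filter Topology
open Crest.MathPhysics.LiebThirring
open scoped ComplexOrder

namespace Crest.Agent.R332.YINT

/-- scalar facts -/
theorem log_bd {s t : ℝ} (hs : 0 < s) (ht : 0 < t) (ht1 : t ≤ 1) :
    t ^ s * (1 + |Real.log t|) ≤ (1 + 2 / s) * t ^ (s / 2) := by
  have h1 : |Real.log t| * t ^ (s / 2) ≤ 2 / s := by
    have := (Real.abs_log_mul_self_rpow_lt t (s / 2) ht ht1 (by positivity)).le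
    rw [abs_mul, abs_of_nonneg (Real.rpow_nonneg ht.le _)] at this
    refine this.trans (le_of_eq ?_)
    field_simp
  have h2 : t ^ s = t ^ (s / 2) * t ^ (s / 2) := by
    rw [← Real.rpow_add ht]; congr 1; ring
  have h3 : t ^ (s / 2) ≤ 1 := Real.rpow_le_one ht.le ht1 (by positivity)
  have h4 : 0 ≤ t ^ (s / 2) := Real.rpow_nonneg ht.le _
  rw [h2]
  nlinarith

theorem int_small {s : ℝ} (hs : 0 < s) :
    IntegrableOn (fun t : ℝ => t ^ (s - 1) * (1 + |Real.log t|)) (Set.Ioc 0 1) := by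
  have h1 : IntegrableOn (fun t : ℝ => (1 + 2 / s) * t ^ (s / 2 - 1)) (Set.Ioc 0 1) := by
    refine Integrable.const_mul ?_ _
    have := (intervalIntegral.intervalIntegrable_rpow' (a := 0) (b := 1)
      (r := s / 2 - 1) (by linarith))
    rwa [intervalIntegrable_iff_integrableOn_Ioc_of_le zero_le_one] at this
  refine Integrable.mono' h1 ?_ ?_
  · refine Measurable.aestronglyMeasurable ?_
    exact (measurable_id.pow_const _).mul (measurable_const.add (Real.measurable_log.abs))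
  · refine (ae_restrict_iff' measurableSet_Ioc).2 (Eventually.of_forall fun t ht => ?_)
    rw [Real.norm_of_nonneg (mul_nonneg (Real.rpow_nonneg ht.1.le _) (by positivity))]
    have h := log_bd hs ht.1 ht.2
    have e1 : t ^ (s - 1) = t ^ s * t⁻¹ := by
      rw [Real.rpow_sub_one ht.1.ne']; rfl
    have e2 : t ^ (s / 2 - 1) = t ^ (s / 2) * t⁻¹ := by
      rw [Real.rpow_sub_one ht.1.ne']; rfl
    rw [e1, e2]
    have h5 : 0 < t⁻¹ := inv_pos.2 ht.1
    nlinarith [mul_le_mul_of_nonneg_right h h5.le]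

theorem int_large {s : ℝ} (hs : s < 1) :
    IntegrableOn (fun t : ℝ => t ^ (s - 1) * t⁻¹) (Set.Ioi 1) := by
  have h1 := integrableOn_Ioi_rpow_of_lt (a := s - 2) (by linarith) (c := 1) one_pos
  refine h1.congr_fun (fun t ht => ?_) measurableSet_Ioi
  have h0 : (0 : ℝ) < t := lt_trans one_pos ht
  show t ^ (s - 2) = t ^ (s - 1) * t⁻¹
  rw [show s - 2 = (s - 1) - 1 by ring, Real.rpow_sub_one h0.ne']; rfl

/-- decay hypotheses -/
structure Dec (A : ℝ) (h : ℝ → ℝ) : Prop where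
  c : ContinuousOn h (Set.Ioi 0)
  lo : ∀ t, 0 < t → t ≤ 1 → |h t| ≤ A * (1 + |Real.log t|)
  hi : ∀ t, 1 ≤ t → |h t| ≤ A * t⁻¹

theorem cont_rpow (a : ℝ) : ContinuousOn (fun t : ℝ => t ^ a) (Set.Ioi 0) := by
  intro t ht
  exact (Real.continuousAt_rpow_const t a (Or.inl (ne_of_gt ht))).continuousWithinAt

theorem Dec.int {A s : ℝ} {h : ℝ → ℝ} (hd : Dec A h) (hs : 0 < s) (hs1 : s < 1) :
    IntegrableOn (fun t : ℝ => t ^ (s - 1) * h t) (Set.Ioi 0) := by
  have hc : ContinuousOn (fun t : ℝ => t ^ (s - 1) * h t) (Set.Ioi 0) := (cont_rpow _).mul hd.c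
  rw [← Set.Ioc_union_Ioi_eq_Ioi zero_le_one]
  refine IntegrableOn.union ?_ ?_
  · refine Integrable.mono' ((int_small hs).const_mul A) ?_ ?_
    · exact (hc.mono fun x hx => hx.1).aestronglyMeasurable measurableSet_Ioc
    · refine (ae_restrict_iff' measurableSet_Ioc).2 (Eventually.of_forall fun t ht => ?_)
      rw [norm_mul, Real.norm_of_nonneg (Real.rpow_nonneg ht.1.le _), Real.norm_eq_abs]
      have := hd.lo t ht.1 ht.2
      have h0 : 0 ≤ t ^ (s - 1) := Real.rpow_nonneg ht.1.le _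
      nlinarith [mul_le_mul_of_nonneg_left this h0]
  · refine Integrable.mono' ((int_large hs1).const_mul A) ?_ ?_
    · exact (hc.mono fun x (hx : x ∈ Set.Ioi (1:ℝ)) => lt_trans one_pos (Set.mem_Ioi.1 hx)).aestronglyMeasurable measurableSet_Ioi
    · refine (ae_restrict_iff' measurableSet_Ioi).2 (Eventually.of_forall fun t ht => ?_)
      have h00 : (0 : ℝ) < t := lt_trans one_pos ht
      rw [norm_mul, Real.norm_of_nonneg (Real.rpow_nonneg h00.le _), Real.norm_eq_abs]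
      have := hd.hi t (le_of_lt ht)
      have h0 : 0 ≤ t ^ (s - 1) := Real.rpow_nonneg h00.le _
      nlinarith [mul_le_mul_of_nonneg_left this h0]

theorem Dec.zero {A s : ℝ} {h : ℝ → ℝ} (hd : Dec A h) (hs : 0 < s) (hA : 0 ≤ A) :
    Tendsto (fun t : ℝ => t ^ s * h t) (𝓝[>] 0) (𝓝 0) := by
  have h1 : Tendsto (fun t : ℝ => A * ((1 + 2 / s) * t ^ (s / 2))) (𝓝[>] 0) (𝓝 0) := by
    have : Tendsto (fun t : ℝ => t ^ (s / 2)) (𝓝[>] 0) (𝓝 0) := by
      have := (Real.continuousAt_rpow_const 0 (s / 2) (Or.inr (by positivity))).tendsto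
      rw [Real.zero_rpow (by positivity)] at this
      exact this.mono_left nhdsWithin_le_nhds
    simpa using (this.const_mul (1 + 2 / s)).const_mul A
  refine squeeze_zero_norm' ?_ h1
  have h2 : ∀ᶠ t : ℝ in 𝓝[>] 0, t ∈ Set.Ioo (0 : ℝ) 1 := Ioo_mem_nhdsGT one_pos
  filter_upwards [h2] with t ht
  rw [norm_mul, Real.norm_of_nonneg (Real.rpow_nonneg ht.1.le _), Real.norm_eq_abs]
  have a1 := hd.lo t ht.1 ht.2.le
  have a2 := log_bd hs ht.1 ht.2.le
  have h0 : 0 ≤ t ^ s := Real.rpow_nonneg ht.1.le _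
  calc t ^ s * |h t| ≤ t ^ s * (A * (1 + |Real.log t|)) := mul_le_mul_of_nonneg_left a1 h0
    _ = A * (t ^ s * (1 + |Real.log t|)) := by ring
    _ ≤ _ := mul_le_mul_of_nonneg_left a2 hA

theorem Dec.infty {A s : ℝ} {h : ℝ → ℝ} (hd : Dec A h) (hs1 : s < 1) :
    Tendsto (fun t : ℝ => t ^ s * h t) atTop (𝓝 0) := by
  have h1 : Tendsto (fun t : ℝ => A * t ^ (-(1 - s))) atTop (𝓝 0) := by
    simpa using (tendsto_rpow_neg_atTop (by linarith : 0 < 1 - s)).const_mul A
  refine squeeze_zero_norm' ?_ h1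
  filter_upwards [eventually_ge_atTop (1 : ℝ)] with t ht
  have h00 : (0 : ℝ) < t := lt_of_lt_of_le one_pos ht
  rw [norm_mul, Real.norm_of_nonneg (Real.rpow_nonneg h00.le _), Real.norm_eq_abs]
  have a1 := hd.hi t ht
  have h0 : 0 ≤ t ^ s := Real.rpow_nonneg h00.le _
  calc t ^ s * |h t| ≤ t ^ s * (A * t⁻¹) := mul_le_mul_of_nonneg_left a1 h0
    _ = A * (t ^ s * t⁻¹) := by ring
    _ = A * t ^ (-(1 - s)) := by
      rw [show -(1 - s) = s - 1 by ring, Real.rpow_sub_one h00.ne']; rfl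

/-- if `F' ≤ g` on `(0,∞)` and `F → 0` at both ends then `0 ≤ ∫ g`. -/
theorem int_nonneg_of_deriv_le {F g : ℝ → ℝ} {F' : ℝ → ℝ}
    (hF : ∀ t, 0 < t → HasDerivAt F (F' t) t) (hle : ∀ t, 0 < t → F' t ≤ g t)
    (hg : IntegrableOn g (Set.Ioi 0)) (h0 : Tendsto F (𝓝[>] 0) (𝓝 0))
    (h1 : Tendsto F atTop (𝓝 0)) : 0 ≤ ∫ t in Set.Ioi (0 : ℝ), g t := by
  set a : ℕ → ℝ := fun n => 1 / ((n : ℝ) + 1) with ha
  set b : ℕ → ℝ := fun n => (n : ℝ) + 1 with hb
  have ha0 : Tendsto a atTop (𝓝 0) := tendsto_one_div_add_atTop_nhds_zero_nat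
  have hb0 : Tendsto b atTop atTop :=
    tendsto_atTop_add_const_right _ _ tendsto_natCast_atTop_atTop
  have hapos : ∀ n, 0 < a n := fun n => by simp only [ha]; positivity
  have hab : ∀ n, a n ≤ b n := fun n => by
    simp only [ha, hb]
    rw [div_le_iff₀ (by positivity)]
    nlinarith [Nat.cast_nonneg (α := ℝ) n]
  have key : ∀ n, F (b n) - F (a n) ≤ ∫ t in (a n)..(b n), g t := fun n => by
    refine intervalIntegral.sub_le_integral_of_hasDeriv_right_of_le (hab n) ?_ ?_ ?_ ?_ (g' := F')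
    · intro t ht
      exact (hF t (lt_of_lt_of_le (hapos n) ht.1)).continuousAt.continuousWithinAt
    · intro t ht
      exact (hF t (lt_trans (hapos n) ht.1)).hasDerivWithinAt
    · exact hg.mono_set fun t ht => lt_of_lt_of_le (hapos n) ht.1
    · intro t ht
      exact hle t (lt_trans (hapos n) ht.1)
  have lim1 : Tendsto (fun n => F (b n) - F (a n)) atTop (𝓝 (0 - 0)) := by
    refine (h1.comp hb0).sub (h0.comp ?_)
    exact tendsto_nhdsWithin_iff.2 ⟨ha0, Eventually.of_forall fun n => hapos n⟩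
  have lim2 : Tendsto (fun n => ∫ t in (a n)..(b n), g t) atTop
      (𝓝 (∫ t in Set.Ioi (0 : ℝ), g t)) := by
    have hcov : AECover (volume.restrict (Set.Ioi (0 : ℝ))) atTop
        (fun n => Set.Ioi (a n) ∩ Set.Iic (b n)) :=
      (aecover_Ioi_of_Ioi ha0).inter ((aecover_Iic hb0).restrict)
    have := hcov.integral_tendsto_of_countably_generated hg
    refine this.congr fun n => ?_
    rw [Measure.restrict_restrict (measurableSet_Ioi.inter measurableSet_Iic),
      intervalIntegral.integral_of_le (hab n)]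
    congr 2
    ext t
    simp only [Set.mem_inter_iff, Set.mem_Ioi, Set.mem_Iic, Set.mem_Ioc]
    constructor
    · rintro ⟨⟨x, y⟩, _⟩; exact ⟨x, y⟩
    · rintro ⟨x, y⟩; exact ⟨⟨x, y⟩, lt_trans (hapos n) x⟩
  have := le_of_tendsto_of_tendsto' lim1 lim2 key
  simpa using this


variable {N : ℕ}

theorem Kt_sub_posDef {κ : Fin N → ℝ} (_hκ : ∀ i, 0 ≤ κ i) {t : ℝ} (ht : 0 < t) :
    (Kt κ t - dg κ).PosDef := by
  unfold Kt
  rw [dg_sub]
  refine dg_posDef fun i => ?_
  have h1 : κ i < Real.sqrt (κ i ^ 2 + t) := by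
    refine Real.lt_sqrt_of_sq_lt ?_
    linarith
  linarith

theorem posDef_add {κ : Fin N → ℝ} (hκ : ∀ i, 0 ≤ κ i) {Q : Mt N} (hQ : Btw κ Q) {t : ℝ}
    (ht : 0 < t) : (Kt κ t + Q).PosDef := by
  have h := (Kt_sub_posDef hκ ht).add_posSemidef hQ.2.1
  convert h using 1
  abel

theorem posDef_sub {κ : Fin N → ℝ} (hκ : ∀ i, 0 ≤ κ i) {Q : Mt N} (hQ : Btw κ Q) {t : ℝ}
    (ht : 0 < t) : (Kt κ t - Q).PosDef := by
  have h := (Kt_sub_posDef hκ ht).add_posSemidef hQ.2.2
  convert h using 1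
  abel

theorem continuous_dg {f : ℝ → Fin N → ℝ} (hf : ∀ i, Continuous fun t => f t i) :
    Continuous fun t => dg (f t) := by
  unfold dg
  refine Continuous.matrix_diagonal ?_
  exact continuous_pi fun i => Complex.continuous_ofReal.comp (hf i)

theorem continuous_Kt (κ : Fin N → ℝ) : Continuous fun t => Kt κ t := by
  unfold Kt
  exact continuous_dg fun i => (continuous_const.add continuous_id).sqrt

theorem continuousOn_Hm {κ : Fin N → ℝ} (hκ : ∀ i, 0 ≤ κ i) {Q : Mt N} (hQ : Btw κ Q) :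
    ContinuousOn (fun t => Hm κ Q t) (Set.Ioi 0) := by
  unfold Hm
  refine ContinuousOn.sub (ContinuousOn.add ?_ ?_) ?_
  · exact (lgc N).comp ((continuous_Kt κ).add continuous_const).continuousOn
      fun t ht => posDef_add hκ hQ ht
  · exact (lgc N).comp ((continuous_Kt κ).sub continuous_const).continuousOn
      fun t ht => posDef_sub hκ hQ ht
  · have : ∀ t : ℝ, sc N (Real.log t) = dg (fun _ => Real.log t) := fun t => sc_eq_dg _
    simp only [this]
    unfold dg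
    intro t ht
    refine ContinuousAt.continuousWithinAt ?_
    refine (Continuous.matrix_diagonal continuous_id).continuousAt.comp_of_eq
      (f := fun t : ℝ => fun _ : Fin N => ((Real.log t : ℝ) : ℂ)) (y := _) ?_ rfl
    refine continuousAt_pi.2 fun i => ?_
    exact Complex.continuous_ofReal.continuousAt.comp (Real.continuousAt_log (ne_of_gt ht))

theorem eig_le_of_OpLe {A : Mt N} (hA : A.IsHermitian) {c : ℝ} (h : OpLe A c) (i : Fin N) :
    |hA.eigenvalues i| ≤ c := by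
  obtain ⟨U, hU⟩ := exists_diag hA
  generalize hA.eigenvalues = e at hU ⊢
  have key : ∀ s : ℝ, (sc N c + ((s : ℝ) : ℂ) • A).PosSemidef → 0 ≤ c + s * e i := by
    intro s hs
    have h1 := hs.conjTranspose_mul_mul_same (U : Mt N)
    have h2 : (U : Mt N)ᴴ * (sc N c + ((s : ℝ) : ℂ) • A) * (U : Mt N) =
        dg (fun i => c + s * e i) := by
      rw [hU, Matrix.mul_add, Matrix.add_mul, Matrix.mul_smul, Matrix.smul_mul, conj_conj',
        ← sc_comm, Matrix.mul_assoc, U_star_mul, Matrix.mul_one, dg_smul, sc_eq_dg, dg_add]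
    rw [h2] at h1
    have h3 := h1.diag_nonneg (i := i)
    unfold dg at h3
    rw [Matrix.diagonal_apply_eq] at h3
    exact_mod_cast h3
  have k1 := key (-1) (by simpa [sub_eq_add_neg] using h.1)
  have k2 := key 1 (by simpa using h.2)
  rw [abs_le]
  constructor <;> linarith

theorem fro_le_of_OpLe {A : Mt N} (hA : A.IsHermitian) {c : ℝ} (hc : 0 ≤ c) (h : OpLe A c) :
    fro A ≤ Real.sqrt N * c := by
  unfold fro
  rw [fro2_herm hA]
  have : ∑ i, hA.eigenvalues i ^ 2 ≤ N * c ^ 2 := by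
    calc ∑ i, hA.eigenvalues i ^ 2 ≤ ∑ _i : Fin N, c ^ 2 := by
          refine Finset.sum_le_sum fun i _ => ?_
          exact sq_le_sq' (abs_le.1 (eig_le_of_OpLe hA h i)).1 (abs_le.1 (eig_le_of_OpLe hA h i)).2
      _ = N * c ^ 2 := by simp
  refine (Real.sqrt_le_sqrt this).trans (le_of_eq ?_)
  rw [Real.sqrt_mul (by positivity), Real.sqrt_sq hc]


theorem Hm_isHermitian (κ : Fin N → ℝ) (Q : Mt N) (t : ℝ) : (Hm κ Q t).IsHermitian := by
  unfold Hm
  exact ((lg_isHermitian _).add (lg_isHermitian _)).sub (sc_isHermitian _)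

theorem Zm_isHermitian (κ : Fin N → ℝ) {Q : Mt N} (hQ : Q.IsHermitian) :
    (Zm κ Q).IsHermitian := by
  unfold Zm
  refine IsHermitian.sub ?_ ?_
  · rw [dg_mul]; exact dg_isHermitian _
  · have : Q * Q = Q * Qᴴ := by rw [hQ]
    rw [this]
    exact isHermitian_mul_conjTranspose_self Q

theorem smul_isHermitian {A : Mt N} (hA : A.IsHermitian) (t : ℝ) :
    (((t : ℝ) : ℂ) • A).IsHermitian := by
  unfold Matrix.IsHermitian at *
  rw [Matrix.conjTranspose_smul, hA]
  simp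

/-- decay of `H_t` -/
theorem exists_dec (hHBL : HBL) (hHBS : HBS) {κ : Fin N → ℝ} (hκ : ∀ i, 0 < κ i) {Q : Mt N}
    (hQ : Btw κ Q) : ∃ A : ℝ, 0 ≤ A ∧
      (∀ t, 0 < t → t ≤ 1 → fro (Hm κ Q t) ≤ A * (1 + |Real.log t|)) ∧
      (∀ t, 1 ≤ t → fro (Hm κ Q t) ≤ A * t⁻¹) ∧
      (∀ t, 1 ≤ t → |rho κ Q t| ≤ A * t⁻¹) ∧
      (∀ t, 0 < t → t ≤ 1 → |rho κ Q t| ≤ A * (1 + |Real.log t|)) := by
  set k : ℝ := ∑ i, κ i with hk
  have hk0 : 0 ≤ k := Finset.sum_nonneg fun i _ => (hκ i).le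
  have hkb : ∀ i, 0 ≤ κ i ∧ κ i ≤ k := fun i =>
    ⟨(hκ i).le, Finset.single_le_sum (f := κ) (fun j _ => (hκ j).le) (Finset.mem_univ i)⟩
  obtain ⟨C1, hC1, hS⟩ := hHBS k hk0
  obtain ⟨C2, hC2, hL⟩ := hHBL k hk0
  set sN : ℝ := Real.sqrt N with hsN
  have hsN0 : 0 ≤ sN := Real.sqrt_nonneg _
  have hZ0 := fro_nonneg (Zm κ Q)
  have hlo : ∀ t, 0 < t → t ≤ 1 → fro (Hm κ Q t) ≤ sN * C1 * (1 + |Real.log t|) := by
    intro t ht ht1
    have := fro_le_of_OpLe (Hm_isHermitian κ Q t) (by positivity) (hS N κ hkb Q hQ t ht ht1)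
    linarith
  have hhi0 : ∀ t, 1 ≤ t → fro (((t : ℝ) : ℂ) • Hm κ Q t - Zm κ Q) ≤ sN * C2 * t⁻¹ := by
    intro t ht
    have ht0 : (0 : ℝ) < t := lt_of_lt_of_le one_pos ht
    have := fro_le_of_OpLe (A := ((t : ℝ) : ℂ) • Hm κ Q t - Zm κ Q)
      ((smul_isHermitian (Hm_isHermitian κ Q t) t).sub (Zm_isHermitian κ hQ.1))
      (by positivity) (hL N κ hkb Q hQ t ht)
    rw [div_eq_mul_inv] at this
    linarith
  have hhi : ∀ t, 1 ≤ t → fro (Hm κ Q t) ≤ (fro (Zm κ Q) + sN * C2) * t⁻¹ := by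
    intro t ht
    have ht0 : (0 : ℝ) < t := lt_of_lt_of_le one_pos ht
    have h1 : t * fro (Hm κ Q t) ≤ fro (Zm κ Q) + sN * C2 := by
      have e1 : fro (((t : ℝ) : ℂ) • Hm κ Q t) = t * fro (Hm κ Q t) := by
        rw [fro_smul]; simp [abs_of_pos ht0]
      rw [← e1]
      have e2 : ((t : ℝ) : ℂ) • Hm κ Q t = (((t : ℝ) : ℂ) • Hm κ Q t - Zm κ Q) + Zm κ Q := by abel
      rw [e2]
      refine (fro_add_le _ _).trans ?_
      have h2 := hhi0 t ht
      have h3 : t⁻¹ ≤ 1 := inv_le_one_of_one_le₀ ht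
      have h4 : 0 ≤ sN * C2 := by positivity
      nlinarith
    rw [← div_eq_mul_inv, le_div_iff₀ ht0]
    linarith
  have hr : ∀ t, rho κ Q t = - rtr (((t : ℝ) : ℂ) • Hm κ Q t - Zm κ Q) := by
    intro t
    unfold rho
    rw [rtr_sub, rtr_smul]
    ring
  refine ⟨sN * C1 + (fro (Zm κ Q) + sN * C2) + sN * (sN * C2) + |rtr (Zm κ Q)| +
    sN * (sN * C1), by positivity, ?_, ?_, ?_, ?_⟩
  · intro t ht ht1
    refine (hlo t ht ht1).trans ?_
    have : 0 ≤ 1 + |Real.log t| := by positivity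
    refine mul_le_mul_of_nonneg_right ?_ this
    have : 0 ≤ (fro (Zm κ Q) + sN * C2) + sN * (sN * C2) + |rtr (Zm κ Q)| +
      sN * (sN * C1) := by positivity
    linarith
  · intro t ht
    have ht0 : (0 : ℝ) < t := lt_of_lt_of_le one_pos ht
    refine (hhi t ht).trans ?_
    refine mul_le_mul_of_nonneg_right ?_ (inv_pos.2 ht0).le
    have : 0 ≤ sN * C1 + sN * (sN * C2) + |rtr (Zm κ Q)| + sN * (sN * C1) := by positivity
    linarith
  · intro t ht
    have ht0 : (0 : ℝ) < t := lt_of_lt_of_le one_pos ht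
    rw [hr, abs_neg]
    refine (abs_rtr_le _).trans ?_
    have h1 := hhi0 t ht
    have h2 := mul_le_mul_of_nonneg_left h1 hsN0
    refine h2.trans ?_
    rw [← mul_assoc]
    refine mul_le_mul_of_nonneg_right ?_ (inv_pos.2 ht0).le
    have : 0 ≤ sN * C1 + (fro (Zm κ Q) + sN * C2) + |rtr (Zm κ Q)| + sN * (sN * C1) := by
      positivity
    linarith
  · intro t ht ht1
    unfold rho
    have h1 : |rtr (Zm κ Q) - t * rtr (Hm κ Q t)| ≤
        |rtr (Zm κ Q)| + sN * (sN * C1) * (1 + |Real.log t|) := by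
      refine (abs_sub _ _).trans ?_
      refine add_le_add le_rfl ?_
      rw [abs_mul, abs_of_pos ht]
      have h2 := (abs_rtr_le (Hm κ Q t)).trans (mul_le_mul_of_nonneg_left (hlo t ht ht1) hsN0)
      have h3 : t * |rtr (Hm κ Q t)| ≤ 1 * |rtr (Hm κ Q t)| :=
        mul_le_mul_of_nonneg_right ht1 (abs_nonneg _)
      linarith
    refine h1.trans ?_
    have h4 : |rtr (Zm κ Q)| ≤ |rtr (Zm κ Q)| * (1 + |Real.log t|) :=
      le_mul_of_one_le_right (abs_nonneg _) (by linarith [abs_nonneg (Real.log t)])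
    have h5 : 0 ≤ (sN * C1 + (fro (Zm κ Q) + sN * C2) + sN * (sN * C2)) *
      (1 + |Real.log t|) := by positivity
    linarith

theorem continuousOn_rtr_mul {κ : Fin N → ℝ} (hκ : ∀ i, 0 < κ i) {Q : Mt N} (hQ : Btw κ Q)
    (Y : Mt N) : ContinuousOn (fun t => rtr (Hm κ Q t * Y)) (Set.Ioi 0) :=
  continuous_rtr.comp_continuousOn
    ((continuous_id.matrix_mul continuous_const).comp_continuousOn
      (continuousOn_Hm (fun i => (hκ i).le) hQ))

theorem continuousOn_rho {κ : Fin N → ℝ} (hκ : ∀ i, 0 < κ i) {Q : Mt N} (hQ : Btw κ Q) :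
    ContinuousOn (fun t => rho κ Q t) (Set.Ioi 0) := by
  unfold rho
  exact continuousOn_const.sub (continuousOn_id.mul
    (continuous_rtr.comp_continuousOn (continuousOn_Hm (fun i => (hκ i).le) hQ)))

end Crest.Agent.R332.YINT

namespace Crest.Agent.R332

open YINT

theorem yint : YDER → HBL → HBS → YINT := by
  intro hYDER hHBL hHBS s hs hs1 N κ hκ Q hQ
  obtain ⟨A, hA, hlo, hhi, hrhi, hrlo⟩ := exists_dec hHBL hHBS hκ hQ
  have decY : ∀ Y : Mt N, Dec (A * fro Y) (fun t => rtr (Hm κ Q t * Y)) := fun Y =>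
    { c := continuousOn_rtr_mul hκ hQ Y
      lo := fun t ht ht1 => by
        refine (abs_rtr_mul_le _ _).trans ?_
        have := mul_le_mul_of_nonneg_right (hlo t ht ht1) (fro_nonneg Y)
        linarith
      hi := fun t ht => by
        refine (abs_rtr_mul_le _ _).trans ?_
        have := mul_le_mul_of_nonneg_right (hhi t ht) (fro_nonneg Y)
        linarith }
  have decR : Dec A (fun t => rho κ Q t) :=
    { c := continuousOn_rho hκ hQ
      lo := hrlo
      hi := hrhi }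
  refine ⟨fun Y => (decY Y).int hs hs1, decR.int hs hs1, ?_⟩
  set Z := Zm κ Q with hZ
  have hF := hYDER N κ hκ Q hQ
  choose! y' hy' using hF
  have hyid : ∀ t : ℝ, rtr (Hm κ Q t * (Z + sc N t)) - rtr Z = rtr (Hm κ Q t * Z) - rho κ Q t := by
    intro t
    unfold rho
    rw [Matrix.mul_add, rtr_add, mul_sc, rtr_smul]
    ring
  have hnn := int_nonneg_of_deriv_le
    (F := fun t => t ^ s * (rtr (Hm κ Q t * (Z + sc N t)) - rtr Z))
    (F' := fun t => s * t ^ (s - 1) * (rtr (Hm κ Q t * (Z + sc N t)) - rtr Z) + t ^ s * y' t)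
    (g := fun t => s * (t ^ (s - 1) * rtr (Hm κ Q t * Z)) -
      (1 + s) * (t ^ (s - 1) * rho κ Q t)) ?_ ?_ ?_ ?_ ?_
  · rw [integral_sub (((decY Z).int hs hs1).const_mul s) ((decR.int hs hs1).const_mul (1 + s)),
      integral_const_mul, integral_const_mul] at hnn
    linarith
  · intro t ht
    exact (Real.hasDerivAt_rpow_const (Or.inl ht.ne')).mul ((hy' t ht).1.sub_const _)
  · intro t ht
    have h1 := (hy' t ht).2
    simp only [hyid]
    have h2 : t ^ s * y' t = t ^ (s - 1) * (t * y' t) := by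
      rw [Real.rpow_sub_one ht.ne']
      field_simp
    rw [h2]
    have h3 : 0 ≤ t ^ (s - 1) := Real.rpow_nonneg ht.le _
    nlinarith [mul_le_mul_of_nonneg_left h1 h3]
  · exact (((decY Z).int hs hs1).const_mul s).sub ((decR.int hs hs1).const_mul (1 + s))
  · simp only [hyid, mul_sub]
    simpa using ((decY Z).zero hs (mul_nonneg hA (fro_nonneg _))).sub (decR.zero hs hA)
  · simp only [hyid, mul_sub]
    simpa using ((decY Z).infty hs1).sub (decR.infty hs1)

end Crest.Agent.R332
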