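import Crest.Agent.R332.Defs

/-!
# R332, task YOUNG: the scalar Young inequality with remainder
-/

set_option autoImplicit false

namespace Crest.Agent.R332.YOUNG

theorem aux1 (q : ℝ) (hq : 2 ≤ q) (z h : ℝ) (hz : 0 ≤ z) (hh : 0 ≤ h) :
    h ^ q ≤ (z + h) ^ q - z ^ q - q * z ^ (q - 1) * h := by
  have hD : ∀ t : ℝ, HasDerivAt (fun t : ℝ => (z + t) ^ q - z ^ q - q * z ^ (q - 1) * t - t ^ q)
      (q * (z + t) ^ (q - 1) - q * z ^ (q - 1) - q * t ^ (q - 1)) t := by
    intro t
    have h1 : HasDerivAt (fun t : ℝ => (z + t) ^ q) (q * (z + t) ^ (q - 1)) t := by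
      have := (Real.hasDerivAt_rpow_const (x := z + t) (p := q) (Or.inr (by linarith))).comp t
        ((hasDerivAt_id t).const_add z)
      rw [mul_one] at this
      exact this
    have h2 : HasDerivAt (fun t : ℝ => t ^ q) (q * t ^ (q - 1)) t :=
      Real.hasDerivAt_rpow_const (Or.inr (by linarith))
    have h3 : HasDerivAt (fun t : ℝ => q * z ^ (q - 1) * t) (q * z ^ (q - 1)) t := by
      simpa using (hasDerivAt_id t).const_mul (q * z ^ (q - 1))
    exact ((h1.sub_const (z ^ q)).sub h3).sub h2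
  have hmono : MonotoneOn (fun t : ℝ => (z + t) ^ q - z ^ q - q * z ^ (q - 1) * t - t ^ q)
      (Set.Ici 0) := by
    apply monotoneOn_of_deriv_nonneg (convex_Ici 0)
    · exact fun t _ => (hD t).continuousAt.continuousWithinAt
    · exact fun t _ => (hD t).differentiableAt.differentiableWithinAt
    · intro t ht
      rw [interior_Ici] at ht
      rw [(hD t).deriv]
      have ht0 : 0 ≤ t := le_of_lt ht
      have := Real.add_rpow_le_rpow_add hz ht0 (p := q - 1) (by linarith)
      nlinarith
  have := hmono (Set.mem_Ici.2 le_rfl) (Set.mem_Ici.2 hh) hh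
  simp only [add_zero, sub_self, mul_zero, zero_sub] at this
  rw [Real.zero_rpow (by linarith)] at this
  linarith

theorem aux2 (q : ℝ) (hq : 2 ≤ q) (z h : ℝ) (hz : h ≤ z) (hh : 0 ≤ h) :
    h ^ q ≤ (z - h) ^ q - z ^ q + q * z ^ (q - 1) * h := by
  have hD : ∀ t : ℝ, HasDerivAt (fun t : ℝ => (z - t) ^ q - z ^ q + q * z ^ (q - 1) * t - t ^ q)
      (-(q * (z - t) ^ (q - 1)) + q * z ^ (q - 1) - q * t ^ (q - 1)) t := by
    intro t
    have h1 : HasDerivAt (fun t : ℝ => (z - t) ^ q) (-(q * (z - t) ^ (q - 1))) t := by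
      have := (Real.hasDerivAt_rpow_const (x := z - t) (p := q) (Or.inr (by linarith))).comp t
        ((hasDerivAt_id t).const_sub z)
      rw [mul_neg_one] at this
      exact this
    have h2 : HasDerivAt (fun t : ℝ => t ^ q) (q * t ^ (q - 1)) t :=
      Real.hasDerivAt_rpow_const (Or.inr (by linarith))
    have h3 : HasDerivAt (fun t : ℝ => q * z ^ (q - 1) * t) (q * z ^ (q - 1)) t := by
      simpa using (hasDerivAt_id t).const_mul (q * z ^ (q - 1))
    exact ((h1.sub_const (z ^ q)).add h3).sub h2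
  have hmono : MonotoneOn (fun t : ℝ => (z - t) ^ q - z ^ q + q * z ^ (q - 1) * t - t ^ q)
      (Set.Icc 0 z) := by
    apply monotoneOn_of_deriv_nonneg (convex_Icc 0 z)
    · exact fun t _ => (hD t).continuousAt.continuousWithinAt
    · exact fun t _ => (hD t).differentiableAt.differentiableWithinAt
    · intro t ht
      rw [interior_Icc] at ht
      rw [(hD t).deriv]
      have ht0 : 0 ≤ t := le_of_lt ht.1
      have ht1 : 0 ≤ z - t := by linarith [ht.2]
      have := Real.add_rpow_le_rpow_add ht1 ht0 (p := q - 1) (by linarith)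
      rw [sub_add_cancel] at this
      nlinarith
  have := hmono (Set.mem_Icc.2 ⟨le_rfl, hh.trans hz⟩) (Set.mem_Icc.2 ⟨hh, hz⟩) hh
  simp only [sub_zero, sub_self, mul_zero, add_zero, zero_sub] at this
  rw [Real.zero_rpow (by linarith)] at this
  linarith

theorem aux (q : ℝ) (hq : 2 ≤ q) (y z : ℝ) (hy : 0 ≤ y) (hz : 0 ≤ z) :
    |y - z| ^ q ≤ y ^ q - z ^ q - q * z ^ (q - 1) * (y - z) := by
  rcases le_total z y with h | h
  · rw [abs_of_nonneg (by linarith)]
    have := aux1 q hq z (y - z) hz (by linarith)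
    rw [add_sub_cancel] at this
    exact this
  · rw [abs_of_nonpos (by linarith)]
    have := aux2 q hq z (z - y) (by linarith) (by linarith)
    rw [sub_sub_cancel] at this
    have e : -(y - z) = z - y := by ring
    rw [e]
    linarith

end Crest.Agent.R332.YOUNG

namespace Crest.Agent.R332

theorem young : CONSTS → YOUNG := by
  intro hc s hs0 hs1
  obtain ⟨hC, hcY, -, -, -, hrel, -⟩ := hc s hs0 hs1
  refine ⟨cY s, hcY, ?_⟩
  intro w y hw hy
  set c := cY s with hcdef
  have hr1 : 1 < s⁻¹ := (one_lt_inv₀ hs0).2 hs1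
  set q := s⁻¹ + 1 with hqdef
  have hq : 2 ≤ q := by linarith
  have hcq : 0 < c * q := by positivity
  set u := w / (c * q) with hu
  have hu0 : 0 ≤ u := by positivity
  set z := u ^ s with hz
  have hz0 : 0 ≤ z := by positivity
  have hw' : w = c * q * u := by rw [hu]; field_simp
  have hzr : z ^ (q - 1) = u := by
    rw [hz, hqdef, add_sub_cancel_right, ← Real.rpow_mul hu0, mul_inv_cancel₀ hs0.ne',
      Real.rpow_one]
  have hzq : z ^ q = u ^ (1 + s) := by
    rw [hz, hqdef, ← Real.rpow_mul hu0]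
    congr 1
    field_simp
  have hCw : Cc s * w ^ (1 + s) = c * s⁻¹ * z ^ q := by
    rw [hw', Real.mul_rpow hcq.le hu0, hzq, hrel]
    ring
  have hmain := YOUNG.aux q hq y z hy hz0
  have hzz : u * z = z ^ q := by
    rw [← hzr, ← Real.rpow_add_one' hz0 (by linarith)]
    congr 1
    ring
  rw [hCw, hw']
  rw [hzr] at hmain
  have h2 : c * |y - z| ^ q ≤ c * (y ^ q - z ^ q - q * u * (y - z)) :=
    mul_le_mul_of_nonneg_left hmain hcY.le
  have h3 : c * (y ^ q - z ^ q - q * u * (y - z)) =
      c * y ^ q + c * s⁻¹ * z ^ q - c * q * u * y := by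
    have : q * u * z = q * z ^ q := by rw [mul_assoc, hzz]
    have e : c * (y ^ q - z ^ q - q * u * (y - z)) =
      c * y ^ q - c * z ^ q - c * q * u * y + c * (q * u * z) := by ring
    rw [e, this, hqdef]
    ring
  linarith

end Crest.Agent.R332
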