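import Crest.Agent.R332.LIBF
import Crest.Agent.R332.SPEC

/-! Trace Young inequality with remainder. -/

set_option autoImplicit false

open MeasureTheory Matrix Filter Topology
open Crest.MathPhysics.LiebThirring
open scoped ComplexOrder

namespace Crest.Agent.R332

namespace YOUNGMaux

theorem jensen {m : ℕ} (p d : Fin m → Fin m → ℝ) (hp0 : ∀ i j, 0 ≤ p i j)
    (hp1 : ∀ i, ∑ j, p i j = 1) (hd : ∀ i j, 0 ≤ d i j) {P : ℝ} (hP : 1 ≤ P) :
    (∑ i, ∑ j, p i j * d i j) ^ P ≤ ((m : ℝ) + 1) ^ P * ∑ i, ∑ j, p i j * d i j ^ P := by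
  rcases Nat.eq_zero_or_pos m with rfl | hm
  · simp [Real.zero_rpow (by linarith : P ≠ 0)]
  have hm' : (0 : ℝ) < m := by exact_mod_cast hm
  have hm1 : (1 : ℝ) ≤ m := by exact_mod_cast hm
  have h := Real.rpow_arith_mean_le_arith_mean_rpow (Finset.univ : Finset (Fin m × Fin m))
    (fun z => p z.1 z.2 / m) (fun z => d z.1 z.2) (fun z _ => div_nonneg (hp0 _ _) hm'.le)
    (by
      rw [← Finset.sum_div, Fintype.sum_prod_type]
      simp only [hp1]
      simp [hm'.ne']) (fun z _ => hd _ _) hP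
  rw [Fintype.sum_prod_type, Fintype.sum_prod_type] at h
  have e1 : ∑ i, ∑ j, p i j / m * d i j = (∑ i, ∑ j, p i j * d i j) / m := by
    simp only [Finset.sum_div]
    refine Finset.sum_congr rfl fun i _ => Finset.sum_congr rfl fun j _ => ?_
    ring
  have e2 : ∑ i, ∑ j, p i j / m * d i j ^ P = (∑ i, ∑ j, p i j * d i j ^ P) / m := by
    simp only [Finset.sum_div]
    refine Finset.sum_congr rfl fun i _ => Finset.sum_congr rfl fun j _ => ?_
    ring
  simp only at h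
  rw [e1, e2] at h
  set S := ∑ i, ∑ j, p i j * d i j with hS
  set T := ∑ i, ∑ j, p i j * d i j ^ P with hT
  have hS0 : 0 ≤ S := Finset.sum_nonneg fun i _ => Finset.sum_nonneg fun j _ =>
    mul_nonneg (hp0 i j) (hd i j)
  have hT0 : 0 ≤ T := Finset.sum_nonneg fun i _ => Finset.sum_nonneg fun j _ =>
    mul_nonneg (hp0 i j) (Real.rpow_nonneg (hd i j) _)
  rw [Real.div_rpow hS0 hm'.le, div_le_iff₀ (Real.rpow_pos_of_pos hm' _)] at h
  have h2 : T / m * (m : ℝ) ^ P ≤ T * ((m : ℝ) + 1) ^ P := by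
    have h3 : T / m ≤ T := div_le_self hT0 hm1
    have h4 : (m : ℝ) ^ P ≤ ((m : ℝ) + 1) ^ P :=
      Real.rpow_le_rpow hm'.le (by linarith) (by linarith)
    exact mul_le_mul h3 h4 (Real.rpow_nonneg hm'.le _) hT0
  linarith

end YOUNGMaux

open YOUNGMaux in
theorem youngm : YOUNG → SPEC → CONSTS → YOUNGM := by
  intro young spec consts s hs0 hs1 m
  obtain ⟨hCc, hcY, -, -, -, -, -⟩ := consts s hs0 hs1
  obtain ⟨c0, hc0, hy⟩ := young s hs0 hs1
  have hr : 1 < s⁻¹ := (one_lt_inv₀ hs0).2 hs1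
  set q : ℝ := s⁻¹ + 1 with hq
  have hP : 1 ≤ q / 2 := by rw [hq]; linarith
  have hM : (0 : ℝ) < ((m : ℝ) + 1) ^ (q / 2) := Real.rpow_pos_of_pos (by positivity) _
  refine ⟨c0 / ((m : ℝ) + 1) ^ (q / 2), div_pos hc0 hM, ?_⟩
  intro W R hW hR
  obtain ⟨p, hp0, hp1, hp2, hp⟩ := spec m W R hW.1 hR.1
  set ρ : ℝ → ℝ := fun w => (w / (cY s * (s⁻¹ + 1))) ^ s with hρ
  have hRW : RW s W = cfc ρ W := rfl
  set w := hW.1.eigenvalues with hw
  set y := hR.1.eigenvalues with hyy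
  have hw0 : ∀ i, 0 ≤ w i := hW.eigenvalues_nonneg
  have hy0 : ∀ i, 0 ≤ y i := hR.eigenvalues_nonneg
  have e1 : rtr (W * R) = ∑ i, ∑ j, p i j * (w i * y j) := by
    have h := hp (fun x => x) (fun x => x)
    rwa [cfc_id_mt hW.1, cfc_id_mt hR.1] at h
  have e2 : tracePow W (1 + s) = ∑ i, ∑ j, p i j * (w i ^ (1 + s) * 1) := by
    have h := hp (fun x => x ^ (1 + s)) (fun _ => 1)
    rw [cfc_const_mt hR.1, sc_one, Matrix.mul_one] at h
    exact h
  have e3 : tracePow R q = ∑ i, ∑ j, p i j * (1 * y j ^ q) := by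
    have h := hp (fun _ => 1) (fun x => x ^ q)
    rw [cfc_const_mt hW.1, sc_one, Matrix.one_mul] at h
    exact h
  have e4 : fro2 (R - RW s W) = ∑ i, ∑ j, p i j * (y j - ρ (w i)) ^ 2 := by
    rw [hRW, fro2_sub, fro2_eq, fro2_eq, hR.1, cfc_isHermitian' W ρ]
    have f1 : rtr (R * R) = ∑ i, ∑ j, p i j * (1 * (y j * y j)) := by
      have h := hp (fun _ => 1) (fun x => x * x)
      rw [cfc_const_mt hW.1, sc_one, Matrix.one_mul, ← cfc_mul_mt hR.1, cfc_id_mt hR.1] at h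
      exact h
    have f2 : rtr (R * cfc ρ W) = ∑ i, ∑ j, p i j * (ρ (w i) * y j) := by
      have h := hp ρ (fun x => x)
      rw [cfc_id_mt hR.1, rtr_mul_comm] at h
      exact h
    have f3 : rtr (cfc ρ W * cfc ρ W) = ∑ i, ∑ j, p i j * ((ρ (w i) * ρ (w i)) * 1) := by
      have h := hp (fun x => ρ x * ρ x) (fun _ => 1)
      rw [cfc_const_mt hR.1, sc_one, Matrix.mul_one, ← cfc_mul_mt hW.1] at h
      exact h
    rw [f1, f2, f3, Finset.mul_sum, ← Finset.sum_sub_distrib, ← Finset.sum_add_distrib]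
    refine Finset.sum_congr rfl fun i _ => ?_
    rw [Finset.mul_sum, ← Finset.sum_sub_distrib, ← Finset.sum_add_distrib]
    refine Finset.sum_congr rfl fun j _ => ?_
    ring
  have e5 : fro (R - RW s W) ^ q = (fro2 (R - RW s W)) ^ (q / 2) := by
    unfold fro
    rw [Real.sqrt_eq_rpow, ← Real.rpow_mul (fro2_nonneg _)]
    congr 1; ring
  have e6 : ∀ a : ℝ, (a ^ 2) ^ (q / 2) = |a| ^ q := by
    intro a
    rw [← sq_abs, ← Real.rpow_natCast, ← Real.rpow_mul (abs_nonneg a)]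
    congr 1; push_cast; ring
  have hj := jensen p (fun i j => (y j - ρ (w i)) ^ 2) hp0 hp1 (fun i j => sq_nonneg _) hP
  simp only [e6] at hj
  rw [← e4, ← e5] at hj
  have h7 : c0 / ((m : ℝ) + 1) ^ (q / 2) * fro (R - RW s W) ^ q ≤
      ∑ i, ∑ j, p i j * (c0 * |y j - ρ (w i)| ^ q) := by
    have e7 : ∑ i, ∑ j, p i j * (c0 * |y j - ρ (w i)| ^ q) =
        c0 * ∑ i, ∑ j, p i j * |y j - ρ (w i)| ^ q := by
      simp only [Finset.mul_sum]
      refine Finset.sum_congr rfl fun i _ => Finset.sum_congr rfl fun j _ => ?_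
      ring
    rw [e7, div_mul_eq_mul_div, div_le_iff₀ hM]
    nlinarith [mul_le_mul_of_nonneg_left hj hc0.le]
  have h8 : (∑ i, ∑ j, p i j * (c0 * |y j - ρ (w i)| ^ q)) + rtr (W * R) ≤
      Cc s * tracePow W (1 + s) + cY s * tracePow R q := by
    rw [e1, e2, e3, Finset.mul_sum, Finset.mul_sum, ← Finset.sum_add_distrib,
      ← Finset.sum_add_distrib]
    refine Finset.sum_le_sum fun i _ => ?_
    rw [Finset.mul_sum, Finset.mul_sum, ← Finset.sum_add_distrib, ← Finset.sum_add_distrib]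
    refine Finset.sum_le_sum fun j _ => ?_
    have h := mul_le_mul_of_nonneg_left (hy (w i) (y j) (hw0 i) (hy0 j)) (hp0 i j)
    calc p i j * (c0 * |y j - ρ (w i)| ^ q) + p i j * (w i * y j)
        = p i j * (c0 * |y j - ρ (w i)| ^ q + w i * y j) := by ring
      _ ≤ p i j * (Cc s * w i ^ (1 + s) + cY s * y j ^ q) := h
      _ = _ := by ring
  linarith

end Crest.Agent.R332
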