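import Crest.Agent.R332.Defs
import Crest.Agent.R332.LIBF
import Crest.Agent.R332.LIBC
import Crest.Agent.R332.LIBD

set_option autoImplicit false

open MeasureTheory Matrix Filter Topology
open Crest.MathPhysics.LiebThirring
open scoped ComplexOrder

namespace Crest.Agent.R332

namespace YSI

theorem mul_conjT_psd {m N : ℕ} (X : Rc m N) : (X * Xᴴ).PosSemidef :=
  Matrix.posSemidef_self_mul_conjTranspose X

theorem measurable_rtr_mul {m : ℕ} {W R : ℝ → Mt m}
    (hW : ∀ i j, Measurable fun x => W x i j) (hR : ∀ i j, Measurable fun x => R x i j) :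
    Measurable fun x => rtr (W x * R x) := by
  have h : (fun x => rtr (W x * R x)) = fun x => (∑ i, ∑ j, W x i j * R x j i).re := by
    funext x
    unfold rtr Matrix.trace
    simp only [Matrix.diag_apply, Matrix.mul_apply]
  rw [h]
  refine Complex.measurable_re.comp ?_
  refine Finset.measurable_sum _ fun i _ => Finset.measurable_sum _ fun j _ => ?_
  exact (hW i j).mul (hR j i)

end YSI

theorem ysi : YOUNGM → CFCC → YSI := by
  intro hY hC s hs hs1 m W hWm hWp hWi N X l hX hX0
  obtain ⟨c', hc', hyoung⟩ := hY s hs hs1 m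
  have hr : 0 < s⁻¹ := inv_pos.2 hs
  have hp : 0 < s⁻¹ + 1 := by positivity
  have hR : ∀ x, (X x * (X x)ᴴ).PosSemidef := fun x => YSI.mul_conjT_psd _
  have cR : Continuous fun x => X x * (X x)ᴴ :=
    Continuous.matrix_mul hX (Continuous.matrix_conjTranspose hX)
  -- first
  have c1 : Continuous fun x => tracePow (X x * (X x)ᴴ) (s⁻¹ + 1) := by
    have h1 : ContinuousOn (fun A : Mt m => rtr (cfc (fun t : ℝ => t ^ (s⁻¹ + 1)) A))
        {A | A.IsHermitian} :=
      continuous_rtr.comp_continuousOn (hC m _ (Real.continuous_rpow_const hp.le))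
    exact h1.comp_continuous cR fun x => (hR x).1
  have z1 : ∀ x, x ∉ Set.Icc (-l) l → tracePow (X x * (X x)ᴴ) (s⁻¹ + 1) = 0 := by
    intro x hx
    have hxl : l ≤ |x| := by
      by_contra h
      exact hx (abs_le.1 (not_le.1 h).le)
    rw [hX0 x hxl, Matrix.zero_mul]
    unfold tracePow
    rw [cfc_apply_zero]
    rw [Real.zero_rpow hp.ne']
    simp
  have i1 : Integrable (fun x => tracePow (X x * (X x)ᴴ) (s⁻¹ + 1)) :=
    c1.integrable_of_hasCompactSupport (HasCompactSupport.intro isCompact_Icc z1)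
  have hsl : ∀ x, 0 ≤ YSf s W X x := by
    intro x
    have h := hyoung (W x) (X x * (X x)ᴴ) (hWp x) (hR x)
    have h2 : 0 ≤ c' * fro (X x * (X x)ᴴ - RW s (W x)) ^ (s⁻¹ + 1) :=
      mul_nonneg hc'.le (Real.rpow_nonneg (fro_nonneg _) _)
    unfold YSf
    linarith
  have m2 : Measurable (fun x => rtr (W x * (X x * (X x)ᴴ))) :=
    YSI.measurable_rtr_mul hWm fun i j => ((cR.matrix_elem i j).measurable)
  have i2 : Integrable (fun x => rtr (W x * (X x * (X x)ᴴ))) := by
    refine Integrable.mono' ((hWi.const_mul (Cc s)).add (i1.const_mul (cY s)))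
      m2.aestronglyMeasurable (Eventually.of_forall fun x => ?_)
    rw [Real.norm_eq_abs, abs_of_nonneg (rtr_mul_nonneg (hWp x) (hR x))]
    have := hsl x
    unfold YSf at this
    simp only [Pi.add_apply]
    linarith
  refine ⟨i1, i2, ?_, hsl⟩
  exact ((hWi.const_mul (Cc s)).add (i1.const_mul (cY s))).sub i2

end Crest.Agent.R332
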