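import Crest.Agent.R332.Assembly
import Crest.Agent.R332.SPEC
import Crest.Agent.R332.GTL
import Crest.Agent.R332.STAR
import Crest.Agent.R332.DLOG
import Crest.Agent.R332.I1P
import Crest.Agent.R332.YDER
import Crest.Agent.R332.HBL
import Crest.Agent.R332.HBS
import Crest.Agent.R332.HBE
import Crest.Agent.R332.YINT
import Crest.Agent.R332.GINT
import Crest.Agent.R332.PWI
import Crest.Agent.R332.PATH
import Crest.Agent.R332.TINT
import Crest.Agent.R332.TLT
import Crest.Agent.R332.POS
import Crest.Agent.R332.EX
import Crest.Agent.R332.CONSTS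
import Crest.Agent.R332.YOUNG
import Crest.Agent.R332.YOUNGM
import Crest.Agent.R332.TRX
import Crest.Agent.R332.WGT
import Crest.Agent.R332.RED
import Crest.Agent.R332.KIN
import Crest.Agent.R332.CFG
import Crest.Agent.R332.YSI
import Crest.Agent.R332.MAIN
import Crest.Agent.R332.TLTC
import Crest.Agent.R332.SOLC
import Crest.Agent.R332.SOLT
import Crest.Agent.R332.SUFF
import Crest.Agent.R332.YCV
import Crest.Agent.R332.CMM
import Crest.Agent.R332.XIZ
import Crest.Agent.R332.TAILB
import Crest.Agent.R332.NONST
import Crest.Agent.R332.QLIM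
import Crest.Agent.R332.XLIM
import Crest.Agent.R332.SUBS
import Crest.Agent.R332.BLK
import Crest.Agent.R332.FINAL
import Crest.Agent.R332.RIGA

set_option autoImplicit false

namespace Crest.Agent.R332

theorem star_all : STAR := star_ gtl spec
theorem hbe_all : HBE := hbe hbl
theorem yint_all : YINT := yint (yder dlog i1p) hbl hbs
theorem tlt_all : TLT :=
  tlt (pwi yint_all gint) path_ (tint gint) gint lgc cfcc hbl hbs star_all
theorem ysi_all : YSI := ysi (youngm (young consts) spec consts) cfcc
theorem main_all : MAIN :=
  main_ red (wgt spec cfcc) (cfg (ex pos cfcc) consts cfcc) kin trx consts ysi_all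
theorem tltc_all : TLTC := tltc tlt_all star_all consts cfcc lgc
theorem suff_all : SUFF := suff (solc consts) solt
theorem ycv_all : YCV := ycv (youngm (young consts) spec consts) ysi_all cfcc
theorem blk_all : BLK :=
  blk_ (cmm tltc_all star_all consts) (xiz tltc_all star_all hbe_all consts trx) nonst qlim xlim
    trx consts cfcc
theorem rig_all : RIG :=
  rig (subs ycv_all tltc_all trx consts ysi_all) blk_all (final consts trx)
    (tailb tltc_all star_all hbe_all consts) ysi_all tltc_all

end Crest.Agent.R332
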