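import Crest.Agent.R332.Defs
import Crest.Agent.R332.LIBD

set_option autoImplicit false

open MeasureTheory Matrix Filter Topology
open Crest.MathPhysics.LiebThirring
open scoped ComplexOrder

namespace Crest.Agent.R332

theorem s0515_of (hM : MAIN) (hT : TLTC) (hY : YSI)
    (γ : ℝ) (hγ : 1 / 2 < γ) (hγ' : γ < 3 / 2) (m : ℕ)
    (W : ℝ → Matrix (Fin m) (Fin m) ℂ) (hW : ∀ i j, Measurable fun x => W x i j)
    (hWp : ∀ x, (W x).PosSemidef)
    (hWi : Integrable fun x => tracePow (W x) (γ + 1 / 2))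
    (n : ℕ) (φ : Fin n → ℝ → Vec m) (hφ : IsTrialFamily φ) :
    negMoment (energyMatrix W φ) γ ≤ sharpConst γ * ∫ x, tracePow (W x) (γ + 1 / 2) := by
  set s : ℝ := γ - 1 / 2 with hs
  have hs0 : 0 < s := by rw [hs]; linarith
  have hs1 : s < 1 := by rw [hs]; linarith
  have e1 : γ + 1 / 2 = 1 + s := by rw [hs]; ring
  have e2 : s + 1 / 2 = γ := by rw [hs]; ring
  rw [e1] at hWi ⊢
  have hC : sharpConst γ = Cc s := by unfold Cc; rw [e2]
  rw [hC]
  refine le_of_forall_pos_le_add fun δ hδ => ?_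
  obtain ⟨N, κ, X, X', Q, l, hcfg, hle⟩ := hM s hs0 hs1 m W hW hWp hWi n φ hφ δ hδ
  obtain ⟨C, hC0, hT'⟩ := hT s hs0 hs1 1 one_pos
  have hTS := (hT' m N κ X X' Q l hcfg).1
  have hXc : Continuous X := cont_of_deriv hcfg.dX
  have hYS := hY s hs0 hs1 m W hW hWp hWi N X l hXc (fun x hx => (hcfg.X0 x hx).1)
  have h1 : 0 ≤ YS s W X := integral_nonneg hYS.2.2.2
  have h2 : 0 ≤ KS X X' Q := by
    refine integral_nonneg fun x => ?_
    unfold fro2
    positivity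
  have hCc : 0 ≤ Cc s := by
    unfold Cc sharpConst
    have : 0 < Real.Gamma (s + 1 / 2 + 1) := Real.Gamma_pos_of_pos (by linarith)
    have : 0 < Real.Gamma (s + 1 / 2 + 3 / 2) := Real.Gamma_pos_of_pos (by linarith)
    have h3 : 0 < s + 1 / 2 - 1 / 2 := by linarith
    positivity
  rw [e2] at hle
  nlinarith [mul_nonneg hCc hTS]

theorem s0516_of (hM : MAIN) (hT : TLTC) (hY : YSI) (hS : SUFF) (hR : RIG)
    (γ : ℝ) (hγ : 1 / 2 < γ) (hγ' : γ < 3 / 2) (m : ℕ)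
    (W : ℝ → Matrix (Fin m) (Fin m) ℂ) (hW : ∀ i j, Measurable fun x => W x i j)
    (hWp : ∀ x, (W x).PosSemidef)
    (hWi : Integrable fun x => tracePow (W x) (γ + 1 / 2)) :
    (∀ ε : ℝ, 0 < ε → ∃ (n : ℕ) (φ : Fin n → ℝ → Vec m), IsTrialFamily φ ∧
        sharpConst γ * (∫ x, tracePow (W x) (γ + 1 / 2)) - ε < negMoment (energyMatrix W φ) γ) ↔
      ∃ (U : Matrix.unitaryGroup (Fin m) ℂ) (a c : Fin m → ℝ), (∀ i, 0 ≤ a i) ∧
        ∀ᵐ x : ℝ, W x = (U : Matrix (Fin m) (Fin m) ℂ) *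
          Matrix.diagonal (fun i => ((soliton (γ - 1 / 2)⁻¹ (a i) (c i) x : ℝ) : ℂ)) *
            star (U : Matrix (Fin m) (Fin m) ℂ) := by
  set s : ℝ := γ - 1 / 2 with hs
  have hs0 : 0 < s := by rw [hs]; linarith
  have hs1 : s < 1 := by rw [hs]; linarith
  have e1 : γ + 1 / 2 = 1 + s := by rw [hs]; ring
  have e2 : s + 1 / 2 = γ := by rw [hs]; ring
  rw [e1] at hWi ⊢
  have hC : sharpConst γ = Cc s := by unfold Cc; rw [e2]
  rw [hC]
  constructor
  · intro h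
    refine hR s hs0 hs1 m W ⟨hW, hWp, hWi⟩ fun ε hε => ?_
    have hCc : 0 < Cc s := by
      unfold Cc sharpConst
      have : 0 < Real.Gamma (s + 1 / 2 + 1) := Real.Gamma_pos_of_pos (by linarith)
      have : 0 < Real.Gamma (s + 1 / 2 + 3 / 2) := Real.Gamma_pos_of_pos (by linarith)
      have h3 : 0 < s + 1 / 2 - 1 / 2 := by linarith
      positivity
    set η : ℝ := min ε (Cc s * ε) / 2 with hη
    have hη0 : 0 < η := by
      rw [hη]
      have := mul_pos hCc hε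
      exact half_pos (lt_min hε this)
    obtain ⟨n, φ, hφ, hlt⟩ := h η hη0
    obtain ⟨N, κ, X, X', Q, l, hcfg, hle⟩ := hM s hs0 hs1 m W hW hWp hWi n φ hφ η hη0
    obtain ⟨C, hC0, hT'⟩ := hT s hs0 hs1 1 one_pos
    have hTS := (hT' m N κ X X' Q l hcfg).1
    have hXc : Continuous X := cont_of_deriv hcfg.dX
    have hYS := hY s hs0 hs1 m W hW hWp hWi N X l hXc (fun x hx => (hcfg.X0 x hx).1)
    have h1 : 0 ≤ YS s W X := integral_nonneg hYS.2.2.2
    have h2 : 0 ≤ KS X X' Q := by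
      refine integral_nonneg fun x => ?_
      unfold fro2
      positivity
    have h3 : 0 ≤ Cc s * TS s κ X := mul_nonneg hCc.le hTS
    rw [e2] at hle
    have h4 : YS s W X + KS X X' Q + Cc s * TS s κ X ≤ min ε (Cc s * ε) := by
      rw [hη] at hlt hle; linarith
    refine ⟨N, κ, X, X', Q, l, hcfg, ?_, ?_, ?_⟩
    · linarith [min_le_left ε (Cc s * ε)]
    · linarith [min_le_left ε (Cc s * ε)]
    · have h5 : Cc s * TS s κ X ≤ Cc s * ε := by linarith [min_le_right ε (Cc s * ε)]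
      exact le_of_mul_le_mul_left h5 hCc
  · intro h ε hε
    obtain ⟨n, φ, hφ, hlt⟩ := hS s hs0 hs1 m W h ε hε
    rw [e2] at hlt
    exact ⟨n, φ, hφ, hlt⟩

end Crest.Agent.R332
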