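import Crest.Agent.R332.LIBK

/-! Compression to the first `J` coordinates. -/

set_option autoImplicit false

open MeasureTheory Matrix Filter Topology
open Crest.MathPhysics.LiebThirring
open scoped ComplexOrder

namespace Crest.Agent.R332

namespace BLKa

variable {m N J : ℕ}

/-- inclusion matrix -/
def inc (N J : ℕ) : Rc N J := fun i j => if (i : ℕ) = (j : ℕ) then 1 else 0

theorem cblk_eq (X : Rc m N) : cblk J X = X * inc N J := by
  ext a j
  unfold cblk inc
  rw [Matrix.mul_apply]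
  by_cases h : (j : ℕ) < N
  · rw [dif_pos h, Finset.sum_eq_single ⟨(j : ℕ), h⟩]
    · simp
    · intro b _ hb
      have : (b : ℕ) ≠ (j : ℕ) := fun h2 => hb (Fin.ext h2)
      simp [this]
    · simp
  · rw [dif_neg h, Finset.sum_eq_zero]
    intro b _
    have : (b : ℕ) ≠ (j : ℕ) := fun h2 => h (h2 ▸ b.2)
    simp [this]

theorem cblk_H (A : Rc N m) : (cblk J Aᴴ)ᴴ = (inc N J)ᴴ * A := by
  rw [cblk_eq, Matrix.conjTranspose_mul, Matrix.conjTranspose_conjTranspose]

theorem blk_eq (A : Mt N) : blk J A = (inc N J)ᴴ * A * inc N J := by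
  have h1 : (inc N J)ᴴ * A * inc N J = cblk J ((cblk J Aᴴ)ᴴ) := by
    rw [cblk_eq, cblk_H]
  rw [h1]
  ext i j
  have h2 : cblk J ((cblk J Aᴴ)ᴴ) i j =
      if h : (j : ℕ) < N then ((cblk J Aᴴ)ᴴ) i ⟨(j : ℕ), h⟩ else 0 := rfl
  have h3 : ∀ l : Fin N, ((cblk J Aᴴ)ᴴ) i l =
      if h : (i : ℕ) < N then A ⟨(i : ℕ), h⟩ l else 0 := by
    intro l
    rw [Matrix.conjTranspose_apply]
    have h4 : cblk J Aᴴ l i = if h : (i : ℕ) < N then Aᴴ l ⟨(i : ℕ), h⟩ else 0 := rfl
    rw [h4]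
    split_ifs with h
    · rw [Matrix.conjTranspose_apply, star_star]
    · exact star_zero _
  rw [h2]
  have h5 : blk J A i j =
    if h : (i : ℕ) < N ∧ (j : ℕ) < N then A ⟨i, h.1⟩ ⟨j, h.2⟩ else 0 := rfl
  rw [h5]
  by_cases h : (i : ℕ) < N <;> by_cases h' : (j : ℕ) < N
  · rw [dif_pos ⟨h, h'⟩, dif_pos h', h3, dif_pos h]
  · rw [dif_neg (fun hh => h' hh.2), dif_neg h']
  · rw [dif_neg (fun hh => h hh.1), dif_pos h', h3, dif_neg h]
  · rw [dif_neg (fun hh => h hh.1), dif_neg h']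

/-- the projection onto the first `J` coordinates -/
theorem inc_mul_H : inc N J * (inc N J)ᴴ =
    Matrix.diagonal (fun i : Fin N => if (i : ℕ) < J then (1 : ℂ) else 0) := by
  ext i j
  rw [Matrix.mul_apply, Matrix.diagonal_apply]
  simp only [Matrix.conjTranspose_apply, inc]
  by_cases hi : (i : ℕ) < J
  · rw [Finset.sum_eq_single ⟨(i : ℕ), hi⟩]
    · by_cases hij : i = j
      · subst hij; simp [hi]
      · have : (j : ℕ) ≠ (i : ℕ) := fun h => hij (Fin.ext h.symm)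
        simp [hij, this]
    · intro b _ hb
      have : (i : ℕ) ≠ (b : ℕ) := fun h2 => hb (Fin.ext h2.symm)
      simp [this]
    · simp
  · rw [Finset.sum_eq_zero]
    · by_cases hij : i = j <;> simp [hij]
      subst hij; exact not_lt.1 hi
    · intro b _
      have : (i : ℕ) ≠ (b : ℕ) := fun h2 => hi (h2 ▸ b.2)
      simp [this]

theorem inc_H_mul : (inc N J)ᴴ * inc N J =
    Matrix.diagonal (fun i : Fin J => if (i : ℕ) < N then (1 : ℂ) else 0) := by
  ext i j
  rw [Matrix.mul_apply, Matrix.diagonal_apply]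
  simp only [Matrix.conjTranspose_apply, inc]
  by_cases hi : (i : ℕ) < N
  · rw [Finset.sum_eq_single ⟨(i : ℕ), hi⟩]
    · by_cases hij : i = j
      · subst hij; simp [hi]
      · have : (i : ℕ) ≠ (j : ℕ) := fun h => hij (Fin.ext h)
        simp [hij, this]
    · intro b _ hb
      have : (b : ℕ) ≠ (i : ℕ) := fun h2 => hb (Fin.ext h2)
      simp [this]
    · simp
  · rw [Finset.sum_eq_zero]
    · by_cases hij : i = j <;> simp [hij]
      subst hij; exact not_lt.1 hi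
    · intro b _
      have : (b : ℕ) ≠ (i : ℕ) := fun h2 => hi (h2 ▸ b.2)
      simp [this]

/-- complementary projection -/
def cop (N J : ℕ) : Mt N := 1 - inc N J * (inc N J)ᴴ

theorem cop_eq : cop N J =
    Matrix.diagonal (fun i : Fin N => if (i : ℕ) < J then (0 : ℂ) else 1) := by
  unfold cop
  rw [inc_mul_H, ← Matrix.diagonal_one, Matrix.diagonal_sub]
  congr 1
  ext i
  split_ifs <;> simp

theorem cop_H : (cop N J)ᴴ = cop N J := by
  rw [cop_eq, Matrix.diagonal_conjTranspose]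
  congr 1
  ext i
  by_cases h : (i : ℕ) < J <;> simp [h]

theorem cop_sq : cop N J * cop N J = cop N J := by
  rw [cop_eq, Matrix.diagonal_mul_diagonal]
  congr 1
  ext i
  by_cases h : (i : ℕ) < J <;> simp [h]

/-- the off-diagonal block -/
def off (J : ℕ) (Q : Mt N) : Rc N J := cop N J * Q * inc N J

theorem off_apply (Q : Mt N) (i : Fin N) (j : Fin J) : off J Q i j =
    if h : (j : ℕ) < N then (if (i : ℕ) < J then 0 else Q i ⟨j, h⟩) else 0 := by
  unfold off
  rw [← cblk_eq, cop_eq]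
  unfold cblk
  split_ifs with h h2 <;> simp [Matrix.diagonal_mul, *]

theorem blk_mul_self {Q : Mt N} (hQ : Q.IsHermitian) :
    blk J (Q * Q) = blk J Q * blk J Q + (off J Q)ᴴ * off J Q := by
  have h1 : (off J Q)ᴴ * off J Q = (inc N J)ᴴ * Q * cop N J * Q * inc N J := by
    unfold off
    rw [Matrix.conjTranspose_mul, Matrix.conjTranspose_mul, cop_H, hQ]
    calc (inc N J)ᴴ * (Q * cop N J) * (cop N J * Q * inc N J) =
        (inc N J)ᴴ * Q * (cop N J * cop N J) * Q * inc N J := by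
          simp only [Matrix.mul_assoc]
      _ = _ := by rw [cop_sq]
  rw [h1, blk_eq, blk_eq]
  unfold cop
  rw [Matrix.mul_sub, Matrix.mul_one, Matrix.sub_mul, Matrix.sub_mul]
  simp only [Matrix.mul_assoc]
  abel

theorem blk_sub (A B : Mt N) : blk J (A - B) = blk J A - blk J B := by
  rw [blk_eq, blk_eq, blk_eq, Matrix.mul_sub, Matrix.sub_mul]
theorem blk_add (A B : Mt N) : blk J (A + B) = blk J A + blk J B := by
  rw [blk_eq, blk_eq, blk_eq, Matrix.mul_add, Matrix.add_mul]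
theorem blk_smul (c : ℂ) (A : Mt N) : blk J (c • A) = c • blk J A := by
  rw [blk_eq, blk_eq, Matrix.mul_smul, Matrix.smul_mul]
theorem blk_neg (A : Mt N) : blk J (-A) = - blk J A := by
  rw [blk_eq, blk_eq, Matrix.mul_neg, Matrix.neg_mul]

theorem blk_psd {A : Mt N} (hA : A.PosSemidef) : (blk J A).PosSemidef := by
  rw [blk_eq]; exact hA.conjTranspose_mul_mul_same _
theorem blk_herm {A : Mt N} (hA : A.IsHermitian) : (blk J A).IsHermitian := by
  rw [blk_eq]
  unfold Matrix.IsHermitian at *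
  rw [Matrix.conjTranspose_mul, Matrix.conjTranspose_mul, Matrix.conjTranspose_conjTranspose, hA,
    Matrix.mul_assoc]

theorem blk_dg (κ : Fin N → ℝ) : blk J (dg κ) = dg (fun i : Fin J => kap κ i) := by
  ext i j
  unfold blk dg kap
  rw [Matrix.diagonal_apply]
  by_cases hij : i = j
  · subst hij
    by_cases h : (i : ℕ) < N <;> simp [h]
  · rw [if_neg hij]
    split_ifs with h
    · rw [Matrix.diagonal_apply_ne]
      intro h2
      exact hij (Fin.ext (by simpa using h2))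
    · rfl

theorem kap_mul (κ : Fin N → ℝ) (i : ℕ) : kap (fun i => κ i * κ i) i = kap κ i * kap κ i := by
  unfold kap
  split_ifs <;> simp

theorem blk_dg_sq (κ : Fin N → ℝ) : blk J (dg κ * dg κ) =
    dg (fun i : Fin J => kap κ i) * dg (fun i : Fin J => kap κ i) := by
  rw [dg_mul, blk_dg, dg_mul]
  simp only [kap_mul]

theorem blk_Zm (κ : Fin N → ℝ) {Q : Mt N} (hQ : Q.IsHermitian) : blk J (Zm κ Q) =
    dg (fun i : Fin J => kap κ i) * dg (fun i : Fin J => kap κ i) - blk J Q * blk J Q -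
      (off J Q)ᴴ * off J Q := by
  unfold Zm
  rw [blk_sub, blk_dg_sq, blk_mul_self hQ]
  abel

theorem blk_btw {κ : Fin N → ℝ} {Q : Mt N} (h : Btw κ Q) :
    Btw (fun i : Fin J => kap κ i) (blk J Q) := by
  refine ⟨blk_herm h.1, ?_, ?_⟩
  · rw [← blk_dg, ← blk_add]; exact blk_psd h.2.1
  · rw [← blk_dg, ← blk_sub]; exact blk_psd h.2.2

theorem kap_nonneg {κ : Fin N → ℝ} (h : ∀ i, 0 ≤ κ i) (i : ℕ) : 0 ≤ kap κ i := by
  unfold kap; split_ifs
  · exact h _
  · exact le_rfl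
theorem kap_le {κ : Fin N → ℝ} {K : ℝ} (hK : 0 ≤ K) (h : ∀ i, κ i ≤ K) (i : ℕ) :
    kap κ i ≤ K := by
  unfold kap; split_ifs
  · exact h _
  · exact hK
theorem kap_eq (κ : Fin N → ℝ) (i : Fin N) : kap κ (i : ℕ) = κ i := by
  unfold kap; simp
theorem kap_antitone {κ : Fin N → ℝ} (h : ∀ i, 0 ≤ κ i) (ha : Antitone κ) :
    Antitone (kap κ) := by
  intro i j hij
  unfold kap
  by_cases hj : j < N
  · have hi : i < N := lt_of_le_of_lt hij hj
    rw [dif_pos hj, dif_pos hi]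
    exact ha (by simpa using hij)
  · rw [dif_neg hj]
    split_ifs
    · exact h _
    · exact le_rfl

/-- Frobenius norm of columns of a contraction -/
theorem fro2_mul_inc_le {K : ℕ} (A : Rc K N) : fro2 (A * inc N J) ≤ fro2 A := by
  have h : (sc N 1 - inc N J * (inc N J)ᴴ).PosSemidef := by
    rw [sc_one]
    have : (1 : Mt N) - inc N J * (inc N J)ᴴ = cop N J := rfl
    rw [this, ← cop_sq]
    nth_rw 1 [← cop_H]
    exact Matrix.posSemidef_conjTranspose_mul_self _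
  have := fro2_mul_le_of_le' h A
  linarith

theorem fro_mul_inc_le {K : ℕ} (A : Rc K N) : fro (A * inc N J) ≤ fro A :=
  Real.sqrt_le_sqrt (fro2_mul_inc_le A)

theorem fro_inc_H_mul_le {K : ℕ} (A : Rc N K) : fro ((inc N J)ᴴ * A) ≤ fro A := by
  have := fro_mul_inc_le (J := J) Aᴴ
  rwa [← fro_conjTranspose, Matrix.conjTranspose_mul, Matrix.conjTranspose_conjTranspose,
    fro_conjTranspose] at this

theorem fro_blk_le (A : Mt N) : fro (blk J A) ≤ fro A := by
  rw [blk_eq]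
  exact (fro_mul_inc_le _).trans (fro_inc_H_mul_le _)

theorem fro_cblk_le (A : Rc m N) : fro (cblk J A) ≤ fro A := by
  rw [cblk_eq]; exact fro_mul_inc_le _

theorem fro_offH_off_le (Q : Mt N) : fro ((off J Q)ᴴ * off J Q) ≤ fro2 (off J Q) := by
  refine (fro_mul_le _ _).trans (le_of_eq ?_)
  rw [fro_conjTranspose, ← sq, sq_fro]

/-- kinetic decomposition -/
theorem cblk_kin (X X' : Rc m N) (Q : Mt N) :
    cblk J X' + cblk J X * blk J Q = cblk J (X' + X * Q) - X * off J Q := by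
  rw [cblk_eq, cblk_eq, cblk_eq, blk_eq]
  unfold off cop
  rw [Matrix.add_mul, Matrix.sub_mul, Matrix.one_mul, Matrix.sub_mul, Matrix.mul_sub]
  simp only [Matrix.mul_assoc]
  abel

/-- sum formula for `fro2 (off J Q)` -/
theorem fro2_off_le {κ : Fin N → ℝ} {k0 g : ℝ} (hg : 0 < g) (Q : Mt N)
    (h0 : ∀ i : Fin N, (i : ℕ) < J → k0 ≤ κ i)
    (hgap : ∀ i j : Fin N, (i : ℕ) < J → J ≤ (j : ℕ) → g ≤ κ i - κ j)
    (hQ : Q.IsHermitian) :
    g ^ 2 * fro2 (off J Q) ≤
      ∑ i, ∑ j, if k0 ≤ κ i then (κ i - κ j) ^ 2 * ‖Q i j‖ ^ 2 else 0 := by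
  classical
  -- fro2 (off) = sum over columns j < J, rows i >= J
  have h1 : fro2 (off J Q) ≤ ∑ i : Fin N, ∑ j : Fin N,
      if (j : ℕ) < J ∧ J ≤ (i : ℕ) then ‖Q i j‖ ^ 2 else 0 := by
    unfold fro2
    refine Finset.sum_le_sum fun i _ => ?_
    have h2 : ∑ j : Fin J, ‖off J Q i j‖ ^ 2 =
        ∑ j : Fin J, ∑ l : Fin N, if (l : ℕ) = (j : ℕ) then
          (if J ≤ (i : ℕ) then ‖Q i l‖ ^ 2 else 0) else 0 := by
      refine Finset.sum_congr rfl fun j _ => ?_
      rw [off_apply]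
      by_cases h : (j : ℕ) < N
      · rw [dif_pos h, Finset.sum_eq_single (⟨(j : ℕ), h⟩ : Fin N)]
        · by_cases hi : (i : ℕ) < J
          · simp [hi]
          · simp [hi, not_lt.1 hi]
        · intro b _ hb
          have : (b : ℕ) ≠ (j : ℕ) := fun h2 => hb (Fin.ext h2)
          simp [this]
        · simp
      · rw [dif_neg h, Finset.sum_eq_zero]
        · simp
        · intro b _
          have : (b : ℕ) ≠ (j : ℕ) := fun h2 => h (h2 ▸ b.2)
          simp [this]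
    rw [h2, Finset.sum_comm]
    refine Finset.sum_le_sum fun l _ => ?_
    by_cases hl : (l : ℕ) < J
    · rw [Finset.sum_eq_single (⟨(l : ℕ), hl⟩ : Fin J)]
      · by_cases hi : J ≤ (i : ℕ) <;> simp [hi, hl]
      · intro b _ hb
        have : (l : ℕ) ≠ (b : ℕ) := fun h2 => hb (Fin.ext h2.symm)
        simp [this]
      · simp
    · rw [Finset.sum_eq_zero]
      · split_ifs <;> positivity
      · intro b _
        have : (l : ℕ) ≠ (b : ℕ) := fun h2 => hl (h2 ▸ b.2)
        simp [this]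
  have h3 : ∑ i : Fin N, ∑ j : Fin N,
      (if (j : ℕ) < J ∧ J ≤ (i : ℕ) then ‖Q i j‖ ^ 2 else 0) =
      ∑ i : Fin N, ∑ j : Fin N,
      (if (i : ℕ) < J ∧ J ≤ (j : ℕ) then ‖Q i j‖ ^ 2 else 0) := by
    rw [Finset.sum_comm]
    refine Finset.sum_congr rfl fun i _ => Finset.sum_congr rfl fun j _ => ?_
    have : ‖Q j i‖ = ‖Q i j‖ := by
      rw [← hQ.apply i j, norm_star]
    rw [this]
  rw [h3] at h1
  refine (mul_le_mul_of_nonneg_left h1 (by positivity)).trans ?_
  rw [Finset.mul_sum]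
  refine Finset.sum_le_sum fun i _ => ?_
  rw [Finset.mul_sum]
  refine Finset.sum_le_sum fun j _ => ?_
  by_cases h : (i : ℕ) < J ∧ J ≤ (j : ℕ)
  · rw [if_pos h, if_pos (h0 i h.1)]
    have h4 := hgap i j h.1 h.2
    have h5 : g ^ 2 ≤ (κ i - κ j) ^ 2 := pow_le_pow_left₀ hg.le h4 2
    exact mul_le_mul_of_nonneg_right h5 (by positivity)
  · rw [if_neg h, mul_zero]
    split_ifs <;> positivity

/-- commutator of the block -/
theorem fro2_comm_blk_le {κ : Fin N → ℝ} {k0 : ℝ} (Q : Mt N)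
    (h0 : ∀ i : Fin N, (i : ℕ) < J → k0 ≤ κ i) :
    fro2 (dg (fun i : Fin J => kap κ i) * blk J Q - blk J Q * dg (fun i : Fin J => kap κ i)) ≤
      ∑ i, ∑ j, if k0 ≤ κ i then (κ i - κ j) ^ 2 * ‖Q i j‖ ^ 2 else 0 := by
  classical
  have h1 : ∀ i j : Fin J, (dg (fun i : Fin J => kap κ i) * blk J Q -
      blk J Q * dg (fun i : Fin J => kap κ i)) i j =
      ((kap κ i - kap κ j : ℝ) : ℂ) * blk J Q i j := by
    intro i j
    unfold dg
    rw [Matrix.sub_apply, Matrix.diagonal_mul, Matrix.mul_diagonal]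
    push_cast
    ring
  -- express as a sum over Fin N x Fin N
  have h2 : ∀ i j : Fin J, ‖((kap κ i - kap κ j : ℝ) : ℂ) * blk J Q i j‖ ^ 2 =
      ∑ a : Fin N, ∑ b : Fin N, if (a : ℕ) = (i : ℕ) ∧ (b : ℕ) = (j : ℕ) then
        (κ a - κ b) ^ 2 * ‖Q a b‖ ^ 2 else 0 := by
    intro i j
    by_cases h : (i : ℕ) < N ∧ (j : ℕ) < N
    · rw [Finset.sum_eq_single (⟨(i : ℕ), h.1⟩ : Fin N),
        Finset.sum_eq_single (⟨(j : ℕ), h.2⟩ : Fin N)]
      · unfold blk kap
        rw [dif_pos h, dif_pos h.1, dif_pos h.2]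
        simp only [and_self, if_true]
        rw [norm_mul, mul_pow, Complex.norm_real, Real.norm_eq_abs, sq_abs]
      · intro b _ hb
        have : (b : ℕ) ≠ (j : ℕ) := fun h2 => hb (Fin.ext h2)
        simp [this]
      · simp
      · intro a _ ha
        have : (a : ℕ) ≠ (i : ℕ) := fun h2 => ha (Fin.ext h2)
        simp [this]
      · simp
    · unfold blk
      rw [dif_neg h, mul_zero, norm_zero]
      rw [Finset.sum_eq_zero]
      · simp
      · intro a _
        refine Finset.sum_eq_zero fun b _ => ?_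
        rw [if_neg]
        rintro ⟨h3, h4⟩
        exact h ⟨h3 ▸ a.2, h4 ▸ b.2⟩
  unfold fro2
  simp only [h1, h2]
  -- swap sums
  have h3 : ∑ i : Fin J, ∑ j : Fin J, ∑ a : Fin N, ∑ b : Fin N,
      (if (a : ℕ) = (i : ℕ) ∧ (b : ℕ) = (j : ℕ) then
        (κ a - κ b) ^ 2 * ‖Q a b‖ ^ 2 else 0) =
      ∑ a : Fin N, ∑ b : Fin N, ∑ i : Fin J, ∑ j : Fin J,
      (if (a : ℕ) = (i : ℕ) ∧ (b : ℕ) = (j : ℕ) then
        (κ a - κ b) ^ 2 * ‖Q a b‖ ^ 2 else 0) := by
    have e1 : ∀ i : Fin J, ∑ j : Fin J, ∑ a : Fin N, ∑ b : Fin N,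
      (if (a : ℕ) = (i : ℕ) ∧ (b : ℕ) = (j : ℕ) then
        (κ a - κ b) ^ 2 * ‖Q a b‖ ^ 2 else 0) = ∑ a : Fin N, ∑ b : Fin N, ∑ j : Fin J,
      (if (a : ℕ) = (i : ℕ) ∧ (b : ℕ) = (j : ℕ) then
        (κ a - κ b) ^ 2 * ‖Q a b‖ ^ 2 else 0) := by
      intro i
      rw [Finset.sum_comm]
      exact Finset.sum_congr rfl fun a _ => Finset.sum_comm
    simp only [e1]
    rw [Finset.sum_comm]
    exact Finset.sum_congr rfl fun a _ => Finset.sum_comm
  rw [h3]
  refine Finset.sum_le_sum fun a _ => Finset.sum_le_sum fun b _ => ?_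
  by_cases ha : (a : ℕ) < J
  · rw [if_pos (h0 a ha), Finset.sum_eq_single (⟨(a : ℕ), ha⟩ : Fin J)]
    · by_cases hb : (b : ℕ) < J
      · rw [Finset.sum_eq_single (⟨(b : ℕ), hb⟩ : Fin J)]
        · simp
        · intro j _ hj
          have : (b : ℕ) ≠ (j : ℕ) := fun h2 => hj (Fin.ext h2.symm)
          simp [this]
        · simp
      · rw [Finset.sum_eq_zero]
        · positivity
        · intro j _
          have : (b : ℕ) ≠ (j : ℕ) := fun h2 => hb (h2 ▸ j.2)
          simp [this]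
    · intro i _ hi
      have : (a : ℕ) ≠ (i : ℕ) := fun h2 => hi (Fin.ext h2.symm)
      simp [this]
    · simp
  · rw [Finset.sum_eq_zero]
    · split_ifs <;> positivity
    · intro i _
      have : (a : ℕ) ≠ (i : ℕ) := fun h2 => ha (h2 ▸ i.2)
      simp [this]

end BLKa

end Crest.Agent.R332
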