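import Crest.Agent.R332.BLKa

set_option autoImplicit false

open MeasureTheory Matrix Filter Topology
open Crest.MathPhysics.LiebThirring
open scoped ComplexOrder

namespace Crest.Agent.R332

namespace BLKb
open BLKa

variable {s : ℝ} {m N J : ℕ}

theorem Wm_eq (X : Rc m N) : Wm s X = ((s⁻¹ + 1 : ℝ) : ℂ) • Xi s X := by
  unfold Wm Xi
  rw [smul_smul]
  congr 1
  push_cast
  ring

theorem gram_herm (X : Rc m N) : (Xᴴ * X).IsHermitian :=
  (Matrix.posSemidef_conjTranspose_mul_self X).1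
theorem gram_herm' (X : Rc m N) : (X * Xᴴ).IsHermitian :=
  (Matrix.posSemidef_self_mul_conjTranspose X).1

theorem cont_pw_gram (hC : CFCC) {X : ℝ → Rc m N} (hX : Continuous X) {p : ℝ} (hp : 0 ≤ p) :
    Continuous (fun x => pw ((X x)ᴴ * X x) p) := by
  have h := hC N (fun x : ℝ => x ^ p) (Real.continuous_rpow_const hp)
  exact h.comp_continuous ((hX.matrix_conjTranspose).matrix_mul hX) fun x => gram_herm _

theorem cont_pw_gram' (hC : CFCC) {X : ℝ → Rc m N} (hX : Continuous X) {p : ℝ} (hp : 0 ≤ p) :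
    Continuous (fun x => pw (X x * (X x)ᴴ) p) := by
  have h := hC m (fun x : ℝ => x ^ p) (Real.continuous_rpow_const hp)
  exact h.comp_continuous (hX.matrix_mul (hX.matrix_conjTranspose)) fun x => gram_herm' _

theorem cont_Wm (hC : CFCC) (hs : 0 < s) {X : ℝ → Rc m N} (hX : Continuous X) :
    Continuous (fun x => Wm s (X x)) := by
  unfold Wm
  exact (cont_pw_gram hC hX (inv_nonneg.2 hs.le)).const_smul ((cY s * (s⁻¹ + 1) : ℝ) : ℂ)

theorem cont_Xi (hC : CFCC) (hs : 0 < s) {X : ℝ → Rc m N} (hX : Continuous X) :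
    Continuous (fun x => Xi s (X x)) := by
  unfold Xi
  exact (cont_pw_gram hC hX (inv_nonneg.2 hs.le)).const_smul ((cY s : ℝ) : ℂ)

theorem Wm_psd (hc : 0 < cY s) (hs : 0 < s) (X : Rc m N) : (Wm s X).PosSemidef := by
  unfold Wm
  have h := pw_posSemidef (Matrix.posSemidef_conjTranspose_mul_self X) s⁻¹
  have h2 : (0 : ℂ) ≤ ((cY s * (s⁻¹ + 1) : ℝ) : ℂ) := by
    rw [Complex.zero_le_real]; positivity
  exact h.smul h2

/-- rank-free comparison: `‖A‖_F^p ≤ tr A^p` for `0 < p ≤ 2` -/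
theorem fro_rpow_le {A : Mt N} (hA : A.PosSemidef) {p : ℝ} (hp : 0 < p) (hp2 : p ≤ 2) :
    fro A ^ p ≤ tracePow A p := by
  have h1 : fro A ^ p = (∑ i, hA.1.eigenvalues i ^ 2) ^ (p / 2) := by
    unfold fro
    rw [fro2_herm hA.1, Real.sqrt_eq_rpow, ← Real.rpow_mul
      (Finset.sum_nonneg fun i _ => sq_nonneg _)]
    congr 1; ring
  rw [h1, tracePow_eq_sum hA.1]
  have key : ∀ t : Finset (Fin N), (∑ i ∈ t, hA.1.eigenvalues i ^ 2) ^ (p / 2) ≤
      ∑ i ∈ t, hA.1.eigenvalues i ^ p := by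
    classical
    intro t
    induction t using Finset.induction_on with
    | empty =>
      simp only [Finset.sum_empty]
      rw [Real.zero_rpow (by positivity)]
    | insert a t ha ih =>
      rw [Finset.sum_insert ha, Finset.sum_insert ha]
      have h2 : (hA.1.eigenvalues a ^ 2 + ∑ i ∈ t, hA.1.eigenvalues i ^ 2) ^ (p / 2) ≤
          (hA.1.eigenvalues a ^ 2) ^ (p / 2) + (∑ i ∈ t, hA.1.eigenvalues i ^ 2) ^ (p / 2) :=
        Real.rpow_add_le_add_rpow (sq_nonneg _) (Finset.sum_nonneg fun i _ => sq_nonneg _)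
          (by positivity) (by linarith)
      have h3 : (hA.1.eigenvalues a ^ 2) ^ (p / 2) = hA.1.eigenvalues a ^ p := by
        rw [← Real.rpow_natCast, ← Real.rpow_mul (hA.eigenvalues_nonneg a)]
        congr 1; push_cast; ring
      rw [h3] at h2
      linarith
  exact key Finset.univ

section cfgfacts
variable {κ : Fin N → ℝ} {X X' : ℝ → Rc m N} {Q : ℝ → Mt N} {l : ℝ}

theorem cX (h : Config s m N κ X X' Q l) : Continuous X := cont_of_deriv h.dX
theorem cQ (h : Config s m N κ X X' Q l) : Continuous Q := cont_of_deriv h.dQ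

theorem integrable_of_zero {f : ℝ → ℝ} (hf : Continuous f) {l : ℝ}
    (h0 : ∀ x, l ≤ |x| → f x = 0) : Integrable f := by
  refine hf.integrable_of_hasCompactSupport (HasCompactSupport.intro (isCompact_Icc
    (a := -l) (b := l)) fun x hx => h0 x ?_)
  by_contra hlt
  rw [not_le, abs_lt] at hlt
  exact hx ⟨hlt.1.le, hlt.2.le⟩

theorem block_ode (h : Config s m N κ X X' Q l) (x : ℝ) :
    HasDerivAt (fun y => blk J (Q y))
      ((blk J (Wm s (X x)) + (off J (Q x))ᴴ * off J (Q x)) -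
        dg (fun i : Fin J => kap κ i) * dg (fun i : Fin J => kap κ i) +
          blk J (Q x) * blk J (Q x)) x := by
  have h1 : HasDerivAt (fun y => (inc N J)ᴴ * Q y * inc N J)
      ((inc N J)ᴴ * (Wm s (X x) - dg κ * dg κ + Q x * Q x) * inc N J) x :=
    HD.mul_right _ (HD.mul_left _ (h.dQ x))
  rw [← blk_eq, blk_add, blk_sub, blk_dg_sq, blk_mul_self (h.btw x).1] at h1
  simp only [← blk_eq] at h1
  convert h1 using 1
  abel

theorem cont_off (h : Config s m N κ X X' Q l) : Continuous (fun x => off J (Q x)) := by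
  unfold off
  exact (continuous_const.matrix_mul (cQ h)).matrix_mul continuous_const

theorem off_dg (κ : Fin N → ℝ) : off J (dg κ) = 0 := by
  ext i j
  rw [off_apply]
  unfold dg
  by_cases h : (j : ℕ) < N
  · rw [dif_pos h]
    by_cases hi : (i : ℕ) < J
    · simp [hi]
    · rw [if_neg hi, Matrix.diagonal_apply_ne]
      · rfl
      · rintro rfl
        exact hi j.2
  · rw [dif_neg h]; rfl

theorem off_neg (A : Mt N) : off J (-A) = - off J A := by
  unfold off; rw [Matrix.mul_neg, Matrix.neg_mul]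

theorem Q_out (h : Config s m N κ X X' Q l) {x : ℝ} (hx : l ≤ |x|) :
    Q x = dg κ ∨ Q x = - dg κ := by
  rcases le_abs.1 hx with h1 | h1
  · exact Or.inl (h.Qp x h1)
  · exact Or.inr (h.Qm x (by linarith))

theorem off_out (h : Config s m N κ X X' Q l) {x : ℝ} (hx : l ≤ |x|) : off J (Q x) = 0 := by
  rcases Q_out h hx with h1 | h1
  · rw [h1, off_dg]
  · rw [h1, off_neg, off_dg, neg_zero]

noncomputable def Sm (κ : Fin N → ℝ) (k0 : ℝ) (Q : Mt N) : ℝ :=
  ∑ i, ∑ j, if k0 ≤ κ i then (κ i - κ j) ^ 2 * ‖Q i j‖ ^ 2 else 0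

theorem Sm_nonneg (κ : Fin N → ℝ) (k0 : ℝ) (Q : Mt N) : 0 ≤ Sm κ k0 Q := by
  unfold Sm
  refine Finset.sum_nonneg fun i _ => Finset.sum_nonneg fun j _ => ?_
  split_ifs <;> positivity

theorem cont_Sm (h : Config s m N κ X X' Q l) (k0 : ℝ) : Continuous (fun x => Sm κ k0 (Q x)) := by
  unfold Sm
  refine continuous_finsetSum _ fun i _ => continuous_finsetSum _ fun j _ => ?_
  split_ifs
  · exact (((cQ h).matrix_elem i j).norm.pow 2).const_mul _
  · exact continuous_const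

theorem Sm_dg (κ : Fin N → ℝ) (k0 : ℝ) : Sm κ k0 (dg κ) = 0 := by
  unfold Sm
  refine Finset.sum_eq_zero fun i _ => Finset.sum_eq_zero fun j _ => ?_
  split_ifs
  · by_cases hij : i = j
    · subst hij; simp
    · unfold dg; rw [Matrix.diagonal_apply_ne _ hij]; simp
  · rfl

theorem Sm_neg (κ : Fin N → ℝ) (k0 : ℝ) (Q : Mt N) : Sm κ k0 (-Q) = Sm κ k0 Q := by
  unfold Sm
  simp only [Matrix.neg_apply, norm_neg]

theorem Sm_out (h : Config s m N κ X X' Q l) (k0 : ℝ) {x : ℝ} (hx : l ≤ |x|) :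
    Sm κ k0 (Q x) = 0 := by
  rcases Q_out h hx with h1 | h1
  · rw [h1, Sm_dg]
  · rw [h1, Sm_neg, Sm_dg]

theorem int_Sm (h : Config s m N κ X X' Q l) (k0 : ℝ) :
    Integrable (fun x => Sm κ k0 (Q x)) :=
  integrable_of_zero (cont_Sm h k0) fun _ hx => Sm_out h k0 hx

theorem int_off (h : Config s m N κ X X' Q l) :
    Integrable (fun x => fro2 (off J (Q x))) :=
  integrable_of_zero (continuous_fro2'.comp (cont_off h)) fun x hx => by
    rw [off_out h hx, fro2_zero]

theorem integral_le_of_nonneg {f : ℝ → ℝ} (hf : Integrable f) (h0 : ∀ x, 0 ≤ f x)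
    {a b : ℝ} (hab : a ≤ b) : ∫ x in a..b, f x ≤ ∫ x, f x := by
  rw [intervalIntegral.integral_of_le hab]
  exact setIntegral_le_integral hf (Eventually.of_forall h0)

theorem off_int_le (h : Config s m N κ X X' Q l) {k0 g : ℝ} (hg : 0 < g)
    (h0 : ∀ i : Fin N, (i : ℕ) < J → k0 ≤ κ i)
    (hgap : ∀ i j : Fin N, (i : ℕ) < J → J ≤ (j : ℕ) → g ≤ κ i - κ j) :
    g ^ 2 * ∫ x, fro2 (off J (Q x)) ≤ ∫ x, Sm κ k0 (Q x) := by
  rw [← integral_const_mul]
  exact integral_mono ((int_off h).const_mul _) (int_Sm h k0) fun x =>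
    fro2_off_le hg (Q x) h0 hgap (h.btw x).1

theorem err_le (h : Config s m N κ X X' Q l) (hs : 0 < s) (x : ℝ) :
    fro ((blk J (Wm s (X x)) + (off J (Q x))ᴴ * off J (Q x)) -
      ((s⁻¹ + 1 : ℝ) : ℂ) • (dg (fun i : Fin J => kap κ i) * dg (fun i : Fin J => kap κ i) -
        blk J (Q x) * blk J (Q x))) ≤
      (s⁻¹ + 1) * fro (blk J (Xi s (X x) - Zm κ (Q x))) + s⁻¹ * fro2 (off J (Q x)) := by
  have hsi : 0 < s⁻¹ := inv_pos.2 hs
  have hz := blk_Zm (J := J) κ (h.btw x).1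
  set E := (off J (Q x))ᴴ * off J (Q x) with hE
  set D := dg (fun i : Fin J => kap κ i) * dg (fun i : Fin J => kap κ i) -
        blk J (Q x) * blk J (Q x) with hD
  have hD2 : D = blk J (Zm κ (Q x)) + E := by rw [hz]; abel
  have e1 : blk J (Wm s (X x)) + E - ((s⁻¹ + 1 : ℝ) : ℂ) • D =
      ((s⁻¹ + 1 : ℝ) : ℂ) • blk J (Xi s (X x) - Zm κ (Q x)) - ((s⁻¹ : ℝ) : ℂ) • E := by
    rw [hD2, Wm_eq, blk_smul, blk_sub]
    push_cast
    module
  rw [e1]
  refine (fro_sub_le _ _).trans ?_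
  rw [fro_smul, fro_smul, Complex.norm_real, Complex.norm_real, Real.norm_eq_abs,
    Real.norm_eq_abs, abs_of_pos hsi, abs_of_pos (by positivity)]
  have := fro_offH_off_le (J := J) (Q x)
  rw [← hE] at this
  nlinarith

end cfgfacts

end BLKb

end Crest.Agent.R332
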