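import Crest.Agent.R332.BLKb

set_option autoImplicit false

open MeasureTheory Matrix Filter Topology
open Crest.MathPhysics.LiebThirring
open scoped ComplexOrder

namespace Crest.Agent.R332

namespace BLKc
open BLKa BLKb

variable {s : ℝ} {m : ℕ}

/-- a lower bound and a gap for the top block along the sequence -/
theorem exists_gap {k : ℕ → ℝ} (hk : Antitone k) (hk0 : ∀ i, 0 ≤ k i) {N : ℕ → ℕ}
    {κ : ∀ n, Fin (N n) → ℝ} (hpos : ∀ n i, 0 ≤ κ n i) (hanti : ∀ n, Antitone (κ n))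
    (hlim : ∀ i, Tendsto (fun n => kap (κ n) i) atTop (𝓝 (k i))) (J : ℕ)
    (hJ : ∀ i < J, k J < k i) :
    ∃ k0 g : ℝ, 0 < k0 ∧ 0 < g ∧ (∀ i : Fin J, k0 / 2 < k i) ∧
      ∀ᶠ n in atTop, (∀ i : Fin (N n), (i : ℕ) < J → k0 ≤ κ n i) ∧
        (∀ i j : Fin (N n), (i : ℕ) < J → J ≤ (j : ℕ) → g ≤ κ n i - κ n j) ∧
        (∀ i : Fin J, k0 ≤ kap (κ n) i) := by
  rcases Nat.eq_zero_or_pos J with h0 | h0
  · subst h0
    refine ⟨1, 1, one_pos, one_pos, fun i => i.elim0, Eventually.of_forall fun n =>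
      ⟨fun i hi => absurd hi (Nat.not_lt_zero _), fun i j hi => absurd hi (Nat.not_lt_zero _),
        fun i => i.elim0⟩⟩
  · obtain ⟨J', rfl⟩ : ∃ J', J = J' + 1 := ⟨J - 1, by omega⟩
    have hgap := hJ J' (Nat.lt_succ_self _)
    have hkp : 0 < k J' := lt_of_le_of_lt (hk0 _) hgap
    refine ⟨k J' / 2, (k J' - k (J' + 1)) / 2, by positivity, by linarith, fun i => ?_, ?_⟩
    · have : k J' ≤ k i := hk (by omega)
      linarith
    · have h1 : ∀ᶠ n in atTop, k J' / 2 < kap (κ n) J' :=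
        (hlim J').eventually (lt_mem_nhds (by linarith))
      have h2 : ∀ᶠ n in atTop, (k J' - k (J' + 1)) / 2 < kap (κ n) J' - kap (κ n) (J' + 1) :=
        ((hlim J').sub (hlim (J' + 1))).eventually (lt_mem_nhds (by linarith))
      filter_upwards [h1, h2] with n hn1 hn2
      have ha := kap_antitone (hpos n) (hanti n)
      refine ⟨fun i hi => ?_, fun i j hi hj => ?_, fun i => ?_⟩
      · rw [← kap_eq (κ n) i]
        have : kap (κ n) J' ≤ kap (κ n) (i : ℕ) := ha (by omega)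
        linarith
      · rw [← kap_eq (κ n) i, ← kap_eq (κ n) j]
        have h3 : kap (κ n) J' ≤ kap (κ n) (i : ℕ) := ha (by omega)
        have h4 : kap (κ n) (j : ℕ) ≤ kap (κ n) (J' + 1) := ha hj
        linarith
      · have : kap (κ n) J' ≤ kap (κ n) (i : ℕ) := ha (by omega)
        linarith

theorem tendsto_zero_of_eventually_le {f : ℕ → ℝ} (h0 : ∀ n, 0 ≤ f n)
    (h : ∀ ε : ℝ, 0 < ε → ∀ᶠ n in atTop, f n ≤ ε) : Tendsto f atTop (𝓝 0) := by
  rw [Metric.tendsto_nhds]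
  intro ε hε
  filter_upwards [h (ε / 2) (by positivity)] with n hn
  rw [Real.dist_eq, sub_zero, abs_of_nonneg (h0 n)]
  linarith

section seq
variable {W : ℝ → Mt m} (S : CSeq s m W)

/-- vanishing of the weighted commutator sum -/
theorem Sm_tendsto (hs0 : 0 < s) (hs1 : s < 1) (hCMM : CMM) {K : ℝ} (hK : 0 < K)
    (hle : ∀ n i, S.κ n i ≤ K) {k0 : ℝ} (hk0 : 0 < k0) :
    Tendsto (fun n => ∫ x, Sm (S.κ n) k0 (S.Q n x)) atTop (𝓝 0) := by
  refine tendsto_zero_of_eventually_le (fun n => integral_nonneg fun x => Sm_nonneg _ _ _)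
    fun ε hε => ?_
  obtain ⟨δ, hδ, h⟩ := hCMM s hs0 hs1 K k0 ε hK hk0 hε
  filter_upwards [S.ts.eventually (gt_mem_nhds hδ)] with n hn
  exact h m (S.N n) (S.κ n) (S.X n) (S.X' n) (S.Q n) (S.l n) (S.cfg n) (hle n) hn.le

theorem off_tendsto {J : ℕ} (hs0 : 0 < s) (hs1 : s < 1) (hCMM : CMM) {K : ℝ} (hK : 0 < K)
    (hle : ∀ n i, S.κ n i ≤ K) {k0 g : ℝ} (hk0 : 0 < k0) (hg : 0 < g)
    (hev : ∀ᶠ n in atTop, (∀ i : Fin (S.N n), (i : ℕ) < J → k0 ≤ S.κ n i) ∧
        (∀ i j : Fin (S.N n), (i : ℕ) < J → J ≤ (j : ℕ) → g ≤ S.κ n i - S.κ n j)) :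
    Tendsto (fun n => ∫ x, fro2 (off J (S.Q n x))) atTop (𝓝 0) := by
  have h1 : Tendsto (fun n => (g ^ 2)⁻¹ * ∫ x, Sm (S.κ n) k0 (S.Q n x)) atTop (𝓝 0) := by
    have := (Sm_tendsto S hs0 hs1 hCMM hK hle hk0).const_mul ((g ^ 2)⁻¹)
    rwa [mul_zero] at this
  refine tendsto_of_tendsto_of_tendsto_of_le_of_le' tendsto_const_nhds h1
    (Eventually.of_forall fun n => integral_nonneg fun x => fro2_nonneg _) ?_
  filter_upwards [hev] with n hn
  have h2 := off_int_le (S.cfg n) hg hn.1 hn.2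
  rw [inv_mul_eq_div, le_div_iff₀ (by positivity), mul_comm]
  exact h2

/-- Fatou type uniqueness -/
theorem ae_eq_zero_of {J : ℕ} {F : ℕ → ℝ → Mt J} {G : ℝ → Mt J}
    (hF : ∀ n, Continuous (F n)) (hlim : ∀ᵐ x, Tendsto (fun n => F n x) atTop (𝓝 (G x)))
    (hint : ∀ L : ℝ, 0 < L → Tendsto (fun n => ∫ x in (-L)..L, fro (F n x)) atTop (𝓝 0)) :
    ∀ᵐ x, G x = 0 := by
  have key : ∀ L : ℕ, ∀ᵐ x ∂(volume.restrict (Set.Ioc (-(L + 1 : ℝ)) (L + 1))), G x = 0 := by
    intro L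
    set μ := volume.restrict (Set.Ioc (-(L + 1 : ℝ)) (L + 1)) with hμ
    have hL : (0 : ℝ) < L + 1 := by positivity
    have h1 := hint (L + 1) hL
    have h2 : Tendsto (fun n => ∫⁻ x, ENNReal.ofReal (fro (F n x)) ∂μ) atTop (𝓝 0) := by
      have h3 : ∀ n, ∫⁻ x, ENNReal.ofReal (fro (F n x)) ∂μ =
          ENNReal.ofReal (∫ x in (-(L + 1 : ℝ))..(L + 1), fro (F n x)) := by
        intro n
        rw [intervalIntegral.integral_of_le (by linarith), ofReal_integral_eq_lintegral_ofReal]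
        · exact ((continuous_fro'.comp (hF n)).integrableOn_Icc).mono_set Set.Ioc_subset_Icc_self
        · exact Eventually.of_forall fun x => fro_nonneg _
      simp only [h3]
      have := (ENNReal.continuous_ofReal.tendsto 0).comp h1
      rw [ENNReal.ofReal_zero] at this
      exact this
    have h4 : ∫⁻ x, ENNReal.ofReal (fro (G x)) ∂μ ≤ 0 := by
      have h5 : ∀ᵐ x ∂μ, ENNReal.ofReal (fro (G x)) =
          liminf (fun n => ENNReal.ofReal (fro (F n x))) atTop := by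
        filter_upwards [ae_restrict_of_ae hlim] with x hx
        have h6 : Tendsto (fun n => ENNReal.ofReal (fro (F n x))) atTop
            (𝓝 (ENNReal.ofReal (fro (G x)))) :=
          (ENNReal.continuous_ofReal.tendsto _).comp ((continuous_fro'.tendsto _).comp hx)
        exact h6.liminf_eq.symm
      rw [lintegral_congr_ae h5]
      refine (lintegral_liminf_le' fun n => ?_).trans ?_
      · exact (ENNReal.continuous_ofReal.comp (continuous_fro'.comp (hF n))).aemeasurable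
      · rw [h2.liminf_eq]
    have h7 : AEMeasurable (fun x => ENNReal.ofReal (fro (G x))) μ := by
      refine aemeasurable_of_tendsto_metrizable_ae atTop
        (f := fun n x => ENNReal.ofReal (fro (F n x))) (fun n =>
        (ENNReal.continuous_ofReal.comp (continuous_fro'.comp (hF n))).aemeasurable) ?_
      filter_upwards [ae_restrict_of_ae hlim] with x hx
      exact (ENNReal.continuous_ofReal.tendsto _).comp ((continuous_fro'.tendsto _).comp hx)
    have h8 := (lintegral_eq_zero_iff' h7).1 (le_antisymm h4 (by positivity))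
    filter_upwards [h8] with x hx
    have h9 : ENNReal.ofReal (fro (G x)) = 0 := hx
    rw [ENNReal.ofReal_eq_zero] at h9
    exact fro_eq_zero.1 (le_antisymm h9 (fro_nonneg _))
  have h10 : ∀ᵐ x, ∀ L : ℕ, x ∈ Set.Ioc (-(L + 1 : ℝ)) (L + 1) → G x = 0 := by
    rw [ae_all_iff]
    intro L
    exact (ae_restrict_iff' measurableSet_Ioc).1 (key L)
  filter_upwards [h10] with x hx
  obtain ⟨L, hL⟩ := exists_nat_gt |x|
  have h11 := abs_lt.1 hL
  exact hx L ⟨by linarith, by linarith⟩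

end seq

end BLKc

end Crest.Agent.R332
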