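import Crest.Agent.R332.Defs

set_option autoImplicit false

open MeasureTheory Matrix Filter Topology
open Crest.MathPhysics.LiebThirring
open scoped ComplexOrder

namespace Crest.Agent.R332

namespace CONSTS

/-- Beta integral, real form -/
theorem beta_real (s : ℝ) (hs : 0 < s) :
    ∫ x in (0 : ℝ)..1, x ^ s * (1 - x) ^ s =
      Real.Gamma (s + 1) * Real.Gamma (s + 1) / Real.Gamma (2 * s + 2) := by
  have h := Complex.betaIntegral_eq_Gamma_mul_div ((s + 1 : ℝ) : ℂ) ((s + 1 : ℝ) : ℂ)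
    (by simp; linarith) (by simp; linarith)
  rw [Complex.betaIntegral] at h
  have h1 : ∫ x in (0 : ℝ)..1, (x : ℂ) ^ ((((s + 1 : ℝ) : ℂ)) - 1) *
      (1 - (x : ℂ)) ^ ((((s + 1 : ℝ) : ℂ)) - 1) =
      ∫ x in (0 : ℝ)..1, (((x ^ s * (1 - x) ^ s : ℝ)) : ℂ) := by
    apply intervalIntegral.integral_congr
    intro x hx
    rw [Set.uIcc_of_le (by norm_num)] at hx
    simp only
    have e : (((s + 1 : ℝ) : ℂ)) - 1 = ((s : ℝ) : ℂ) := by push_cast; ring
    rw [e, Complex.ofReal_mul, Complex.ofReal_cpow hx.1, Complex.ofReal_cpow (by linarith [hx.2])]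
    push_cast
    ring
  rw [h1, intervalIntegral.integral_ofReal, ← Complex.ofReal_add, Complex.Gamma_ofReal,
    Complex.Gamma_ofReal] at h
  have h2 : s + 1 + (s + 1) = 2 * s + 2 := by ring
  rw [h2] at h
  exact_mod_cast h

theorem bet_eq (s : ℝ) (hs : 0 < s) :
    bet s = Real.sqrt Real.pi * Real.Gamma (s + 1) / Real.Gamma (s + 3 / 2) := by
  have hb := beta_real s hs
  have hd := Real.Gamma_mul_Gamma_add_half (s + 1)
  have e1 : s + 1 + 1 / 2 = s + 3 / 2 := by ring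
  have e2 : 2 * (s + 1) = 2 * s + 2 := by ring
  rw [e1, e2] at hd
  have hG1 : 0 < Real.Gamma (s + 1) := Real.Gamma_pos_of_pos (by linarith)
  have hG2 : 0 < Real.Gamma (s + 3 / 2) := Real.Gamma_pos_of_pos (by linarith)
  have hG3 : 0 < Real.Gamma (2 * s + 2) := Real.Gamma_pos_of_pos (by linarith)
  -- substitution q = 2 x - 1
  have h1 : bet s = 2 * ∫ x in (0 : ℝ)..1, (1 - (2 * x - 1) ^ 2) ^ s := by
    unfold bet
    have := intervalIntegral.integral_comp_mul_sub (a := (0 : ℝ)) (b := 1)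
      (fun q : ℝ => (1 - q ^ 2) ^ s) (c := 2) (by norm_num) 1
    rw [this]
    norm_num
    ring
  have h2 : ∫ x in (0 : ℝ)..1, (1 - (2 * x - 1) ^ 2) ^ s =
      ∫ x in (0 : ℝ)..1, (4 : ℝ) ^ s * (x ^ s * (1 - x) ^ s) := by
    apply intervalIntegral.integral_congr
    intro x hx
    rw [Set.uIcc_of_le (by norm_num)] at hx
    simp only
    have : 1 - (2 * x - 1) ^ 2 = 4 * (x * (1 - x)) := by ring
    rw [this, Real.mul_rpow (by norm_num) (mul_nonneg hx.1 (by linarith [hx.2])),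
      Real.mul_rpow hx.1 (by linarith [hx.2])]
  rw [h1, h2, intervalIntegral.integral_const_mul, hb]
  have h4 : (4 : ℝ) ^ s = 2 ^ (2 * s) := by
    rw [Real.rpow_mul (by norm_num)]
    norm_num
  have h5 : (2 : ℝ) ^ (1 - (2 * s + 2)) * (2 * 2 ^ (2 * s)) = 1 := by
    have : (2 : ℝ) * 2 ^ (2 * s) = 2 ^ (1 + 2 * s) := by
      rw [Real.rpow_add (by norm_num), Real.rpow_one]
    rw [this, ← Real.rpow_add (by norm_num)]
    have : 1 - (2 * s + 2) + (1 + 2 * s) = 0 := by ring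
    rw [this, Real.rpow_zero]
  rw [h4]
  rw [eq_div_iff hG2.ne']
  have h6 : 2 * (2 ^ (2 * s) * (Real.Gamma (s + 1) * Real.Gamma (s + 1) /
      Real.Gamma (2 * s + 2))) * Real.Gamma (s + 3 / 2) =
      (2 * 2 ^ (2 * s)) * Real.Gamma (s + 1) *
        (Real.Gamma (s + 1) * Real.Gamma (s + 3 / 2)) / Real.Gamma (2 * s + 2) := by ring
  rw [h6, hd, div_eq_iff hG3.ne']
  calc 2 * 2 ^ (2 * s) * Real.Gamma (s + 1) *
        (Real.Gamma (2 * s + 2) * 2 ^ (1 - (2 * s + 2)) * Real.sqrt Real.pi)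
      = (2 ^ (1 - (2 * s + 2)) * (2 * 2 ^ (2 * s))) * Real.Gamma (s + 1) *
        Real.Gamma (2 * s + 2) * Real.sqrt Real.pi := by ring
    _ = _ := by rw [h5]; ring

end CONSTS

theorem consts : CONSTS := by
  intro s hs hs1
  have hG1 : 0 < Real.Gamma (s + 1) := Real.Gamma_pos_of_pos (by linarith)
  have hG2 : 0 < Real.Gamma (s + 3 / 2) := Real.Gamma_pos_of_pos (by linarith)
  have hG3 : Real.Gamma (s + 2) = (s + 1) * Real.Gamma (s + 1) := by
    have := Real.Gamma_add_one (s := s + 1) (by linarith)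
    rw [← this]; ring_nf
  have hpi : 0 < Real.sqrt Real.pi := Real.sqrt_pos.2 Real.pi_pos
  have hCc : Cc s = (s / (1 + s)) ^ s * Real.Gamma (s + 3 / 2) /
      (Real.sqrt Real.pi * ((s + 1) * Real.Gamma (s + 1))) := by
    unfold Cc sharpConst
    have e1 : s + 1 / 2 - 1 / 2 = s := by ring
    have e2 : s + 1 / 2 + 1 / 2 = 1 + s := by ring
    have e3 : s + 1 / 2 + 1 = s + 3 / 2 := by ring
    have e4 : s + 1 / 2 + 3 / 2 = s + 2 := by ring
    rw [e1, e2, e3, e4, hG3]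
  have hb := CONSTS.bet_eq s hs
  have p1 : 0 < Cc s := by
    rw [hCc]
    have : 0 < (s / (1 + s)) ^ s := Real.rpow_pos_of_pos (by positivity) _
    positivity
  have p2 : 0 < cY s := by
    unfold cY
    have : 0 < ((1 + s) * Cc s) ^ (-(s⁻¹)) := Real.rpow_pos_of_pos (by positivity) _
    positivity
  have p3 : 0 < bet s := by rw [hb]; positivity
  have p4 : 0 < cs s := by
    unfold cs
    have h1 : 0 < (1 + s) ^ (1 + s) := Real.rpow_pos_of_pos (by positivity) _
    have h2 : 0 < s ^ s := Real.rpow_pos_of_pos (by positivity) _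
    positivity
  have hD : cY s * (s⁻¹ + 1) = ((1 + s) * Cc s) ^ (-(s⁻¹)) := by
    unfold cY
    have : s⁻¹ + 1 ≠ 0 := by positivity
    field_simp
  refine ⟨p1, p2, p3, p4, ?_, ?_, ?_⟩
  · rw [hCc, hb]
    unfold cs
    rw [Real.div_rpow hs.le (by linarith), Real.rpow_add (by linarith : (0 : ℝ) < 1 + s),
      Real.rpow_one]
    have h1 : 0 < (1 + s) ^ s := Real.rpow_pos_of_pos (by positivity) _
    have h2 : 0 < s ^ s := Real.rpow_pos_of_pos (by positivity) _
    field_simp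
    ring
  · have hpos : 0 < (1 + s) * Cc s := by positivity
    rw [hD]
    have h3 : (((1 + s) * Cc s) ^ (-(s⁻¹))) ^ (1 + s) =
        ((1 + s) * Cc s) ^ (-(s⁻¹)) * ((1 + s) * Cc s)⁻¹ := by
      rw [Real.rpow_add (Real.rpow_pos_of_pos hpos _), Real.rpow_one, ← Real.rpow_mul hpos.le]
      have : -s⁻¹ * s = -1 := by field_simp
      rw [this, Real.rpow_neg_one]
    rw [h3, ← hD]
    field_simp
  · unfold th
    field_simp

end Crest.Agent.R332
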