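import Crest.Agent.R332.LIBF
import Crest.Agent.R332.LIBD

/-! Common facts for TAILB and XIZ: `sig` controls `e^{L/2} - sqrt Y`. -/

set_option autoImplicit false

open MeasureTheory Matrix Filter Topology
open Crest.MathPhysics.LiebThirring
open scoped ComplexOrder

namespace Crest.Agent.R332.SIGB

variable {m N K : ℕ}

theorem Kt_sub_posDef {κ : Fin N → ℝ} {t : ℝ} (ht : 0 < t) :
    (Kt κ t - dg κ).PosDef := by
  unfold Kt
  rw [dg_sub]
  refine dg_posDef fun i => ?_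
  have h1 : κ i < Real.sqrt (κ i ^ 2 + t) := by
    apply Real.lt_sqrt_of_sq_lt
    linarith
  linarith

theorem posDef_add {κ : Fin N → ℝ} {t : ℝ} (ht : 0 < t) {Q : Mt N}
    (hQ : Btw κ Q) : (Kt κ t + Q).PosDef := by
  have h := (Kt_sub_posDef (κ := κ) ht).add_posSemidef hQ.2.1
  have e : Kt κ t - dg κ + (dg κ + Q) = Kt κ t + Q := by abel
  rwa [e] at h

theorem posDef_sub {κ : Fin N → ℝ} {t : ℝ} (ht : 0 < t) {Q : Mt N}
    (hQ : Btw κ Q) : (Kt κ t - Q).PosDef := by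
  have h := (Kt_sub_posDef (κ := κ) ht).add_posSemidef hQ.2.2
  have e : Kt κ t - dg κ + (dg κ - Q) = Kt κ t - Q := by abel
  rwa [e] at h

/-- `log (K_t + Q) + log (K_t - Q)` -/
noncomputable def Lm (κ : Fin N → ℝ) (Q : Mt N) (t : ℝ) : Mt N :=
  lg (Kt κ t + Q) + lg (Kt κ t - Q)

theorem Lm_herm (κ : Fin N → ℝ) (Q : Mt N) (t : ℝ) : (Lm κ Q t).IsHermitian :=
  (lg_isHermitian _).add (lg_isHermitian _)

noncomputable def Em (κ : Fin N → ℝ) (Q : Mt N) (t : ℝ) : Mt N :=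
  cfc (fun x => Real.exp (x / 2)) (Lm κ Q t)

noncomputable def Sm (Y : Mt N) : Mt N := cfc Real.sqrt Y

theorem Em_herm (κ : Fin N → ℝ) (Q : Mt N) (t : ℝ) : (Em κ Q t).IsHermitian :=
  cfc_isHermitian' _ _

theorem Sm_herm (Y : Mt N) : (Sm Y).IsHermitian := cfc_isHermitian' _ _

theorem Em_mul (κ : Fin N → ℝ) (Q : Mt N) (t : ℝ) :
    Em κ Q t * Em κ Q t = cfc Real.exp (Lm κ Q t) := by
  unfold Em
  rw [cfc_mul_mt (Lm_herm κ Q t)]
  congr 1
  ext x
  rw [← Real.exp_add]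
  congr 1
  ring

theorem Sm_mul {Y : Mt N} (hY : Y.PosSemidef) : Sm Y * Sm Y = Y := by
  unfold Sm
  rw [cfc_mul_mt hY.1]
  rw [cfc_congr_psd hY (g := fun x => x) (fun x hx => Real.mul_self_sqrt hx)]
  exact cfc_id_mt hY.1

theorem Xi_psd (s : ℝ) (hc : 0 ≤ cY s) (X : Rc m N) : (Xi s X).PosSemidef := by
  unfold Xi
  have h := pw_posSemidef (Matrix.posSemidef_conjTranspose_mul_self X) s⁻¹
  refine h.smul ?_
  exact_mod_cast hc

theorem Y_posDef (s : ℝ) (hc : 0 ≤ cY s) (X : Rc m N) {t : ℝ} (ht : 0 < t) :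
    (sc N t + Xi s X).PosDef := by
  refine Matrix.PosDef.add_posSemidef ?_ (Xi_psd s hc X)
  rw [sc_eq_dg]
  exact dg_posDef fun _ => ht

/-- the basic estimate -/
theorem fro2_le_sig (hST : STAR) (s : ℝ) (hc : 0 ≤ cY s) {κ : Fin N → ℝ}
    {Q : Mt N} (hQ : Btw κ Q) (X : Rc m N) {t : ℝ} (ht : 0 < t) :
    fro2 (Em κ Q t - Sm (sc N t + Xi s X)) ≤ sig κ Q (Xi s X) t := by
  have h := hST N (Kt κ t + Q) (Kt κ t - Q) (sc N t + Xi s X) (posDef_add ht hQ)
    (posDef_sub ht hQ) (Y_posDef s hc X ht)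
  have h2 := fro2_nonneg (cfc Real.sqrt (Kt κ t + Q) * cfc Real.sqrt (Kt κ t - Q) -
    cfc Real.sqrt (Kt κ t - Q) * cfc Real.sqrt (Kt κ t + Q))
  unfold sig Em Sm Lm
  linarith

/-! ### quadratic forms -/

/-- `⟨v, A v⟩` for a column vector `v` -/
noncomputable def qf (A : Mt N) (v : Rc N 1) : ℝ := rtr (vᴴ * A * v)

theorem qf_add (A B : Mt N) (v : Rc N 1) : qf (A + B) v = qf A v + qf B v := by
  unfold qf; rw [Matrix.mul_add, Matrix.add_mul, rtr_add]

theorem qf_sub (A B : Mt N) (v : Rc N 1) : qf (A - B) v = qf A v - qf B v := by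
  unfold qf; rw [Matrix.mul_sub, Matrix.sub_mul, rtr_sub]

theorem qf_smul (c : ℝ) (A : Mt N) (v : Rc N 1) : qf (((c : ℝ) : ℂ) • A) v = c * qf A v := by
  unfold qf; rw [Matrix.mul_smul, Matrix.smul_mul, rtr_smul]

theorem qf_nonneg {A : Mt N} (hA : A.PosSemidef) (v : Rc N 1) : 0 ≤ qf A v :=
  rtr_nonneg (hA.conjTranspose_mul_mul_same v)

theorem qf_mono {A B : Mt N} (h : (B - A).PosSemidef) (v : Rc N 1) : qf A v ≤ qf B v := by
  have := qf_nonneg h v
  rw [qf_sub] at this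
  linarith

theorem qf_sc (c : ℝ) (v : Rc N 1) : qf (sc N c) v = c * fro2 v := by
  unfold qf sc
  rw [Matrix.mul_smul, Matrix.mul_one, Matrix.smul_mul, rtr_smul, ← fro2_eq]

theorem qf_self_mul (A : Rc m N) (v : Rc N 1) : qf (Aᴴ * A) v = fro2 (A * v) := by
  unfold qf
  rw [fro2_eq, Matrix.conjTranspose_mul]
  simp only [Matrix.mul_assoc]

theorem qf_herm_mul {A : Mt N} (hA : A.IsHermitian) (v : Rc N 1) :
    qf (A * A) v = fro2 (A * v) := by
  have h := qf_self_mul A v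
  rwa [show Aᴴ = A from hA] at h

theorem qf_dg (κ : Fin N → ℝ) (v : Rc N 1) : qf (dg κ) v = ∑ i, κ i * ‖v i 0‖ ^ 2 := by
  unfold qf rtr dg
  rw [Matrix.trace, Fin.sum_univ_one, Matrix.diag_apply, Matrix.mul_apply, Complex.re_sum]
  refine Finset.sum_congr rfl fun i _ => ?_
  rw [Matrix.mul_diagonal, Matrix.conjTranspose_apply]
  have h1 : star (v i 0) * ((κ i : ℝ) : ℂ) * v i 0 = ((κ i : ℝ) : ℂ) * (v i 0 * star (v i 0)) := by
    ring
  rw [h1, Complex.re_ofReal_mul]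
  congr 1
  have h2 : v i 0 * star (v i 0) = ((‖v i 0‖ ^ 2 : ℝ) : ℂ) := by
    rw [Complex.star_def, Complex.mul_conj, Complex.normSq_eq_norm_sq]
  rw [h2, Complex.ofReal_re]

theorem fro2_col (v : Rc N 1) : fro2 v = ∑ i, ‖v i 0‖ ^ 2 := by
  unfold fro2
  simp

theorem fro2_add_le (A B : Rc m N) {η : ℝ} (hη : 0 < η) :
    fro2 (A + B) ≤ (1 + η) * fro2 A + (1 + η⁻¹) * fro2 B := by
  rw [← sq_fro, ← sq_fro A, ← sq_fro B]
  have h1 := fro_add_le A B
  have h2 : fro (A + B) ^ 2 ≤ (fro A + fro B) ^ 2 :=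
    pow_le_pow_left₀ (fro_nonneg _) h1 2
  have h3 : 2 * fro A * fro B ≤ η * fro A ^ 2 + η⁻¹ * fro B ^ 2 := by
    have h4 : 0 ≤ η⁻¹ * (η * fro A - fro B) ^ 2 := by positivity
    have h5 : η⁻¹ * (η * fro A - fro B) ^ 2 =
        η * fro A ^ 2 - 2 * fro A * fro B + η⁻¹ * fro B ^ 2 := by
      field_simp
      ring
    linarith
  nlinarith

/-- The integral of the `sig` over a bounded interval. -/
theorem sig_interval {f : ℝ → ℝ} {l L : ℝ} (hL : 0 < L) (hf : Continuous f)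
    (h0 : ∀ x, l ≤ |x| → f x = 0) (hn : ∀ x, 0 ≤ f x) :
    ∫ x in (-L)..L, f x ≤ ∫ x, f x := by
  have hint : Integrable f := by
    refine hf.integrable_of_hasCompactSupport ?_
    refine HasCompactSupport.intro (isCompact_Icc (a := -l) (b := l)) fun x hx => h0 x ?_
    by_contra hlt
    push Not at hlt
    exact hx (abs_le.1 hlt.le)
  rw [intervalIntegral.integral_of_le (by linarith)]
  exact setIntegral_le_integral hint (Eventually.of_forall hn)

end Crest.Agent.R332.SIGB
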